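import Vale.Agent.P046LF.Defs

/-!
P046 log-free, module TOOL: summation identities and inequalities for a linear 3-uniform
hypergraph.
-/

namespace Vale.Agent.P046LF

open Finset Vale.Agent.P046

variable {V : Type} [DecidableEq V] {H : Finset (Finset V)} {M : Finset V}

/-- exchange of summation -/
theorem sum_vert_edge (F : Finset V → V → ℝ) :
    ∑ y ∈ M, ∑ T ∈ sub H M with y ∈ T, F T y = ∑ T ∈ sub H M, ∑ y ∈ T, F T y := by
  have h1 : ∀ y ∈ M, ∑ T ∈ sub H M with y ∈ T, F T y =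
      ∑ T ∈ sub H M, if y ∈ T then F T y else 0 := by
    intro y _
    rw [Finset.sum_filter]
  rw [Finset.sum_congr rfl h1, Finset.sum_comm]
  refine Finset.sum_congr rfl fun T hT => ?_
  rw [← Finset.sum_filter]
  refine Finset.sum_congr ?_ fun _ _ => rfl
  have := (mem_sub.1 hT).2
  ext x
  simp only [mem_filter]
  exact ⟨fun h => h.2, fun h => ⟨this h, h⟩⟩

theorem SN_sum_mul (φ N : V → ℝ) :
    ∑ y ∈ M, φ y * SN H M N y = ∑ T ∈ sub H M, ∑ y ∈ T, φ y * (∑ z ∈ T, N z - N y) := by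
  rw [← sum_vert_edge (fun T y => φ y * (∑ z ∈ T, N z - N y))]
  refine Finset.sum_congr rfl fun y _ => ?_
  rw [SN, Finset.mul_sum]

theorem sT_cast (T : Finset V) : (sT H M T : ℝ) = ∑ z ∈ T, (deg H M z : ℝ) := by
  unfold sT; push_cast; rfl

theorem bb_eq (y : V) : bb H M y = ∑ T ∈ sub H M with y ∈ T, ((sT H M T : ℝ) - deg H M y) := by
  unfold bb SN
  refine Finset.sum_congr rfl fun T _ => ?_
  rw [sT_cast]

theorem deg_le_sT {T : Finset V} {y : V} (hy : y ∈ T) : (deg H M y : ℝ) ≤ sT H M T := by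
  rw [sT_cast]
  exact Finset.single_le_sum (f := fun z => (deg H M z : ℝ)) (fun _ _ => Nat.cast_nonneg _) hy

theorem bb_nonneg (y : V) : 0 ≤ bb H M y := by
  rw [bb_eq]
  refine Finset.sum_nonneg fun T hT => ?_
  rw [mem_filter] at hT
  have := deg_le_sT (H := H) (M := M) hT.2
  linarith

/-- the number of triples not containing `x` and meeting `T'` -/
theorem card_avoid_meet (hH : IsLin3 H) {T' : Finset V} (hT' : T' ∈ sub H M) {x : V}
    (hx : x ∈ T') :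
    (((sub H M).filter (fun T => x ∉ T ∧ ¬ Disjoint T' T)).card : ℝ) =
      (sT H M T' : ℝ) - deg H M x - 2 := by
  have h5 := card_meet hH hT'
  have h6 := sT_eq hH hT'
  have h7 : ((sub H M).filter (fun T => x ∉ T ∧ ¬ Disjoint T' T)).card + deg H M x =
      1 + nb H M T' := by
    rw [← h5]
    have h8 : (sub H M).filter (fun T => ¬ Disjoint T T') =
        (sub H M).filter (fun T => x ∉ T ∧ ¬ Disjoint T' T) ∪
          (sub H M).filter (fun T => x ∈ T) := by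
      ext T
      simp only [mem_filter, mem_union]
      constructor
      · rintro ⟨h9, h10⟩
        by_cases h : x ∈ T
        · exact Or.inr ⟨h9, h⟩
        · exact Or.inl ⟨h9, h, fun h11 => h10 h11.symm⟩
      · rintro (⟨h9, _, h10⟩ | ⟨h9, h10⟩)
        · exact ⟨h9, fun h11 => h10 h11.symm⟩
        · exact ⟨h9, not_disjoint_iff.2 ⟨x, h10, hx⟩⟩
    rw [h8, card_union_of_disjoint, deg]
    rw [disjoint_filter]
    intro T _ h9 h10
    exact h9.1 h10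
  have h12 : (((sub H M).filter (fun T => x ∉ T ∧ ¬ Disjoint T' T)).card : ℝ) + deg H M x =
      1 + nb H M T' := by exact_mod_cast h7
  have h13 : (sT H M T' : ℝ) = 3 + nb H M T' := by exact_mod_cast h6
  rw [h13]; linarith

/-- (I0) -/
theorem sum_dl_eq (hH : IsLin3 H) {y : V} (hy : y ∈ M) :
    ∑ T ∈ sub H M with y ∉ T, (dl H M T y : ℝ) = bb H M y - 2 * deg H M y := by
  have h1 : ∀ T ∈ (sub H M).filter (fun T => y ∉ T), (dl H M T y : ℝ) =
      ∑ T' ∈ (sub H M).filter (fun T' => y ∈ T'), if ¬ Disjoint T' T then (1 : ℝ) else 0 := by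
    intro T _
    rw [← Finset.sum_filter, Finset.sum_const, nsmul_eq_mul, mul_one, dl, filter_filter]
  rw [Finset.sum_congr rfl h1, Finset.sum_comm]
  have h2 : ∀ T' ∈ (sub H M).filter (fun T' => y ∈ T'),
      (∑ T ∈ (sub H M).filter (fun T => y ∉ T), if ¬ Disjoint T' T then (1 : ℝ) else 0) =
        (sT H M T' : ℝ) - deg H M y - 2 := by
    intro T' hT'
    rw [mem_filter] at hT'
    rw [← Finset.sum_filter, Finset.sum_const, nsmul_eq_mul, mul_one, filter_filter]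
    exact card_avoid_meet hH hT'.1 hT'.2
  rw [Finset.sum_congr rfl h2, Finset.sum_sub_distrib, ← bb_eq, Finset.sum_const, nsmul_eq_mul,
    deg]
  ring

/-- exchange for the lost triples; (I1) -/
theorem sum_lost (hH : IsLin3 H) (φ : Finset V → V → ℝ) :
    ∑ T ∈ sub H M, ∑ y ∈ M \ T, ∑ T' ∈ sub H M with y ∈ T' ∧ ¬ Disjoint T' T, φ T' y =
      ∑ T' ∈ sub H M, ∑ y ∈ T', ((sT H M T' : ℝ) - deg H M y - 2) * φ T' y := by
  have h1 : ∀ T ∈ sub H M,
      ∑ y ∈ M \ T, ∑ T' ∈ sub H M with y ∈ T' ∧ ¬ Disjoint T' T, φ T' y =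
      ∑ T' ∈ sub H M, ∑ y ∈ T', if (y ∉ T ∧ ¬ Disjoint T' T) then φ T' y else 0 := by
    intro T _
    have h2 : ∀ x ∈ M \ T, ∑ T' ∈ sub H M with x ∈ T' ∧ ¬ Disjoint T' T, φ T' x =
        ∑ T' ∈ sub H M, if (x ∈ T' ∧ ¬ Disjoint T' T) then φ T' x else 0 := by
      intro x _
      rw [← Finset.sum_filter]
    rw [Finset.sum_congr rfl h2, Finset.sum_comm]
    refine Finset.sum_congr rfl fun T' hT' => ?_
    rw [← Finset.sum_filter, ← Finset.sum_filter]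
    refine Finset.sum_congr ?_ fun _ _ => rfl
    ext x
    simp only [mem_filter, mem_sdiff]
    have := (mem_sub.1 hT').2
    constructor
    · rintro ⟨⟨_, h3⟩, h4, h5⟩; exact ⟨h4, h3, h5⟩
    · rintro ⟨h4, h3, h5⟩; exact ⟨⟨this h4, h3⟩, h4, h5⟩
  rw [Finset.sum_congr rfl h1, Finset.sum_comm]
  refine Finset.sum_congr rfl fun T' hT' => ?_
  rw [Finset.sum_comm]
  refine Finset.sum_congr rfl fun x hx => ?_
  rw [← Finset.sum_filter, Finset.sum_const, nsmul_eq_mul]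
  congr 1
  exact card_avoid_meet hH hT' hx

theorem card_meet_eq (hH : IsLin3 H) {T : Finset V} (hT : T ∈ sub H M) :
    ((((sub H M).filter fun T' => ¬ Disjoint T' T).card : ℕ) : ℝ) = sT H M T - 2 := by
  rw [card_meet hH hT, sT_eq hH hT]
  push_cast
  ring

/-- pair sums (I3) -/
theorem pair_sum (hH : IsLin3 H) {F : V → V → ℝ} {Φ Ψ : V → ℝ}
    (h : ∀ y ∈ M, ∀ z ∈ M, F y z ≤ Φ y + Ψ z) :
    ∑ T ∈ sub H M, ∑ y ∈ T, ∑ z ∈ T, F y z ≤ 3 * ∑ x ∈ M, (deg H M x : ℝ) * (Φ x + Ψ x) := by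
  rw [← sum_sub_sum, Finset.mul_sum]
  refine Finset.sum_le_sum fun T hT => ?_
  have hs := (mem_sub.1 hT).2
  have h3 := hH.card3 T (mem_sub.1 hT).1
  calc ∑ y ∈ T, ∑ z ∈ T, F y z ≤ ∑ y ∈ T, ∑ z ∈ T, (Φ y + Ψ z) :=
        Finset.sum_le_sum fun y hy => Finset.sum_le_sum fun z hz => h y (hs hy) z (hs hz)
    _ = 3 * ∑ x ∈ T, (Φ x + Ψ x) := by
        simp only [Finset.sum_add_distrib, Finset.sum_const, h3, nsmul_eq_mul, ← Finset.mul_sum]
        push_cast; ring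

/-- triple sums (I3) -/
theorem triple_sum (hH : IsLin3 H) {F : V → V → V → ℝ} {Φ : V → ℝ}
    (h : ∀ y ∈ M, ∀ z ∈ M, ∀ v ∈ M, F y z v ≤ Φ y + Φ z + Φ v) :
    ∑ T ∈ sub H M, ∑ y ∈ T, ∑ z ∈ T, ∑ v ∈ T, F y z v ≤
      27 * ∑ x ∈ M, (deg H M x : ℝ) * Φ x := by
  rw [← sum_sub_sum, Finset.mul_sum]
  refine Finset.sum_le_sum fun T hT => ?_
  have hs := (mem_sub.1 hT).2
  have h3 := hH.card3 T (mem_sub.1 hT).1
  calc ∑ y ∈ T, ∑ z ∈ T, ∑ v ∈ T, F y z v ≤ ∑ y ∈ T, ∑ z ∈ T, ∑ v ∈ T, (Φ y + Φ z + Φ v) :=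
        Finset.sum_le_sum fun y hy => Finset.sum_le_sum fun z hz => Finset.sum_le_sum fun v hv =>
          h y (hs hy) z (hs hz) v (hs hv)
    _ = 27 * ∑ x ∈ T, Φ x := by
        simp only [Finset.sum_add_distrib, Finset.sum_const, h3, nsmul_eq_mul, ← Finset.mul_sum]
        push_cast; ring

/-- Cauchy–Schwarz on a triple without one point -/
theorem sq_sum_sub_le {T : Finset V} (h3 : T.card = 3) {y : V} (hy : y ∈ T) (φ : V → ℝ) :
    (∑ z ∈ T, φ z - φ y) ^ 2 ≤ 2 * (∑ z ∈ T, φ z ^ 2 - φ y ^ 2) := by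
  have e1 : ∑ z ∈ T, φ z - φ y = ∑ z ∈ T.erase y, φ z := by
    rw [← Finset.add_sum_erase T φ hy]; ring
  have e2 : ∑ z ∈ T, φ z ^ 2 - φ y ^ 2 = ∑ z ∈ T.erase y, φ z ^ 2 := by
    rw [← Finset.add_sum_erase T (fun z => φ z ^ 2) hy]; ring
  rw [e1, e2]
  have h := sq_sum_le_card_mul_sum_sq (s := T.erase y) (f := φ)
  rw [card_erase_of_mem hy, h3] at h
  push_cast at h
  exact h

/-- Cauchy–Schwarz for the adjacency operator -/
theorem SN_sq_sum_le (hH : IsLin3 H) (φ : V → ℝ) :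
    ∑ y ∈ M, SN H M φ y ^ 2 ≤ 2 * ∑ z ∈ M, φ z ^ 2 * bb H M z := by
  have h1 : ∀ y ∈ M, SN H M φ y ^ 2 ≤
      ∑ T ∈ sub H M with y ∈ T, 2 * (deg H M y * (∑ z ∈ T, φ z ^ 2 - φ y ^ 2)) := by
    intro y _
    unfold SN
    have h := sq_sum_le_card_mul_sum_sq (s := (sub H M).filter (fun T => y ∈ T))
      (f := fun T => ∑ z ∈ T, φ z - φ y)
    refine h.trans ?_
    rw [Finset.mul_sum]
    refine Finset.sum_le_sum fun T hT => ?_
    rw [mem_filter] at hT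
    have h2 := sq_sum_sub_le (hH.card3 T (mem_sub.1 hT.1).1) hT.2 φ
    have h3 : (0 : ℝ) ≤ ((sub H M).filter (fun T => y ∈ T)).card := Nat.cast_nonneg _
    unfold deg
    nlinarith [mul_le_mul_of_nonneg_left h2 h3]
  refine (Finset.sum_le_sum h1).trans ?_
  rw [sum_vert_edge (fun T y => 2 * (deg H M y * (∑ z ∈ T, φ z ^ 2 - φ y ^ 2)))]
  have h2 : ∑ z ∈ M, φ z ^ 2 * bb H M z = ∑ T ∈ sub H M, ∑ y ∈ T,
      φ y ^ 2 * (∑ z ∈ T, (deg H M z : ℝ) - deg H M y) := by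
    unfold bb
    exact SN_sum_mul (H := H) (M := M) (fun z => φ z ^ 2) (fun z => (deg H M z : ℝ))
  rw [h2, Finset.mul_sum]
  refine Finset.sum_le_sum fun T _ => le_of_eq ?_
  rw [← Finset.mul_sum]
  congr 1
  simp only [mul_sub, Finset.sum_sub_distrib, ← Finset.sum_mul]
  rw [mul_comm (∑ i ∈ T, (deg H M i : ℝ))]
  congr 1
  exact Finset.sum_congr rfl fun _ _ => by ring

theorem sT_cube_le {T : Finset V} (h3 : T.card = 3) :
    (sT H M T : ℝ) ^ 3 ≤ 9 * ∑ x ∈ T, (deg H M x : ℝ) ^ 3 := by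
  rw [sT_cast]
  obtain ⟨a, b, c, hab, hac, hbc, rfl⟩ := card_eq_three.1 h3
  simp only [Finset.sum_insert (show a ∉ ({b, c} : Finset V) by simp [hab, hac]),
    Finset.sum_insert (show b ∉ ({c} : Finset V) by simp [hbc]), Finset.sum_singleton]
  have ha : (0 : ℝ) ≤ deg H M a := Nat.cast_nonneg _
  have hb : (0 : ℝ) ≤ deg H M b := Nat.cast_nonneg _
  have hc : (0 : ℝ) ≤ deg H M c := Nat.cast_nonneg _
  generalize (deg H M a : ℝ) = x at *
  generalize (deg H M b : ℝ) = y at *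
  generalize (deg H M c : ℝ) = z at *
  nlinarith [mul_nonneg (add_nonneg ha hb) (sq_nonneg (x - y)),
    mul_nonneg (add_nonneg ha hc) (sq_nonneg (x - z)),
    mul_nonneg (add_nonneg hb hc) (sq_nonneg (y - z)),
    mul_nonneg ha (sq_nonneg (y - z)), mul_nonneg hb (sq_nonneg (x - z)),
    mul_nonneg hc (sq_nonneg (x - y))]

theorem sT_cube_sum (hH : IsLin3 H) :
    ∑ T ∈ sub H M, (sT H M T : ℝ) ^ 3 ≤ 9 * ∑ x ∈ M, (deg H M x : ℝ) ^ 4 := by
  have h2 : ∑ x ∈ M, (deg H M x : ℝ) ^ 4 = ∑ T ∈ sub H M, ∑ x ∈ T, (deg H M x : ℝ) ^ 3 := by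
    rw [sum_sub_sum (fun x => (deg H M x : ℝ) ^ 3)]
    exact Finset.sum_congr rfl fun _ _ => by ring
  rw [h2, Finset.mul_sum]
  refine Finset.sum_le_sum fun T hT => ?_
  exact sT_cube_le (hH.card3 T (mem_sub.1 hT).1)

theorem bb_sum (hH : IsLin3 H) : ∑ y ∈ M, bb H M y ≤ 3 * ∑ x ∈ M, (deg H M x : ℝ) ^ 2 := by
  have h1 : ∑ y ∈ M, bb H M y = ∑ T ∈ sub H M, ∑ y ∈ T, ((sT H M T : ℝ) - deg H M y) := by
    rw [← sum_vert_edge (fun T y => ((sT H M T : ℝ) - deg H M y))]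
    exact Finset.sum_congr rfl fun y _ => bb_eq y
  rw [h1, ← sum_sT, Finset.mul_sum]
  refine Finset.sum_le_sum fun T hT => ?_
  rw [Finset.sum_sub_distrib, Finset.sum_const, hH.card3 T (mem_sub.1 hT).1, ← sT_cast,
    nsmul_eq_mul]
  push_cast
  have : (0 : ℝ) ≤ sT H M T := Nat.cast_nonneg _
  linarith

/-- power mean inequality for `b` -/
theorem bb_pow_le (y : V) (n : ℕ) :
    bb H M y ^ (n + 1) ≤
      ∑ T ∈ sub H M with y ∈ T, (deg H M y : ℝ) ^ n * ((sT H M T : ℝ) - deg H M y) ^ (n + 1) := by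
  rw [bb_eq, ← Finset.mul_sum]
  have h0 : ∀ T ∈ (sub H M).filter (fun T => y ∈ T), 0 ≤ (sT H M T : ℝ) - deg H M y := by
    intro T hT
    rw [mem_filter] at hT
    have := deg_le_sT (H := H) (M := M) hT.2
    linarith
  have h := pow_sum_div_card_le_sum_pow (s := (sub H M).filter (fun T => y ∈ T))
    (f := fun T => (sT H M T : ℝ) - deg H M y) h0 n
  by_cases hd : deg H M y = 0
  · have he : (sub H M).filter (fun T => y ∈ T) = ∅ := by
      rw [← card_eq_zero]; exact hd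
    rw [he]; simp
  · have hd' : (0 : ℝ) < deg H M y := by
      have : 0 < deg H M y := Nat.pos_of_ne_zero hd
      exact_mod_cast this
    have e : (((sub H M).filter (fun T => y ∈ T)).card : ℝ) = deg H M y := rfl
    rw [e, div_le_iff₀ (by positivity)] at h
    linarith

theorem three_ineq {a b c : ℝ} (ha : 0 ≤ a) (hb : 0 ≤ b) (hc : 0 ≤ c) :
    a * (b + c) ^ 2 + b * (a + c) ^ 2 + c * (a + b) ^ 2 ≤ 9 * (a ^ 3 + b ^ 3 + c ^ 3) := by
  have key : ∀ x y : ℝ, 0 ≤ x → 0 ≤ y → x * y ^ 2 ≤ x ^ 3 + y ^ 3 := by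
    intro x y hx hy
    nlinarith [mul_nonneg (add_nonneg hx hy) (sq_nonneg (x - y)), mul_nonneg hx (sq_nonneg y),
      mul_nonneg hy (sq_nonneg x), pow_nonneg hx 3, pow_nonneg hy 3]
  have sq : ∀ x y : ℝ, (x + y) ^ 2 ≤ 2 * (x ^ 2 + y ^ 2) := by
    intro x y
    nlinarith [sq_nonneg (x - y)]
  have h1 := mul_le_mul_of_nonneg_left (sq b c) ha
  have h2 := mul_le_mul_of_nonneg_left (sq a c) hb
  have h3 := mul_le_mul_of_nonneg_left (sq a b) hc
  have k1 := key a b ha hb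
  have k2 := key a c ha hc
  have k3 := key b a hb ha
  have k4 := key b c hb hc
  have k5 := key c a hc ha
  have k6 := key c b hc hb
  have p1 := pow_nonneg ha 3
  have p2 := pow_nonneg hb 3
  have p3 := pow_nonneg hc 3
  nlinarith

theorem bb_sq_sum (hH : IsLin3 H) :
    ∑ y ∈ M, bb H M y ^ 2 ≤ 9 * ∑ x ∈ M, (deg H M x : ℝ) ^ 4 := by
  have h2 : ∑ x ∈ M, (deg H M x : ℝ) ^ 4 = ∑ T ∈ sub H M, ∑ x ∈ T, (deg H M x : ℝ) ^ 3 := by
    rw [sum_sub_sum (fun x => (deg H M x : ℝ) ^ 3)]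
    exact Finset.sum_congr rfl fun _ _ => by ring
  refine (Finset.sum_le_sum fun y _ => bb_pow_le (H := H) (M := M) y 1).trans ?_
  rw [sum_vert_edge (fun T y => (deg H M y : ℝ) ^ 1 * ((sT H M T : ℝ) - deg H M y) ^ (1 + 1)),
    h2, Finset.mul_sum]
  refine Finset.sum_le_sum fun T hT => ?_
  obtain ⟨a, b, c, hab, hac, hbc, rfl⟩ := card_eq_three.1 (hH.card3 T (mem_sub.1 hT).1)
  simp only [sT_cast, Finset.sum_insert (show a ∉ ({b, c} : Finset V) by simp [hab, hac]),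
    Finset.sum_insert (show b ∉ ({c} : Finset V) by simp [hbc]), Finset.sum_singleton]
  have ha : (0 : ℝ) ≤ deg H M a := Nat.cast_nonneg _
  have hb : (0 : ℝ) ≤ deg H M b := Nat.cast_nonneg _
  have hc : (0 : ℝ) ≤ deg H M c := Nat.cast_nonneg _
  generalize (deg H M a : ℝ) = x at *
  generalize (deg H M b : ℝ) = y at *
  generalize (deg H M c : ℝ) = z at *
  refine le_trans (le_of_eq ?_) (le_trans (three_ineq ha hb hc) (le_of_eq ?_))
  · ring
  · ring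

theorem five_ineq {a b c : ℝ} (ha : 0 ≤ a) (hb : 0 ≤ b) (hc : 0 ≤ c) :
    a ^ 2 * (b + c) ^ 3 + b ^ 2 * (a + c) ^ 3 + c ^ 2 * (a + b) ^ 3 ≤
      81 * (a ^ 5 + b ^ 5 + c ^ 5) := by
  have key : ∀ x y : ℝ, 0 ≤ x → 0 ≤ y → x ^ 2 * y ^ 3 ≤ x ^ 5 + y ^ 5 := by
    intro x y hx hy
    rcases le_total x y with h | h
    · have := pow_le_pow_left₀ hx h 2
      nlinarith [mul_le_mul_of_nonneg_right this (pow_nonneg hy 3), pow_nonneg hx 5]
    · have := pow_le_pow_left₀ hy h 3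
      nlinarith [mul_le_mul_of_nonneg_left this (pow_nonneg hx 2), pow_nonneg hy 5]
  have cube : ∀ x y : ℝ, 0 ≤ x → 0 ≤ y → (x + y) ^ 3 ≤ 4 * (x ^ 3 + y ^ 3) := by
    intro x y hx hy
    nlinarith [mul_nonneg (add_nonneg hx hy) (sq_nonneg (x - y))]
  have h1 := mul_le_mul_of_nonneg_left (cube b c hb hc) (sq_nonneg a)
  have h2 := mul_le_mul_of_nonneg_left (cube a c ha hc) (sq_nonneg b)
  have h3 := mul_le_mul_of_nonneg_left (cube a b ha hb) (sq_nonneg c)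
  have k1 := key a b ha hb
  have k2 := key a c ha hc
  have k3 := key b a hb ha
  have k4 := key b c hb hc
  have k5 := key c a hc ha
  have k6 := key c b hc hb
  have p1 := pow_nonneg ha 5
  have p2 := pow_nonneg hb 5
  have p3 := pow_nonneg hc 5
  nlinarith

theorem bb_cube_sum (hH : IsLin3 H) :
    ∑ y ∈ M, bb H M y ^ 3 ≤ 81 * ∑ x ∈ M, (deg H M x : ℝ) ^ 6 := by
  have h2 : ∑ x ∈ M, (deg H M x : ℝ) ^ 6 = ∑ T ∈ sub H M, ∑ x ∈ T, (deg H M x : ℝ) ^ 5 := by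
    rw [sum_sub_sum (fun x => (deg H M x : ℝ) ^ 5)]
    exact Finset.sum_congr rfl fun _ _ => by ring
  refine (Finset.sum_le_sum fun y _ => bb_pow_le (H := H) (M := M) y 2).trans ?_
  rw [sum_vert_edge (fun T y => (deg H M y : ℝ) ^ 2 * ((sT H M T : ℝ) - deg H M y) ^ (2 + 1)),
    h2, Finset.mul_sum]
  refine Finset.sum_le_sum fun T hT => ?_
  obtain ⟨a, b, c, hab, hac, hbc, rfl⟩ := card_eq_three.1 (hH.card3 T (mem_sub.1 hT).1)
  simp only [sT_cast, Finset.sum_insert (show a ∉ ({b, c} : Finset V) by simp [hab, hac]),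
    Finset.sum_insert (show b ∉ ({c} : Finset V) by simp [hbc]), Finset.sum_singleton]
  have ha : (0 : ℝ) ≤ deg H M a := Nat.cast_nonneg _
  have hb : (0 : ℝ) ≤ deg H M b := Nat.cast_nonneg _
  have hc : (0 : ℝ) ≤ deg H M c := Nat.cast_nonneg _
  generalize (deg H M a : ℝ) = x at *
  generalize (deg H M b : ℝ) = y at *
  generalize (deg H M c : ℝ) = z at *
  refine le_trans (le_of_eq ?_) (le_trans (five_ineq ha hb hc) (le_of_eq ?_))
  · ring
  · ring

/-- weighted sums of `b` as pair sums -/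
theorem bb_mul_sum_le {φ : V → ℝ} (hφ : ∀ x ∈ M, 0 ≤ φ x) :
    ∑ y ∈ M, φ y * bb H M y ≤ ∑ T ∈ sub H M, ∑ y ∈ T, ∑ z ∈ T, φ y * deg H M z := by
  unfold bb
  rw [SN_sum_mul (H := H) (M := M) φ (fun z => (deg H M z : ℝ))]
  refine Finset.sum_le_sum fun T hT => Finset.sum_le_sum fun y hy => ?_
  rw [← Finset.mul_sum]
  have := hφ y ((mem_sub.1 hT).2 hy)
  refine mul_le_mul_of_nonneg_left ?_ this
  have : (0 : ℝ) ≤ deg H M y := Nat.cast_nonneg _
  linarith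

theorem cd_nonneg (hH : IsLin3 H) {y : V} (hy : y ∈ M) : 0 ≤ cd H M y := by
  unfold cd
  rw [← sum_dl_eq hH hy]
  exact div_nonneg (Finset.sum_nonneg fun _ _ => Nat.cast_nonneg _) (Nat.cast_nonneg _)

theorem cd_le_three (hH : IsLin3 H) {y : V} (hy : y ∈ M) : cd H M y ≤ 3 := by
  unfold cd
  rw [← sum_dl_eq hH hy]
  refine div_le_of_le_mul₀ (Nat.cast_nonneg _) (by norm_num) ?_
  calc ∑ T ∈ sub H M with y ∉ T, (dl H M T y : ℝ) ≤ ∑ T ∈ sub H M with y ∉ T, (3 : ℝ) := by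
        refine Finset.sum_le_sum fun T hT => ?_
        rw [mem_filter] at hT
        exact_mod_cast dl_le hH hT.1 hT.2
    _ ≤ ∑ T ∈ sub H M, (3 : ℝ) :=
        Finset.sum_le_sum_of_subset_of_nonneg (Finset.filter_subset _ _) fun _ _ _ => by norm_num
    _ = 3 * (sub H M).card := by rw [Finset.sum_const, nsmul_eq_mul]; ring

theorem cd_le (y : V) : cd H M y ≤ bb H M y / (sub H M).card := by
  unfold cd
  have h1 : (0 : ℝ) ≤ deg H M y := Nat.cast_nonneg _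
  exact div_le_div_of_nonneg_right (by linarith) (Nat.cast_nonneg _)

/-- exchange `∑_T ∑_{y ∈ M \ T}` -/
theorem sum_sdiff_comm (φ : Finset V → V → ℝ) :
    ∑ T ∈ sub H M, ∑ y ∈ M \ T, φ T y =
      ∑ y ∈ M, ∑ T ∈ sub H M with y ∉ T, φ T y := by
  have h1 : ∀ T ∈ sub H M, ∑ y ∈ M \ T, φ T y = ∑ y ∈ M, if y ∉ T then φ T y else 0 := by
    intro T _
    rw [← Finset.sum_filter]
    refine Finset.sum_congr ?_ fun _ _ => rfl
    ext x; simp only [mem_sdiff, mem_filter]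
  rw [Finset.sum_congr rfl h1, Finset.sum_comm]
  exact Finset.sum_congr rfl fun y _ => (Finset.sum_filter _ _).symm

/-- `∑_T ∑_{y ∉ T}` of a function of `y` only -/
theorem sum_sdiff_eq (φ : V → ℝ) :
    ∑ T ∈ sub H M, ∑ y ∈ M \ T, φ y =
      ∑ y ∈ M, (((sub H M).card : ℝ) - deg H M y) * φ y := by
  rw [sum_sdiff_comm (fun _ y => φ y)]
  refine Finset.sum_congr rfl fun y _ => ?_
  rw [Finset.sum_const, nsmul_eq_mul]
  congr 1
  have h := card_filter_add_card_filter_not (s := sub H M) (fun T => y ∈ T)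
  have h2 : (((sub H M).filter (fun T => y ∈ T)).card : ℝ) +
      ((sub H M).filter (fun T => ¬ y ∈ T)).card = (sub H M).card := by exact_mod_cast h
  unfold deg
  linarith

end Vale.Agent.P046LF
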