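import Vale.Agent.P046LF.FInf
import Vale.Agent.P046LF.Toolkit

/-!
P046 log-free, module BASIC: first consequences of a good state (section 1 of the note).
-/

namespace Vale.Agent.P046LF

open Finset Vale.Agent.P046

variable {V : Type} [DecidableEq V] {H : Finset (Finset V)} {M : Finset V} {N : V → ℝ}
  {κ S S' m Q u D D' K : ℝ}

/-! ### Real arithmetic -/

/-- `D / Q = (3/m)(1-S)/(1+Z-S)` -/
theorem DQ_arith {κ S m Q D Z : ℝ} (hκ : 0 < κ) (hm : 10 < m) (hQ : Q = Qh κ m * (1 - S + Z))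
    (hD : D = κ * (m - 3) * (m - 6) * (1 - S)) (hpos : 0 < 1 - S + Z) :
    D / Q = 3 / m * ((1 - S) / (1 - S + Z)) := by
  rw [hD, hQ]
  unfold Qh
  have h1 : m - 3 ≠ 0 := by linarith
  have h2 : m - 6 ≠ 0 := by linarith
  have h3 : m ≠ 0 := by linarith
  field_simp

namespace GS

theorem u_pos (g : GS H M N κ S S' m Q u D D' K) : 0 < u := by linarith [g.hu]

theorem m_big (g : GS H M N κ S S' m Q u D D' K) : 10 ^ 18 ≤ m := by
  have h1 := pow_le_pow_left₀ (by norm_num : (0 : ℝ) ≤ 1000) g.hu 6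
  have h2 := g.hum
  norm_num at h1 ⊢
  linarith

theorem m_pos (g : GS H M N κ S S' m Q u D D' K) : 0 < m := by
  have := g.m_big
  linarith

theorem D_lo (g : GS H M N κ S S' m Q u D D' K) : 9 / 10 * u ^ 4 ≤ D := by
  have hm := g.m_big
  have hκ := g.hκ
  have h1 := g.hS1
  rw [g.hD, g.hu4]
  have h2 : 99 / 100 * m ^ 2 ≤ (m - 3) * (m - 6) := by nlinarith
  have h3 : 99 / 100 * m ^ 2 * (15 / 16) ≤ (m - 3) * (m - 6) * (1 - S) :=
    mul_le_mul h2 (by linarith) (by norm_num) (by nlinarith)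
  nlinarith [mul_le_mul_of_nonneg_left h3 hκ.le, mul_nonneg hκ.le (sq_nonneg m)]

theorem D_hi (g : GS H M N κ S S' m Q u D D' K) : D ≤ u ^ 4 := by
  have hm := g.m_big
  have hκ := g.hκ
  have h0 := g.hS0
  have h1 := g.hS1
  rw [g.hD, g.hu4]
  have h2 : (m - 3) * (m - 6) ≤ m ^ 2 := by nlinarith
  have h3 : (m - 3) * (m - 6) * (1 - S) ≤ m ^ 2 * 1 :=
    mul_le_mul h2 (by linarith) (by linarith) (by positivity)
  nlinarith [mul_le_mul_of_nonneg_left h3 hκ.le]

theorem u4_pos (g : GS H M N κ S S' m Q u D D' K) : 0 < u ^ 4 := pow_pos g.u_pos 4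

theorem D_pos (g : GS H M N κ S S' m Q u D D' K) : 0 < D := by
  have := g.D_lo
  have := g.u4_pos
  linarith

/-- `D` is large -/
theorem D_big (g : GS H M N κ S S' m Q u D D' K) : 9 * 10 ^ 11 ≤ D := by
  have h1 := pow_le_pow_left₀ (by norm_num : (0 : ℝ) ≤ 1000) g.hu 4
  have h2 := g.D_lo
  norm_num at h1 ⊢
  linarith

theorem Qh_pos (g : GS H M N κ S S' m Q u D D' K) : 0 < Qh κ m := by
  have hm := g.m_big
  have hκ := g.hκ
  unfold Qh
  have h1 : 0 < m - 3 := by linarith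
  have h2 : 0 < m - 6 := by linarith
  positivity

theorem Z_le (g : GS H M N κ S S' m Q u D D' K) : |Q / Qh κ m + S - 1| ≤ 1 / 1000 :=
  g.hZ.trans (by
    rw [div_le_div_iff_of_pos_left one_pos g.u_pos (by norm_num)]
    exact g.hu)

theorem den_lo (g : GS H M N κ S S' m Q u D D' K) :
    93 / 100 ≤ 1 - S + (Q / Qh κ m + S - 1) := by
  have h1 := (abs_le.1 g.Z_le).1
  have h2 := g.hS1
  linarith

theorem Q_eq (g : GS H M N κ S S' m Q u D D' K) :
    Q = Qh κ m * (1 - S + (Q / Qh κ m + S - 1)) := by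
  have := g.Qh_pos.ne'
  field_simp
  ring

theorem DQ_eq (g : GS H M N κ S S' m Q u D D' K) :
    D / Q = 3 / m * ((1 - S) / (1 - S + (Q / Qh κ m + S - 1))) :=
  DQ_arith g.hκ (by linarith [g.m_big]) g.Q_eq g.hD (by linarith [g.den_lo])

theorem DQ_Z (g : GS H M N κ S S' m Q u D D' K) :
    |D / Q - 3 / m| ≤ 3 / m * (6 / 5 * |Q / Qh κ m + S - 1|) := by
  have hd := g.den_lo
  have hm := g.m_pos
  rw [g.DQ_eq]
  set Z := Q / Qh κ m + S - 1
  have hpos : 0 < 1 - S + Z := by linarith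
  have e1 : 3 / m * ((1 - S) / (1 - S + Z)) - 3 / m = 3 / m * (-(Z / (1 - S + Z))) := by
    field_simp
    ring
  rw [e1, abs_mul, abs_of_pos (by positivity : 0 < 3 / m), abs_neg, abs_div, abs_of_pos hpos]
  refine mul_le_mul_of_nonneg_left ?_ (by positivity)
  rw [div_le_iff₀ hpos]
  have := abs_nonneg Z
  nlinarith

theorem DQ_near (g : GS H M N κ S S' m Q u D D' K) : |D / Q - 3 / m| ≤ 3 / m * (2 / u) := by
  refine g.DQ_Z.trans (mul_le_mul_of_nonneg_left ?_ (by have := g.m_pos; positivity))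
  have h1 := g.hZ
  have h2 : 2 / u = 2 * (1 / u) := by ring
  rw [h2]
  have := g.u_pos
  have h3 : 0 ≤ 1 / u := by positivity
  linarith

theorem DQ_lo (g : GS H M N κ S S' m Q u D D' K) : 3 / m * (1 - 2 / u) ≤ D / Q := by
  have := (abs_le.1 g.DQ_near).1
  linarith

theorem DQ_hi (g : GS H M N κ S S' m Q u D D' K) : D / Q ≤ 3 / m * (1 + 2 / u) := by
  have := (abs_le.1 g.DQ_near).2
  linarith

theorem Q_pos (g : GS H M N κ S S' m Q u D D' K) : 0 < Q := by
  rw [g.Q_eq]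
  exact mul_pos g.Qh_pos (by linarith [g.den_lo])

theorem two_div_u (g : GS H M N κ S S' m Q u D D' K) : 2 / u ≤ 2 / 1000 :=
  div_le_div_of_nonneg_left (by norm_num) (by norm_num) g.hu

theorem Q_lo (g : GS H M N κ S S' m Q u D D' K) : 3 / 10 * (m * D) ≤ Q := by
  have h1 := g.DQ_hi
  have hm := g.m_pos
  have hQ := g.Q_pos
  have hD := g.D_pos
  have h2 : 3 / m * (1 + 2 / u) ≤ 3 / m * (1 + 2 / 1000) :=
    mul_le_mul_of_nonneg_left (by linarith [g.two_div_u]) (by positivity)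
  have h3 := h1.trans h2
  rw [div_le_iff₀ hQ] at h3
  have h4 : 3 / m * (1 + 2 / 1000) * Q * m = 3 * (1 + 2 / 1000) * Q := by field_simp
  have h5 := mul_le_mul_of_nonneg_right h3 hm.le
  rw [h4] at h5
  linarith

theorem Q_hi (g : GS H M N κ S S' m Q u D D' K) : Q ≤ 4 / 10 * (m * D) := by
  have h1 := g.DQ_lo
  have hm := g.m_pos
  have hQ := g.Q_pos
  have hD := g.D_pos
  have h2 : 3 / m * (1 - 2 / 1000) ≤ 3 / m * (1 - 2 / u) :=
    mul_le_mul_of_nonneg_left (by linarith [g.two_div_u]) (by positivity)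
  have h3 := h2.trans h1
  rw [le_div_iff₀ hQ] at h3
  have h4 : 3 / m * (1 - 2 / 1000) * Q * m = 3 * (1 - 2 / 1000) * Q := by field_simp
  have h5 := mul_le_mul_of_nonneg_right h3 hm.le
  rw [h4] at h5
  linarith

theorem theta_nonneg (g : GS H M N κ S S' m Q u D D' K) (x : V) :
    0 ≤ (deg H M x : ℝ) / D := div_nonneg (Nat.cast_nonneg _) g.D_pos.le

theorem psi_ge (g : GS H M N κ S S' m Q u D D' K) {x : V} (hx : x ∈ M) :
    -(1 / 4) ≤ (deg H M x : ℝ) / D - N x := by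
  have h1 := g.theta_nonneg x
  have h2 := (abs_le.1 (g.hN x hx)).2
  linarith

theorem xi_sq (g : GS H M N κ S S' m Q u D D' K) {x : V} (hx : x ∈ M) :
    ((deg H M x : ℝ) / D - 1) ^ 2 ≤ 4 * ff ((deg H M x : ℝ) / D - N x) + 2 * N x ^ 2 := by
  have h1 := sq_le_ff (show -1 / 4 ≤ (deg H M x : ℝ) / D - N x by linarith [g.psi_ge hx])
  nlinarith [sq_nonneg ((deg H M x : ℝ) / D - N x - 1 - N x)]

theorem W_nonneg (N : V → ℝ) (D : ℝ) : 0 ≤ WW H M N D :=
  Finset.sum_nonneg fun _ _ => ff_nonneg _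

theorem W_le (g : GS H M N κ S S' m Q u D D' K) : WW H M N D ≤ m / 1000 := by
  have hu := g.u_pos
  have hm := g.m_pos
  have h1 : u ^ 4 * WW H M N D ≤ u ^ 3 * m :=
    g.hF.trans (mul_le_mul_of_nonneg_right g.hK hm.le)
  have h2 : u * WW H M N D ≤ m := by
    have h3 : u ^ 3 * (u * WW H M N D) ≤ u ^ 3 * m := by
      calc u ^ 3 * (u * WW H M N D) = u ^ 4 * WW H M N D := by ring
        _ ≤ _ := h1
    exact le_of_mul_le_mul_left h3 (by positivity)
  have h4 : 1000 * WW H M N D ≤ u * WW H M N D :=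
    mul_le_mul_of_nonneg_right g.hu (W_nonneg N D)
  linarith

theorem N_sq_le (g : GS H M N κ S S' m Q u D D' K) {x : V} (hx : x ∈ M) : N x ^ 2 ≤ 1 / 16 := by
  have h := g.hN x hx
  have h2 := sq_abs (N x)
  have h3 := abs_nonneg (N x)
  nlinarith

/-- `w ≤ 0.13` -/
theorem w_le (g : GS H M N κ S S' m Q u D D' K) :
    ∑ x ∈ M, ((deg H M x : ℝ) / D - 1) ^ 2 ≤ 13 / 100 * m := by
  have h1 : ∑ x ∈ M, ((deg H M x : ℝ) / D - 1) ^ 2 ≤
      ∑ x ∈ M, (4 * ff ((deg H M x : ℝ) / D - N x) + 2 * (1 / 16)) :=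
    Finset.sum_le_sum fun x hx => (g.xi_sq hx).trans (by linarith [g.N_sq_le hx])
  rw [Finset.sum_add_distrib, ← Finset.mul_sum, Finset.sum_const, nsmul_eq_mul, g.hm] at h1
  have h2 := g.W_le
  unfold WW at h2
  have := g.m_pos
  linarith

theorem sumsq_le (g : GS H M N κ S S' m Q u D D' K) :
    ∑ x ∈ M, ((deg H M x : ℝ) / D) ^ 2 ≤ 3 * m := by
  have h1 : ∑ x ∈ M, ((deg H M x : ℝ) / D) ^ 2 ≤
      ∑ x ∈ M, (2 * ((deg H M x : ℝ) / D - 1) ^ 2 + 2) :=
    Finset.sum_le_sum fun x _ => by nlinarith [sq_nonneg ((deg H M x : ℝ) / D - 2)]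
  rw [Finset.sum_add_distrib, ← Finset.mul_sum, Finset.sum_const, nsmul_eq_mul, g.hm] at h1
  have h2 := g.w_le
  have := g.m_pos
  linarith

theorem sum_deg_eq (g : GS H M N κ S S' m Q u D D' K) : ∑ x ∈ M, (deg H M x : ℝ) = 3 * Q := by
  rw [sum_deg g.lin, g.hQ]

theorem U_nonneg (g : GS H M N κ S S' m Q u D D' K) :
    0 ≤ S2 H M - m * (3 * Q / m) ^ 2 := by
  have hm := g.m_pos
  have h1 : ∑ x ∈ M, ((deg H M x : ℝ) - 3 * Q / m) ^ 2 = S2 H M - m * (3 * Q / m) ^ 2 := by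
    have h2 : ∀ x ∈ M, ((deg H M x : ℝ) - 3 * Q / m) ^ 2 =
        (deg H M x : ℝ) ^ 2 - 2 * (3 * Q / m) * (deg H M x : ℝ) + (3 * Q / m) ^ 2 :=
      fun x _ => by ring
    rw [Finset.sum_congr rfl h2, Finset.sum_add_distrib, Finset.sum_sub_distrib, ← Finset.mul_sum,
      g.sum_deg_eq, Finset.sum_const, nsmul_eq_mul, g.hm]
    unfold S2
    field_simp
    ring
  rw [← h1]
  exact Finset.sum_nonneg fun x _ => sq_nonneg _

theorem U_le (g : GS H M N κ S S' m Q u D D' K) :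
    S2 H M - m * (3 * Q / m) ^ 2 ≤ D ^ 2 * ∑ x ∈ M, ((deg H M x : ℝ) / D - 1) ^ 2 := by
  have hm := g.m_pos
  have hD := g.D_pos
  have h1 : D ^ 2 * ∑ x ∈ M, ((deg H M x : ℝ) / D - 1) ^ 2 = S2 H M - 6 * Q * D + m * D ^ 2 := by
    rw [Finset.mul_sum]
    have h2 : ∀ x ∈ M, D ^ 2 * ((deg H M x : ℝ) / D - 1) ^ 2 =
        (deg H M x : ℝ) ^ 2 - 2 * D * (deg H M x : ℝ) + D ^ 2 := fun x _ => by
      field_simp
      ring
    rw [Finset.sum_congr rfl h2, Finset.sum_add_distrib, Finset.sum_sub_distrib, ← Finset.mul_sum,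
      g.sum_deg_eq, Finset.sum_const, nsmul_eq_mul, g.hm]
    unfold S2
    ring
  rw [h1]
  have h3 : 0 ≤ m * (D - 3 * Q / m) ^ 2 := by positivity
  have h4 : m * (D - 3 * Q / m) ^ 2 = m * D ^ 2 - 6 * Q * D + m * (3 * Q / m) ^ 2 := by
    field_simp
    ring
  linarith

theorem Qh3_pos (g : GS H M N κ S S' m Q u D D' K) : 0 < Qh κ (m - 3) := by
  have hm := g.m_big
  have hκ := g.hκ
  unfold Qh
  have h1 : 0 < m - 3 := by linarith
  have h2 : 0 < m - 3 - 3 := by linarith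
  have h3 : 0 < m - 3 - 6 := by linarith
  positivity

theorem S_le (g : GS H M N κ S S' m Q u D D' K) : S ≤ S' := by
  rw [g.hS']
  have h1 : 0 ≤ (S2 H M - m * (3 * Q / m) ^ 2) / (Q * Qh κ (m - 3)) :=
    div_nonneg g.U_nonneg (mul_pos g.Q_pos g.Qh3_pos).le
  linarith

theorem dS_le (g : GS H M N κ S S' m Q u D D' K) :
    S' - S ≤ 11 / m * ((∑ x ∈ M, ((deg H M x : ℝ) / D - 1) ^ 2) / m) := by
  have hm := g.m_big
  have hm0 := g.m_pos
  have hκ := g.hκ
  have hQ := g.Q_pos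
  have hD := g.D_pos
  have hq := g.Qh3_pos
  have hS0 := g.hS0
  have hU := g.U_le
  set w := ∑ x ∈ M, ((deg H M x : ℝ) / D - 1) ^ 2 with hw
  have hw0 : 0 ≤ w := Finset.sum_nonneg fun x _ => sq_nonneg _
  have h1 : S' - S = (S2 H M - m * (3 * Q / m) ^ 2) / (Q * Qh κ (m - 3)) := by
    rw [g.hS']
    ring
  rw [h1, div_le_iff₀ (mul_pos hQ hq)]
  refine hU.trans ?_
  have h2 := g.Q_lo
  -- `D ≤ 3/(m-9) Qh(m-3)`
  have h3 : D * (m - 9) ≤ 3 * Qh κ (m - 3) := by
    have e : 3 * Qh κ (m - 3) = κ * (m - 3) * (m - 6) * (m - 9) := by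
      unfold Qh
      ring
    rw [e, g.hD]
    have h4 : 0 ≤ κ * (m - 3) * (m - 6) * (m - 9) := by
      have h1 : 0 < m - 3 := by linarith
      have h2 : 0 < m - 6 := by linarith
      have h3 : 0 < m - 9 := by linarith
      positivity
    nlinarith
  have h5 : D * m * (10 / 11) ≤ 3 * Qh κ (m - 3) := by
    have : D * m * (10 / 11) ≤ D * (m - 9) := by nlinarith
    linarith
  have h6 : (3 / 10 * (m * D)) * (D * m * (10 / 11) / 3) ≤ Q * Qh κ (m - 3) :=
    mul_le_mul h2 (by linarith) (by positivity) hQ.le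
  have h7 : D ^ 2 * w = 11 / m * (w / m) * ((3 / 10 * (m * D)) * (D * m * (10 / 11) / 3)) := by
    field_simp
  rw [h7]
  exact mul_le_mul_of_nonneg_left h6 (by positivity)

theorem dS_le' (g : GS H M N κ S S' m Q u D D' K) : S' - S ≤ 3 / (2 * m) := by
  refine g.dS_le.trans ?_
  have hm := g.m_pos
  have h1 : (∑ x ∈ M, ((deg H M x : ℝ) / D - 1) ^ 2) / m ≤ 13 / 100 := by
    rw [div_le_iff₀ hm]
    exact g.w_le
  calc 11 / m * ((∑ x ∈ M, ((deg H M x : ℝ) / D - 1) ^ 2) / m) ≤ 11 / m * (13 / 100) :=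
        mul_le_mul_of_nonneg_left h1 (by positivity)
    _ ≤ 3 / (2 * m) := by
        rw [div_mul_eq_mul_div, div_le_div_iff₀ hm (by positivity)]
        nlinarith

theorem S'_le (g : GS H M N κ S S' m Q u D D' K) : S' ≤ 63 / 1000 := by
  have h1 := g.dS_le'
  have h2 := g.hS1
  have hm := g.m_big
  have h3 : 3 / (2 * m) ≤ 1 / 10000 := by
    rw [div_le_div_iff₀ (by linarith) (by norm_num)]
    linarith
  linarith

theorem D'_pos (g : GS H M N κ S S' m Q u D D' K) : 0 < D' := by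
  rw [g.hD']
  have hm := g.m_big
  have hκ := g.hκ
  have h1 : 0 < m - 6 := by linarith
  have h2 : 0 < m - 9 := by linarith
  have h3 : 0 < 1 - S' := by linarith [g.S'_le]
  positivity

/-- the ratio -/
theorem r_eq (g : GS H M N κ S S' m Q u D D' K) :
    D / D' - 1 = 6 / (m - 9) + (1 + 6 / (m - 9)) * ((S' - S) / (1 - S')) := by
  have hm := g.m_big
  have hκ := g.hκ.ne'
  have h1 : m - 3 ≠ 0 := by linarith
  have h2 : m - 6 ≠ 0 := by linarith
  have h3 : m - 9 ≠ 0 := by linarith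
  have h4 : 1 - S' ≠ 0 := by linarith [g.S'_le]
  rw [g.hD, g.hD']
  field_simp
  ring

theorem r_lo (g : GS H M N κ S S' m Q u D D' K) : 6 / m ≤ D / D' - 1 := by
  rw [g.r_eq]
  have hm := g.m_big
  have hS := g.S_le
  have hS' := g.S'_le
  have h1 : 6 / m ≤ 6 / (m - 9) := by
    refine div_le_div_of_nonneg_left (by norm_num) (by linarith) (by linarith)
  have h2 : 0 ≤ (1 + 6 / (m - 9)) * ((S' - S) / (1 - S')) := by
    refine mul_nonneg ?_ (div_nonneg (by linarith) (by linarith))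
    have : 0 < 6 / (m - 9) := div_pos (by norm_num) (by linarith)
    linarith
  linarith

theorem r_aux (g : GS H M N κ S S' m Q u D D' K) :
    (1 + 6 / (m - 9)) * ((S' - S) / (1 - S')) ≤ 107 / 100 * (S' - S) := by
  have hm := g.m_big
  have hS := g.S_le
  have hS' := g.S'_le
  have h1 : 6 / (m - 9) ≤ 1 / 10000 := by
    rw [div_le_div_iff₀ (by linarith) (by norm_num)]
    linarith
  have h2 : (S' - S) / (1 - S') ≤ (S' - S) * (1069 / 1000) := by
    rw [div_le_iff₀ (by linarith)]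
    nlinarith
  have h3 : 0 ≤ (S' - S) / (1 - S') := div_nonneg (by linarith) (by linarith)
  have h4 : 0 < 6 / (m - 9) := div_pos (by norm_num) (by linarith)
  calc (1 + 6 / (m - 9)) * ((S' - S) / (1 - S')) ≤ (1 + 1 / 10000) * ((S' - S) * (1069 / 1000)) :=
        mul_le_mul (by linarith) h2 h3 (by norm_num)
    _ ≤ 107 / 100 * (S' - S) := by nlinarith

theorem r_hi (g : GS H M N κ S S' m Q u D D' K) : D / D' - 1 ≤ 8 / m := by
  rw [g.r_eq]
  have hm := g.m_big
  have hm0 := g.m_pos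
  have h1 := g.r_aux
  have h2 := g.dS_le'
  have h3 : 6 / (m - 9) ≤ 61 / 10 / m := by
    rw [div_le_div_iff₀ (by linarith) hm0]
    linarith
  have h4 : 107 / 100 * (3 / (2 * m)) = 321 / 200 / m := by
    field_simp
    norm_num
  have h5 : 61 / 10 / m + 321 / 200 / m ≤ 8 / m := by
    rw [← add_div]
    exact div_le_div_of_nonneg_right (by norm_num) hm0.le
  nlinarith

theorem r_fine (g : GS H M N κ S S' m Q u D D' K) :
    |D / D' - 1 - 6 / m| ≤
      13 / m * ((∑ x ∈ M, ((deg H M x : ℝ) / D - 1) ^ 2) / m) + 100 / m ^ 2 := by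
  have h0 := g.r_lo
  rw [abs_of_nonneg (by linarith)]
  rw [g.r_eq]
  have hm := g.m_big
  have hm0 := g.m_pos
  have h1 := g.r_aux
  have h2 := g.dS_le
  set w := (∑ x ∈ M, ((deg H M x : ℝ) / D - 1) ^ 2) / m
  have hw : 0 ≤ w := div_nonneg (Finset.sum_nonneg fun x _ => sq_nonneg _) hm0.le
  have h3 : 6 / (m - 9) - 6 / m ≤ 100 / m ^ 2 := by
    have e : 6 / (m - 9) - 6 / m = 54 / (m * (m - 9)) := by
      have : m - 9 ≠ 0 := by linarith
      field_simp
      ring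
    rw [e, div_le_div_iff₀ (by nlinarith) (by positivity)]
    nlinarith
  have h4 : 107 / 100 * (11 / m * w) ≤ 13 / m * w := by
    have e : 107 / 100 * (11 / m * w) = (1177 / 100) * (w / m) := by ring
    have e2 : 13 / m * w = 13 * (w / m) := by ring
    rw [e, e2]
    exact mul_le_mul_of_nonneg_right (by norm_num) (div_nonneg hw hm0.le)
  nlinarith

theorem D'_hi (g : GS H M N κ S S' m Q u D D' K) : D' ≤ D := by
  have h1 := g.r_lo
  have hm := g.m_pos
  have hD' := g.D'_pos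
  have h2 : 0 < 6 / m := by positivity
  have h3 : 1 ≤ D / D' := by linarith
  rwa [le_div_iff₀ hD', one_mul] at h3

theorem D'_lo (g : GS H M N κ S S' m Q u D D' K) : 99 / 100 * D ≤ D' := by
  have h1 := g.r_hi
  have hm := g.m_big
  have hD' := g.D'_pos
  have h2 : 8 / m ≤ 1 / 1000 := by
    rw [div_le_div_iff₀ (by linarith) (by norm_num)]
    linarith
  have h3 : D / D' ≤ 1 + 1 / 1000 := by linarith
  rw [div_le_iff₀ hD'] at h3
  linarith

theorem Nup_le (g : GS H M N κ S S' m Q u D D' K) {T : Finset V} (hT : T ∈ sub H M) {y : V}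
    (hy : y ∈ M \ T) : |Nup H M N D' T y| ≤ 1 / 4 := by
  rw [mem_sdiff] at hy
  unfold Nup
  split_ifs with h
  · have h1 : (dl H M T y : ℝ) ≤ 3 := by exact_mod_cast dl_le g.lin hT hy.2
    have h2 := cd_nonneg g.lin hy.1
    have h3 := cd_le_three g.lin hy.1
    have h4 : (0 : ℝ) ≤ dl H M T y := Nat.cast_nonneg _
    have hD' : 10 ^ 9 ≤ D' := by
      have := g.D'_lo
      have := g.D_big
      linarith
    have h5 : |((dl H M T y : ℝ) - cd H M y) / D'| ≤ 1 / 8 := by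
      rw [abs_div, abs_of_pos g.D'_pos, div_le_iff₀ g.D'_pos, abs_le]
      constructor <;> linarith
    rw [abs_le] at h5 ⊢
    rw [abs_lt] at h
    constructor <;> linarith
  · exact g.hN y hy.1

/-- change of `N` -/
theorem dN_le (g : GS H M N κ S S' m Q u D D' K) {T : Finset V} {y : V} (hy : y ∈ M) :
    |dN H M N D' T y| ≤ ((dl H M T y : ℝ) + cd H M y) / D' := by
  have h2 := cd_nonneg g.lin hy
  have h4 : (0 : ℝ) ≤ dl H M T y := Nat.cast_nonneg _
  have hD' := g.D'_pos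
  unfold dN Nup
  split_ifs with h
  · have e : N y - ((dl H M T y : ℝ) - cd H M y) / D' - N y =
        -(((dl H M T y : ℝ) - cd H M y) / D') := by ring
    rw [e, abs_neg, abs_div, abs_of_pos hD']
    refine div_le_div_of_nonneg_right ?_ hD'.le
    rw [abs_le]
    constructor <;> linarith
  · rw [sub_self, abs_zero]
    positivity

/-- degree in the next state -/
theorem deg_next (_g : GS H M N κ S S' m Q u D D' K) (T : Finset V) (y : V) :
    (deg H (M \ T) y : ℝ) = deg H M y - dl H M T y := by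
  have h : ((deg H (M \ T) y + dl H M T y : ℕ) : ℝ) = (deg H M y : ℝ) := by
    exact_mod_cast deg_sdiff (H := H) (M := M) T y
  push_cast at h
  linarith

theorem one_div_u_pos (g : GS H M N κ S S' m Q u D D' K) : 0 < 1 / u := by
  have := g.u_pos
  positivity

theorem t_term (g : GS H M N κ S S' m Q u D D' K) (x : V) :
    0 ≤ u ^ 3 * ((1 + (deg H M x : ℝ) / D) * tt ((deg H M x : ℝ) / D)) := by
  have := g.u_pos
  have h1 := g.theta_nonneg x
  have h2 := tt_nonneg ((deg H M x : ℝ) / D)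
  positivity

theorem N_term (g : GS H M N κ S S' m Q u D D' K) (x : V) :
    0 ≤ u ^ 15 * ((1 + (deg H M x : ℝ) / D) * N x ^ 8) := by
  have := g.u_pos
  have h1 := g.theta_nonneg x
  have h2 : 0 ≤ N x ^ 8 := by positivity
  positivity

theorem f_term (g : GS H M N κ S S' m Q u D D' K) (x : V) :
    0 ≤ u ^ 3 * ff ((deg H M x : ℝ) / D - N x) := by
  have := g.u_pos
  have h2 := ff_nonneg ((deg H M x : ℝ) / D - N x)
  positivity

/-- `(1/m) ∑ (1 + t) ≤ EE / u^?`-type bounds -/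
theorem sum_one_tt_le (g : GS H M N κ S S' m Q u D D' K) :
    m + ∑ x ∈ M, tt ((deg H M x : ℝ) / D) ≤ 2 * (u * EE H M N D u) := by
  have hu := g.u_pos
  have h1 : m + ∑ x ∈ M, tt ((deg H M x : ℝ) / D) =
      ∑ x ∈ M, (1 + tt ((deg H M x : ℝ) / D)) := by
    rw [Finset.sum_add_distrib, Finset.sum_const, nsmul_eq_mul, g.hm, mul_one]
  rw [h1]
  unfold EE
  rw [Finset.mul_sum, Finset.mul_sum]
  refine Finset.sum_le_sum fun x _ => ?_
  unfold ee
  have a1 := g.f_term x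
  have a2 := g.N_term x
  have a3 := g.theta_nonneg x
  have a4 := tt_nonneg ((deg H M x : ℝ) / D)
  set θ := (deg H M x : ℝ) / D
  have a5 : u * (1 / u) = 1 := by field_simp
  have a6 : tt θ ≤ u * (u ^ 3 * ((1 + θ) * tt θ)) := by
    have b1 : 1 ≤ u ^ 4 := one_le_pow₀ (by linarith [g.hu])
    have b2 : tt θ ≤ (1 + θ) * tt θ := by nlinarith
    have b3 : 0 ≤ (1 + θ) * tt θ := by positivity
    calc tt θ ≤ (1 + θ) * tt θ := b2
      _ ≤ u ^ 4 * ((1 + θ) * tt θ) := le_mul_of_one_le_left b3 b1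
      _ = u * (u ^ 3 * ((1 + θ) * tt θ)) := by ring
  have a7 : 0 ≤ u * (u ^ 3 * ff (θ - N x)) := mul_nonneg hu.le a1
  have a8 : 0 ≤ u * (u ^ 15 * ((1 + θ) * N x ^ 8)) := mul_nonneg hu.le a2
  have a9 : u * (u ^ 3 * ff (θ - N x) + u ^ 3 * ((1 + θ) * tt θ) + u ^ 15 * ((1 + θ) * N x ^ 8) +
      1 / u) = u * (u ^ 3 * ff (θ - N x)) + u * (u ^ 3 * ((1 + θ) * tt θ)) +
      u * (u ^ 15 * ((1 + θ) * N x ^ 8)) + u * (1 / u) := by ring
  rw [a9, a5]
  linarith

theorem EE_ge_W (g : GS H M N κ S S' m Q u D D' K) : u ^ 3 * WW H M N D ≤ EE H M N D u := by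
  unfold WW EE
  rw [Finset.mul_sum]
  refine Finset.sum_le_sum fun x _ => ?_
  unfold ee
  have a1 := g.t_term x
  have a2 := g.N_term x
  have a3 := g.one_div_u_pos
  linarith

theorem EE_ge_m (g : GS H M N κ S S' m Q u D D' K) : m / u ≤ EE H M N D u := by
  have h1 : m / u = ∑ x ∈ M, 1 / u := by
    rw [Finset.sum_const, nsmul_eq_mul, g.hm]
    ring
  rw [h1]
  unfold EE
  refine Finset.sum_le_sum fun x _ => ?_
  unfold ee
  have a1 := g.t_term x
  have a2 := g.N_term x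
  have a3 := g.f_term x
  linarith

theorem EE_ge_T (g : GS H M N κ S S' m Q u D D' K) :
    u ^ 3 * ∑ x ∈ M, (1 + (deg H M x : ℝ) / D) * tt ((deg H M x : ℝ) / D) ≤ EE H M N D u := by
  unfold EE
  rw [Finset.mul_sum]
  refine Finset.sum_le_sum fun x _ => ?_
  unfold ee
  have a1 := g.f_term x
  have a2 := g.N_term x
  have a3 := g.one_div_u_pos
  linarith

theorem EE_ge_N (g : GS H M N κ S S' m Q u D D' K) :
    u ^ 15 * ∑ x ∈ M, (1 + (deg H M x : ℝ) / D) * N x ^ 8 ≤ EE H M N D u := by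
  unfold EE
  rw [Finset.mul_sum]
  refine Finset.sum_le_sum fun x _ => ?_
  unfold ee
  have a1 := g.f_term x
  have a2 := g.t_term x
  have a3 := g.one_div_u_pos
  linarith

end GS

end Vale.Agent.P046LF
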