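import Mathlib

/-!
P046 log-free, module S7 (part 2): the linear combination.
-/

namespace Vale.Agent.P046LF

/-- the constants -/
structure Cs where
  W : ℝ
  Z : ℝ
  Th : ℝ
  T : ℝ
  N : ℝ
  q : ℝ
  S : ℝ
  hW : 1 ≤ W
  hZ : 1 ≤ Z
  hTh : 1 ≤ Th
  hT : 1 ≤ T
  hN : 1 ≤ N
  hq : 1 ≤ q
  hS : 1 ≤ S

namespace Cs

variable (c : Cs)

noncomputable def AZ : ℝ := 8 * c.W
noncomputable def ATh : ℝ := 16 * (c.AZ * c.Z)
noncomputable def B : ℝ := c.W + 2 * (c.AZ * c.Z) + 2 * (c.ATh * c.Th) + 16 * c.S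
noncomputable def AN : ℝ := 5 * c.B
noncomputable def AT : ℝ := 5 * (c.B + c.AN * c.N)
noncomputable def C3 : ℝ := c.B + c.AN * c.N + c.W * c.q
noncomputable def C2 : ℝ := c.B + c.AT * c.T

theorem AZ_pos : 1 ≤ c.AZ := by unfold AZ; have := c.hW; linarith
theorem ATh_pos : 1 ≤ c.ATh := by
  unfold ATh
  have h1 := c.AZ_pos
  have h2 := c.hZ
  nlinarith
theorem B_pos : 1 ≤ c.B := by
  unfold B
  have h1 := c.AZ_pos
  have h2 := c.hZ
  have h3 := c.ATh_pos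
  have h4 := c.hTh
  have h5 := c.hW
  have h6 := c.hS
  have : 0 ≤ c.AZ * c.Z := by positivity
  have : 0 ≤ c.ATh * c.Th := by positivity
  linarith
theorem AN_pos : 1 ≤ c.AN := by unfold AN; have := c.B_pos; linarith
theorem AT_pos : 1 ≤ c.AT := by
  unfold AT
  have h1 := c.B_pos
  have h2 := c.AN_pos
  have h3 := c.hN
  have : 0 ≤ c.AN * c.N := by positivity
  linarith
theorem C3_pos : 1 ≤ c.C3 := by
  unfold C3
  have h1 := c.B_pos
  have h2 := c.AN_pos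
  have h3 := c.hN
  have h4 := c.hW
  have h5 := c.hq
  have : 0 ≤ c.AN * c.N := by positivity
  have : 0 ≤ c.W * c.q := by positivity
  linarith
theorem C2_pos : 1 ≤ c.C2 := by
  unfold C2
  have h1 := c.B_pos
  have h2 := c.AT_pos
  have h3 := c.hT
  have : 0 ≤ c.AT * c.T := by positivity
  linarith

theorem comb {x ε k w z θ t tb n nb q iu eb s cc w' z' θ' tb' nb' q' s' cc' : ℝ} (hx : 0 ≤ x)
    (_hε : 0 ≤ ε) (_hk : 0 ≤ k) (_hw : 0 ≤ w) (_hz : 0 ≤ z) (_hθ : 0 ≤ θ) (ht : 0 ≤ t) (_hn : 0 ≤ n)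
    (hq : 0 ≤ q) (hiu : 0 ≤ iu) (heb : eb = iu * w + t + n + iu)
    (hW' : w' ≤ w + x * (c.W * (ε * w + z + eb + q + k * w)))
    (hZ' : z' ≤ z - x / 8 * z + x * (2 * c.Z * (θ + eb)))
    (hTh' : θ' ≤ θ - x / 8 * θ + x * (2 * c.Th * eb))
    (hT' : tb' ≤ tb - x * (99 / 400 * t) + x * (c.T * (iu * w)))
    (hN' : nb' ≤ nb - x * (n / 5) + x * (c.N * (iu + t)))
    (hq' : q' ≤ q - x * (13 / 10 * q) + x * (c.q * iu))
    (hS' : s' ≤ s + x * (c.S * eb))
    (hcc : cc' + x * (c.C3 * iu) ≤ cc) :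
    w' + c.AZ * z' + c.ATh * θ' + c.AT * tb' + c.AN * nb' + c.W * q' + 16 * s' + cc' ≤
      (w + c.AZ * z + c.ATh * θ + c.AT * tb + c.AN * nb + c.W * q + 16 * s + cc) +
        x * ((c.W * ε + c.W * k + c.C2 * iu) * w) := by
  have hAZ := c.AZ_pos
  have hATh := c.ATh_pos
  have hB := c.B_pos
  have hAN := c.AN_pos
  have hAT := c.AT_pos
  have hWc := c.hW
  have hNc := c.hN
  have m1 := mul_le_mul_of_nonneg_left hZ' (by linarith : 0 ≤ c.AZ)
  have m2 := mul_le_mul_of_nonneg_left hTh' (by linarith : 0 ≤ c.ATh)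
  have m3 := mul_le_mul_of_nonneg_left hT' (by linarith : 0 ≤ c.AT)
  have m4 := mul_le_mul_of_nonneg_left hN' (by linarith : 0 ≤ c.AN)
  have m5 := mul_le_mul_of_nonneg_left hq' (by linarith : 0 ≤ c.W)
  have k1 : w' + c.AZ * z' + c.ATh * θ' + c.AT * tb' + c.AN * nb' + c.W * q' + 16 * s' + cc' ≤
      (w + x * (c.W * (ε * w + z + eb + q + k * w))) +
      c.AZ * (z - x / 8 * z + x * (2 * c.Z * (θ + eb))) +
      c.ATh * (θ - x / 8 * θ + x * (2 * c.Th * eb)) +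
      c.AT * (tb - x * (99 / 400 * t) + x * (c.T * (iu * w))) +
      c.AN * (nb - x * (n / 5) + x * (c.N * (iu + t))) +
      c.W * (q - x * (13 / 10 * q) + x * (c.q * iu)) +
      16 * (s + x * (c.S * eb)) + (cc - x * (c.C3 * iu)) := by linarith
  refine k1.trans ?_
  have e : (w + x * (c.W * (ε * w + z + eb + q + k * w))) +
      c.AZ * (z - x / 8 * z + x * (2 * c.Z * (θ + eb))) +
      c.ATh * (θ - x / 8 * θ + x * (2 * c.Th * eb)) +
      c.AT * (tb - x * (99 / 400 * t) + x * (c.T * (iu * w))) +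
      c.AN * (nb - x * (n / 5) + x * (c.N * (iu + t))) +
      c.W * (q - x * (13 / 10 * q) + x * (c.q * iu)) +
      16 * (s + x * (c.S * eb)) + (cc - x * (c.C3 * iu)) =
      (w + c.AZ * z + c.ATh * θ + c.AT * tb + c.AN * nb + c.W * q + 16 * s + cc) +
        x * ((c.W * ε + c.W * k + c.C2 * iu) * w) +
      x * ((c.W - c.AZ / 8) * z + (2 * (c.AZ * c.Z) - c.ATh / 8) * θ +
        (c.W + 2 * (c.AZ * c.Z) + 2 * (c.ATh * c.Th) + 16 * c.S) * eb - c.AT * (99 / 400 * t) +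
        c.AT * c.T * (iu * w) - c.AN * (n / 5) + c.AN * c.N * (iu + t) + c.W * q -
        c.W * (13 / 10 * q) + c.W * c.q * iu - c.C3 * iu - c.C2 * (iu * w)) := by ring
  rw [e]
  have hAZe : c.W - c.AZ / 8 = 0 := by unfold AZ; ring
  have hAThe : 2 * (c.AZ * c.Z) - c.ATh / 8 = 0 := by unfold ATh; ring
  have hBe : c.W + 2 * (c.AZ * c.Z) + 2 * (c.ATh * c.Th) + 16 * c.S = c.B := rfl
  have hANe : c.AN * (n / 5) = c.B * n := by unfold AN; ring
  have hATe : c.AT * (99 / 400 * t) = 99 / 80 * ((c.B + c.AN * c.N) * t) := by unfold AT; ring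
  have hC3e : c.C3 * iu = c.B * iu + c.AN * c.N * iu + c.W * c.q * iu := by unfold C3; ring
  have hC2e : c.C2 * (iu * w) = c.B * (iu * w) + c.AT * c.T * (iu * w) := by unfold C2; ring
  rw [hAZe, hAThe, hBe, hANe, hATe, hC3e, hC2e, heb]
  have h0 : x * (0 * z + 0 * θ + c.B * (iu * w + t + n + iu) -
      99 / 80 * ((c.B + c.AN * c.N) * t) + c.AT * c.T * (iu * w) - c.B * n +
      c.AN * c.N * (iu + t) + c.W * q - c.W * (13 / 10 * q) + c.W * c.q * iu -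
      (c.B * iu + c.AN * c.N * iu + c.W * c.q * iu) -
      (c.B * (iu * w) + c.AT * c.T * (iu * w))) =
      -(x * (19 / 80 * ((c.B + c.AN * c.N) * t) + 3 / 10 * (c.W * q))) := by ring
  rw [h0]
  have h1 : 0 ≤ x * (19 / 80 * ((c.B + c.AN * c.N) * t) + 3 / 10 * (c.W * q)) := by
    have : 0 ≤ c.AN * c.N := by positivity
    positivity
  linarith

end Cs

end Vale.Agent.P046LF
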