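import Vale.Agent.P046LF.Toolkit

/-!
P046 log-free, module CYCLES: counting part of the step for `Θ` (proof of (S3)).
-/

namespace Vale.Agent.P046LF

open Finset Vale.Agent.P046

variable {V : Type} [DecidableEq V] {H : Finset (Finset V)} {M : Finset V}

theorem mem_C4 {q : Finset V × Finset V × Finset V × Finset V} :
    q ∈ C4 H M ↔ (q.1 ∈ sub H M ∧ q.2.1 ∈ sub H M ∧ q.2.2.1 ∈ sub H M ∧ q.2.2.2 ∈ sub H M) ∧
      ¬ Disjoint q.1 q.2.1 ∧ ¬ Disjoint q.2.1 q.2.2.1 ∧ ¬ Disjoint q.2.2.1 q.2.2.2 ∧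
      ¬ Disjoint q.2.2.2 q.1 ∧ Disjoint q.1 q.2.2.1 ∧ Disjoint q.2.1 q.2.2.2 := by
  simp only [C4, mem_filter, mem_product]

theorem inter_card_one (hH : IsLin3 H) {A B : Finset V} (hA : A ∈ H) (hB : B ∈ H) (hne : A ≠ B)
    (hd : ¬ Disjoint A B) : (A ∩ B).card = 1 := by
  have h1 := hH.lin A hA B hB hne
  have h2 : (A ∩ B).card ≠ 0 := by
    intro h0
    rw [card_eq_zero] at h0
    exact hd (disjoint_iff_inter_eq_empty.2 h0)
  omega

/-- the 8 vertices of an induced 4-cycle -/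
theorem C4_union_card (hH : IsLin3 H) {q : Finset V × Finset V × Finset V × Finset V}
    (hq : q ∈ C4 H M) : (q.1 ∪ q.2.1 ∪ q.2.2.1 ∪ q.2.2.2).card = 8 := by
  obtain ⟨A, B, C, E⟩ := q
  rw [mem_C4] at hq
  simp only at hq ⊢
  obtain ⟨⟨hA, hB, hC, hE⟩, hAB, hBC, hCE, hEA, hAC, hBE⟩ := hq
  have cA := hH.card3 A (mem_sub.1 hA).1
  have cB := hH.card3 B (mem_sub.1 hB).1
  have cC := hH.card3 C (mem_sub.1 hC).1
  have cE := hH.card3 E (mem_sub.1 hE).1
  have nAB : A ≠ B := fun h => hBC (h ▸ hAC)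
  have nBC : B ≠ C := fun h => hAB (h ▸ hAC)
  have nCE : C ≠ E := fun h => hEA (h ▸ hAC.symm)
  have nEA : E ≠ A := fun h => hCE (h ▸ hAC.symm)
  have iAB := inter_card_one hH (mem_sub.1 hA).1 (mem_sub.1 hB).1 nAB hAB
  have iBC := inter_card_one hH (mem_sub.1 hB).1 (mem_sub.1 hC).1 nBC hBC
  have iCE := inter_card_one hH (mem_sub.1 hC).1 (mem_sub.1 hE).1 nCE hCE
  have iEA := inter_card_one hH (mem_sub.1 hE).1 (mem_sub.1 hA).1 nEA hEA
  have h1 := card_union_add_card_inter A B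
  have h2 := card_union_add_card_inter (A ∪ B) C
  have e2 : (A ∪ B) ∩ C = B ∩ C := by
    rw [union_inter_distrib_right, disjoint_iff_inter_eq_empty.1 hAC, empty_union]
  rw [e2] at h2
  have h3 := card_union_add_card_inter (A ∪ B ∪ C) E
  have e3 : (A ∪ B ∪ C) ∩ E = (E ∩ A) ∪ (C ∩ E) := by
    rw [union_inter_distrib_right, union_inter_distrib_right, disjoint_iff_inter_eq_empty.1 hBE,
      union_empty, inter_comm A E]
  have h4 := card_union_add_card_inter (E ∩ A) (C ∩ E)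
  have e4 : (E ∩ A) ∩ (C ∩ E) = ∅ := by
    rw [← disjoint_iff_inter_eq_empty]
    exact hAC.mono inter_subset_right inter_subset_left
  rw [e4, card_empty] at h4
  rw [e3] at h3
  omega

/-- number of triples meeting a set of vertices -/
theorem card_meet_ge (hH : IsLin3 H) {A : Finset V} (hA : A ⊆ M) (h8 : A.card ≤ 8) :
    ∑ x ∈ A, (deg H M x : ℝ) - 28 ≤
      ((((sub H M).filter fun T => ¬ Disjoint A T).card : ℕ) : ℝ) := by
  have h1 : ∑ x ∈ A, deg H M x = ∑ T ∈ sub H M, (A ∩ T).card := sT_eq_sum_inter A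
  have h2 : ∀ T ∈ sub H M, (A ∩ T).card ≤
      (if ¬ Disjoint A T then 1 else 0) + ((A ∩ T).powersetCard 2).card := by
    intro T hT
    rw [card_powersetCard]
    by_cases hd : Disjoint A T
    · rw [disjoint_iff_inter_eq_empty.1 hd]
      simp
    · rw [if_pos hd]
      have h3 : (A ∩ T).card ≤ 3 := by
        rw [← hH.card3 T (mem_sub.1 hT).1]
        exact card_le_card inter_subset_right
      interval_cases (A ∩ T).card <;> decide
  have h3 : ∑ T ∈ sub H M, ((A ∩ T).powersetCard 2).card ≤ 28 := by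
    rw [← card_biUnion]
    · have h4 : (sub H M).biUnion (fun T => (A ∩ T).powersetCard 2) ⊆ A.powersetCard 2 := by
        intro s hs
        rw [mem_biUnion] at hs
        obtain ⟨T, _, hs⟩ := hs
        rw [mem_powersetCard] at hs ⊢
        exact ⟨hs.1.trans inter_subset_left, hs.2⟩
      refine (card_le_card h4).trans ?_
      rw [card_powersetCard]
      calc A.card.choose 2 ≤ (8 : ℕ).choose 2 := Nat.choose_le_choose 2 h8
        _ = 28 := by decide
    · intro T hT T' hT' hne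
      rw [Function.onFun, disjoint_left]
      intro s hs hs'
      rw [mem_powersetCard] at hs hs'
      have h5 := hH.lin T (mem_sub.1 hT).1 T' (mem_sub.1 hT').1 hne
      have h6 : s ⊆ T ∩ T' :=
        subset_inter (hs.1.trans inter_subset_right) (hs'.1.trans inter_subset_right)
      have h7 := card_le_card h6
      omega
  have h4 : ∑ x ∈ A, deg H M x ≤ ((sub H M).filter fun T => ¬ Disjoint A T).card + 28 := by
    rw [h1]
    refine (Finset.sum_le_sum h2).trans ?_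
    rw [Finset.sum_add_distrib, card_filter]
    exact Nat.add_le_add_left h3 _
  have h5 : ((∑ x ∈ A, deg H M x : ℕ) : ℝ) ≤
      ((((sub H M).filter fun T => ¬ Disjoint A T).card + 28 : ℕ) : ℝ) := by exact_mod_cast h4
  push_cast at h5
  push_cast
  linarith

/-- the vertices of a quadruple -/
theorem C4_union_subset {q : Finset V × Finset V × Finset V × Finset V}
    (hq : q ∈ C4 H M) : q.1 ∪ q.2.1 ∪ q.2.2.1 ∪ q.2.2.2 ⊆ M := by
  rw [mem_C4] at hq
  obtain ⟨⟨hA, hB, hC, hE⟩, _⟩ := hq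
  exact union_subset (union_subset (union_subset (mem_sub.1 hA).2 (mem_sub.1 hB).2)
    (mem_sub.1 hC).2) (mem_sub.1 hE).2

theorem C4_sdiff (T : Finset V) : C4 H (M \ T) =
    (C4 H M).filter fun q => Disjoint (q.1 ∪ q.2.1 ∪ q.2.2.1 ∪ q.2.2.2) T := by
  ext q
  rw [mem_filter, mem_C4, mem_C4, sub_sdiff]
  simp only [mem_filter, disjoint_union_left]
  tauto

/-- one step for `Th` -/
theorem Th_step (hH : IsLin3 H) :
    ∑ T ∈ sub H M, Th H (M \ T) ≤ ((sub H M).card + 28) * Th H M -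
      ∑ q ∈ C4 H M, ∑ x ∈ q.1 ∪ q.2.1 ∪ q.2.2.1 ∪ q.2.2.2, (deg H M x : ℝ) := by
  have h1 : ∑ T ∈ sub H M, Th H (M \ T) = ∑ q ∈ C4 H M,
      ((((sub H M).filter fun T => Disjoint (q.1 ∪ q.2.1 ∪ q.2.2.1 ∪ q.2.2.2) T).card : ℕ) : ℝ) := by
    have e1 : ∀ T ∈ sub H M, Th H (M \ T) = ∑ q ∈ C4 H M,
        if Disjoint (q.1 ∪ q.2.1 ∪ q.2.2.1 ∪ q.2.2.2) T then (1 : ℝ) else 0 := by
      intro T _
      rw [Th, C4_sdiff, card_filter]
      push_cast
      rfl
    rw [Finset.sum_congr rfl e1, Finset.sum_comm]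
    refine Finset.sum_congr rfl fun q _ => ?_
    rw [card_filter]
    push_cast
    rfl
  rw [h1]
  have h2 : ((sub H M).card + 28) * Th H M = ∑ q ∈ C4 H M, (((sub H M).card : ℝ) + 28) := by
    rw [Finset.sum_const, nsmul_eq_mul, Th]
    ring
  rw [h2, ← Finset.sum_sub_distrib]
  refine Finset.sum_le_sum fun q hq => ?_
  have h3 := card_meet_ge hH (C4_union_subset hq) (C4_union_card hH hq).le
  have h4 := card_filter_add_card_filter_not (s := sub H M)
    (fun T => Disjoint (q.1 ∪ q.2.1 ∪ q.2.2.1 ∪ q.2.2.2) T)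
  have h5 : ((((sub H M).filter fun T => Disjoint (q.1 ∪ q.2.1 ∪ q.2.2.1 ∪ q.2.2.2) T).card : ℕ) : ℝ)
      + ((((sub H M).filter fun T => ¬ Disjoint (q.1 ∪ q.2.1 ∪ q.2.2.1 ∪ q.2.2.2) T).card : ℕ) : ℝ)
      = ((sub H M).card : ℝ) := by exact_mod_cast h4
  linarith

theorem card_meet_two (hH : IsLin3 H) {B E : Finset V} (hB : B ∈ sub H M) (hE : E ∈ sub H M)
    (hBE : Disjoint B E) :
    ((sub H M).filter fun C => ¬ Disjoint B C ∧ ¬ Disjoint C E).card ≤ 9 := by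
  have h1 : ((sub H M).filter fun C => ¬ Disjoint B C ∧ ¬ Disjoint C E) ⊆
      B.biUnion fun b => E.biUnion fun e => (sub H M).filter fun C => b ∈ C ∧ e ∈ C := by
    intro C hC
    rw [mem_filter] at hC
    obtain ⟨hC, h2, h3⟩ := hC
    obtain ⟨b, hb1, hb2⟩ := not_disjoint_iff.1 h2
    obtain ⟨e, he1, he2⟩ := not_disjoint_iff.1 h3
    simp only [mem_biUnion, mem_filter]
    exact ⟨b, hb1, e, he2, hC, hb2, he1⟩
  calc _ ≤ _ := card_le_card h1
    _ ≤ ∑ b ∈ B, (E.biUnion fun e => (sub H M).filter fun C => b ∈ C ∧ e ∈ C).card :=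
        card_biUnion_le
    _ ≤ ∑ b ∈ B, ∑ e ∈ E, ((sub H M).filter fun C => b ∈ C ∧ e ∈ C).card :=
        Finset.sum_le_sum fun b _ => card_biUnion_le
    _ ≤ ∑ b ∈ B, ∑ e ∈ E, 1 := by
        refine Finset.sum_le_sum fun b hb => Finset.sum_le_sum fun e he => ?_
        refine codeg_le_one hH ?_
        rintro rfl
        exact disjoint_left.1 hBE hb he
    _ = 9 := by
        rw [Finset.sum_const, Finset.sum_const, hH.card3 B (mem_sub.1 hB).1,
          hH.card3 E (mem_sub.1 hE).1]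
        rfl

theorem card_meet_le (A : Finset V) :
    ((sub H M).filter fun B => ¬ Disjoint A B).card ≤ sT H M A := by
  have h1 : ((sub H M).filter fun B => ¬ Disjoint A B) ⊆
      A.biUnion fun x => (sub H M).filter fun B => x ∈ B := by
    intro B hB
    rw [mem_filter] at hB
    obtain ⟨x, hx1, hx2⟩ := not_disjoint_iff.1 hB.2
    simp only [mem_biUnion, mem_filter]
    exact ⟨x, hx1, hB.1, hx2⟩
  exact (card_le_card h1).trans card_biUnion_le

/-- completions of a triple to a 4-cycle -/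
theorem C4_completions (hH : IsLin3 H) {φ : Finset V → ℝ} (hφ : ∀ T ∈ sub H M, 0 ≤ φ T) :
    ∑ q ∈ C4 H M, φ q.1 ≤ 9 * ∑ T ∈ sub H M, φ T * (sT H M T : ℝ) ^ 2 := by
  rw [C4, Finset.sum_filter, Finset.sum_product, Finset.mul_sum]
  refine Finset.sum_le_sum fun A hA => ?_
  rw [Finset.sum_product]
  have hφA := hφ A hA
  -- bound for given `B`
  have h1 : ∀ B ∈ sub H M, (∑ y ∈ sub H M ×ˢ sub H M,
      if ¬ Disjoint (A, B, y).1 (A, B, y).2.1 ∧ ¬ Disjoint (A, B, y).2.1 (A, B, y).2.2.1 ∧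
        ¬ Disjoint (A, B, y).2.2.1 (A, B, y).2.2.2 ∧ ¬ Disjoint (A, B, y).2.2.2 (A, B, y).1 ∧
        Disjoint (A, B, y).1 (A, B, y).2.2.1 ∧ Disjoint (A, B, y).2.1 (A, B, y).2.2.2
      then φ (A, B, y).1 else 0) ≤
      if ¬ Disjoint A B then 9 * φ A * (sT H M A : ℝ) else 0 := by
    intro B hB
    simp only
    by_cases hAB : Disjoint A B
    · rw [if_neg (not_not.2 hAB)]
      refine le_of_eq (Finset.sum_eq_zero fun y _ => ?_)
      rw [if_neg]
      exact fun h => h.1 hAB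
    · rw [if_pos hAB, Finset.sum_product, Finset.sum_comm]
      have h2 : ∀ E ∈ sub H M, (∑ C ∈ sub H M,
          if ¬ Disjoint A B ∧ ¬ Disjoint B (C, E).1 ∧ ¬ Disjoint (C, E).1 (C, E).2 ∧
            ¬ Disjoint (C, E).2 A ∧ Disjoint A (C, E).1 ∧ Disjoint B (C, E).2
          then φ A else 0) ≤ if ¬ Disjoint A E then 9 * φ A else 0 := by
        intro E hE
        simp only
        by_cases hAE : Disjoint A E
        · rw [if_neg (not_not.2 hAE)]
          refine le_of_eq (Finset.sum_eq_zero fun y _ => ?_)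
          rw [if_neg]
          exact fun h => h.2.2.2.1 hAE.symm
        · rw [if_pos hAE]
          by_cases hBE : Disjoint B E
          · calc (∑ C ∈ sub H M, if ¬ Disjoint A B ∧ ¬ Disjoint B C ∧ ¬ Disjoint C E ∧
                  ¬ Disjoint E A ∧ Disjoint A C ∧ Disjoint B E then φ A else 0)
                ≤ ∑ C ∈ sub H M, if ¬ Disjoint B C ∧ ¬ Disjoint C E then φ A else 0 := by
                  refine Finset.sum_le_sum fun C _ => ?_
                  split_ifs with h3 h4 h4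
                  · exact le_rfl
                  · exact absurd ⟨h3.2.1, h3.2.2.1⟩ h4
                  · exact hφA
                  · exact le_rfl
              _ = (((sub H M).filter fun C => ¬ Disjoint B C ∧ ¬ Disjoint C E).card : ℝ) * φ A := by
                  rw [← Finset.sum_filter, Finset.sum_const, nsmul_eq_mul]
              _ ≤ 9 * φ A := by
                  refine mul_le_mul_of_nonneg_right ?_ hφA
                  exact_mod_cast card_meet_two hH hB hE hBE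
          · refine le_trans (le_of_eq (Finset.sum_eq_zero fun y _ => ?_)) (by positivity)
            rw [if_neg]
            exact fun h => hBE h.2.2.2.2.2
      refine (Finset.sum_le_sum h2).trans ?_
      rw [← Finset.sum_filter, Finset.sum_const, nsmul_eq_mul]
      have h3 : (((sub H M).filter fun B => ¬ Disjoint A B).card : ℝ) ≤ (sT H M A : ℝ) := by
        exact_mod_cast card_meet_le A
      have := mul_le_mul_of_nonneg_right h3 (by positivity : 0 ≤ 9 * φ A)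
      linarith
  refine (Finset.sum_le_sum h1).trans ?_
  rw [← Finset.sum_filter, Finset.sum_const, nsmul_eq_mul]
  have h3 : (((sub H M).filter fun B => ¬ Disjoint A B).card : ℝ) ≤ (sT H M A : ℝ) := by
    exact_mod_cast card_meet_le A
  have := mul_le_mul_of_nonneg_right h3 (by positivity : 0 ≤ 9 * φ A * (sT H M A : ℝ))
  refine this.trans (le_of_eq ?_)
  ring

/-- rotation invariance -/
theorem C4_rot (φ : Finset V → ℝ) : ∑ q ∈ C4 H M, φ q.2.1 = ∑ q ∈ C4 H M, φ q.1 := by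
  refine Finset.sum_nbij' (fun q => (q.2.1, q.2.2.1, q.2.2.2, q.1))
    (fun q => (q.2.2.2, q.1, q.2.1, q.2.2.1)) ?_ ?_ ?_ ?_ ?_
  · intro q hq
    rw [mem_C4] at hq ⊢
    simp only
    obtain ⟨⟨hA, hB, hC, hE⟩, hAB, hBC, hCE, hEA, hAC, hBE⟩ := hq
    exact ⟨⟨hB, hC, hE, hA⟩, hBC, hCE, hEA, hAB, hBE, hAC.symm⟩
  · intro q hq
    rw [mem_C4] at hq ⊢
    simp only
    obtain ⟨⟨hA, hB, hC, hE⟩, hAB, hBC, hCE, hEA, hAC, hBE⟩ := hq
    exact ⟨⟨hE, hA, hB, hC⟩, hEA, hAB, hBC, hCE, hBE.symm, hAC⟩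
  · intro q _
    rfl
  · intro q _
    rfl
  · intro q _
    rfl

theorem C4_rot2 (φ : Finset V → ℝ) : ∑ q ∈ C4 H M, φ q.2.2.1 = ∑ q ∈ C4 H M, φ q.1 := by
  refine Finset.sum_nbij' (fun q => (q.2.2.1, q.2.2.2, q.1, q.2.1))
    (fun q => (q.2.2.1, q.2.2.2, q.1, q.2.1)) ?_ ?_ ?_ ?_ ?_
  · intro q hq
    rw [mem_C4] at hq ⊢
    simp only
    obtain ⟨⟨hA, hB, hC, hE⟩, hAB, hBC, hCE, hEA, hAC, hBE⟩ := hq
    exact ⟨⟨hC, hE, hA, hB⟩, hCE, hEA, hAB, hBC, hAC.symm, hBE.symm⟩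
  · intro q hq
    rw [mem_C4] at hq ⊢
    simp only
    obtain ⟨⟨hA, hB, hC, hE⟩, hAB, hBC, hCE, hEA, hAC, hBE⟩ := hq
    exact ⟨⟨hC, hE, hA, hB⟩, hCE, hEA, hAB, hBC, hAC.symm, hBE.symm⟩
  · intro q _
    rfl
  · intro q _
    rfl
  · intro q _
    rfl

theorem C4_rot3 (φ : Finset V → ℝ) : ∑ q ∈ C4 H M, φ q.2.2.2 = ∑ q ∈ C4 H M, φ q.1 := by
  refine Finset.sum_nbij' (fun q => (q.2.2.2, q.1, q.2.1, q.2.2.1))
    (fun q => (q.2.1, q.2.2.1, q.2.2.2, q.1)) ?_ ?_ ?_ ?_ ?_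
  · intro q hq
    rw [mem_C4] at hq ⊢
    simp only
    obtain ⟨⟨hA, hB, hC, hE⟩, hAB, hBC, hCE, hEA, hAC, hBE⟩ := hq
    exact ⟨⟨hE, hA, hB, hC⟩, hEA, hAB, hBC, hCE, hBE.symm, hAC⟩
  · intro q hq
    rw [mem_C4] at hq ⊢
    simp only
    obtain ⟨⟨hA, hB, hC, hE⟩, hAB, hBC, hCE, hEA, hAC, hBE⟩ := hq
    exact ⟨⟨hB, hC, hE, hA⟩, hBC, hCE, hEA, hAB, hBE, hAC.symm⟩
  · intro q _
    rfl
  · intro q _
    rfl
  · intro q _
    rfl

/-- sums of a nonnegative vertex function over the 8 vertices -/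
theorem C4_vertex_sum (hH : IsLin3 H) {ψ : V → ℝ} (hψ : ∀ x ∈ M, 0 ≤ ψ x) :
    ∑ q ∈ C4 H M, ∑ x ∈ q.1 ∪ q.2.1 ∪ q.2.2.1 ∪ q.2.2.2, ψ x ≤
      36 * ∑ T ∈ sub H M, (∑ x ∈ T, ψ x) * (sT H M T : ℝ) ^ 2 := by
  have hu : ∀ A B : Finset V, A ⊆ M → B ⊆ M → ∑ x ∈ A ∪ B, ψ x ≤ ∑ x ∈ A, ψ x + ∑ x ∈ B, ψ x := by
    intro A B hA hB
    rw [← Finset.sum_union_inter]
    have : 0 ≤ ∑ x ∈ A ∩ B, ψ x :=
      Finset.sum_nonneg fun x hx => hψ x (hA (mem_inter.1 hx).1)
    linarith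
  have h1 : ∀ q ∈ C4 H M, ∑ x ∈ q.1 ∪ q.2.1 ∪ q.2.2.1 ∪ q.2.2.2, ψ x ≤
      ∑ x ∈ q.1, ψ x + ∑ x ∈ q.2.1, ψ x + ∑ x ∈ q.2.2.1, ψ x + ∑ x ∈ q.2.2.2, ψ x := by
    intro q hq
    rw [mem_C4] at hq
    obtain ⟨⟨hA, hB, hC, hE⟩, _⟩ := hq
    have sA := (mem_sub.1 hA).2
    have sB := (mem_sub.1 hB).2
    have sC := (mem_sub.1 hC).2
    have sE := (mem_sub.1 hE).2
    have i1 := hu _ _ (union_subset (union_subset sA sB) sC) sE
    have i2 := hu _ _ (union_subset sA sB) sC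
    have i3 := hu _ _ sA sB
    linarith
  refine (Finset.sum_le_sum h1).trans ?_
  rw [Finset.sum_add_distrib, Finset.sum_add_distrib, Finset.sum_add_distrib,
    C4_rot (fun T => ∑ x ∈ T, ψ x), C4_rot2 (fun T => ∑ x ∈ T, ψ x),
    C4_rot3 (fun T => ∑ x ∈ T, ψ x)]
  have h2 := C4_completions hH (φ := fun T => ∑ x ∈ T, ψ x)
    (fun T hT => Finset.sum_nonneg fun x hx => hψ x ((mem_sub.1 hT).2 hx))
  linarith

/-- crude bound (used for the initial state) -/
theorem Th_le (hH : IsLin3 H) {Δ : ℝ} (hΔ : ∀ x ∈ M, (deg H M x : ℝ) ≤ Δ) :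
    Th H M ≤ 81 * Δ ^ 2 * (sub H M).card := by
  have h1 := C4_completions hH (H := H) (M := M) (φ := fun _ => (1 : ℝ)) (fun _ _ => zero_le_one)
  have h2 : Th H M = ∑ q ∈ C4 H M, (1 : ℝ) := by
    rw [Th, Finset.sum_const, nsmul_eq_mul, mul_one]
  rw [h2]
  refine h1.trans ?_
  have h3 : ∀ T ∈ sub H M, (1 : ℝ) * (sT H M T : ℝ) ^ 2 ≤ 9 * Δ ^ 2 := by
    intro T hT
    have h4 : (sT H M T : ℝ) ≤ 3 * Δ := by
      unfold sT
      push_cast
      calc ∑ x ∈ T, (deg H M x : ℝ) ≤ ∑ _x ∈ T, Δ :=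
            Finset.sum_le_sum fun x hx => hΔ x ((mem_sub.1 hT).2 hx)
        _ = 3 * Δ := by
            rw [Finset.sum_const, nsmul_eq_mul, hH.card3 T (mem_sub.1 hT).1]
            norm_num
    have h5 : (0 : ℝ) ≤ (sT H M T : ℝ) := Nat.cast_nonneg _
    nlinarith
  have h4 := Finset.sum_le_sum h3
  rw [Finset.sum_const, nsmul_eq_mul] at h4
  linarith

end Vale.Agent.P046LF
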