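import Vale.Agent.P046.Potential2

/-!
P046 log-free: definitions (see notes/P046_logfree.md on main).
-/

namespace Vale.Agent.P046LF

open Finset Vale.Agent.P046

noncomputable section

/-- the energy density `f` -/
def ff (x : ℝ) : ℝ := if x ≤ 0 then 1 else Hf x 1

/-- its derivative -/
def fd (x : ℝ) : ℝ := if x ≤ 0 then 0 else Hd x 1

/-- truncated `1/x` -/
def gg (x : ℝ) : ℝ := if x ≤ 1 / 10 then 10 else 1 / x

/-- the heavy tail function -/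
def tt (θ : ℝ) : ℝ := max (θ ^ 8 - (7 / 4) ^ 8) 0

/-- error density -/
def ee (u θ ν : ℝ) : ℝ :=
  u ^ 3 * ff (θ - ν) + u ^ 3 * ((1 + θ) * tt θ) + u ^ 15 * ((1 + θ) * ν ^ 8) + 1 / u

variable {V : Type} [DecidableEq V]

/-- adjacency operator: `∑_{z ~ y} N z` -/
def SN (H : Finset (Finset V)) (M : Finset V) (N : V → ℝ) (y : V) : ℝ :=
  ∑ T ∈ sub H M with y ∈ T, (∑ z ∈ T, N z - N y)

/-- `b_y = ∑_{z ~ y} a_z` -/
def bb (H : Finset (Finset V)) (M : Finset V) (y : V) : ℝ := SN H M (fun z => (deg H M z : ℝ)) y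

/-- expected loss `c_y` -/
def cd (H : Finset (Finset V)) (M : Finset V) (y : V) : ℝ :=
  (bb H M y - 2 * deg H M y) / (sub H M).card

def ZZ (H : Finset (Finset V)) (M : Finset V) (N : V → ℝ) : ℝ := ∑ y ∈ M, SN H M N y ^ 2

def WW (H : Finset (Finset V)) (M : Finset V) (N : V → ℝ) (D : ℝ) : ℝ :=
  ∑ x ∈ M, ff ((deg H M x : ℝ) / D - N x)

def TT (H : Finset (Finset V)) (M : Finset V) (D : ℝ) : ℝ := ∑ x ∈ M, tt ((deg H M x : ℝ) / D)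

def M8 (M : Finset V) (N : V → ℝ) : ℝ := ∑ x ∈ M, N x ^ 8

def EE (H : Finset (Finset V)) (M : Finset V) (N : V → ℝ) (D u : ℝ) : ℝ :=
  ∑ x ∈ M, ee u ((deg H M x : ℝ) / D) (N x)

/-- induced 4-cycles `(A, B, C, E)` of triples: `A∩B, B∩C, C∩E, E∩A ≠ ∅`, `A∩C = B∩E = ∅` -/
def C4 (H : Finset (Finset V)) (M : Finset V) :
    Finset (Finset V × Finset V × Finset V × Finset V) :=
  (sub H M ×ˢ sub H M ×ˢ sub H M ×ˢ sub H M).filter fun q =>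
    ¬ Disjoint q.1 q.2.1 ∧ ¬ Disjoint q.2.1 q.2.2.1 ∧ ¬ Disjoint q.2.2.1 q.2.2.2 ∧
      ¬ Disjoint q.2.2.2 q.1 ∧ Disjoint q.1 q.2.2.1 ∧ Disjoint q.2.1 q.2.2.2

def Th (H : Finset (Finset V)) (M : Finset V) : ℝ := ((C4 H M).card : ℝ)

/-- number of 2-paths from `x` to `y` -/
def P2 (H : Finset (Finset V)) (M : Finset V) (x y : V) : ℕ :=
  ((sub H M ×ˢ sub H M).filter fun q =>
    x ∈ q.1 ∧ x ∉ q.2 ∧ y ∈ q.2 ∧ y ∉ q.1 ∧ ¬ Disjoint q.1 q.2).card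

/-- the update of the auxiliary function `N` when the triple `T` is removed -/
def Nup (H : Finset (Finset V)) (M : Finset V) (N : V → ℝ) (D' : ℝ) (T : Finset V) : V → ℝ :=
  fun y => if |N y| < 1 / 8 then N y - ((dl H M T y : ℝ) - cd H M y) / D' else N y

/-- a good state together with the parameters of the next one. `D` is the reference degree,
`S' , D'` the next values of the auxiliary number and of the reference degree. -/
structure GS (H : Finset (Finset V)) (M : Finset V) (N : V → ℝ) (κ S S' m Q u D D' K : ℝ) :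
    Prop where
  lin : IsLin3 H
  hm : (M.card : ℝ) = m
  hQ : ((sub H M).card : ℝ) = Q
  hκ : 0 < κ
  hu : 1000 ≤ u
  hu4 : u ^ 4 = κ * m ^ 2
  hum : u ^ 6 ≤ m
  hdeg : ∀ x ∈ M, (deg H M x : ℝ) * u ^ 2 ≤ m
  hN : ∀ x ∈ M, |N x| ≤ 1 / 4
  hS0 : 0 ≤ S
  hS1 : S ≤ 1 / 16
  hS' : S' = S + (S2 H M - m * (3 * Q / m) ^ 2) / (Q * Qh κ (m - 3))
  hD : D = κ * (m - 3) * (m - 6) * (1 - S)
  hD' : D' = κ * (m - 6) * (m - 9) * (1 - S')
  hZ : |Q / Qh κ m + S - 1| ≤ 1 / u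
  hK1 : 1 ≤ K
  hK : K ≤ u ^ 3
  hF : u ^ 4 * WW H M N D ≤ K * m

/-- auxiliary error densities -/
def e2 (u θ ν : ℝ) : ℝ := (ff (θ - ν) + tt θ) / u ^ 2 + u ^ 10 * ν ^ 8 + 1 / u ^ 6

def e3 (u θ ν : ℝ) : ℝ := u ^ 2 * tt θ + u ^ 14 * ν ^ 8 + 1 / u ^ 2

/-- the small errors in the step for `W` -/
def errW (H : Finset (Finset V)) (M : Finset V) (N : V → ℝ) (Q D D' : ℝ) : ℝ :=
  (D / D' - 1) * ∑ T ∈ sub H M, ∑ y ∈ T, ∑ z ∈ T,
      |fd ((deg H M y : ℝ) / D - N y)| * |(deg H M z : ℝ) / D - N z| +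
    2 * (D / D') * ∑ x ∈ M, (deg H M x : ℝ) / D * |fd ((deg H M x : ℝ) / D - N x)| +
    (D / D' - 1) * ∑ x ∈ M, (deg H M x : ℝ) *
      ((deg H M x : ℝ) / D * |fd ((deg H M x : ℝ) / D - N x)|) +
    1 / D' * ∑ x ∈ M, (deg H M x : ℝ) * cd H M x * |fd ((deg H M x : ℝ) / D - N x)| +
    Q * ∑ x ∈ M, (6 * (D / D' - 1) ^ 2 * ((deg H M x : ℝ) / D) ^ 2 + 6 * cd H M x ^ 2 / D' ^ 2) +
    18 / D' ^ 2 * ∑ x ∈ M with 1 / 8 ≤ |N x|, bb H M x

/-! ### Auxiliary pieces of the step for `Z` -/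

/-- lost part -/
def LL (H : Finset (Finset V)) (M : Finset V) (N : V → ℝ) (T : Finset V) (y : V) : ℝ :=
  ∑ T' ∈ sub H M with y ∈ T' ∧ ¬ Disjoint T' T, (∑ z ∈ T', N z - N y)

/-- change of `N` -/
def dN (H : Finset (Finset V)) (M : Finset V) (N : V → ℝ) (D' : ℝ) (T : Finset V) (y : V) : ℝ :=
  Nup H M N D' T y - N y

/-- noise part -/
def GG (H : Finset (Finset V)) (M : Finset V) (N : V → ℝ) (D' : ℝ) (T : Finset V) (y : V) : ℝ :=
  ∑ T' ∈ sub H M with y ∈ T' ∧ Disjoint T' T, (∑ z ∈ T', dN H M N D' T z - dN H M N D' T y)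

end

end Vale.Agent.P046LF
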