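import Vale.Agent.P046.Lower6

/-!
Expectation of a function of the final state of the random greedy matching.
-/

namespace Vale.Agent.P046LF

open Finset Vale.Agent.P046 MeasureTheory

section

variable {V : Type*} [DecidableEq V] {H : Finset (Finset V)} {M : Finset V}

/-- expectation of `φ` of the state after at most `k` steps (the process stops when there is no
triple left) -/
noncomputable def EX (H : Finset (Finset V)) (φ : Finset V → ℝ) : ℕ → Finset V → ℝ
  | 0, M => φ M
  | k + 1, M => if sub H M = ∅ then φ M else
      (∑ T ∈ sub H M, EX H φ k (M \ T)) / ((sub H M).card : ℝ)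

theorem EX_mono {φ ψ : Finset V → ℝ} (h : ∀ M, φ M ≤ ψ M) (k : ℕ) (M : Finset V) :
    EX H φ k M ≤ EX H ψ k M := by
  induction k generalizing M with
  | zero => exact h M
  | succ k ih =>
    unfold EX
    split_ifs with hs
    · exact h M
    · exact div_le_div_of_nonneg_right (sum_le_sum fun T _ => ih _) (Nat.cast_nonneg _)

theorem EX_add (φ ψ : Finset V → ℝ) (k : ℕ) (M : Finset V) :
    EX H (fun M => φ M + ψ M) k M = EX H φ k M + EX H ψ k M := by
  induction k generalizing M with
  | zero => rfl
  | succ k ih =>
    unfold EX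
    split_ifs with hs
    · rfl
    · rw [← add_div, ← sum_add_distrib]
      congr 1
      exact sum_congr rfl fun T _ => ih _

theorem EX_mul (c : ℝ) (φ : Finset V → ℝ) (k : ℕ) (M : Finset V) :
    EX H (fun M => c * φ M) k M = c * EX H φ k M := by
  induction k generalizing M with
  | zero => rfl
  | succ k ih =>
    unfold EX
    split_ifs with hs
    · rfl
    · rw [← mul_div_assoc, mul_sum]
      congr 1
      exact sum_congr rfl fun T _ => ih _

theorem EX_const (c : ℝ) (k : ℕ) (M : Finset V) : EX H (fun _ => c) k M = c := by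
  induction k generalizing M with
  | zero => rfl
  | succ k ih =>
    unfold EX
    split_ifs with hs
    · rfl
    · rw [sum_congr rfl fun T _ => ih _, sum_const, nsmul_eq_mul]
      have : ((sub H M).card : ℝ) ≠ 0 := by
        exact_mod_cast (card_pos.2 (nonempty_iff_ne_empty.2 hs)).ne'
      field_simp

theorem EX_card (k : ℕ) (M : Finset V) : EX H (fun M => (M.card : ℝ)) k M = EFv H k M := by
  induction k generalizing M with
  | zero => rfl
  | succ k ih =>
    unfold EX EFv
    split_ifs with hs
    · rfl
    · congr 1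
      exact sum_congr rfl fun T _ => ih _

/-- composition: a bound for the last `k'` steps gives a bound for all -/
theorem EX_cost (hH : IsLin3 H) {g φ : Finset V → ℝ} {L : ℝ} {μN k' : ℕ}
    (hφ1 : ∀ M, φ M ≤ 1) (hg : ∀ M : Finset V, M.card = μN → EX H φ k' M ≤ g M + L) (hL : 0 ≤ L)
    (k1 : ℕ) :
    ∀ M : Finset V, M.card = μN + 3 * k1 → EX H φ (k' + k1) M ≤ cost H g k1 M + L := by
  induction k1 with
  | zero =>
    intro M hM
    exact hg M (by omega)
  | succ k ih =>
    intro M hM
    rw [← Nat.add_assoc]
    unfold EX cost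
    split_ifs with hs
    · have := hφ1 M
      linarith
    · have hc : (0 : ℝ) < (sub H M).card := by
        exact_mod_cast card_pos.2 (nonempty_iff_ne_empty.2 hs)
      rw [div_add' _ _ _ hc.ne', div_le_div_iff_of_pos_right hc]
      calc ∑ T ∈ sub H M, EX H φ (k' + k) (M \ T)
          ≤ ∑ T ∈ sub H M, (cost H g k (M \ T) + L) := by
            refine sum_le_sum fun T hT => ih (M \ T) ?_
            have := card_sdiff_of_mem hH hT
            omega
        _ = _ := by rw [sum_add_distrib, sum_const, nsmul_eq_mul]; ring

end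

section law

variable {n : ℕ}

open Classical in
theorem sum_triRun (φ : Finset (Sym2 (Fin n)) → ℝ) (K : ℕ) : ∀ G : SimpleGraph (Fin n),
    ∑ G' : SimpleGraph (Fin n), ((triRun K G) G').toReal * φ (EF G') =
      EX (Hn n) φ K (EF G) := by
  induction K with
  | zero =>
    intro G
    rw [triRun, Finset.sum_eq_single G]
    · rw [PMF.pure_apply, if_pos rfl, ENNReal.toReal_one, one_mul]
      rfl
    · intro G' _ hG'
      rw [PMF.pure_apply, if_neg hG', ENNReal.toReal_zero, zero_mul]
    · intro h; exact absurd (mem_univ _) h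
  | succ K ih =>
    intro G
    by_cases hne : (G.cliqueFinset 3).Nonempty
    · have hsub : sub (Hn n) (EF G) ≠ ∅ := by
        rw [sub_Hn]
        exact (hne.image _).ne_empty
      have hinj : Set.InjOn Es (G.cliqueFinset 3 : Set (Finset (Fin n))) := by
        intro s hs t ht hst
        rw [mem_coe, SimpleGraph.mem_cliqueFinset_iff, SimpleGraph.isNClique_iff] at hs ht
        exact Es_inj hs.2 ht.2 hst
      have hcard : (sub (Hn n) (EF G)).card = (G.cliqueFinset 3).card := by
        rw [sub_Hn, card_image_of_injOn hinj]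
      rw [EX, if_neg hsub, hcard]
      have hsum : ∑ T ∈ sub (Hn n) (EF G), EX (Hn n) φ K (EF G \ T) =
          ∑ t ∈ G.cliqueFinset 3, EX (Hn n) φ K (EF G \ Es t) := by
        rw [sub_Hn, sum_image hinj]
      rw [hsum, triRun, triStep, dif_pos hne, PMF.bind_map]
      have h1 : ∀ G' : SimpleGraph (Fin n),
          (((PMF.uniformOfFinset (G.cliqueFinset 3) hne).bind
            (triRun K ∘ fun t => G.deleteEdges {e | ∀ v ∈ e, v ∈ t})) G').toReal =
          ∑ t ∈ G.cliqueFinset 3, ((G.cliqueFinset 3).card : ℝ)⁻¹ *
            ((triRun K (G.deleteEdges {e | ∀ v ∈ e, v ∈ t})) G').toReal := by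
        intro G'
        rw [PMF.bind_apply, tsum_eq_sum (s := G.cliqueFinset 3)]
        · rw [ENNReal.toReal_sum]
          · refine sum_congr rfl fun t ht => ?_
            rw [PMF.uniformOfFinset_apply_of_mem _ ht, ENNReal.toReal_mul, ENNReal.toReal_inv,
              ENNReal.toReal_natCast, Function.comp_apply]
          · intro t ht
            exact ENNReal.mul_ne_top (PMF.apply_ne_top _ _) (PMF.apply_ne_top _ _)
        · intro t ht
          rw [PMF.uniformOfFinset_apply_of_notMem _ ht, zero_mul]
      simp only [h1, sum_mul]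
      rw [sum_comm, sum_div]
      refine sum_congr rfl fun t ht => ?_
      have h2 := ih (G.deleteEdges {e | ∀ v ∈ e, v ∈ t})
      rw [edgeFinset_delete] at h2
      simp only [mul_assoc]
      rw [← mul_sum, h2, div_eq_inv_mul]
    · have hsub : sub (Hn n) (EF G) = ∅ := by
        rw [sub_Hn, not_nonempty_iff_eq_empty.1 hne, image_empty]
      have h0 : EX (Hn n) φ K (EF G) = φ (EF G) := by
        cases K with
        | zero => rfl
        | succ K => rw [EX, if_pos hsub]
      rw [triRun, triStep, dif_neg hne, PMF.pure_bind, ih, EX, if_pos hsub, h0]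

open Classical in
/-- the law of `F_n` (adapt `P046.tsum_EFv`, `P046.integral_finalEdges`) -/
theorem integral_EX (n : ℕ) (f : ℕ → ℝ) :
    ∫ k, f k ∂(finalEdges n).toMeasure =
      EX (Hn n) (fun M => f M.card) (n ^ 2) (EF (⊤ : SimpleGraph (Fin n))) := by
  letI : MeasurableSpace (SimpleGraph (Fin n)) := ⊤
  have hm : Measurable (fun G : SimpleGraph (Fin n) => G.edgeSet.ncard) := fun s _ => trivial
  rw [finalEdges, ← PMF.toMeasure_map _ _ hm,
    integral_map hm.aemeasurable (Measurable.of_discrete.aestronglyMeasurable),
    PMF.integral_eq_sum, finalGraph, ← sum_triRun]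
  refine sum_congr rfl fun G' _ => ?_
  rw [smul_eq_mul, ncard_eq]

theorem measure_EX (n : ℕ) (s : Set ℕ) :
    ((finalEdges n).toMeasure s).toReal =
      EX (Hn n) (fun M => s.indicator (fun _ => (1 : ℝ)) M.card) (n ^ 2)
        (EF (⊤ : SimpleGraph (Fin n))) := by
  rw [← integral_EX n (s.indicator fun _ => (1 : ℝ)), integral_indicator MeasurableSet.of_discrete,
    integral_const]
  simp [Measure.real]

end law

end Vale.Agent.P046LF
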