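import Vale.Agent.P046LF.Defs

/-!
P046 log-free, module FINF: properties of `ff`, `fd`, `gg`, `tt` (one-variable functions) and the
three-variable inequality.
-/

namespace Vale.Agent.P046LF

open Finset Vale.Agent.P046

theorem fi_ff_N {x : ℝ} (h : x ≤ 0) : ff x = 1 := by unfold ff; rw [if_pos h]

theorem fi_fd_N {x : ℝ} (h : x ≤ 0) : fd x = 0 := by unfold fd; rw [if_pos h]

theorem fi_ff_M {x : ℝ} (h0 : 0 ≤ x) (h1 : x ≤ 1) : ff x = 2 * x ^ 3 - 3 * x ^ 2 + 1 := by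
  unfold ff Hf HL
  by_cases h : x ≤ 0
  · have : x = 0 := le_antisymm h h0
    rw [if_pos h, this]; norm_num
  · rw [if_neg h, if_pos h1]; ring

theorem fi_fd_M {x : ℝ} (h0 : 0 ≤ x) (h1 : x ≤ 1) : fd x = 6 * x ^ 2 - 6 * x := by
  unfold fd Hd
  by_cases h : x ≤ 0
  · have : x = 0 := le_antisymm h h0
    rw [if_pos h, this]; norm_num
  · rw [if_neg h, if_pos h1]; ring

theorem fi_ff_R {x : ℝ} (h1 : 1 ≤ x) : ff x = x ^ 2 + 2 / x - 3 := by
  rcases eq_or_lt_of_le h1 with h | h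
  · rw [← h, fi_ff_M zero_le_one le_rfl]; norm_num
  · unfold ff Hf HR
    rw [if_neg (by linarith), if_neg (by linarith)]; ring

theorem fi_fd_R {x : ℝ} (h1 : 1 ≤ x) : fd x = 2 * x - 2 / x ^ 2 := by
  rcases eq_or_lt_of_le h1 with h | h
  · rw [← h, fi_fd_M zero_le_one le_rfl]; norm_num
  · unfold fd Hd
    rw [if_neg (by linarith), if_neg (by linarith)]; ring

theorem fi_ff_R' {x : ℝ} (h1 : 1 ≤ x) : ff x = (x - 1) ^ 2 * (x + 2) / x := by
  have h0 : 0 < x := by linarith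
  rw [fi_ff_R h1]; field_simp; ring

theorem fi_fd_R' {x : ℝ} (h1 : 1 ≤ x) : fd x = 2 * (x - 1) * (x ^ 2 + x + 1) / x ^ 2 := by
  have h0 : 0 < x := by linarith
  rw [fi_fd_R h1]; field_simp; ring

theorem ff_nonneg (x : ℝ) : 0 ≤ ff x := by
  rcases le_total x 0 with h | h
  · rw [fi_ff_N h]; norm_num
  rcases le_total x 1 with h1 | h1
  · rw [fi_ff_M h h1]
    have e : 2 * x ^ 3 - 3 * x ^ 2 + 1 = (1 - x) ^ 2 * (1 + 2 * x) := by ring
    rw [e]; positivity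
  · rw [fi_ff_R' h1]
    have h0 : 0 < x := by linarith
    positivity

theorem fd_sq_le (x : ℝ) : fd x ^ 2 ≤ 12 * ff x := by
  rcases le_total x 0 with h | h
  · rw [fi_ff_N h, fi_fd_N h]; norm_num
  rcases le_total x 1 with h1 | h1
  · rw [fi_ff_M h h1, fi_fd_M h h1]
    have e : 12 * (2 * x ^ 3 - 3 * x ^ 2 + 1) - (6 * x ^ 2 - 6 * x) ^ 2 =
        12 * (1 - x) ^ 2 * ((1 - x) * (1 + 3 * x)) := by ring
    have h2 : 0 ≤ 1 - x := by linarith
    have : 0 ≤ 12 * (1 - x) ^ 2 * ((1 - x) * (1 + 3 * x)) := by positivity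
    linarith
  · have h0 : 0 < x := by linarith
    rw [fi_ff_R' h1, fi_fd_R' h1]
    obtain ⟨t, ht, rfl⟩ : ∃ t : ℝ, 0 ≤ t ∧ x = 1 + t := ⟨x - 1, by linarith, by ring⟩
    have e : 12 * ((1 + t - 1) ^ 2 * (1 + t + 2) / (1 + t)) -
        (2 * (1 + t - 1) * ((1 + t) ^ 2 + (1 + t) + 1) / (1 + t) ^ 2) ^ 2 =
        4 * t ^ 2 * (12 * t + 21 * t ^ 2 + 12 * t ^ 3 + 2 * t ^ 4) / (1 + t) ^ 4 := by
      field_simp; ring
    have : 0 ≤ 4 * t ^ 2 * (12 * t + 21 * t ^ 2 + 12 * t ^ 3 + 2 * t ^ 4) / (1 + t) ^ 4 := by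
      positivity
    linarith

theorem sq_le_ff' {x : ℝ} (hx : 0 ≤ x) : (x - 1) ^ 2 ≤ ff x := by
  rcases le_total x 1 with h1 | h1
  · rw [fi_ff_M hx h1]
    nlinarith [mul_nonneg hx (sq_nonneg (1 - x))]
  · have h0 : 0 < x := by linarith
    rw [fi_ff_R' h1, le_div_iff₀ h0]
    nlinarith [sq_nonneg (x - 1)]

theorem sq_le_ff {x : ℝ} (hx : -1 / 4 ≤ x) : (x - 1) ^ 2 ≤ 2 * ff x := by
  rcases le_total x 0 with h | h
  · rw [fi_ff_N h]; nlinarith
  · have := sq_le_ff' h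
    have := ff_nonneg x
    linarith

theorem ff_le (x : ℝ) : ff x ≤ 1 + x ^ 2 := by
  rcases le_total x 0 with h | h
  · rw [fi_ff_N h]; nlinarith [sq_nonneg x]
  rcases le_total x 1 with h1 | h1
  · rw [fi_ff_M h h1]
    nlinarith [mul_nonneg (sq_nonneg x) (by linarith : (0 : ℝ) ≤ 1 - x)]
  · have h0 : 0 < x := by linarith
    rw [fi_ff_R h1]
    have : 2 / x ≤ 4 := by rw [div_le_iff₀ h0]; linarith
    linarith

theorem ff_le_sq {x : ℝ} (hx : 1 ≤ x) : ff x ≤ x ^ 2 := by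
  have h0 : 0 < x := by linarith
  rw [fi_ff_R hx]
  have : 2 / x ≤ 3 := by rw [div_le_iff₀ h0]; linarith
  linarith

theorem abs_fd_le (x : ℝ) : |fd x| ≤ 2 + 2 * |x| := by
  rcases le_total x 0 with h | h
  · rw [fi_fd_N h, abs_zero]; positivity
  rcases le_total x 1 with h1 | h1
  · rw [fi_fd_M h h1, abs_of_nonneg h, abs_le]
    constructor <;> nlinarith [sq_nonneg (x - 1 / 2)]
  · have h0 : 0 < x := by linarith
    rw [fi_fd_R h1, abs_of_nonneg h, abs_le]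
    have h2 : 0 < 2 / x ^ 2 := by positivity
    have h3 : 2 / x ^ 2 ≤ 2 := by rw [div_le_iff₀ (by positivity)]; nlinarith
    constructor <;> linarith

theorem fi_taylor (a b : ℝ) : ff b ≤ ff a + fd a * (b - a) + 3 * (b - a) ^ 2 := by
  rcases le_total a 0 with ha | ha
  · rw [fi_ff_N ha, fi_fd_N ha]
    rcases le_total b 0 with hb | hb
    · rw [fi_ff_N hb]; nlinarith [sq_nonneg (b - a)]
    · have h1 := ff_le b
      have h2 : b ^ 2 ≤ (b - a) ^ 2 := pow_le_pow_left₀ hb (by linarith) 2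
      nlinarith [sq_nonneg (b - a)]
  rcases le_total a 1 with ha1 | ha1
  · rw [fi_ff_M ha ha1, fi_fd_M ha ha1]
    obtain ⟨t, ht, rfl⟩ : ∃ t : ℝ, 0 ≤ t ∧ a = 1 - t := ⟨1 - a, by linarith, by ring⟩
    rcases le_total b 0 with hb | hb
    · rw [fi_ff_N hb]
      obtain ⟨c, hc, rfl⟩ : ∃ c : ℝ, 0 ≤ c ∧ b = -c := ⟨-b, by linarith, by ring⟩
      have e : 2 * (1 - t) ^ 3 - 3 * (1 - t) ^ 2 + 1 + (6 * (1 - t) ^ 2 - 6 * (1 - t)) * (-c - (1 - t)) +
          3 * (-c - (1 - t)) ^ 2 - 1 =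
          (1 - t) ^ 2 * (2 + 4 * t) + 6 * (1 - t) * t * c + 3 * c ^ 2 + 6 * (1 - t) * c := by
        ring
      have : 0 ≤ (1 - t) ^ 2 * (2 + 4 * t) + 6 * (1 - t) * t * c + 3 * c ^ 2 + 6 * (1 - t) * c := by
        positivity
      linarith
    rcases le_total b 1 with hb1 | hb1
    · rw [fi_ff_M hb hb1]
      have e : 2 * (1 - t) ^ 3 - 3 * (1 - t) ^ 2 + 1 + (6 * (1 - t) ^ 2 - 6 * (1 - t)) * (b - (1 - t)) +
          3 * (b - (1 - t)) ^ 2 - (2 * b ^ 3 - 3 * b ^ 2 + 1) =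
          2 * (b - (1 - t)) ^ 2 * (2 * t + (1 - b)) := by ring
      have h1 : 0 ≤ 1 - b := by linarith
      have : 0 ≤ 2 * (b - (1 - t)) ^ 2 * (2 * t + (1 - b)) := by positivity
      linarith
    · rw [fi_ff_R hb1]
      obtain ⟨s, hs, rfl⟩ : ∃ s : ℝ, 0 ≤ s ∧ b = 1 + s := ⟨b - 1, by linarith, by ring⟩
      have e : 2 * (1 - t) ^ 3 - 3 * (1 - t) ^ 2 + 1 +
          (6 * (1 - t) ^ 2 - 6 * (1 - t)) * (1 + s - (1 - t)) +
          3 * (1 + s - (1 - t)) ^ 2 - ((1 + s) ^ 2 + 2 / (1 + s) - 3) =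
          (2 * s ^ 3 + 6 * (1 + s) * s * t ^ 2 + 4 * (1 + s) * t ^ 3) / (1 + s) := by
        field_simp; ring
      have : 0 ≤ (2 * s ^ 3 + 6 * (1 + s) * s * t ^ 2 + 4 * (1 + s) * t ^ 3) / (1 + s) := by
        positivity
      linarith
  · rw [fi_ff_R ha1, fi_fd_R ha1]
    obtain ⟨t, ht, rfl⟩ : ∃ t : ℝ, 0 ≤ t ∧ a = 1 + t := ⟨a - 1, by linarith, by ring⟩
    rcases le_total b 0 with hb | hb
    · rw [fi_ff_N hb]
      obtain ⟨c, hc, rfl⟩ : ∃ c : ℝ, 0 ≤ c ∧ b = -c := ⟨-b, by linarith, by ring⟩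
      have e : (1 + t) ^ 2 + 2 / (1 + t) - 3 + (2 * (1 + t) - 2 / (1 + t) ^ 2) * (-c - (1 + t)) +
          3 * (-c - (1 + t)) ^ 2 - 1 =
          (2 * (1 + t) * (1 + 2 * t + t ^ 2) * t + 2 * (1 + t) + 2 * t ^ 2 * (1 + t) + 4 * (1 + t) ^ 3 * c +
            3 * c ^ 2 * (1 + t) ^ 2 + 2 * c) / (1 + t) ^ 2 := by
        field_simp; ring
      have : 0 ≤ (2 * (1 + t) * (1 + 2 * t + t ^ 2) * t + 2 * (1 + t) + 2 * t ^ 2 * (1 + t) + 4 * (1 + t) ^ 3 * c +
            3 * c ^ 2 * (1 + t) ^ 2 + 2 * c) / (1 + t) ^ 2 := by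
        positivity
      linarith
    rcases le_total b 1 with hb1 | hb1
    · rw [fi_ff_M hb hb1]
      obtain ⟨s, hs, rfl⟩ : ∃ s : ℝ, 0 ≤ s ∧ b = 1 - s := ⟨1 - b, by linarith, by ring⟩
      have e : (1 + t) ^ 2 + 2 / (1 + t) - 3 + (2 * (1 + t) - 2 / (1 + t) ^ 2) * ((1 - s) - (1 + t)) +
          3 * ((1 - s) - (1 + t)) ^ 2 - (2 * (1 - s) ^ 3 - 3 * (1 - s) ^ 2 + 1) =
          (2 * t ^ 3 * (2 + t) + 2 * t ^ 2 * (3 + 2 * t) * s + 2 * (1 + t) ^ 2 * s ^ 3) /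
            (1 + t) ^ 2 := by
        field_simp; ring
      have : 0 ≤ (2 * t ^ 3 * (2 + t) + 2 * t ^ 2 * (3 + 2 * t) * s + 2 * (1 + t) ^ 2 * s ^ 3) /
            (1 + t) ^ 2 := by
        positivity
      linarith
    · rw [fi_ff_R hb1]
      obtain ⟨s, hs, rfl⟩ : ∃ s : ℝ, 0 ≤ s ∧ b = 1 + s := ⟨b - 1, by linarith, by ring⟩
      have e : (1 + t) ^ 2 + 2 / (1 + t) - 3 + (2 * (1 + t) - 2 / (1 + t) ^ 2) * ((1 + s) - (1 + t)) +
          3 * ((1 + s) - (1 + t)) ^ 2 - ((1 + s) ^ 2 + 2 / (1 + s) - 3) =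
          2 * (s - t) ^ 2 * ((1 + t) ^ 2 * (1 + s) - 1) / ((1 + t) ^ 2 * (1 + s)) := by
        field_simp; ring
      have h1 : 0 ≤ (1 + t) ^ 2 * (1 + s) - 1 := by
        have : (1 + t) ^ 2 * (1 + s) - 1 = 2 * t + t ^ 2 + s + 2 * t * s + t ^ 2 * s := by ring
        rw [this]; positivity
      have : 0 ≤ 2 * (s - t) ^ 2 * ((1 + t) ^ 2 * (1 + s) - 1) / ((1 + t) ^ 2 * (1 + s)) := by
        positivity
      linarith

/-- Taylor bound (`fd` is 6-Lipschitz) -/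
theorem ff_taylor (x δ : ℝ) : ff (x + δ) ≤ ff x + fd x * δ + 3 * δ ^ 2 := by
  have h := fi_taylor x (x + δ)
  have e : x + δ - x = δ := by ring
  rwa [e] at h

theorem fi_gg_S {x : ℝ} (h : x ≤ 1 / 10) : gg x = 10 := by unfold gg; rw [if_pos h]

theorem fi_gg_L {x : ℝ} (h : 1 / 10 < x) : gg x = 1 / x := by
  unfold gg; rw [if_neg (not_le.2 h)]

theorem gg_nonneg (x : ℝ) : 0 ≤ gg x := by
  rcases le_or_gt x (1 / 10) with h | h
  · rw [fi_gg_S h]; norm_num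
  · rw [fi_gg_L h]
    have : 0 < x := by linarith
    positivity

theorem gg_le (x : ℝ) : gg x ≤ 10 := by
  rcases le_or_gt x (1 / 10) with h | h
  · rw [fi_gg_S h]
  · rw [fi_gg_L h]
    have : 0 < x := by linarith
    rw [div_le_iff₀ this]; linarith

theorem mul_gg_le (x : ℝ) : x * gg x ≤ 1 := by
  rcases le_or_gt x (1 / 10) with h | h
  · rw [fi_gg_S h]; linarith
  · rw [fi_gg_L h]
    have : 0 < x := by linarith
    rw [mul_one_div, div_self this.ne']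

theorem ff_gg_le {x : ℝ} (hx : 1 ≤ x) : ff x * gg x ≤ x := by
  have h0 : 0 < x := by linarith
  rw [fi_gg_L (by linarith), mul_one_div, div_le_iff₀ h0]
  have := ff_le_sq hx
  nlinarith

/-! ### The triple inequality -/

/-- one summand -/
noncomputable def fiB (x s : ℝ) : ℝ := ff x * (1 + gg x) + fd x * (s - 2)

theorem fiB_R {u s : ℝ} (hu : 0 ≤ u) : fiB (1 + u) s = Aone (1 + u) s := by
  have h1 : 1 ≤ 1 + u := by linarith
  rw [Aone_R hu]
  unfold fiB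
  rw [fi_ff_R' h1, fi_fd_R' h1, fi_gg_L (by linarith)]
  have hx : 0 < 1 + u := by linarith
  field_simp
  ring

theorem fiB_L {t s : ℝ} (ht : 0 ≤ t) (ht1 : t ≤ 1) :
    6 * t ^ 2 - t ^ 3 - 6 * t * (1 - t) * (s - 2) ≤ fiB (1 - t) s := by
  have h0 : 0 ≤ 1 - t := by linarith
  have h1 : 1 - t ≤ 1 := by linarith
  unfold fiB
  rw [fi_ff_M h0 h1, fi_fd_M h0 h1]
  have e : 6 * (1 - t) ^ 2 - 6 * (1 - t) = -(6 * t * (1 - t)) := by ring
  have e2 : 2 * (1 - t) ^ 3 - 3 * (1 - t) ^ 2 + 1 = t ^ 2 * (3 - 2 * t) := by ring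
  rw [e, e2]
  have h3 : 6 * t ^ 2 - t ^ 3 ≤ t ^ 2 * (3 - 2 * t) * (1 + gg (1 - t)) := by
    rcases le_or_gt (1 - t) (1 / 10) with h | h
    · rw [fi_gg_S h]
      nlinarith [mul_nonneg (sq_nonneg t) (by linarith : (0 : ℝ) ≤ 27 - 21 * t)]
    · rw [fi_gg_L h]
      have hp : 0 < 1 - t := by linarith
      have e3 : t ^ 2 * (3 - 2 * t) * (1 + 1 / (1 - t)) - (6 * t ^ 2 - t ^ 3) = t ^ 4 / (1 - t) := by
        field_simp; ring
      have : 0 ≤ t ^ 4 / (1 - t) := by positivity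
      linarith
  linarith

theorem fiB_R_nonneg {u s : ℝ} (hu : 0 ≤ u) (hs : 2 ≤ s) : 0 ≤ fiB (1 + u) s := by
  rw [fiB_R hu]; exact Aone_R_nonneg hu hs

theorem fiB_L_nonneg {t s : ℝ} (ht : 0 ≤ t) (ht1 : t ≤ 1) (hs : s ≤ 2) : 0 ≤ fiB (1 - t) s := by
  refine le_trans ?_ (fiB_L ht ht1)
  have h1 : 0 ≤ 1 - t := by linarith
  have h2 : 0 ≤ 2 - s := by linarith
  have h3 : 0 ≤ 6 * t * (1 - t) * (2 - s) := by positivity
  nlinarith [sq_nonneg t]

theorem fi_RLL {u s t : ℝ} (hu : 0 ≤ u) (hs : 0 ≤ s) (hs1 : s ≤ 1) (ht : 0 ≤ t) (ht1 : t ≤ 1) :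
    0 ≤ fiB (1 + u) ((1 - s) + (1 - t)) + fiB (1 - s) ((1 + u) + (1 - t)) +
      fiB (1 - t) ((1 + u) + (1 - s)) := by
  have h1 := fiB_L (s := (1 + u) + (1 - t)) hs hs1
  have h2 := fiB_L (s := (1 + u) + (1 - s)) ht ht1
  rw [fiB_R hu, Aone_R hu]
  have hx : 0 < 1 + u := by linarith
  have hm := K2_nonneg (u := u) (t := (s + t) / 2) hu (by linarith) (by linarith)
  have hd : 0 ≤ (1 + u) ^ 2 * ((s - t) ^ 2 / 4) * (12 * u + 6 * ((s + t) / 2)) := by positivity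
  have e : (u ^ 2 * (u + 3) * (u + 2) / (1 + u) ^ 2 +
      2 * u * (u ^ 2 + 3 * u + 3) / (1 + u) ^ 2 * ((1 - s) + (1 - t) - 2)) +
      (6 * s ^ 2 - s ^ 3 - 6 * s * (1 - s) * ((1 + u) + (1 - t) - 2)) +
      (6 * t ^ 2 - t ^ 3 - 6 * t * (1 - t) * ((1 + u) + (1 - s) - 2)) =
      ((24 * ((s + t) / 2) ^ 2 - 14 * ((s + t) / 2) ^ 3) +
        (-24 * ((s + t) / 2) + 60 * ((s + t) / 2) ^ 2 - 28 * ((s + t) / 2) ^ 3) * u +
      (6 - 36 * ((s + t) / 2) + 48 * ((s + t) / 2) ^ 2 - 14 * ((s + t) / 2) ^ 3) * u ^ 2 +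
      (5 - 16 * ((s + t) / 2) + 12 * ((s + t) / 2) ^ 2) * u ^ 3 + u ^ 4 +
      (1 + u) ^ 2 * ((s - t) ^ 2 / 4) * (12 * u + 6 * ((s + t) / 2))) / (1 + u) ^ 2 := by
    field_simp; ring
  have h3 : 0 ≤ (u ^ 2 * (u + 3) * (u + 2) / (1 + u) ^ 2 +
      2 * u * (u ^ 2 + 3 * u + 3) / (1 + u) ^ 2 * ((1 - s) + (1 - t) - 2)) +
      (6 * s ^ 2 - s ^ 3 - 6 * s * (1 - s) * ((1 + u) + (1 - t) - 2)) +
      (6 * t ^ 2 - t ^ 3 - 6 * t * (1 - t) * ((1 + u) + (1 - s) - 2)) := by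
    rw [e]
    apply div_nonneg _ (by positivity)
    linarith
  linarith

theorem fi_RRL {u v t : ℝ} (hu : 0 ≤ u) (hv : 0 ≤ v) (ht : 0 ≤ t) (ht1 : t ≤ 1) :
    0 ≤ fiB (1 + u) ((1 + v) + (1 - t)) + fiB (1 + v) ((1 + u) + (1 - t)) +
      fiB (1 - t) ((1 + u) + (1 + v)) := by
  have h2 := fiB_L (s := (1 + u) + (1 + v)) ht ht1
  have hx : 0 < 1 + u := by linarith
  have hy : 0 < 1 + v := by linarith
  have hw : 0 < 1 + (u + v) := by linarith
  have e : fiB (1 + u) ((1 + v) + (1 - t)) + fiB (1 + v) ((1 + u) + (1 - t)) +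
      (6 * t ^ 2 - t ^ 3 - 6 * t * (1 - t) * ((1 + u) + (1 + v) - 2)) =
      (u + v - t) * (pp u + pp v - 6 * t * (1 - t)) - (u ^ 3 / (1 + u) + v ^ 3 / (1 + v))
        + 5 * t ^ 3 := by
    rw [fiB_R hu, fiB_R hv, Aone_R hu, Aone_R hv]
    unfold pp
    field_simp; ring
  have h3 : 0 ≤ (u + v - t) * (pp u + pp v - 6 * t * (1 - t)) - (u ^ 3 / (1 + u) + v ^ 3 / (1 + v))
        + 5 * t ^ 3 := by
    have hc := cube_add hu hv
    rcases le_total t (u + v) with h | h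
    · -- w ≥ t
      have hp := pp_add hu hv
      have hJ := J1_nonneg (r := u + v - t) (t := t) (by linarith) ht ht1
      have e2 : (u + v - t) * (pp (u + v) - 6 * t * (1 - t)) - (u + v) ^ 3 / (1 + (u + v)) + 5 * t ^ 3
        = ((u + v - t) * (2 * (t + (u + v - t)) * ((t + (u + v - t)) ^ 2 + 3 * (t + (u + v - t)) + 3)
          - 6 * t * (1 - t) * (1 + t + (u + v - t)) ^ 2)
      - (t + (u + v - t)) ^ 3 * (1 + t + (u + v - t)) + 5 * t ^ 3 * (1 + t + (u + v - t)) ^ 2) /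
        (1 + (u + v)) ^ 2 := by
        unfold pp
        have h5 : t + (u + v - t) = u + v := by ring
        have h6 : 1 + t + (u + v - t) = 1 + (u + v) := by ring
        rw [h5, h6]
        field_simp
      have h7 : 0 ≤ (u + v - t) * (pp (u + v) - 6 * t * (1 - t)) - (u + v) ^ 3 / (1 + (u + v))
          + 5 * t ^ 3 := by
        rw [e2]; exact div_nonneg hJ (by positivity)
      have h8 : (u + v - t) * (pp (u + v) - 6 * t * (1 - t)) ≤
          (u + v - t) * (pp u + pp v - 6 * t * (1 - t)) :=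
        mul_le_mul_of_nonneg_left (by linarith) (by linarith)
      linarith
    · have hc2 : (u + v) ^ 3 / (1 + (u + v)) ≤ t ^ 3 := by
        rw [div_le_iff₀ hw]
        have h5 : (u + v) ^ 3 ≤ t ^ 3 := pow_le_pow_left₀ (by positivity) h 3
        have : 0 ≤ t ^ 3 * (u + v) := by positivity
        nlinarith
      have hpu := pp_le hu
      have hpv := pp_le hv
      have h6 : (t - (u + v)) * (pp u + pp v - 6 * t * (1 - t)) ≤
          (t - (u + v)) * (6 * (u + v) - 6 * t * (1 - t)) :=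
        mul_le_mul_of_nonneg_left (by linarith) (by linarith)
      have h7 : (t - (u + v)) * (6 * (u + v) - 6 * t * (1 - t)) ≤ 3 / 2 * t ^ 4 := by
        nlinarith [sq_nonneg (t - (u + v) - t ^ 2 / 2)]
      have h8 : t ^ 4 ≤ t ^ 3 := by
        have : 0 ≤ t ^ 3 := by positivity
        nlinarith
      have h9 : 0 ≤ t ^ 3 := by positivity
      nlinarith
  linarith

/-- all coordinates nonnegative -/
theorem fi_pos {x y z : ℝ} (hx : 0 ≤ x) (hy : 0 ≤ y) (hz : 0 ≤ z) :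
    0 ≤ fiB x (y + z) + fiB y (x + z) + fiB z (x + y) := by
  have hxe : x = 1 + (x - 1) := by ring
  have hxe' : x = 1 - (1 - x) := by ring
  have hye : y = 1 + (y - 1) := by ring
  have hye' : y = 1 - (1 - y) := by ring
  have hze : z = 1 + (z - 1) := by ring
  have hze' : z = 1 - (1 - z) := by ring
  rcases le_total x 1 with h1 | h1 <;> rcases le_total y 1 with h2 | h2 <;>
    rcases le_total z 1 with h3 | h3
  · -- LLL
    rw [hxe', hye', hze']
    have a1 := fiB_L_nonneg (t := 1 - x) (s := (1 - (1 - y)) + (1 - (1 - z))) (by linarith) (by linarith) (by linarith)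
    have a2 := fiB_L_nonneg (t := 1 - y) (s := (1 - (1 - x)) + (1 - (1 - z))) (by linarith) (by linarith) (by linarith)
    have a3 := fiB_L_nonneg (t := 1 - z) (s := (1 - (1 - x)) + (1 - (1 - y))) (by linarith) (by linarith) (by linarith)
    linarith
  · -- LLR
    have := fi_RLL (u := z - 1) (s := 1 - x) (t := 1 - y) (by linarith) (by linarith) (by linarith) (by linarith) (by linarith)
    rw [← hxe', ← hye', ← hze] at this
    rw [add_comm x z, add_comm y z]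
    linarith
  · -- LRL
    have := fi_RLL (u := y - 1) (s := 1 - x) (t := 1 - z) (by linarith) (by linarith) (by linarith) (by linarith) (by linarith)
    rw [← hxe', ← hze', ← hye] at this
    rw [add_comm x y]
    linarith
  · -- LRR
    have := fi_RRL (u := y - 1) (v := z - 1) (t := 1 - x) (by linarith) (by linarith) (by linarith) (by linarith)
    rw [← hxe', ← hze, ← hye] at this
    rw [add_comm x y, add_comm x z]
    linarith
  · -- RLL
    have := fi_RLL (u := x - 1) (s := 1 - y) (t := 1 - z) (by linarith) (by linarith) (by linarith) (by linarith) (by linarith)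
    rw [← hye', ← hze', ← hxe] at this
    linarith
  · -- RLR
    have := fi_RRL (u := x - 1) (v := z - 1) (t := 1 - y) (by linarith) (by linarith) (by linarith) (by linarith)
    rw [← hye', ← hze, ← hxe] at this
    rw [add_comm y z]
    linarith
  · -- RRL
    have := fi_RRL (u := x - 1) (v := y - 1) (t := 1 - z) (by linarith) (by linarith) (by linarith) (by linarith)
    rw [← hye, ← hze', ← hxe] at this
    linarith
  · -- RRR
    rw [hxe, hye, hze]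
    have a1 := fiB_R_nonneg (u := x - 1) (s := (1 + (y - 1)) + (1 + (z - 1))) (by linarith) (by linarith)
    have a2 := fiB_R_nonneg (u := y - 1) (s := (1 + (x - 1)) + (1 + (z - 1))) (by linarith) (by linarith)
    have a3 := fiB_R_nonneg (u := z - 1) (s := (1 + (x - 1)) + (1 + (y - 1))) (by linarith) (by linarith)
    linarith

theorem fi_fg_nonneg (x : ℝ) : 0 ≤ ff x * (1 + gg x) := by
  have h1 := ff_nonneg x
  have h2 := gg_nonneg x
  positivity

theorem fi_fd_nonpos {x : ℝ} (h : x ≤ 1) : fd x ≤ 0 := by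
  rcases le_total x 0 with h0 | h0
  · rw [fi_fd_N h0]
  · rw [fi_fd_M h0 h]; nlinarith

theorem fi_fd_bounds {y : ℝ} (h : 1 ≤ y) : 0 ≤ fd y ∧ fd y ≤ 2 * y := by
  have h0 : 0 < y := by linarith
  rw [fi_fd_R h]
  have h2 : 0 < 2 / y ^ 2 := by positivity
  have h3 : 2 / y ^ 2 ≤ 2 := by rw [div_le_iff₀ (by positivity)]; nlinarith
  constructor <;> linarith

theorem fi_fg_R {y : ℝ} (h : 1 ≤ y) : y ^ 2 + y - 25 / 8 ≤ ff y * (1 + gg y) := by
  have h0 : 0 < y := by linarith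
  rw [fi_ff_R h, fi_gg_L (by linarith)]
  have e : (y ^ 2 + 2 / y - 3) * (1 + 1 / y) - (y ^ 2 + y - 25 / 8) =
      (y - 4) ^ 2 / (8 * y ^ 2) := by
    field_simp; ring
  have : 0 ≤ (y - 4) ^ 2 / (8 * y ^ 2) := by positivity
  linarith

/-- one coordinate nonpositive, one at least one -/
theorem fi_neg_R {x y z : ℝ} (hx : -(3 / 10) ≤ x) (hx0 : x ≤ 0) (hy : 1 ≤ y)
    (hz : -(3 / 10) ≤ z) (hz1 : z ≤ 1) :
    0 ≤ fiB x (y + z) + fiB y (x + z) + fiB z (x + y) := by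
  obtain ⟨f1, f2⟩ := fi_fd_bounds hy
  have f3 := fi_fg_R hy
  have e1 : fiB x (y + z) = 11 := by
    unfold fiB; rw [fi_ff_N hx0, fi_fd_N hx0, fi_gg_S (by linarith)]; norm_num
  rw [e1]
  unfold fiB
  have k1 : fd y * (x + z - 2) ≥ 2 * y * (z - 23 / 10) := by
    have a1 : fd y * (x + z - 2) ≥ fd y * (z - 23 / 10) :=
      mul_le_mul_of_nonneg_left (by linarith) f1
    have a2 : fd y * (z - 23 / 10) ≥ 2 * y * (z - 23 / 10) :=
      mul_le_mul_of_nonpos_right f2 (by linarith)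
    linarith
  rcases le_total z 0 with hz0 | hz0
  · rw [fi_ff_N hz0, fi_fd_N hz0, fi_gg_S (x := z) (by linarith)]
    nlinarith [sq_nonneg (y - 21 / 10), mul_nonneg (by linarith : (0 : ℝ) ≤ y) (by linarith : (0 : ℝ) ≤ z + 3 / 10)]
  · have g1 := fi_fg_nonneg z
    rw [fi_fd_M hz0 hz1]
    have k2 : (6 * z ^ 2 - 6 * z) * (x + y - 2) ≥ (6 * z ^ 2 - 6 * z) * (y - 2) := by
      apply mul_le_mul_of_nonpos_left (by linarith)
      nlinarith
    have k3 : 0 ≤ y ^ 2 + (-(36 / 10) - 4 * z + 6 * z ^ 2) * y + (63 / 8 + 12 * z * (1 - z)) := by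
      have h1 : -(427 / 100) ≤ -(36 / 10) - 4 * z + 6 * z ^ 2 := by nlinarith [sq_nonneg (z - 1 / 3)]
      have h2 : 0 ≤ 12 * z * (1 - z) := by
        have : 0 ≤ 1 - z := by linarith
        positivity
      have h3 : -(427 / 100) * y ≤ (-(36 / 10) - 4 * z + 6 * z ^ 2) * y :=
        mul_le_mul_of_nonneg_right h1 (by linarith)
      nlinarith [sq_nonneg (y - 2135 / 1000)]
    nlinarith

/-- one coordinate nonpositive -/
theorem fi_neg {x y z : ℝ} (hx : -(3 / 10) ≤ x) (hx0 : x ≤ 0) (hy : -(3 / 10) ≤ y)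
    (hz : -(3 / 10) ≤ z) :
    0 ≤ fiB x (y + z) + fiB y (x + z) + fiB z (x + y) := by
  rcases le_total y 1 with h2 | h2 <;> rcases le_total z 1 with h3 | h3
  · -- both at most one
    have e1 : fiB x (y + z) = 11 := by
      unfold fiB; rw [fi_ff_N hx0, fi_fd_N hx0, fi_gg_S (by linarith)]; norm_num
    rw [e1]
    unfold fiB
    have a1 := fi_fg_nonneg y
    have a2 := fi_fg_nonneg z
    have a3 := mul_nonneg_of_nonpos_of_nonpos (fi_fd_nonpos h2) (by linarith : x + z - 2 ≤ 0)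
    have a4 := mul_nonneg_of_nonpos_of_nonpos (fi_fd_nonpos h3) (by linarith : x + y - 2 ≤ 0)
    linarith
  · have := fi_neg_R hx hx0 h3 hy h2
    rw [add_comm y z]
    linarith
  · exact fi_neg_R hx hx0 h2 hz h3
  · have e1 : fiB x (y + z) = 11 := by
      unfold fiB; rw [fi_ff_N hx0, fi_fd_N hx0, fi_gg_S (by linarith)]; norm_num
    rw [e1]
    unfold fiB
    obtain ⟨f1, f2⟩ := fi_fd_bounds h2
    obtain ⟨g1, g2⟩ := fi_fd_bounds h3
    have f3 := fi_fg_R h2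
    have g3 := fi_fg_R h3
    have k1 : fd y * (x + z - 2) ≥ 2 * y * (-(13 / 10)) := by
      have a1 : fd y * (x + z - 2) ≥ fd y * (-(13 / 10)) :=
        mul_le_mul_of_nonneg_left (by linarith) f1
      have a2 : fd y * (-(13 / 10)) ≥ 2 * y * (-(13 / 10)) :=
        mul_le_mul_of_nonpos_right f2 (by norm_num)
      linarith
    have k2 : fd z * (x + y - 2) ≥ 2 * z * (-(13 / 10)) := by
      have a1 : fd z * (x + y - 2) ≥ fd z * (-(13 / 10)) :=
        mul_le_mul_of_nonneg_left (by linarith) g1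
      have a2 : fd z * (-(13 / 10)) ≥ 2 * z * (-(13 / 10)) :=
        mul_le_mul_of_nonpos_right g2 (by norm_num)
      linarith
    nlinarith [sq_nonneg (y - 8 / 10), sq_nonneg (z - 8 / 10)]

/-- the triple inequality (F4 of the note) -/
theorem triple_ff {x y z : ℝ} (hx : -(3 / 10) ≤ x) (hy : -(3 / 10) ≤ y) (hz : -(3 / 10) ≤ z) :
    0 ≤ (ff x * (1 + gg x) + fd x * (y + z - 2)) + (ff y * (1 + gg y) + fd y * (x + z - 2)) +
      (ff z * (1 + gg z) + fd z * (x + y - 2)) := by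
  have key : 0 ≤ fiB x (y + z) + fiB y (x + z) + fiB z (x + y) := by
    rcases le_total x 0 with h1 | h1
    · exact fi_neg hx h1 hy hz
    rcases le_total y 0 with h2 | h2
    · have := fi_neg hy h2 hx hz
      rw [add_comm y x] at this
      linarith
    rcases le_total z 0 with h3 | h3
    · have := fi_neg hz h3 hx hy
      rw [add_comm z y, add_comm z x] at this
      linarith
    exact fi_pos h1 h2 h3
  unfold fiB at key
  linarith

theorem tt_nonneg (θ : ℝ) : 0 ≤ tt θ := le_max_right _ _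

theorem tt_mono {a b : ℝ} (ha : 0 ≤ a) (hab : a ≤ b) : tt a ≤ tt b := by
  unfold tt
  exact max_le_max (by linarith [pow_le_pow_left₀ ha hab 8]) le_rfl

theorem pow_le_tt {θ : ℝ} (hθ : 0 ≤ θ) {j : ℕ} (hj : j ≤ 8) : θ ^ j ≤ 89 * (1 + tt θ) := by
  have h0 := tt_nonneg θ
  rcases le_total θ 1 with h | h
  · have : θ ^ j ≤ 1 := pow_le_one₀ hθ h
    linarith
  · have h1 : θ ^ j ≤ θ ^ 8 := pow_le_pow_right₀ h hj
    have h2 : θ ^ 8 - (7 / 4) ^ 8 ≤ tt θ := le_max_left _ _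
    have h3 : ((7 : ℝ) / 4) ^ 8 ≤ 89 := by norm_num
    linarith

theorem pow_le_tt' {θ : ℝ} (hθ : 2 ≤ θ) {j : ℕ} (hj : j ≤ 8) : θ ^ j ≤ 2 * tt θ := by
  have h1 : θ ^ j ≤ θ ^ 8 := pow_le_pow_right₀ (by linarith) hj
  have h2 : θ ^ 8 - (7 / 4) ^ 8 ≤ tt θ := le_max_left _ _
  have h3 : ((7 : ℝ) / 4) ^ 8 ≤ 128 := by norm_num
  have h4 : (2 : ℝ) ^ 8 ≤ θ ^ 8 := pow_le_pow_left₀ (by norm_num) hθ 8
  norm_num at h4
  linarith

/-- growth of `tt` under a small dilation -/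
theorem tt_dilate {θ r : ℝ} (hθ : 0 ≤ θ) (hr : 1 ≤ r) :
    tt (r * θ) ≤ tt θ + (if 7 / 4 ≤ r * θ then (r ^ 8 - 1) * θ ^ 8 else 0) := by
  have h0 := tt_nonneg θ
  have hr0 : 0 ≤ r := by linarith
  split_ifs with h
  · have h1 : θ ^ 8 - (7 / 4) ^ 8 ≤ tt θ := le_max_left _ _
    have h2 : 0 ≤ (r ^ 8 - 1) * θ ^ 8 := by
      have : 1 ≤ r ^ 8 := one_le_pow₀ hr
      have : 0 ≤ r ^ 8 - 1 := by linarith
      positivity
    conv_lhs => unfold tt
    apply max_le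
    · have e : (r * θ) ^ 8 = r ^ 8 * θ ^ 8 := by ring
      rw [e]
      nlinarith
    · linarith
  · push Not at h
    conv_lhs => unfold tt
    apply max_le
    · have h1 : (r * θ) ^ 8 ≤ (7 / 4) ^ 8 := pow_le_pow_left₀ (by positivity) h.le 8
      linarith
    · linarith

end Vale.Agent.P046LF
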