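import Vale.Agent.P046.Lower6

/-!
P046 log-free, module S8d: `good_lower` of `P046/Lower4.lean` with `U = S2 - m DD²` in place of `W`
and the numerics for `w0 = A⁴ σ / 400`.
-/

namespace Vale.Agent.P046LF

open Finset Vale.Agent.P046

variable {V : Type} [DecidableEq V] {H : Finset (Finset V)} {M : Finset V}

/-- copy of the proof of `P046.good_lower` (`hU` replaces `hU.trans hW`) -/
theorem good_lowerU {m2 κ w0 : ℝ} {j k Δ1 Δ2 : ℕ} (hH : IsLin3 H) (hNS : NS H) (hm2 : 9 < m2)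
    (hM : (M.card : ℝ) = m2 + 3 * j) (hk : M.card ≤ 3 * k + 2) (hκ : 0 < κ)
    (hκ2 : κ * m2 ^ 2 ≤ 1) (hQ : ((sub H M).card : ℝ) ≤ 5 / 4 * Qh κ M.card)
    (hU : S2 H M - M.card * DD H M ^ 2 ≤ w0) (hD : 2 ≤ DD H M) (hΔ1 : 2 * DD H M ≤ Δ1)
    (hΔ : Δ1 ≤ Δ2) (h1 : w0 ≤ m2 / 36 * (DD H M - 1) ^ 2) (h2 : 4 * w0 ≤ m2 / 36 * Δ1)
    (h3 : 12 * Δ1 * w0 ≤ m2 / 36 * Δ2) :
    m2 / 9 ≤ (3 * (Δ2 : ℝ) + 2) * EFv H k M := by
  obtain ⟨m, hmd⟩ : ∃ m : ℝ, m = M.card := ⟨_, rfl⟩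
  have hj0 : (0 : ℝ) ≤ j := by positivity
  have hm9 : 9 < m := by rw [hmd, hM]; linarith
  have hmc : (M.card : ℝ) ≠ 0 := by rw [← hmd]; linarith
  set G : Finset (Finset V) := (sub H M).filter (fun T => ∀ A ∈ sub H M, A ≠ T → ¬ Disjoint A T →
      sT H M A ≤ 3 * Δ2) with hG
  have hE : Env G H (3 * Δ2) M := by
    intro T _ hTG A hA hAT hd
    rw [hG, mem_filter] at hTG
    exact hTG.2 A hA hAT hd
  have hmain := EFv_ge_Psi2 (G := G) hH hNS hm2 j k M hM hk hE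
  push_cast at hmain
  have hU0 := U_nonneg (H := H) hH hmc
  set U := S2 H M - M.card * DD H M ^ 2 with hUd
  have hUw : U ≤ w0 := hU
  -- isolated edges
  have hiso : ((isoS G H M).card : ℝ) ≤ m2 / 36 := by
    have h4 := iso_bound (G := G) hH hmc (by linarith : 1 ≤ DD H M)
    have h5 : 0 < (DD H M - 1) ^ 2 := by
      have : 0 < DD H M - 1 := by linarith
      positivity
    have h6 : ((isoS G H M).card : ℝ) * (DD H M - 1) ^ 2 ≤ m2 / 36 * (DD H M - 1) ^ 2 := by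
      linarith
    exact le_of_mul_le_mul_right h6 h5
  have hΔ1pos : (0 : ℝ) < Δ1 := by linarith
  have hΔR : (Δ1 : ℝ) ≤ Δ2 := by exact_mod_cast hΔ
  have hΔ2pos : (0 : ℝ) < Δ2 := by linarith
  have hheavy1 : ∑ x ∈ M with Δ1 < deg H M x, (deg H M x : ℝ) ≤ m2 / 36 := by
    have h4 := heavy_bound (Δ := Δ1) hH hmc (by linarith) hΔ1
    rw [← hUd] at h4
    have h6 : (Δ1 : ℝ) * ∑ x ∈ M with Δ1 < deg H M x, (deg H M x : ℝ) ≤ Δ1 * (m2 / 36) := by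
      linarith
    exact le_of_mul_le_mul_left h6 hΔ1pos
  have hheavy2 : 3 * (Δ1 : ℝ) * ∑ x ∈ M with Δ2 < deg H M x, (deg H M x : ℝ) ≤ m2 / 36 := by
    have h4 := heavy_bound (Δ := Δ2) hH hmc (by linarith) (hΔ1.trans hΔR)
    rw [← hUd] at h4
    have h5 := mul_le_mul_of_nonneg_left h4 (by positivity : 0 ≤ 3 * (Δ1 : ℝ))
    have h7 : 3 * (Δ1 : ℝ) * (4 * U) ≤ 12 * Δ1 * w0 := by
      have := mul_le_mul_of_nonneg_left hUw (by positivity : 0 ≤ 12 * (Δ1 : ℝ))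
      linarith
    have h6 : (Δ2 : ℝ) * (3 * (Δ1 : ℝ) * ∑ x ∈ M with Δ2 < deg H M x, (deg H M x : ℝ)) ≤
        Δ2 * (m2 / 36) := by
      linarith
    exact le_of_mul_le_mul_left h6 hΔ2pos
  have hbG : (bG G H M : ℝ) ≤ m2 / 36 + m2 / 36 := by
    have h4 := card_bG_le (M := M) Δ1 Δ2 hH
    have h5 : bG G H M = ((sub H M).filter (fun T => ¬ ∀ A ∈ sub H M, A ≠ T → ¬ Disjoint A T →
      sT H M A ≤ 3 * Δ2)).card := by
      unfold bG
      congr 1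
      ext T
      simp only [hG, mem_filter]
      tauto
    rw [h5]
    linarith
  -- the `Q` term
  have hQρ : ((sub H M).card - (M.card : ℝ) / 3) * (P3 m2 / P3 M.card) ≤ 5 / 12 * m2 := by
    have hP : 0 < P3 m2 := P3_pos (by linarith)
    have hPm : 0 < P3 (M.card : ℝ) := P3_pos (by rw [← hmd]; linarith)
    have hρ : 0 < P3 m2 / P3 (M.card : ℝ) := by positivity
    have e1 : Qh κ M.card = κ / 3 * P3 M.card := rfl
    calc ((sub H M).card - (M.card : ℝ) / 3) * (P3 m2 / P3 M.card) ≤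
          (5 / 4 * Qh κ M.card) * (P3 m2 / P3 M.card) := by
          refine mul_le_mul_of_nonneg_right ?_ hρ.le
          have : (0 : ℝ) ≤ M.card := by positivity
          linarith
      _ = 5 / 12 * κ * P3 m2 := by rw [e1]; field_simp; norm_num
      _ ≤ 5 / 12 * κ * m2 ^ 3 := by
          refine mul_le_mul_of_nonneg_left ?_ (by positivity)
          unfold P3
          have : 0 < m2 := by linarith
          nlinarith
      _ = 5 / 12 * m2 * (κ * m2 ^ 2) := by ring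
      _ ≤ 5 / 12 * m2 * 1 := mul_le_mul_of_nonneg_left hκ2 (by linarith)
      _ = 5 / 12 * m2 := by ring
  have hdead : (0 : ℝ) ≤ (3 * (Δ2 : ℝ) + 1) * deadc H M := by positivity
  unfold Psi2 Psi1 at hmain
  linarith

/-- adapt `P046.lower_good` (with `Δ1 = ⌈A⁴⌉`, `Δ2 = ⌈3 A⁸⌉`) -/
theorem lower_goodU (hH : IsLin3 H) (hNS : NS H) {κ σ A μ m2 w0 : ℝ} {j k Δ1 Δ2 : ℕ}
    (hκ0 : 0 < κ) (hκσ : κ * σ ^ 2 = 1) (hA : 1000 ≤ A) (hσ0 : 60 ≤ σ) (hμ : 1000 ≤ μ)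
    (hMr : (M.card : ℝ) = μ) (hm2 : μ = m2 + 3 * j) (hk : M.card ≤ 3 * k + 2)
    (hj : σ - 3 ≤ m2) (hj' : m2 ≤ σ) (hP1 : A ^ 2 ≤ κ * μ ^ 2) (hP2 : κ * μ ^ 2 ≤ 101 / 100 * A ^ 2)
    (hw0 : w0 = A ^ 4 * σ / 400) (hΔ1a : A ^ 4 ≤ Δ1) (hΔ1b : (Δ1 : ℝ) ≤ 101 / 100 * A ^ 4)
    (hΔ2a : 3 * A ^ 8 ≤ Δ2) (hΔ12 : Δ1 ≤ Δ2)
    (hc1 : ((sub H M).card : ℝ) ≤ 5 / 4 * Qh κ μ) (hc2 : 11 / 16 * Qh κ μ ≤ (sub H M).card)
    (hc3 : S2 H M - μ * DD H M ^ 2 ≤ w0) :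
    m2 / 9 ≤ (3 * (Δ2 : ℝ) + 2) * EFv H k M := by
  obtain ⟨hD1, hD2⟩ := DD_bounds hκ0 hMr hμ hc1 hc2
  have hA0 : 0 < A := by linarith
  have hA2 : 10 ^ 6 ≤ A ^ 2 := by
    calc (10 : ℝ) ^ 6 = 1000 ^ 2 := by norm_num
      _ ≤ A ^ 2 := pow_le_pow_left₀ (by norm_num) hA 2
  have hA4 : 10 ^ 6 * A ^ 2 ≤ A ^ 4 := by
    have e : A ^ 4 = A ^ 2 * A ^ 2 := by ring
    rw [e]
    exact mul_le_mul_of_nonneg_right hA2 (by positivity)
  have hA4p : 0 < A ^ 4 := by positivity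
  have hA8p : 0 < A ^ 8 := by positivity
  have hσp : 0 < σ := by linarith
  have hm2pos : 0 < m2 := by linarith
  have hm2σ : σ * (9 / 10) ≤ m2 := by linarith
  refine good_lowerU (H := H) (M := M) (m2 := m2) (κ := κ) (w0 := w0) (j := j)
      (k := k) (Δ1 := Δ1) (Δ2 := Δ2) hH hNS (by linarith)
      (by rw [hMr, hm2]) hk hκ0 ?_ (by rw [hMr]; exact hc1) (by rw [hMr]; exact hc3)
      (by linarith) ?_ hΔ12 ?_ ?_ ?_
  · have h1 : m2 ^ 2 ≤ σ ^ 2 := pow_le_pow_left₀ hm2pos.le hj' 2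
    have h2 := mul_le_mul_of_nonneg_left h1 hκ0.le
    linarith
  · refine le_trans ?_ hΔ1a
    linarith
  · have h1 : (499 / 1000 * A ^ 2) ≤ DD H M - 1 := by linarith
    have h2 : (499 / 1000 * A ^ 2) ^ 2 ≤ (DD H M - 1) ^ 2 :=
      pow_le_pow_left₀ (by positivity) h1 2
    have h3 : (499 / 1000 * A ^ 2) ^ 2 = 249001 / 1000000 * A ^ 4 := by ring
    rw [h3] at h2
    have h4 : σ * (9 / 10) / 36 * (249001 / 1000000 * A ^ 4) ≤ m2 / 36 * (DD H M - 1) ^ 2 :=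
      mul_le_mul (by linarith) h2 (by positivity) (by positivity)
    refine le_trans ?_ h4
    have h5 : 0 < A ^ 4 * σ := by positivity
    have h6 : σ * (9 / 10) / 36 * (249001 / 1000000 * A ^ 4) =
        249001 / 40000000 * (A ^ 4 * σ) := by ring
    rw [h6, hw0]
    linarith
  · have h2 : σ * (9 / 10) / 36 * A ^ 4 ≤ m2 / 36 * Δ1 :=
      mul_le_mul (by linarith) hΔ1a (by positivity) (by positivity)
    refine le_trans ?_ h2
    have h5 : 0 < A ^ 4 * σ := by positivity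
    have h6 : σ * (9 / 10) / 36 * A ^ 4 = 1 / 40 * (A ^ 4 * σ) := by ring
    rw [h6, hw0]
    linarith
  · have hw00 : 0 ≤ w0 := by rw [hw0]; positivity
    have h1 : 12 * (Δ1 : ℝ) * w0 ≤ 12 * (101 / 100 * A ^ 4) * w0 := by
      refine mul_le_mul_of_nonneg_right ?_ hw00
      linarith
    refine h1.trans ?_
    have h2 : σ * (9 / 10) / 36 * (3 * A ^ 8) ≤ m2 / 36 * Δ2 :=
      mul_le_mul (by linarith) hΔ2a (by positivity) (by positivity)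
    refine le_trans ?_ h2
    have h3 : σ * (9 / 10) / 36 * (3 * A ^ 8) = 3 / 40 * (A ^ 8 * σ) := by ring
    have h4 : 0 < A ^ 8 * σ := by positivity
    have h5 : 12 * (101 / 100 * A ^ 4) * (A ^ 4 * σ / 400) = 303 / 10000 * (A ^ 8 * σ) := by ring
    rw [h3, hw0, h5]
    linarith

end Vale.Agent.P046LF
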