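import Vale.Agent.P046LF.EX
import Vale.Agent.P046LF.LowerU

/-!
P046 log-free: the final size is bounded below with probability close to one.

Second moment version of `P046.EFv_ge_Psi`, `P046.EFv_ge_Psi2`: for `a ≥ 0` the function
`Z M = (max (a - Ψ M) 0) ^ 2 + C * S2 H M` is a supermartingale, where `Ψ = Psi2 (R+1) m2 G H` above
size `m2` (`Psi (R+1)` below), because `E Ψ(M \ T) ≥ Ψ M` (`sum_Psi2`, `sum_Psi`),
`|Ψ (M \ T) - Ψ M| ≤ 2 * (R + 2) * sT H M T + DD H M` (the second term comes from the ratio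
`P3 m2 / P3 m` in `Psi2`; it is absent for `Psi`), `sT ^ 2 ≤ 3 ∑_{x ∈ T} a_x ^ 2`,
`S2 H (M \ T) ≤ S2 H M - ∑_{x ∈ T} a_x ^ 2` and `∑_T ∑_{x ∈ T} a_x ^ 2 = ∑ a_x ^ 3 ≥ 3 Q DD ^ 2`.
At the end `Ψ ≤ (R + 2) * card`.
-/

namespace Vale.Agent.P046LF

open Finset Vale.Agent.P046

variable {V : Type} [DecidableEq V] {H G : Finset (Finset V)} {M T : Finset V}

theorem card_dl_pos_le (hH : IsLin3 H) (hT : T ∈ sub H M) :
    ((M \ T).filter (fun x => 0 < dl H M T x)).card ≤ 2 * nb H M T := by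
  rw [← sum_dl hH hT, card_filter]
  refine Finset.sum_le_sum fun x _ => ?_
  split_ifs with h
  · exact h
  · exact Nat.zero_le _

theorem dead_diff_le (hH : IsLin3 H) (hT : T ∈ sub H M) :
    deadc H (M \ T) ≤ deadc H M + 2 * nb H M T := by
  refine le_trans ?_ (Nat.add_le_add_left (card_dl_pos_le hH hT) _)
  unfold deadc
  refine (card_le_card ?_).trans (card_union_le _ _)
  intro x hx
  rw [mem_filter] at hx
  rw [mem_union, mem_filter, mem_filter]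
  have h1 := deg_sdiff (H := H) (M := M) T x
  have hxM : x ∈ M := (mem_sdiff.1 hx.1).1
  by_cases h0 : deg H M x = 0
  · left; exact ⟨hxM, h0⟩
  · right; exact ⟨hx.1, by omega⟩

theorem iso_diff_le (hH : IsLin3 H) (hT : T ∈ sub H M) :
    (isoS G H (M \ T)).card ≤ (isoS G H M).card + 2 * nb H M T := by
  classical
  refine le_trans ?_ (Nat.add_le_add_left (card_dl_pos_le hH hT) _)
  have h1 : (isoS G H (M \ T)).card ≤ (isoS G H M).card +
      ((isoS G H (M \ T)).filter (fun A => A ∉ isoS G H M)).card := by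
    refine (card_le_card ?_).trans (card_union_le _ _)
    intro A hA
    rw [mem_union, mem_filter]
    by_cases h : A ∈ isoS G H M
    · exact Or.inl h
    · exact Or.inr ⟨hA, h⟩
  refine h1.trans (Nat.add_le_add_left ?_ _)
  have hTne : T.Nonempty := card_pos.1 (by rw [hH.card3 T (mem_sub.1 hT).1]; norm_num)
  have : Nonempty V := ⟨hTne.choose⟩
  have hch : ∀ A ∈ (isoS G H (M \ T)).filter (fun A => A ∉ isoS G H M),
      ∃ x ∈ A, 0 < dl H M T x ∧ deg H (M \ T) x = 1 := by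
    intro A hA
    rw [mem_filter, isoS, mem_filter] at hA
    obtain ⟨⟨hA1, hAG, hA3⟩, hA4⟩ := hA
    have hAM : A ∈ sub H M := sub_mono sdiff_subset hA1
    have hne : sT H M A ≠ 3 := fun h => hA4 (by rw [isoS, mem_filter]; exact ⟨hAM, hAG, h⟩)
    have h3 := three_le_sT hH hAM
    have hone : ∀ x ∈ A, deg H (M \ T) x = 1 := by
      intro x hx
      have hge : ∀ y ∈ A, 1 ≤ deg H (M \ T) y := fun y hy => one_le_deg hA1 hy
      have hsum : ∑ y ∈ A, deg H (M \ T) y = ∑ y ∈ A, 1 := by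
        rw [sum_const, hH.card3 A (mem_sub.1 hAM).1]; exact hA3
      exact ((sum_eq_sum_iff_of_le hge).1 hsum.symm x hx).symm
    by_contra hcon
    push Not at hcon
    have hall : ∀ x ∈ A, deg H M x = deg H (M \ T) x := by
      intro x hx
      have h5 := deg_sdiff (H := H) (M := M) T x
      have h6 : ¬ 0 < dl H M T x := fun h => hcon x hx h (hone x hx)
      omega
    apply hne
    rw [← hA3]
    exact Finset.sum_congr rfl hall
  choose! v hv1 hv2 hv3 using hch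
  refine card_le_card_of_injOn v ?_ ?_
  · intro A hA
    have hA' := mem_coe.1 hA
    rw [mem_coe, mem_filter]
    refine ⟨?_, hv2 A hA'⟩
    have h6 := (mem_filter.1 hA').1
    rw [isoS, mem_filter] at h6
    exact (mem_sub.1 h6.1).2 (hv1 A hA')
  · intro A hA B hB hAB
    have hA' := mem_coe.1 hA
    have hB' := mem_coe.1 hB
    have h1 := hv1 A hA'
    have h2 := hv1 B hB'
    have h3 := hv3 B hB'
    rw [hAB] at h1
    have hA6 := (mem_filter.1 hA').1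
    have hB6 := (mem_filter.1 hB').1
    rw [isoS, mem_filter] at hA6 hB6
    exact eq_of_deg_one h3 hB6.1 h2 hA6.1 h1

theorem iso_le_diff (hH : IsLin3 H) (hT : T ∈ sub H M) :
    (isoS G H M).card ≤ (isoS G H (M \ T)).card + 1 := by
  classical
  refine (card_le_card (t := insert T (isoS G H (M \ T))) ?_).trans (card_insert_le _ _)
  intro A hA
  rw [isoS, mem_filter] at hA
  obtain ⟨hA1, hAG, hA3⟩ := hA
  rw [mem_insert]
  by_cases hAT : A = T
  · exact Or.inl hAT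
  · right
    have hd : Disjoint A T := by
      by_contra hd
      have h1 := sT_eq hH hA1
      have h2 : 0 < nb H M A := by
        unfold nb
        refine card_pos.2 ⟨T, mem_filter.2 ⟨hT, fun h => hAT h.symm, fun h => hd h.symm⟩⟩
      omega
    have hA2 : A ∈ sub H (M \ T) := by rw [sub_sdiff, mem_filter]; exact ⟨hA1, hd⟩
    rw [isoS, mem_filter]
    refine ⟨hA2, hAG, ?_⟩
    have h3 := three_le_sT hH hA2
    have h4 := sT_mono (H := H) (M := M) (M' := M \ T) sdiff_subset A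
    omega

theorem bG_le_diff (hH : IsLin3 H) (hT : T ∈ sub H M) :
    bG G H M ≤ bG G H (M \ T) + (1 + nb H M T) := by
  rw [← card_meet hH hT]
  unfold bG
  refine (card_le_card ?_).trans (card_union_le _ _)
  intro A hA
  rw [mem_filter] at hA
  rw [mem_union, mem_filter, mem_filter]
  by_cases hd : Disjoint A T
  · left; exact ⟨by rw [sub_sdiff, mem_filter]; exact ⟨hA.1, hd⟩, hA.2⟩
  · right; exact ⟨hA.1, hd⟩

theorem Psi1_diff {R : ℕ} (hH : IsLin3 H) (hT : T ∈ sub H M) :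
    |Psi1 (R + 1) G H (M \ T) - Psi1 (R + 1) G H M| ≤ (2 * (R : ℝ) + 3) * sT H M T := by
  have h1 : (deadc H (M \ T) : ℝ) ≤ deadc H M + 2 * nb H M T := by
    exact_mod_cast dead_diff_le hH hT
  have h2 : (deadc H M : ℝ) ≤ deadc H (M \ T) := by
    have := dead_sdiff hH hT
    exact_mod_cast (by omega : deadc H M ≤ deadc H (M \ T))
  have h3 : ((isoS G H (M \ T)).card : ℝ) ≤ (isoS G H M).card + 2 * nb H M T := by
    exact_mod_cast iso_diff_le hH hT
  have h4 : ((isoS G H M).card : ℝ) ≤ (isoS G H (M \ T)).card + 1 := by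
    exact_mod_cast iso_le_diff hH hT
  have h5 : (bG G H M : ℝ) ≤ bG G H (M \ T) + (1 + nb H M T) := by
    exact_mod_cast bG_le_diff hH hT
  have h6 : (bG G H (M \ T) : ℝ) ≤ bG G H M := by
    have := bG_sdiff (G := G) hH hT
    exact_mod_cast (by omega : bG G H (M \ T) ≤ bG G H M)
  have h7 : (sT H M T : ℝ) = 3 + nb H M T := by exact_mod_cast sT_eq hH hT
  have hn : (0 : ℝ) ≤ nb H M T := by positivity
  have hR : (0 : ℝ) ≤ R := by positivity
  have h8 : ((R : ℝ) + 1) * (deadc H (M \ T) - deadc H M) ≤ (R + 1) * (2 * nb H M T) :=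
    mul_le_mul_of_nonneg_left (by linarith) (by positivity)
  have h9 : 0 ≤ ((R : ℝ) + 1) * (deadc H (M \ T) - deadc H M) :=
    mul_nonneg (by positivity) (by linarith)
  have hRn : 0 ≤ (R : ℝ) * nb H M T := by positivity
  unfold Psi1
  rw [abs_le, h7]
  constructor <;> nlinarith

theorem Psi_diff {R : ℕ} (hH : IsLin3 H) (hT : T ∈ sub H M) :
    |Psi (R + 1) G H (M \ T) - Psi (R + 1) G H M| ≤
      2 * ((R : ℝ) + 2) * sT H M T + DD H M := by
  have h1 := Psi1_diff (G := G) (R := R) hH hT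
  have h2 : ((M \ T).card : ℝ) + 3 = M.card := by exact_mod_cast card_sdiff_of_mem hH hT
  have h3 : ((sub H (M \ T)).card : ℝ) + (1 + nb H M T) = (sub H M).card := by
    exact_mod_cast card_sub_sdiff hH hT
  have h7 : (sT H M T : ℝ) = 3 + nb H M T := by exact_mod_cast sT_eq hH hT
  have hn : (0 : ℝ) ≤ nb H M T := by positivity
  have hD : 0 ≤ DD H M := DD_nonneg
  rw [abs_le] at h1 ⊢
  unfold Psi
  constructor <;> linarith

theorem Psi2_diff {R : ℕ} {m2 : ℝ} (hH : IsLin3 H) (hT : T ∈ sub H M) (hm2 : 9 < m2)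
    (hm : m2 + 3 ≤ (M.card : ℝ)) :
    |Psi2 (R + 1) m2 G H (M \ T) - Psi2 (R + 1) m2 G H M| ≤
      2 * ((R : ℝ) + 2) * sT H M T + DD H M := by
  have h1 := Psi1_diff (G := G) (R := R) hH hT
  have h2 : ((M \ T).card : ℝ) + 3 = M.card := by exact_mod_cast card_sdiff_of_mem hH hT
  have h3 : ((sub H (M \ T)).card : ℝ) + (1 + nb H M T) = (sub H M).card := by
    exact_mod_cast card_sub_sdiff hH hT
  have h7 : (sT H M T : ℝ) = 3 + nb H M T := by exact_mod_cast sT_eq hH hT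
  have hn : (0 : ℝ) ≤ nb H M T := by positivity
  have hD : 0 ≤ DD H M := DD_nonneg
  obtain ⟨m, hmd⟩ : ∃ m : ℝ, m = M.card := ⟨_, rfl⟩
  obtain ⟨Q, hQd⟩ : ∃ Q : ℝ, Q = (sub H M).card := ⟨_, rfl⟩
  obtain ⟨s, hsd⟩ : ∃ s : ℝ, s = sT H M T := ⟨_, rfl⟩
  have hs0 : 0 ≤ s := by rw [hsd]; positivity
  rw [← hmd] at hm
  have hm0 : 0 < m := by linarith
  have hP : 0 < P3 m2 := P3_pos (by linarith)
  have hPm : 0 < P3 m := P3_pos (by linarith)
  have hPm3 : 0 < P3 (m - 3) := P3_pos (by linarith)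
  have hrho : P3 m2 / P3 (m - 3) * (1 - 9 / m) = P3 m2 / P3 m := by
    have e : P3 m * (1 - 9 / m) = P3 (m - 3) := by unfold P3; field_simp; ring
    rw [← e]
    have h9 : 0 < 1 - 9 / m := by
      rw [sub_pos, div_lt_one hm0]; linarith
    rw [div_mul_eq_mul_div, mul_div_mul_right _ _ h9.ne']
  have hρ0 : 0 < P3 m2 / P3 (m - 3) := by positivity
  have hρ1 : P3 m2 / P3 (m - 3) ≤ 1 := by
    rw [div_le_one hPm3]
    exact P3_mono (by linarith) (by linarith)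
  have hDD : DD H M = 3 * Q / m := by rw [hQd, hmd]; rfl
  have hterm : Psi2 (R + 1) m2 G H (M \ T) - Psi2 (R + 1) m2 G H M =
      (Psi1 (R + 1) G H (M \ T) - Psi1 (R + 1) G H M) -
        1 / 3 * (P3 m2 / P3 (m - 3)) * (3 * DD H M - s) := by
    have e1 : ((M \ T).card : ℝ) = m - 3 := by linarith
    have e2 : ((sub H (M \ T)).card : ℝ) = Q + 2 - s := by rw [hQd, hsd]; linarith
    unfold Psi2
    rw [e1, e2, ← hmd, ← hQd, ← hrho, hDD]
    field_simp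
    ring
  have hρD : P3 m2 / P3 (m - 3) * DD H M ≤ DD H M := by
    have := mul_le_mul_of_nonneg_right hρ1 hD
    linarith
  have hρD0 : 0 ≤ P3 m2 / P3 (m - 3) * DD H M := mul_nonneg hρ0.le hD
  have hρs : P3 m2 / P3 (m - 3) * s ≤ s := by
    have := mul_le_mul_of_nonneg_right hρ1 hs0
    linarith
  have hρs0 : 0 ≤ P3 m2 / P3 (m - 3) * s := mul_nonneg hρ0.le hs0
  rw [hterm]
  rw [← hsd] at h1 ⊢
  rw [abs_le] at h1 ⊢
  have hRs : 0 ≤ (R : ℝ) * s := by positivity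
  constructor <;> nlinarith

theorem sT_sq_le (hH : IsLin3 H) (hT : T ∈ sub H M) :
    (sT H M T : ℝ) ^ 2 ≤ 3 * ∑ x ∈ T, (deg H M x : ℝ) ^ 2 := by
  have h := sq_sum_le_card_mul_sum_sq (s := T) (f := fun x => (deg H M x : ℝ))
  rw [hH.card3 T (mem_sub.1 hT).1] at h
  unfold sT
  push_cast at h ⊢
  exact h

theorem S2_sdiff_le (hT : T ∈ sub H M) :
    S2 H (M \ T) ≤ S2 H M - ∑ x ∈ T, (deg H M x : ℝ) ^ 2 := by
  unfold S2
  rw [← Finset.sum_sdiff (mem_sub.1 hT).2, add_sub_cancel_right]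
  refine Finset.sum_le_sum fun x _ => ?_
  have h : (deg H (M \ T) x : ℝ) ≤ deg H M x := by
    exact_mod_cast deg_le_of_subset (H := H) (M := M) (M' := M \ T) sdiff_subset x
  exact pow_le_pow_left₀ (by positivity) h 2

theorem cube_ge (hH : IsLin3 H) (hm : (M.card : ℝ) ≠ 0) :
    3 * ((sub H M).card : ℝ) * DD H M ^ 2 ≤ ∑ x ∈ M, (deg H M x : ℝ) ^ 3 := by
  have hD : 0 ≤ DD H M := DD_nonneg
  have h1 : ∀ x ∈ M, DD H M ^ 3 + 3 * DD H M ^ 2 * ((deg H M x : ℝ) - DD H M) ≤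
      (deg H M x : ℝ) ^ 3 := by
    intro x _
    have ha : (0 : ℝ) ≤ deg H M x := by positivity
    have h2 : 0 ≤ ((deg H M x : ℝ) - DD H M) ^ 2 * (deg H M x + 2 * DD H M) := by positivity
    nlinarith
  have h2 := Finset.sum_le_sum h1
  refine le_trans (le_of_eq ?_) h2
  rw [sum_add_distrib, sum_const, nsmul_eq_mul, ← mul_sum, sum_sub_distrib, sum_deg hH, sum_const,
    nsmul_eq_mul]
  have h3 := DD_mul (H := H) hm
  have e : (M.card : ℝ) * DD H M ^ 3 = DD H M * M.card * DD H M ^ 2 := by ring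
  have e2 : (M.card : ℝ) * DD H M = DD H M * M.card := by ring
  rw [e, e2, h3]
  ring

theorem max_sq_step (y δ : ℝ) :
    (max (y - δ) 0) ^ 2 ≤ (max y 0) ^ 2 - 2 * max y 0 * δ + δ ^ 2 := by
  rcases le_total y 0 with h | h
  · rw [max_eq_right h]
    rcases le_total (y - δ) 0 with h2 | h2
    · rw [max_eq_right h2]; nlinarith [sq_nonneg δ]
    · rw [max_eq_left h2]; nlinarith [sq_nonneg δ]
  · rw [max_eq_left h]
    rcases le_total (y - δ) 0 with h2 | h2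
    · rw [max_eq_right h2]; nlinarith [sq_nonneg (y - δ)]
    · rw [max_eq_left h2]; nlinarith

theorem sum_sq_step {Ψ : Finset V → ℝ} (hH : IsLin3 H) (hm : (M.card : ℝ) ≠ 0) {B a : ℝ}
    (hB : 1 ≤ B) (hΨ : ((sub H M).card : ℝ) * Ψ M ≤ ∑ T ∈ sub H M, Ψ (M \ T))
    (hδ : ∀ T ∈ sub H M, |Ψ (M \ T) - Ψ M| ≤ 2 * B * sT H M T + DD H M) :
    ∑ T ∈ sub H M, ((max (a - Ψ (M \ T)) 0) ^ 2 + 10000 * B ^ 2 * S2 H (M \ T)) ≤
      ((sub H M).card : ℝ) * ((max (a - Ψ M) 0) ^ 2 + 10000 * B ^ 2 * S2 H M) := by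
  have hD : 0 ≤ DD H M := DD_nonneg
  have h1 : ∀ T ∈ sub H M, (max (a - Ψ (M \ T)) 0) ^ 2 + 10000 * B ^ 2 * S2 H (M \ T) ≤
      ((max (a - Ψ M) 0) ^ 2 + 10000 * B ^ 2 * S2 H M) -
        2 * max (a - Ψ M) 0 * (Ψ (M \ T) - Ψ M) +
        (2 * DD H M ^ 2 - 9976 * B ^ 2 * ∑ x ∈ T, (deg H M x : ℝ) ^ 2) := by
    intro T hT
    have h2 := max_sq_step (a - Ψ M) (Ψ (M \ T) - Ψ M)
    have e : a - Ψ M - (Ψ (M \ T) - Ψ M) = a - Ψ (M \ T) := by ring
    rw [e] at h2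
    have h3 := S2_sdiff_le (H := H) hT
    have h4 := sT_sq_le hH hT
    have h5 := hδ T hT
    have hs : (0 : ℝ) ≤ sT H M T := by positivity
    have h6 : (Ψ (M \ T) - Ψ M) ^ 2 ≤ (2 * B * sT H M T + DD H M) ^ 2 := by
      rw [← sq_abs]
      exact pow_le_pow_left₀ (abs_nonneg _) h5 2
    have h7 : (2 * B * sT H M T + DD H M) ^ 2 ≤ 8 * (B ^ 2 * (sT H M T : ℝ) ^ 2) +
        2 * DD H M ^ 2 := by
      nlinarith [sq_nonneg (2 * B * sT H M T - DD H M)]
    have hB2 : 0 ≤ B ^ 2 := by positivity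
    have h8 := mul_le_mul_of_nonneg_left h4 hB2
    have h9 := mul_le_mul_of_nonneg_left h3 hB2
    nlinarith
  refine (Finset.sum_le_sum h1).trans ?_
  rw [sum_add_distrib, sum_sub_distrib, sum_const, nsmul_eq_mul, ← mul_sum, sum_sub_distrib,
    sum_const, nsmul_eq_mul, sum_sub_distrib, sum_const, nsmul_eq_mul, ← mul_sum,
    sum_sub_sum (fun x => (deg H M x : ℝ) ^ 2)]
  have h2 := cube_ge hH hm
  have e3 : ∑ x ∈ M, (deg H M x : ℝ) * (deg H M x : ℝ) ^ 2 = ∑ x ∈ M, (deg H M x : ℝ) ^ 3 :=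
    Finset.sum_congr rfl fun x _ => by ring
  rw [e3]
  have h3 : 0 ≤ max (a - Ψ M) 0 := le_max_right _ _
  have h4 : 0 ≤ max (a - Ψ M) 0 * (∑ T ∈ sub H M, Ψ (M \ T) - ((sub H M).card : ℝ) * Ψ M) :=
    mul_nonneg h3 (by linarith)
  have h5 : (0 : ℝ) ≤ ∑ x ∈ M, (deg H M x : ℝ) ^ 3 := by positivity
  have h6 : 1 * ∑ x ∈ M, (deg H M x : ℝ) ^ 3 ≤ B ^ 2 * ∑ x ∈ M, (deg H M x : ℝ) ^ 3 :=
    mul_le_mul_of_nonneg_right (by nlinarith) h5
  nlinarith

theorem EX_le_of_step {Z φ : Finset V → ℝ} {P : Finset V → Prop} (hH : IsLin3 H)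
    (hP : ∀ M T, P M → T ∈ sub H M → P (M \ T))
    (h0 : ∀ M, P M → sub H M = ∅ → φ M ≤ Z M)
    (hs : ∀ M, P M → sub H M ≠ ∅ → ∑ T ∈ sub H M, Z (M \ T) ≤ ((sub H M).card : ℝ) * Z M)
    (k : ℕ) : ∀ M : Finset V, M.card ≤ 3 * k + 2 → P M → EX H φ k M ≤ Z M := by
  induction k with
  | zero =>
    intro M hM hPM
    unfold EX
    exact h0 M hPM (sub_empty_of_card hH (by omega))
  | succ k ih =>
    intro M hM hPM
    unfold EX
    split_ifs with h
    · exact h0 M hPM h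
    · have hQ : 0 < ((sub H M).card : ℝ) := by
        exact_mod_cast card_pos.2 (nonempty_iff_ne_empty.2 h)
      rw [div_le_iff₀ hQ, mul_comm]
      refine (Finset.sum_le_sum fun T hT => ?_).trans (hs M hPM h)
      refine ih (M \ T) ?_ (hP M T hPM hT)
      have := card_sdiff_of_mem hH hT
      omega

theorem ind_le {R : ℕ} {a Ψ c S : ℝ} (ha : 0 < a) (hΨ : Ψ ≤ ((R : ℝ) + 2) * c) (hS : 0 ≤ S) :
    (if ((R : ℝ) + 2) * c ≤ a / 2 then (1 : ℝ) else 0) ≤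
      4 / a ^ 2 * ((max (a - Ψ) 0) ^ 2 + S) := by
  have ha2 : 0 < a ^ 2 := by positivity
  split_ifs with h
  · have h1 : a / 2 ≤ max (a - Ψ) 0 := le_max_of_le_left (by linarith)
    have h2 : (a / 2) ^ 2 ≤ (max (a - Ψ) 0) ^ 2 := pow_le_pow_left₀ (by linarith) h1 2
    rw [div_mul_eq_mul_div, le_div_iff₀ ha2]
    nlinarith
  · positivity

theorem S2_nonneg : 0 ≤ S2 H M := by unfold S2; positivity

theorem EX_low_Psi {R : ℕ} (hH : IsLin3 H) (hNS : NS H) {a : ℝ} (ha : 0 < a) (k : ℕ) :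
    ∀ M : Finset V, M.card ≤ 3 * k + 2 → Env G H R M →
      EX H (fun M' => if ((R : ℝ) + 2) * M'.card ≤ a / 2 then (1 : ℝ) else 0) k M ≤
        4 / a ^ 2 * ((max (a - Psi (R + 1) G H M) 0) ^ 2 + 10000 * ((R : ℝ) + 2) ^ 2 * S2 H M) := by
  refine EX_le_of_step (P := fun M => Env G H R M) hH
    (fun M T hM _ => hM.mono sdiff_subset) ?_ ?_ k
  · intro M _ h
    refine ind_le ha ?_ (by have := S2_nonneg (H := H) (M := M); positivity)
    rw [Psi_of_empty h]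
    have : (0 : ℝ) ≤ M.card := by positivity
    linarith
  · intro M hE hne
    have hm : (M.card : ℝ) ≠ 0 := by
      intro h0
      have h1 : M.card = 0 := by exact_mod_cast h0
      exact hne (sub_empty_of_card hH (by omega))
    have h1 := sum_sq_step (a := a) hH hm (B := (R : ℝ) + 2)
      (by have : (0 : ℝ) ≤ R := by positivity
          linarith) (sum_Psi hH hNS hE) (fun T hT => Psi_diff hH hT)
    rw [← mul_sum]
    calc 4 / a ^ 2 * ∑ T ∈ sub H M, ((max (a - Psi (R + 1) G H (M \ T)) 0) ^ 2 +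
          10000 * ((R : ℝ) + 2) ^ 2 * S2 H (M \ T)) ≤
          4 / a ^ 2 * (((sub H M).card : ℝ) * ((max (a - Psi (R + 1) G H M) 0) ^ 2 +
            10000 * ((R : ℝ) + 2) ^ 2 * S2 H M)) := mul_le_mul_of_nonneg_left h1 (by positivity)
      _ = _ := by ring

theorem EX_low_Psi2 {R : ℕ} {m2 : ℝ} (hH : IsLin3 H) (hNS : NS H) (hm2 : 9 < m2) {a : ℝ}
    (ha : 0 < a) (j : ℕ) :
    ∀ (k : ℕ) (M : Finset V), (M.card : ℝ) = m2 + 3 * j → M.card ≤ 3 * k + 2 → Env G H R M →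
      EX H (fun M' => if ((R : ℝ) + 2) * M'.card ≤ a / 2 then (1 : ℝ) else 0) k M ≤
        4 / a ^ 2 * ((max (a - Psi2 (R + 1) m2 G H M) 0) ^ 2 +
          10000 * ((R : ℝ) + 2) ^ 2 * S2 H M) := by
  induction j with
  | zero =>
    intro k M hM hk hE
    have h1 := EX_low_Psi hH hNS ha k M hk hE
    have h2 : Psi2 (R + 1) m2 G H M = Psi (R + 1) G H M := by
      have e : (M.card : ℝ) = m2 := by rw [hM]; simp
      unfold Psi2 Psi
      rw [e, div_self (P3_pos (by linarith)).ne']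
      ring
    rw [h2]; exact h1
  | succ j ih =>
    intro k M hM hk hE
    have hj : (0 : ℝ) ≤ j := by positivity
    push_cast at hM
    have hkpos : k ≠ 0 := by
      rintro rfl
      have : (M.card : ℝ) ≤ 2 := by exact_mod_cast (by omega : M.card ≤ 2)
      linarith
    obtain ⟨k', rfl⟩ := Nat.exists_eq_succ_of_ne_zero hkpos
    have hmc0 : (M.card : ℝ) ≠ 0 := by
      rw [hM]; intro h0; linarith
    unfold EX
    by_cases h : sub H M = ∅
    · rw [if_pos h]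
      have hPm : P3 m2 / P3 M.card ≤ 1 := by
        rw [div_le_one (P3_pos (by linarith))]
        exact P3_mono (by linarith) (by linarith)
      have hPm0 : 0 ≤ P3 m2 / P3 M.card :=
        (div_pos (P3_pos (by linarith)) (P3_pos (by linarith))).le
      have hle : Psi2 (R + 1) m2 G H M ≤ ((R : ℝ) + 2) * M.card := by
        unfold Psi2 Psi1 isoS bG
        rw [deadc_of_empty h, h]
        simp only [filter_empty, card_empty, Nat.cast_zero]
        have hmc : 0 ≤ (M.card : ℝ) := by positivity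
        nlinarith
      have := ind_le (R := R) (c := M.card) ha hle
        (S := 10000 * ((R : ℝ) + 2) ^ 2 * S2 H M)
        (by have := S2_nonneg (H := H) (M := M); positivity)
      exact this
    · rw [if_neg h]
      have hQ : 0 < ((sub H M).card : ℝ) := by
        exact_mod_cast card_pos.2 (nonempty_iff_ne_empty.2 h)
      rw [div_le_iff₀ hQ]
      have h1 := sum_sq_step (a := a) hH hmc0 (B := (R : ℝ) + 2)
        (by have : (0 : ℝ) ≤ R := by positivity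
            linarith) (sum_Psi2 hH hNS hE hm2 (by linarith) h)
        (fun T hT => Psi2_diff hH hT hm2 (by linarith))
      have hih : ∀ T ∈ sub H M, EX H (fun M' => if ((R : ℝ) + 2) * M'.card ≤ a / 2
          then (1 : ℝ) else 0) k' (M \ T) ≤ 4 / a ^ 2 *
            ((max (a - Psi2 (R + 1) m2 G H (M \ T)) 0) ^ 2 +
          10000 * ((R : ℝ) + 2) ^ 2 * S2 H (M \ T)) := by
        intro T hT
        have h3 := card_sdiff_of_mem hH hT
        refine ih k' (M \ T) ?_ (by omega) (hE.mono sdiff_subset)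
        have h3' : ((M \ T).card : ℝ) + 3 = M.card := by exact_mod_cast h3
        linarith
      refine (Finset.sum_le_sum hih).trans ?_
      rw [← mul_sum]
      have h2 := mul_le_mul_of_nonneg_left h1 (by positivity : 0 ≤ 4 / a ^ 2)
      refine h2.trans (le_of_eq ?_)
      ring

/-- the part of the proof of `good_lowerU` before the last step -/
theorem good_Psi2 {m2 κ w0 : ℝ} {j Δ1 Δ2 : ℕ} (hH : IsLin3 H) (hm2 : 9 < m2)
    (hM : (M.card : ℝ) = m2 + 3 * j) (hκ : 0 < κ)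
    (hκ2 : κ * m2 ^ 2 ≤ 1) (hQ : ((sub H M).card : ℝ) ≤ 5 / 4 * Qh κ M.card)
    (hU : S2 H M - M.card * DD H M ^ 2 ≤ w0) (hD : 2 ≤ DD H M) (hΔ1 : 2 * DD H M ≤ Δ1)
    (hΔ : Δ1 ≤ Δ2) (h1 : w0 ≤ m2 / 36 * (DD H M - 1) ^ 2) (h2 : 4 * w0 ≤ m2 / 36 * Δ1)
    (h3 : 12 * Δ1 * w0 ≤ m2 / 36 * Δ2) :
    ∃ G : Finset (Finset V), Env G H (3 * Δ2) M ∧
      m2 / 9 ≤ Psi2 (((3 * Δ2 : ℕ) : ℝ) + 1) m2 G H M := by
  obtain ⟨m, hmd⟩ : ∃ m : ℝ, m = M.card := ⟨_, rfl⟩
  have hj0 : (0 : ℝ) ≤ j := by positivity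
  have hm9 : 9 < m := by rw [hmd, hM]; linarith
  have hmc : (M.card : ℝ) ≠ 0 := by rw [← hmd]; linarith
  set G : Finset (Finset V) := (sub H M).filter (fun T => ∀ A ∈ sub H M, A ≠ T → ¬ Disjoint A T →
      sT H M A ≤ 3 * Δ2) with hG
  have hE : Env G H (3 * Δ2) M := by
    intro T _ hTG A hA hAT hd
    rw [hG, mem_filter] at hTG
    exact hTG.2 A hA hAT hd
  refine ⟨G, hE, ?_⟩
  push_cast
  have hU0 := U_nonneg (H := H) hH hmc
  set U := S2 H M - M.card * DD H M ^ 2 with hUd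
  have hUw : U ≤ w0 := hU
  -- isolated edges
  have hiso : ((isoS G H M).card : ℝ) ≤ m2 / 36 := by
    have h4 := iso_bound (G := G) hH hmc (by linarith : 1 ≤ DD H M)
    have h5 : 0 < (DD H M - 1) ^ 2 := by
      have : 0 < DD H M - 1 := by linarith
      positivity
    have h6 : ((isoS G H M).card : ℝ) * (DD H M - 1) ^ 2 ≤ m2 / 36 * (DD H M - 1) ^ 2 := by
      linarith
    exact le_of_mul_le_mul_right h6 h5
  have hΔ1pos : (0 : ℝ) < Δ1 := by linarith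
  have hΔR : (Δ1 : ℝ) ≤ Δ2 := by exact_mod_cast hΔ
  have hΔ2pos : (0 : ℝ) < Δ2 := by linarith
  have hheavy1 : ∑ x ∈ M with Δ1 < deg H M x, (deg H M x : ℝ) ≤ m2 / 36 := by
    have h4 := heavy_bound (Δ := Δ1) hH hmc (by linarith) hΔ1
    rw [← hUd] at h4
    have h6 : (Δ1 : ℝ) * ∑ x ∈ M with Δ1 < deg H M x, (deg H M x : ℝ) ≤ Δ1 * (m2 / 36) := by
      linarith
    exact le_of_mul_le_mul_left h6 hΔ1pos
  have hheavy2 : 3 * (Δ1 : ℝ) * ∑ x ∈ M with Δ2 < deg H M x, (deg H M x : ℝ) ≤ m2 / 36 := by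
    have h4 := heavy_bound (Δ := Δ2) hH hmc (by linarith) (hΔ1.trans hΔR)
    rw [← hUd] at h4
    have h5 := mul_le_mul_of_nonneg_left h4 (by positivity : 0 ≤ 3 * (Δ1 : ℝ))
    have h7 : 3 * (Δ1 : ℝ) * (4 * U) ≤ 12 * Δ1 * w0 := by
      have := mul_le_mul_of_nonneg_left hUw (by positivity : 0 ≤ 12 * (Δ1 : ℝ))
      linarith
    have h6 : (Δ2 : ℝ) * (3 * (Δ1 : ℝ) * ∑ x ∈ M with Δ2 < deg H M x, (deg H M x : ℝ)) ≤
        Δ2 * (m2 / 36) := by
      linarith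
    exact le_of_mul_le_mul_left h6 hΔ2pos
  have hbG : (bG G H M : ℝ) ≤ m2 / 36 + m2 / 36 := by
    have h4 := card_bG_le (M := M) Δ1 Δ2 hH
    have h5 : bG G H M = ((sub H M).filter (fun T => ¬ ∀ A ∈ sub H M, A ≠ T → ¬ Disjoint A T →
      sT H M A ≤ 3 * Δ2)).card := by
      unfold bG
      congr 1
      ext T
      simp only [hG, mem_filter]
      tauto
    rw [h5]
    linarith
  -- the `Q` term
  have hQρ : ((sub H M).card - (M.card : ℝ) / 3) * (P3 m2 / P3 M.card) ≤ 5 / 12 * m2 := by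
    have hP : 0 < P3 m2 := P3_pos (by linarith)
    have hPm : 0 < P3 (M.card : ℝ) := P3_pos (by rw [← hmd]; linarith)
    have hρ : 0 < P3 m2 / P3 (M.card : ℝ) := by positivity
    have e1 : Qh κ M.card = κ / 3 * P3 M.card := rfl
    calc ((sub H M).card - (M.card : ℝ) / 3) * (P3 m2 / P3 M.card) ≤
          (5 / 4 * Qh κ M.card) * (P3 m2 / P3 M.card) := by
          refine mul_le_mul_of_nonneg_right ?_ hρ.le
          have : (0 : ℝ) ≤ M.card := by positivity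
          linarith
      _ = 5 / 12 * κ * P3 m2 := by rw [e1]; field_simp; norm_num
      _ ≤ 5 / 12 * κ * m2 ^ 3 := by
          refine mul_le_mul_of_nonneg_left ?_ (by positivity)
          unfold P3
          have : 0 < m2 := by linarith
          nlinarith
      _ = 5 / 12 * m2 * (κ * m2 ^ 2) := by ring
      _ ≤ 5 / 12 * m2 * 1 := mul_le_mul_of_nonneg_left hκ2 (by linarith)
      _ = 5 / 12 * m2 := by ring
  have hdead : (0 : ℝ) ≤ (3 * (Δ2 : ℝ) + 1) * deadc H M := by positivity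
  unfold Psi2 Psi1
  linarith

theorem low_num {κ σ A μ m2 w0 D S K : ℝ} (hκσ : κ * σ ^ 2 = 1)
    (hA : 1000 ≤ A) (hσp : 0 < σ) (hμ0 : 0 ≤ μ) (hm2σ : σ * (9 / 10) ≤ m2)
    (hP2 : κ * μ ^ 2 ≤ 101 / 100 * A ^ 2) (hw0 : w0 = A ^ 4 * σ / 400) (hD0 : 0 ≤ D)
    (hD2 : D ≤ 5 / 4 * (κ * μ ^ 2)) (hc3 : S - μ * D ^ 2 ≤ w0) :
    4 / (m2 / 9) ^ 2 * (0 ^ 2 + 10000 * K ^ 2 * S) ≤ 10 ^ 8 * K ^ 2 * A ^ 5 / σ := by
  have hA0 : 0 < A := by linarith
  have hA4p : 0 < A ^ 4 := by positivity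
  have hm2pos : 0 < m2 := by linarith
  have hAσ : 0 ≤ 101 / 100 * (A * σ) := by positivity
  have hμσ : μ ≤ 101 / 100 * (A * σ) := by
    have h2 : μ ^ 2 ≤ (101 / 100 * (A * σ)) ^ 2 := by
      have e2 : μ ^ 2 = κ * μ ^ 2 * σ ^ 2 := by
        calc μ ^ 2 = μ ^ 2 * (κ * σ ^ 2) := by rw [hκσ, mul_one]
          _ = _ := by ring
      rw [e2]
      have h3 : κ * μ ^ 2 * σ ^ 2 ≤ 101 / 100 * A ^ 2 * σ ^ 2 :=
        mul_le_mul_of_nonneg_right hP2 (by positivity)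
      refine h3.trans ?_
      have h4 : 0 ≤ A ^ 2 * σ ^ 2 := by positivity
      have e : (101 / 100 * (A * σ)) ^ 2 = (101 / 100) ^ 2 * (A ^ 2 * σ ^ 2) := by ring
      rw [e, mul_assoc]
      exact mul_le_mul_of_nonneg_right (by norm_num) h4
    exact (pow_le_pow_iff_left₀ hμ0 hAσ (by norm_num)).1 h2
  have hDsq : D ^ 2 ≤ 2 * A ^ 4 := by
    have h3 : D ≤ 505 / 400 * A ^ 2 := by linarith
    have h4 : D ^ 2 ≤ (505 / 400 * A ^ 2) ^ 2 := pow_le_pow_left₀ hD0 h3 2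
    have e3 : (505 / 400 * A ^ 2) ^ 2 = (505 / 400) ^ 2 * A ^ 4 := by ring
    rw [e3] at h4
    refine h4.trans (mul_le_mul_of_nonneg_right (by norm_num) hA4p.le)
  have h6 : 0 < A ^ 5 * σ := by positivity
  have hS : S ≤ 3 * (A ^ 5 * σ) := by
    have h3 : μ * D ^ 2 ≤ 101 / 100 * (A * σ) * (2 * A ^ 4) :=
      mul_le_mul hμσ hDsq (by positivity) hAσ
    have e4 : 101 / 100 * (A * σ) * (2 * A ^ 4) = 202 / 100 * (A ^ 5 * σ) := by ring
    rw [e4] at h3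
    have h5 : w0 ≤ 1 / 100 * (A ^ 5 * σ) := by
      rw [hw0]
      have e5 : A ^ 5 * σ = A * (A ^ 4 * σ) := by ring
      have h7 : 0 < A ^ 4 * σ := by positivity
      have h8 : 1000 * (A ^ 4 * σ) ≤ A * (A ^ 4 * σ) := mul_le_mul_of_nonneg_right hA h7.le
      rw [e5]
      linarith
    linarith
  have hm2sq : σ ^ 2 * (81 / 100) ≤ m2 ^ 2 := by
    have h1 := pow_le_pow_left₀ (by positivity) hm2σ 2
    have e : (σ * (9 / 10)) ^ 2 = σ ^ 2 * (81 / 100) := by ring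
    rwa [e] at h1
  have hK : 0 ≤ K ^ 2 := by positivity
  have hm22 : 0 < m2 ^ 2 := by positivity
  have e6 : 4 / (m2 / 9) ^ 2 * (0 ^ 2 + 10000 * K ^ 2 * S) =
      (3240000 * K ^ 2 * S) / m2 ^ 2 := by
    field_simp
    ring
  rw [e6, div_le_div_iff₀ hm22 hσp]
  have h7 : 3240000 * K ^ 2 * S * σ ≤ 3240000 * K ^ 2 * (3 * (A ^ 5 * σ)) * σ :=
    mul_le_mul_of_nonneg_right (mul_le_mul_of_nonneg_left hS (by positivity)) hσp.le
  refine h7.trans ?_
  have h8 : 10 ^ 8 * K ^ 2 * A ^ 5 * (σ ^ 2 * (81 / 100)) ≤ 10 ^ 8 * K ^ 2 * A ^ 5 * m2 ^ 2 :=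
    mul_le_mul_of_nonneg_left hm2sq (by positivity)
  refine le_trans ?_ h8
  have h9 : 0 ≤ K ^ 2 * A ^ 5 * σ ^ 2 := by positivity
  have e7 : 3240000 * K ^ 2 * (3 * (A ^ 5 * σ)) * σ = 9720000 * (K ^ 2 * A ^ 5 * σ ^ 2) := by ring
  have e8 : 10 ^ 8 * K ^ 2 * A ^ 5 * (σ ^ 2 * (81 / 100)) =
      81000000 * (K ^ 2 * A ^ 5 * σ ^ 2) := by ring
  rw [e7, e8]
  linarith

/-- version of `lower_goodU` in probability (`a = m2 / 9`) -/
theorem low_probU (hH : IsLin3 H) (hNS : NS H) {κ σ A μ m2 w0 : ℝ} {j k Δ1 Δ2 : ℕ}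
    (hκ0 : 0 < κ) (hκσ : κ * σ ^ 2 = 1) (hA : 1000 ≤ A) (hσ0 : 60 ≤ σ) (hμ : 1000 ≤ μ)
    (hMr : (M.card : ℝ) = μ) (hm2 : μ = m2 + 3 * j) (hk : M.card ≤ 3 * k + 2)
    (hj : σ - 3 ≤ m2) (hj' : m2 ≤ σ) (hP1 : A ^ 2 ≤ κ * μ ^ 2) (hP2 : κ * μ ^ 2 ≤ 101 / 100 * A ^ 2)
    (hw0 : w0 = A ^ 4 * σ / 400) (hΔ1a : A ^ 4 ≤ Δ1) (hΔ1b : (Δ1 : ℝ) ≤ 101 / 100 * A ^ 4)
    (hΔ2a : 3 * A ^ 8 ≤ Δ2) (hΔ12 : Δ1 ≤ Δ2)
    (hc1 : ((sub H M).card : ℝ) ≤ 5 / 4 * Qh κ μ) (hc2 : 11 / 16 * Qh κ μ ≤ (sub H M).card)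
    (hc3 : S2 H M - μ * DD H M ^ 2 ≤ w0) :
    EX H (fun M' => if (3 * (Δ2 : ℝ) + 2) * M'.card ≤ m2 / 18 then (1 : ℝ) else 0) k M ≤
      10 ^ 8 * (3 * (Δ2 : ℝ) + 2) ^ 2 * A ^ 5 / σ := by
  obtain ⟨hD1, hD2⟩ := DD_bounds hκ0 hMr hμ hc1 hc2
  have hA0 : 0 < A := by linarith
  have hA2 : 10 ^ 6 ≤ A ^ 2 := by
    calc (10 : ℝ) ^ 6 = 1000 ^ 2 := by norm_num
      _ ≤ A ^ 2 := pow_le_pow_left₀ (by norm_num) hA 2
  have hA4 : 10 ^ 6 * A ^ 2 ≤ A ^ 4 := by
    have e : A ^ 4 = A ^ 2 * A ^ 2 := by ring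
    rw [e]
    exact mul_le_mul_of_nonneg_right hA2 (by positivity)
  have hA4p : 0 < A ^ 4 := by positivity
  have hA8p : 0 < A ^ 8 := by positivity
  have hσp : 0 < σ := by linarith
  have hm2pos : 0 < m2 := by linarith
  have hm2σ : σ * (9 / 10) ≤ m2 := by linarith
  have hmain : ∃ G : Finset (Finset V), Env G H (3 * Δ2) M ∧
      m2 / 9 ≤ Psi2 (((3 * Δ2 : ℕ) : ℝ) + 1) m2 G H M := by
    refine good_Psi2 (H := H) (M := M) (m2 := m2) (κ := κ) (w0 := w0) (j := j)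
      (Δ1 := Δ1) (Δ2 := Δ2) hH (by linarith)
      (by rw [hMr, hm2]) hκ0 ?_ (by rw [hMr]; exact hc1) (by rw [hMr]; exact hc3)
      (by linarith) ?_ hΔ12 ?_ ?_ ?_
    · have h1 : m2 ^ 2 ≤ σ ^ 2 := pow_le_pow_left₀ hm2pos.le hj' 2
      have h2 := mul_le_mul_of_nonneg_left h1 hκ0.le
      linarith
    · refine le_trans ?_ hΔ1a
      linarith
    · have h1 : (499 / 1000 * A ^ 2) ≤ DD H M - 1 := by linarith
      have h2 : (499 / 1000 * A ^ 2) ^ 2 ≤ (DD H M - 1) ^ 2 :=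
        pow_le_pow_left₀ (by positivity) h1 2
      have h3 : (499 / 1000 * A ^ 2) ^ 2 = 249001 / 1000000 * A ^ 4 := by ring
      rw [h3] at h2
      have h4 : σ * (9 / 10) / 36 * (249001 / 1000000 * A ^ 4) ≤ m2 / 36 * (DD H M - 1) ^ 2 :=
        mul_le_mul (by linarith) h2 (by positivity) (by positivity)
      refine le_trans ?_ h4
      have h5 : 0 < A ^ 4 * σ := by positivity
      have h6 : σ * (9 / 10) / 36 * (249001 / 1000000 * A ^ 4) =
          249001 / 40000000 * (A ^ 4 * σ) := by ring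
      rw [h6, hw0]
      linarith
    · have h2 : σ * (9 / 10) / 36 * A ^ 4 ≤ m2 / 36 * Δ1 :=
        mul_le_mul (by linarith) hΔ1a (by positivity) (by positivity)
      refine le_trans ?_ h2
      have h5 : 0 < A ^ 4 * σ := by positivity
      have h6 : σ * (9 / 10) / 36 * A ^ 4 = 1 / 40 * (A ^ 4 * σ) := by ring
      rw [h6, hw0]
      linarith
    · have hw00 : 0 ≤ w0 := by rw [hw0]; positivity
      have h1 : 12 * (Δ1 : ℝ) * w0 ≤ 12 * (101 / 100 * A ^ 4) * w0 := by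
        refine mul_le_mul_of_nonneg_right ?_ hw00
        linarith
      refine h1.trans ?_
      have h2 : σ * (9 / 10) / 36 * (3 * A ^ 8) ≤ m2 / 36 * Δ2 :=
        mul_le_mul (by linarith) hΔ2a (by positivity) (by positivity)
      refine le_trans ?_ h2
      have h3 : σ * (9 / 10) / 36 * (3 * A ^ 8) = 3 / 40 * (A ^ 8 * σ) := by ring
      have h4 : 0 < A ^ 8 * σ := by positivity
      have h5 : 12 * (101 / 100 * A ^ 4) * (A ^ 4 * σ / 400) = 303 / 10000 * (A ^ 8 * σ) := by ring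
      rw [h3, hw0, h5]
      linarith
  obtain ⟨G, hE, hG⟩ := hmain
  have h1 := EX_low_Psi2 (G := G) (R := 3 * Δ2) (m2 := m2) hH hNS (by linarith)
    (by linarith : 0 < m2 / 9) j k M (by rw [hMr, hm2]) hk hE
  have hmax : max (m2 / 9 - Psi2 (((3 * Δ2 : ℕ) : ℝ) + 1) m2 G H M) 0 = 0 :=
    max_eq_right (by linarith)
  rw [hmax] at h1
  push_cast at h1
  have e1 : m2 / 9 / 2 = m2 / 18 := by ring
  rw [e1] at h1
  refine h1.trans ?_
  exact low_num hκσ hA hσp (by linarith) hm2σ hP2 hw0 DD_nonneg hD2 hc3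

end Vale.Agent.P046LF
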