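import Vale.Agent.P046LF.Pot3

/-!
P046 log-free, module S8c: the terminal cost for the lower bound.
-/

namespace Vale.Agent.P046LF

open Finset Vale.Agent.P046

variable {V : Type} [DecidableEq V] {H : Finset (Finset V)} {M : Finset V} {N : V → ℝ}
  {κ S K uL μ R w0 : ℝ} {c : Cs}

/-- indicator of a bad state of size `μ` -/
noncomputable def badU (κ μ w0 : ℝ) (H : Finset (Finset V)) (M : Finset V) : ℝ :=
  open Classical in
  if ((sub H M).card : ℝ) ≤ 5 / 4 * Qh κ μ ∧ 11 / 16 * Qh κ μ ≤ (sub H M).card ∧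
    S2 H M - μ * DD H M ^ 2 ≤ w0 then 0 else 1

theorem badU_le_one : badU κ μ w0 H M ≤ 1 := by
  unfold badU
  split_ifs <;> norm_num

/-- the variance is at most the sum of squares around any point -/
theorem tm_var_le (hH : IsLin3 H) (hμ : 0 < μ) (hM : (M.card : ℝ) = μ) (D : ℝ) :
    S2 H M - μ * DD H M ^ 2 ≤ ∑ x ∈ M, ((deg H M x : ℝ) - D) ^ 2 := by
  have e : ∑ x ∈ M, ((deg H M x : ℝ) - D) ^ 2 =
      S2 H M - 2 * D * (3 * (sub H M).card) + μ * D ^ 2 := by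
    have e1 : ∑ x ∈ M, ((deg H M x : ℝ) - D) ^ 2 =
        ∑ x ∈ M, ((deg H M x : ℝ) ^ 2 - 2 * D * (deg H M x : ℝ) + D ^ 2) :=
      sum_congr rfl fun x _ => by ring
    rw [e1, sum_add_distrib, sum_sub_distrib, ← mul_sum, sum_deg hH, sum_const, nsmul_eq_mul, hM]
    rfl
  rw [e]
  have h3 : (3 * (sub H M).card : ℝ) = DD H M * μ := by
    rw [← hM, DD_mul (by rw [hM]; exact hμ.ne')]
  rw [h3]
  have := mul_nonneg hμ.le (sq_nonneg (DD H M - D))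
  nlinarith

/-- power mean -/
theorem tm_M8 (hμ : 0 < μ) (hM : (M.card : ℝ) = μ) :
    (∑ x ∈ M, N x ^ 2) ^ 4 / μ ^ 3 ≤ M8 M N := by
  have h := _root_.pow_sum_div_card_le_sum_pow (s := M) (f := fun x => N x ^ 2)
    (fun _ _ => by positivity) 3
  rw [hM] at h
  refine h.trans (le_of_eq ?_)
  unfold M8
  exact sum_congr rfl fun x _ => by ring

/-- With `D = Dr κ μ S`, `θ = a / D`: `S2 - μ DD² ≤ ∑ (a_x - D)² = D² ∑ (θ_x - 1)²`
`≤ D² (4 W + 2 ∑ N²)` (`sq_le_ff`), `D ≤ uL ^ 4`. If this is `> w0` then `W ≥ w0 / (8 uL ^ 8)` or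
`∑ N² ≥ w0 / (4 uL ^ 8)`, and then `M8 ≥ (∑ N²)⁴ / μ³`. In both cases `Phi ≥ K`. For large `|Z1|` or
`S > 1/16` use `one_le_LamK`. -/
theorem badU_le_LamK (hH : IsLin3 H) (hκ : 0 < κ) (huL : 1000 ≤ uL) (hμ : 1000 ≤ μ)
    (huL4 : uL ^ 4 = κ * μ ^ 2) (hK1 : 1 ≤ K) (hKL : K ≤ uL ^ 3) (hM : (M.card : ℝ) = μ)
    (hN : ∀ x ∈ M, |N x| ≤ 1 / 4) (hS : 0 ≤ S)
    (hw1 : 8 * K * μ * uL ^ 4 ≤ w0) (hw2 : K ≤ uL ^ 15 * (w0 / (4 * μ * uL ^ 8)) ^ 4) :
    badU κ μ w0 H M ≤ LamK c κ uL μ R K H M N S := by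
  have huL0 : 0 < uL := by linarith
  have hμ0 : 0 < μ := by linarith
  have hK0 : 0 < K := by linarith
  have hmle : μ ≤ (M.card : ℝ) := hM.ge
  by_cases hbad : 1 / 16 < S ∨ 1 / uu uL μ M.card <
      |((sub H M).card : ℝ) / Qh κ M.card + S - 1| ∨
      K * M.card < uu uL μ M.card ^ 4 * WW H M N (Dr κ M.card S)
  · exact badU_le_one.trans (one_le_LamK (by linarith) hμ0 hmle hS hK0 hKL hbad)
  push Not at hbad
  obtain ⟨hS1, hZ, hF⟩ := hbad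
  have huu : uu uL μ (M.card : ℝ) = uL := by
    rw [hM]; unfold uu; rw [div_self hμ0.ne', Real.sqrt_one, mul_one]
  rw [huu] at hZ hF
  rw [hM] at hZ hF
  have hQh : 0 < Qh κ μ := by
    unfold Qh
    have h1 : 0 < μ - 3 := by linarith
    have h2 : 0 < μ - 6 := by linarith
    positivity
  have hZ' : |((sub H M).card : ℝ) / Qh κ μ + S - 1| ≤ 1 / 1000 :=
    hZ.trans (one_div_le_one_div_of_le (by norm_num) huL)
  rw [abs_le] at hZ'
  have hq1 : ((sub H M).card : ℝ) ≤ 5 / 4 * Qh κ μ := by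
    rw [← div_le_iff₀ hQh]; linarith
  have hq2 : 11 / 16 * Qh κ μ ≤ ((sub H M).card : ℝ) := by
    rw [← le_div_iff₀ hQh]; linarith
  by_cases hw : S2 H M - μ * DD H M ^ 2 ≤ w0
  · have : badU κ μ w0 H M = 0 := by
      unfold badU
      rw [if_pos ⟨hq1, hq2, hw⟩]
    rw [this]
    exact LamK_nonneg huL0 hμ0 hmle hS hK0
  push Not at hw
  refine badU_le_one.trans ?_
  refine le_trans ?_ (le_LamK huL0 hμ0 hmle hS hK0)
  rw [one_le_div hK0]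
  obtain ⟨-, -, -, h4⟩ := W_le_Phi (c := c) (κ := κ) (R := R) (H := H) (M := M) (N := N)
    (S := S) (K := K) huL0 hμ0 hmle hS hK0.le
  rw [huu, hM] at h4
  refine le_trans ?_ h4
  -- the reference degree
  obtain ⟨D, hD⟩ : ∃ D, D = Dr κ μ S := ⟨_, rfl⟩
  rw [← hD] at hF
  have hDpos : 0 < D := by
    rw [hD]; unfold Dr
    have h1 : 0 < μ - 3 := by linarith
    have h2 : 0 < μ - 6 := by linarith
    have h3 : 0 < 1 - S := by linarith
    positivity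
  have hDle : D ≤ uL ^ 4 := by
    rw [huL4, hD]; unfold Dr
    have h1 : (μ - 3) * (μ - 6) ≤ μ ^ 2 := by nlinarith
    have h2 : 0 ≤ (μ - 3) * (μ - 6) := by
      apply mul_nonneg <;> linarith
    have h3 : (μ - 3) * (μ - 6) * (1 - S) ≤ μ ^ 2 * 1 :=
      mul_le_mul h1 (by linarith) (by linarith) (by positivity)
    calc κ * (μ - 3) * (μ - 6) * (1 - S) = κ * ((μ - 3) * (μ - 6) * (1 - S)) := by ring
      _ ≤ κ * (μ ^ 2 * 1) := mul_le_mul_of_nonneg_left h3 hκ.le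
      _ = κ * μ ^ 2 := by ring
  have hpt : ∀ x ∈ M, ((deg H M x : ℝ) - D) ^ 2 ≤
      D ^ 2 * (4 * ff ((deg H M x : ℝ) / D - N x) + 2 * N x ^ 2) := by
    intro x hx
    have hNx := abs_le.1 (hN x hx)
    have hθ : 0 ≤ (deg H M x : ℝ) / D := by positivity
    have h1 := sq_le_ff (x := (deg H M x : ℝ) / D - N x) (by linarith)
    have e : ((deg H M x : ℝ) - D) ^ 2 = D ^ 2 * ((deg H M x : ℝ) / D - 1) ^ 2 := by
      field_simp
    rw [e]
    refine mul_le_mul_of_nonneg_left ?_ (by positivity)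
    generalize (deg H M x : ℝ) / D = θ at *
    nlinarith [sq_nonneg (θ - N x - 1 - N x)]
  have hsum : ∑ x ∈ M, ((deg H M x : ℝ) - D) ^ 2 ≤
      D ^ 2 * (4 * WW H M N D + 2 * ∑ x ∈ M, N x ^ 2) := by
    refine (sum_le_sum hpt).trans (le_of_eq ?_)
    unfold WW
    rw [← mul_sum, sum_add_distrib, ← mul_sum, ← mul_sum]
  have hW0 : 0 ≤ WW H M N D := WW_nonneg
  have hs0 : 0 ≤ ∑ x ∈ M, N x ^ 2 := sum_nonneg fun _ _ => by positivity
  obtain ⟨s, hs⟩ : ∃ s, s = ∑ x ∈ M, N x ^ 2 := ⟨_, rfl⟩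
  have hM8 := tm_M8 (N := N) hμ0 hM
  rw [← hs] at hsum hs0 hM8
  have hD2 : D ^ 2 ≤ uL ^ 8 := by
    calc D ^ 2 ≤ (uL ^ 4) ^ 2 := pow_le_pow_left₀ hDpos.le hDle 2
      _ = uL ^ 8 := by ring
  have h5 : w0 < uL ^ 8 * (4 * WW H M N D + 2 * s) :=
    hw.trans_le ((tm_var_le hH hμ0 hM D).trans (hsum.trans
      (mul_le_mul_of_nonneg_right hD2 (by positivity))))
  have h6 : uL ^ 8 * (4 * WW H M N D) ≤ w0 / 2 := by
    have h7 := mul_le_mul_of_nonneg_left hF (by positivity : 0 ≤ 4 * uL ^ 4)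
    calc uL ^ 8 * (4 * WW H M N D) = 4 * uL ^ 4 * (uL ^ 4 * WW H M N D) := by ring
      _ ≤ 4 * uL ^ 4 * (K * μ) := h7
      _ = (8 * K * μ * uL ^ 4) / 2 := by ring
      _ ≤ w0 / 2 := by linarith
  have hw0 : 0 < w0 := lt_of_lt_of_le (by positivity) hw1
  have h8 : w0 / (4 * uL ^ 8) ≤ s := by
    rw [div_le_iff₀ (by positivity)]
    nlinarith
  have h9 : (w0 / (4 * uL ^ 8)) ^ 4 ≤ s ^ 4 := pow_le_pow_left₀ (by positivity) h8 4
  refine hw2.trans ?_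
  calc uL ^ 15 * (w0 / (4 * μ * uL ^ 8)) ^ 4
      = uL ^ 15 / μ * ((w0 / (4 * uL ^ 8)) ^ 4 / μ ^ 3) := by field_simp
    _ ≤ uL ^ 15 / μ * (s ^ 4 / μ ^ 3) :=
        mul_le_mul_of_nonneg_left (div_le_div_of_nonneg_right h9 (by positivity)) (by positivity)
    _ ≤ uL ^ 15 / μ * M8 M N := mul_le_mul_of_nonneg_left hM8 (by positivity)

end Vale.Agent.P046LF
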