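import Vale.Agent.P046LF.Start
import Vale.Agent.P046LF.Term
import Vale.Agent.P046LF.LowerU

/-!
P046 log-free, module S8e: `E F_n ≥ c n^{3/2}`.
-/

namespace Vale.Agent.P046LF

open Finset Vale.Agent.P046 MeasureTheory Filter

/-- numerics for `uL = √(μ / σ)` -/
theorem num_LF {Cst A K κ σ μ N D0 uL w0 : ℝ} (hC : 1 ≤ Cst) (hA : A = 10 ^ 12 * Cst ^ 2)
    (hK : K = 4 * Cst) (hκ : 0 < κ) (hκσ : κ * σ ^ 2 = 1) (hσ : 60 ≤ σ) (hN : 0 ≤ N)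
    (hμ1 : A * σ ≤ μ) (hμ2 : μ ≤ A * σ + 3) (huL : uL = Real.sqrt (μ / σ))
    (hκN : κ ^ 3 * N ^ 4 ≤ 1) (hDσ : 4 * D0 ≤ σ) (hw0 : w0 = A ^ 4 * σ / 400) :
    1000 ≤ uL ∧ uL ^ 4 = κ * μ ^ 2 ∧ uL ^ 6 * N ^ 2 ≤ μ ^ 3 ∧ D0 * uL ^ 2 ≤ μ ∧ K ≤ uL ^ 3 ∧
    A ^ 2 ≤ κ * μ ^ 2 ∧ κ * μ ^ 2 ≤ 101 / 100 * A ^ 2 ∧
    8 * K * μ * uL ^ 4 ≤ w0 ∧ K ≤ uL ^ 15 * (w0 / (4 * μ * uL ^ 8)) ^ 4 := by
  have hσ0 : 0 < σ := by linarith
  have hC2 : 1 ≤ Cst ^ 2 := one_le_pow₀ hC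
  have hCC : Cst ≤ Cst ^ 2 := by nlinarith
  have hA12 : 10 ^ 12 ≤ A := by rw [hA]; linarith
  have hA0 : 0 < A := by linarith
  have hAσ : 0 < A * σ := by positivity
  have hμ0 : 0 < μ := by linarith
  have hμσ0 : 0 < μ / σ := by positivity
  have hu0 : 0 < uL := by rw [huL]; exact Real.sqrt_pos.2 hμσ0
  have hu2 : uL ^ 2 = μ / σ := by rw [huL]; exact Real.sq_sqrt hμσ0.le
  have hμe : μ = uL ^ 2 * σ := by rw [hu2]; field_simp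
  have hAu : A ≤ uL ^ 2 := by rw [hu2, le_div_iff₀ hσ0]; exact hμ1
  have huA : uL ^ 2 ≤ (1 + 1 / 10 ^ 6) * A := by
    rw [hu2, div_le_iff₀ hσ0]
    have : (10 ^ 12 : ℝ) * 60 ≤ A * σ := mul_le_mul hA12 hσ (by norm_num) hA0.le
    linarith
  have hκe : κ = 1 / σ ^ 2 := by rw [eq_div_iff (by positivity)]; exact hκσ
  have hu4 : uL ^ 4 = κ * μ ^ 2 := by
    rw [hκe, hμe]; field_simp
  have hu6 : (10 : ℝ) ^ 6 * Cst ≤ uL := by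
    rw [← pow_le_pow_iff_left₀ (by positivity) hu0.le two_ne_zero]
    refine le_trans (le_of_eq ?_) hAu
    rw [hA]; ring
  have hu1000 : 1000 ≤ uL := by linarith
  have hu1 : 1 ≤ uL := by linarith
  have hA2 : A ^ 2 ≤ κ * μ ^ 2 := by
    rw [← hu4]
    calc A ^ 2 ≤ (uL ^ 2) ^ 2 := pow_le_pow_left₀ hA0.le hAu 2
      _ = uL ^ 4 := by ring
  have hA2' : κ * μ ^ 2 ≤ 101 / 100 * A ^ 2 := by
    rw [← hu4]
    calc uL ^ 4 = (uL ^ 2) ^ 2 := by ring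
      _ ≤ ((1 + 1 / 10 ^ 6) * A) ^ 2 := pow_le_pow_left₀ (by positivity) huA 2
      _ = (1 + 1 / 10 ^ 6) ^ 2 * A ^ 2 := by ring
      _ ≤ 101 / 100 * A ^ 2 := mul_le_mul_of_nonneg_right (by norm_num) (by positivity)
  have hN3 : N ^ 2 ≤ σ ^ 3 := by
    rw [← pow_le_pow_iff_left₀ (by positivity) (by positivity) two_ne_zero]
    have h1 : κ ^ 3 * N ^ 4 * σ ^ 6 ≤ 1 * σ ^ 6 := mul_le_mul_of_nonneg_right hκN (by positivity)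
    have h2 : κ ^ 3 * N ^ 4 * σ ^ 6 = N ^ 4 * (κ * σ ^ 2) ^ 3 := by ring
    rw [h2, hκσ] at h1
    nlinarith
  have hu3 : K ≤ uL ^ 3 := by
    have h1 : uL ≤ uL ^ 3 := le_self_pow₀ hu1 (by norm_num)
    rw [hK]; linarith
  have hw1 : 8 * K * μ * uL ^ 4 ≤ w0 := by
    have h1 : uL ^ 6 ≤ 101 / 100 * A ^ 3 := by
      calc uL ^ 6 = (uL ^ 2) ^ 3 := by ring
        _ ≤ ((1 + 1 / 10 ^ 6) * A) ^ 3 := pow_le_pow_left₀ (by positivity) huA 3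
        _ = (1 + 1 / 10 ^ 6) ^ 3 * A ^ 3 := by ring
        _ ≤ 101 / 100 * A ^ 3 := mul_le_mul_of_nonneg_right (by norm_num) (by positivity)
    have h2 : 8 * K * μ * uL ^ 4 = 32 * σ * (Cst * uL ^ 6) := by rw [hK, hμe]; ring
    have h3 : w0 = 32 * σ * (A ^ 4 / 12800) := by rw [hw0]; ring
    rw [h2, h3]
    refine mul_le_mul_of_nonneg_left ?_ (by positivity)
    have h4 : Cst * uL ^ 6 ≤ Cst * (101 / 100 * A ^ 3) :=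
      mul_le_mul_of_nonneg_left h1 (by linarith)
    refine h4.trans ?_
    have h5 : Cst * 12928 ≤ A := by rw [hA]; linarith
    have h6 : 0 < A ^ 3 := by positivity
    have h7 := mul_le_mul_of_nonneg_right h5 h6.le
    have h8 : A ^ 4 / 12800 = A * A ^ 3 / 12800 := by ring
    rw [h8]
    linarith
  refine ⟨hu1000, hu4, ?_, ?_, hu3, hA2, hA2', hw1, ?_⟩
  · calc uL ^ 6 * N ^ 2 ≤ uL ^ 6 * σ ^ 3 := mul_le_mul_of_nonneg_left hN3 (by positivity)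
      _ = μ ^ 3 := by rw [hμe]; ring
  · rw [hμe, mul_comm]
    refine mul_le_mul_of_nonneg_left ?_ (by positivity)
    by_cases h : 0 ≤ D0
    · linarith
    · linarith
  · have e : uL ^ 15 * (w0 / (4 * μ * uL ^ 8)) ^ 4 = A ^ 16 / (1600 ^ 4 * uL ^ 25) := by
      rw [hw0, hμe]; field_simp; ring
    rw [e, le_div_iff₀ (by positivity)]
    have h1 : uL ^ 24 ≤ 2 * A ^ 12 := by
      calc uL ^ 24 = (uL ^ 2) ^ 12 := by ring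
        _ ≤ ((1 + 1 / 10 ^ 6) * A) ^ 12 := pow_le_pow_left₀ (by positivity) huA 12
        _ = (1 + 1 / 10 ^ 6) ^ 12 * A ^ 12 := by ring
        _ ≤ 2 * A ^ 12 := mul_le_mul_of_nonneg_right (by norm_num) (by positivity)
    have h2 : uL ≤ 2 * A := by
      have : uL ≤ uL ^ 2 := le_self_pow₀ hu1 (by norm_num)
      linarith
    have h3 : uL ^ 25 ≤ 4 * A ^ 13 := by
      calc uL ^ 25 = uL ^ 24 * uL := by ring
        _ ≤ 2 * A ^ 12 * (2 * A) := mul_le_mul h1 h2 hu0.le (by positivity)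
        _ = 4 * A ^ 13 := by ring
    have h4 : K ≤ A := by rw [hK, hA]; linarith
    calc K * (1600 ^ 4 * uL ^ 25) ≤ A * (1600 ^ 4 * (4 * A ^ 13)) :=
          mul_le_mul h4 (mul_le_mul_of_nonneg_left h3 (by positivity)) (by positivity) hA0.le
      _ = 4 * 1600 ^ 4 * A ^ 14 := by ring
      _ ≤ (10 ^ 12) ^ 2 * A ^ 14 := mul_le_mul_of_nonneg_right (by norm_num) (by positivity)
      _ ≤ A ^ 2 * A ^ 14 :=
          mul_le_mul_of_nonneg_right (pow_le_pow_left₀ (by norm_num) hA12 2) (by positivity)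
      _ = A ^ 16 := by ring

/-- adapt `P046.lower_core`: `K = 4 Cst`, `A` a large constant depending on `Cst`
(`A ≥ 10 ^ 12 * Cst ^ 2` is enough for `K ≤ uL ^ 3`, `hw1`, `hw2` of `badU_le_LamK`; here `uL ^ 4 = κ μ²`
with `A ≤ uL ^ 2 ≤ (1 + 1/1000) A`), `μ ≡ N mod 3` just above `A σ`, `w0 = A ^ 4 * σ / 400`,
`P(bad) ≤ Cst / K = 1/4` -/
theorem lower_core_LF : ∃ A δ : ℝ, 1000 ≤ A ∧ 0 < δ ∧ ∀ (n : ℕ) (κ σ D0 N : ℝ), 2 ≤ n →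
    D0 = n - 2 → 0 < D0 → N = ((n.choose 2 : ℕ) : ℝ) → 12 ≤ N →
    κ = D0 / ((N - 3) * (N - 6)) → 60 ≤ σ → κ * σ ^ 2 = 1 → 2 * A * σ ≤ N →
    4 * D0 ≤ σ → κ ^ 3 * N ^ 4 ≤ 1 → D0 ^ 2 * κ ≤ 1 →
    δ * σ ≤ EFv (Hn n) (n ^ 2) (EF (⊤ : SimpleGraph (Fin n))) := by
  obtain ⟨c, hc, Cst, hCst, hstart⟩ := cost_start
  obtain ⟨A, hA⟩ : ∃ A : ℝ, A = 10 ^ 12 * Cst ^ 2 := ⟨_, rfl⟩
  obtain ⟨K, hK⟩ : ∃ K : ℝ, K = 4 * Cst := ⟨_, rfl⟩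
  have hA12 : 10 ^ 12 ≤ A := by
    have : 1 ≤ Cst ^ 2 := one_le_pow₀ hCst
    rw [hA]; linarith
  have hA0 : 0 < A := by linarith
  refine ⟨A, 1 / (200 * A ^ 8), by linarith, by positivity, ?_⟩
  intro n κ σ D0 N hn hD0 hD0' hN hN6 hκ hσ0 hκσ hAN hDσ hκN hDκ
  have hσp : 0 < σ := by linarith
  have hκ0 : 0 < κ := by
    rw [hκ]
    have h3 : 0 < N - 3 := by linarith
    have h6 : 0 < N - 6 := by linarith
    positivity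
  have hAσp : 0 < A * σ := by positivity
  have hAN' : A * σ ≤ N := by linarith
  obtain ⟨k1, hk1, hk1'⟩ := exists_mod hAN'
  obtain ⟨μ, hμ⟩ : ∃ μ : ℝ, μ = N - 3 * k1 := ⟨_, rfl⟩
  rw [← hμ] at hk1 hk1'
  have hAσ : 10 ^ 12 * 60 ≤ A * σ := mul_le_mul hA12 hσ0 (by norm_num) hA0.le
  have hσμ : σ - 3 ≤ μ := by
    have : (1 : ℝ) * σ ≤ A * σ := mul_le_mul_of_nonneg_right (by linarith) hσp.le
    linarith
  obtain ⟨j, hj, hj'⟩ := exists_mod hσμ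
  obtain ⟨m2, hm2⟩ : ∃ m2 : ℝ, m2 = μ - 3 * j := ⟨_, rfl⟩
  rw [← hm2] at hj hj'
  obtain ⟨w0, hw0⟩ : ∃ w0 : ℝ, w0 = A ^ 4 * σ / 400 := ⟨_, rfl⟩
  obtain ⟨uL, huL⟩ : ∃ uL : ℝ, uL = Real.sqrt (μ / σ) := ⟨_, rfl⟩
  obtain ⟨hu1000, hu4, hu6, hu2, hu3, hP1, hP2, hw1, hw2⟩ := num_LF hCst hA hK hκ0 hκσ hσ0
    (by linarith) hk1 hk1' huL hκN hDσ hw0
  have hμ0 : 0 < μ := by linarith
  have hμ1000 : 1000 ≤ μ := by linarith
  -- the size as a natural number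
  obtain ⟨μN, hμN⟩ : ∃ μN : ℕ, μN = n.choose 2 - 3 * k1 := ⟨_, rfl⟩
  have hk1N : 3 * k1 ≤ n.choose 2 := by
    have : (3 * k1 : ℝ) ≤ n.choose 2 := by rw [← hN]; linarith
    exact_mod_cast this
  have hμNe : n.choose 2 = μN + 3 * k1 := by omega
  have hμNr : (μN : ℝ) = μ := by
    have : ((n.choose 2 : ℕ) : ℝ) = μN + 3 * k1 := by exact_mod_cast hμNe
    rw [hμ, hN]; linarith
  have hn2 : n.choose 2 ≤ n ^ 2 := Nat.choose_le_pow n 2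
  have hk1n : k1 ≤ n ^ 2 := by omega
  -- Δ's
  have hA4 : 10 ^ 12 ≤ A ^ 4 := by
    calc (10 : ℝ) ^ 12 ≤ A := hA12
      _ ≤ A ^ 4 := le_self_pow₀ (by linarith) (by norm_num)
  have hA8 : A ^ 4 ≤ A ^ 8 := pow_le_pow_right₀ (by linarith) (by norm_num)
  obtain ⟨Δ1, hΔ1⟩ : ∃ Δ1 : ℕ, Δ1 = ⌈A ^ 4⌉₊ := ⟨_, rfl⟩
  obtain ⟨Δ2, hΔ2⟩ : ∃ Δ2 : ℕ, Δ2 = ⌈3 * A ^ 8⌉₊ := ⟨_, rfl⟩
  have hΔ1a : A ^ 4 ≤ Δ1 := by rw [hΔ1]; exact Nat.le_ceil _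
  have hΔ1b : (Δ1 : ℝ) ≤ 101 / 100 * A ^ 4 := by
    have := (Nat.ceil_lt_add_one (by positivity : 0 ≤ A ^ 4)).le
    rw [← hΔ1] at this
    linarith
  have hΔ2a : 3 * A ^ 8 ≤ Δ2 := by rw [hΔ2]; exact Nat.le_ceil _
  have hΔ2b : (Δ2 : ℝ) ≤ 4 * A ^ 8 := by
    have := (Nat.ceil_lt_add_one (by positivity : 0 ≤ 3 * A ^ 8)).le
    rw [← hΔ2] at this
    linarith
  have hΔ12 : Δ1 ≤ Δ2 := by
    have : (Δ1 : ℝ) ≤ Δ2 := by linarith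
    exact_mod_cast this
  -- good states
  have hgood : ∀ M : Finset (Sym2 (Fin n)), M.card = μN →
      (m2 / 9 / (3 * (Δ2 : ℝ) + 2)) * (1 - badU κ μ w0 (Hn n) M) ≤
        EFv (Hn n) (n ^ 2 - k1) M := by
    intro M hM
    have hMr : (M.card : ℝ) = μ := by rw [hM, hμNr]
    unfold badU
    split_ifs with hc
    swap
    · rw [sub_self, mul_zero]; exact EFv_nonneg _ _
    obtain ⟨hc1, hc2, hc3⟩ := hc
    have hgl := lower_goodU (H := Hn n) (M := M) Hn_lin Hn_NS (A := A) hκ0 hκσ (by linarith) hσ0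
      hμ1000 hMr (m2 := m2) (j := j) (by rw [hm2]; ring) (k := n ^ 2 - k1) (by omega) hj
      (by linarith) hP1 hP2 hw0 hΔ1a hΔ1b hΔ2a hΔ12 hc1 hc2 hc3
    have hΔp : 0 < 3 * (Δ2 : ℝ) + 2 := by positivity
    rw [sub_zero, mul_one, div_le_iff₀ hΔp, mul_comm]
    exact hgl
  have hdeg : ∀ x ∈ EF (⊤ : SimpleGraph (Fin n)),
      (deg (Hn n) (EF (⊤ : SimpleGraph (Fin n))) x : ℝ) = D0 := by
    intro x hx
    rw [deg_top hx, hD0]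
    push_cast [Nat.cast_sub hn]
    ring
  have hK1 : 1 ≤ K := by rw [hK]; linarith
  have hcost : cost (Hn n) (badU κ μ w0 (Hn n)) k1 (EF (⊤ : SimpleGraph (Fin n))) ≤ 1 / 4 := by
    have h1 := hstart (Sym2 (Fin n)) (Hn n) (EF (⊤ : SimpleGraph (Fin n))) (badU κ μ w0 (Hn n))
      D0 κ uL μ K k1 Hn_lin hD0' hdeg (by rw [card_top, ← hN, hκ])
      (by rw [card_top, ← hN, hμ]; ring) hu1000 hu4 (by rw [card_top, ← hN]; exact hu6) hu2 hK1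
      hu3 (fun _ => badU_le_one)
      (fun M' N' S' hM' hN' hS' => badU_le_LamK (c := c) Hn_lin hκ0 hu1000 hμ1000 hu4 hK1 hu3
        hM' hN' hS' hw1 hw2)
    refine h1.trans (le_of_eq ?_)
    rw [hK]
    have : Cst ≠ 0 := by linarith
    field_simp
  have hfin := EFv_cost (H := Hn n) Hn_lin hgood k1 (EF (⊤ : SimpleGraph (Fin n)))
    (by rw [card_top, hμNe])
  have hkk : n ^ 2 - k1 + k1 = n ^ 2 := by omega
  rw [hkk] at hfin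
  have hm2pos : 0 < m2 := by linarith
  have hL0 : 0 < m2 / 9 / (3 * (Δ2 : ℝ) + 2) := by positivity
  have hfin2 : m2 / 9 / (3 * (Δ2 : ℝ) + 2) * (3 / 4) ≤
      EFv (Hn n) (n ^ 2) (EF (⊤ : SimpleGraph (Fin n))) := by
    refine le_trans (mul_le_mul_of_nonneg_left ?_ hL0.le) hfin
    linarith
  have hΔp : 0 < 3 * (Δ2 : ℝ) + 2 := by positivity
  have hΔ2c : 3 * (Δ2 : ℝ) + 2 ≤ 13 * A ^ 8 := by linarith
  have h3 : m2 / 12 ≤ EFv (Hn n) (n ^ 2) (EF (⊤ : SimpleGraph (Fin n))) * (3 * (Δ2 : ℝ) + 2) := by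
    rw [← div_le_iff₀ hΔp]
    refine le_trans (le_of_eq ?_) hfin2
    ring
  have hE0 := EFv_nonneg (H := Hn n) (n ^ 2) (EF (⊤ : SimpleGraph (Fin n)))
  have h4 := mul_le_mul_of_nonneg_left hΔ2c hE0
  have h5 : σ * (9 / 10) ≤ m2 := by linarith
  rw [one_div_mul_eq_div, div_le_iff₀ (by positivity)]
  have hA8p : 0 < A ^ 8 := by positivity
  have h6 := mul_nonneg hE0 hA8p.le
  linarith

/-- adapt `P046.expect_lower_of` -/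
theorem params_LF {n : ℕ} {A : ℝ} (hA : 0 < A) (hn : 10 ^ 5 ≤ n) (hnA : 64 * A ^ 2 ≤ n) :
    ∃ κ σ D0 N : ℝ, D0 = n - 2 ∧ 0 < D0 ∧ N = ((n.choose 2 : ℕ) : ℝ) ∧ 12 ≤ N ∧
    κ = D0 / ((N - 3) * (N - 6)) ∧ 60 ≤ σ ∧ κ * σ ^ 2 = 1 ∧ 2 * A * σ ≤ N ∧
    4 * D0 ≤ σ ∧ κ ^ 3 * N ^ 4 ≤ 1 ∧ D0 ^ 2 * κ ≤ 1 ∧ (n : ℝ) ^ (3 / 2 : ℝ) / 10 ≤ σ := by
  have hnR : (10 ^ 5 : ℝ) ≤ n := by exact_mod_cast hn
  obtain ⟨y, hy⟩ : ∃ y : ℝ, y = n := ⟨_, rfl⟩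
  rw [← hy] at hnA hnR ⊢
  have hy0 : 0 < y := by linarith
  obtain ⟨N, hN⟩ : ∃ N : ℝ, N = ((n.choose 2 : ℕ) : ℝ) := ⟨_, rfl⟩
  have hNe : N = y * (y - 1) / 2 := by rw [hN, choose_two_real, hy]
  have hN1 : y ^ 2 / 4 ≤ N := by
    have : 10 ^ 5 * y ≤ y * y := mul_le_mul_of_nonneg_right hnR hy0.le
    rw [hNe]; linarith
  have hN2 : N ≤ y ^ 2 / 2 := by rw [hNe]; linarith
  have hy2 : (10 ^ 5 : ℝ) ^ 2 ≤ y ^ 2 := pow_le_pow_left₀ (by norm_num) hnR 2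
  have hN12 : 1000 ≤ N := by linarith
  obtain ⟨D0, hD0⟩ : ∃ D0 : ℝ, D0 = y - 2 := ⟨_, rfl⟩
  have hD0' : 0 < D0 := by linarith
  obtain ⟨κ, hκ⟩ : ∃ κ : ℝ, κ = D0 / ((N - 3) * (N - 6)) := ⟨_, rfl⟩
  have hN3 : 0 < N - 3 := by linarith
  have hN6 : 0 < N - 6 := by linarith
  have hNN : 0 < (N - 3) * (N - 6) := by positivity
  have hκ0 : 0 < κ := by rw [hκ]; positivity
  obtain ⟨σ, hσ⟩ : ∃ σ : ℝ, σ = Real.sqrt (1 / κ) := ⟨_, rfl⟩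
  have hσσ : σ ^ 2 = 1 / κ := by rw [hσ]; exact Real.sq_sqrt (by positivity)
  have hσnn : 0 ≤ σ := by rw [hσ]; exact Real.sqrt_nonneg _
  have hκσ : κ * σ ^ 2 = 1 := by rw [hσσ]; field_simp
  obtain ⟨X, hX⟩ : ∃ X : ℝ, X = y ^ (3 / 2 : ℝ) := ⟨_, rfl⟩
  have hX0 : 0 < X := by rw [hX]; positivity
  have hXX : X ^ 2 = y ^ 3 := by
    rw [hX, ← Real.rpow_natCast, ← Real.rpow_mul hy0.le, ← Real.rpow_natCast]
    norm_num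
  -- bounds on σ
  obtain ⟨hs1, hs2⟩ := sig_bounds hnR hN1 hN2 hD0 hXX
  have hσκ : σ ^ 2 = (N - 3) * (N - 6) / D0 := by rw [hσσ, hκ, one_div_div]
  rw [← hσκ] at hs1 hs2
  have hσ1 : X / 10 ≤ σ := (pow_le_pow_iff_left₀ (by positivity) hσnn two_ne_zero).1 hs1
  have hσ2 : σ ≤ X := (pow_le_pow_iff_left₀ hσnn hX0.le two_ne_zero).1 hs2
  have hyX : y * 300 ≤ X := by
    rw [← pow_le_pow_iff_left₀ (by positivity) hX0.le (two_ne_zero), hXX]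
    have : y ^ 2 * 10 ^ 5 ≤ y ^ 2 * y := mul_le_mul_of_nonneg_left hnR (by positivity)
    have e : (y * 300) ^ 2 = y ^ 2 * 90000 := by ring
    have e2 : y ^ 3 = y ^ 2 * y := by ring
    have h0 : 0 < y ^ 2 := by positivity
    rw [e, e2]
    linarith
  have hAX : 8 * A * X ≤ y ^ 2 := by
    rw [← pow_le_pow_iff_left₀ (by positivity) (by positivity) (two_ne_zero)]
    have e : (8 * A * X) ^ 2 = 64 * A ^ 2 * X ^ 2 := by ring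
    rw [e, hXX]
    have h1 : 64 * A ^ 2 * y ^ 3 ≤ y * y ^ 3 := mul_le_mul_of_nonneg_right hnA (by positivity)
    have e2 : (y ^ 2) ^ 2 = y * y ^ 3 := by ring
    rw [e2]
    exact h1
  have hσD : 4 * D0 ≤ σ := by linarith
  refine ⟨κ, σ, D0, N, hD0, hD0', hN, by linarith, hκ, by linarith, hκσ, ?_, hσD, ?_, ?_, by rw [← hX]; exact hσ1⟩
  · have h1 : 2 * A * σ ≤ 2 * A * X := mul_le_mul_of_nonneg_left hσ2 (by positivity)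
    linarith
  · -- `N² ≤ σ³`
    have h1 : N ^ 2 ≤ σ ^ 3 := by
      have h2 : N ^ 2 ≤ (y ^ 2 / 2) ^ 2 := pow_le_pow_left₀ (by linarith) hN2 2
      have h3 : (X / 10) ^ 3 ≤ σ ^ 3 := pow_le_pow_left₀ (by positivity) hσ1 3
      have h4 : (X / 10) ^ 3 = y ^ 3 * X / 1000 := by rw [← hXX]; ring
      have h5 : y ^ 3 * (y * 300) ≤ y ^ 3 * X := mul_le_mul_of_nonneg_left hyX (by positivity)
      have h6 : (y ^ 2 / 2) ^ 2 = y ^ 3 * y / 4 := by ring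
      have h7 : 0 < y ^ 3 * y := by positivity
      rw [h6] at h2
      rw [h4] at h3
      linarith
    have h2 : N ^ 4 ≤ σ ^ 6 := by
      calc N ^ 4 = (N ^ 2) ^ 2 := by ring
        _ ≤ (σ ^ 3) ^ 2 := pow_le_pow_left₀ (by positivity) h1 2
        _ = σ ^ 6 := by ring
    calc κ ^ 3 * N ^ 4 ≤ κ ^ 3 * σ ^ 6 := mul_le_mul_of_nonneg_left h2 (by positivity)
      _ = (κ * σ ^ 2) ^ 3 := by ring
      _ = 1 := by rw [hκσ]; norm_num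
  · have h1 : D0 ^ 2 ≤ σ ^ 2 := pow_le_pow_left₀ hD0'.le (by linarith) 2
    have h2 := mul_le_mul_of_nonneg_right h1 hκ0.le
    linarith

/-- adapt `P046.expect_lower_of`, `P046.expect_lower` -/
theorem expect_lower_LF : ∃ c : ℝ, 0 < c ∧ ∃ n0 : ℕ, 2 ≤ n0 ∧ ∀ n : ℕ, n0 ≤ n →
    c * (n : ℝ) ^ (3 / 2 : ℝ) ≤ ∫ k, (k : ℝ) ∂(finalEdges n).toMeasure := by
  obtain ⟨A, δ, hA, hδ, hcore⟩ := lower_core_LF
  refine ⟨δ / 10, by positivity, max (10 ^ 5) ⌈64 * A ^ 2⌉₊,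
    le_trans (by norm_num) (le_max_left _ _), fun n hn => ?_⟩
  have h1 : 10 ^ 5 ≤ n := (le_max_left _ _).trans hn
  have h2 : 64 * A ^ 2 ≤ n := by
    refine (Nat.le_ceil _).trans ?_
    exact_mod_cast (le_max_right _ _).trans hn
  obtain ⟨κ, σ, D0, N, e1, e2, e3, e4, e5, e6, e7, e8, e9, e10, e11, e12⟩ :=
    params_LF (by linarith : 0 < A) h1 h2
  have h := hcore n κ σ D0 N (by omega) e1 e2 e3 e4 e5 e6 e7 e8 e9 e10 e11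
  rw [integral_finalEdges]
  refine le_trans ?_ h
  have h3 := mul_le_mul_of_nonneg_left e12 hδ.le
  linarith

end Vale.Agent.P046LF
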