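import Vale.Agent.P046LF.LowProb
import Vale.Agent.P046LF.LowerLF

/-!
P046 log-free: `F_n ≥ c(ε) n^{3/2}` with probability at least `1 - ε`.
-/

namespace Vale.Agent.P046LF

open Finset Vale.Agent.P046 MeasureTheory

/-- adapt the proof of `expect_lower_LF` (with `K = 2 Cst / ε`, `EX_cost`, `low_probU` and
`measure_EX`) -/
theorem prob_lower_LF : ∀ ε : ℝ, 0 < ε → ∃ c : ℝ, 0 < c ∧ ∃ n0 : ℕ, ∀ n : ℕ, n0 ≤ n →
    ((finalEdges n).toMeasure {k : ℕ | (k : ℝ) ≤ c * (n : ℝ) ^ (3 / 2 : ℝ)}).toReal ≤ ε := by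
  sorry

end Vale.Agent.P046LF
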