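import Vale.Agent.P046LF.Toolkit

/-!
P046 log-free, module PATHS: 2-paths and induced 4-cycles of triples (item (4) in the proof of
(S2), the counting part).
-/

namespace Vale.Agent.P046LF

open Finset Vale.Agent.P046

variable {V : Type} [DecidableEq V] {H : Finset (Finset V)} {M : Finset V}

/-- the set counted by `P2` -/
def pathSet (H : Finset (Finset V)) (M : Finset V) (x y : V) : Finset (Finset V × Finset V) :=
  (sub H M ×ˢ sub H M).filter fun q =>
    x ∈ q.1 ∧ x ∉ q.2 ∧ y ∈ q.2 ∧ y ∉ q.1 ∧ ¬ Disjoint q.1 q.2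

theorem P2_eq_card (x y : V) : P2 H M x y = (pathSet H M x y).card := rfl

theorem mem_pathSet {x y : V} {q : Finset V × Finset V} : q ∈ pathSet H M x y ↔
    (q.1 ∈ sub H M ∧ q.2 ∈ sub H M) ∧
      x ∈ q.1 ∧ x ∉ q.2 ∧ y ∈ q.2 ∧ y ∉ q.1 ∧ ¬ Disjoint q.1 q.2 := by
  unfold pathSet
  rw [mem_filter, mem_product]

/-- at most two triples through `y` meet `T₁ ∋ x` and avoid `x` -/
theorem two_choices (hH : IsLin3 H) {T1 : Finset V} (hT1 : T1 ∈ sub H M) {x y : V} (hx : x ∈ T1)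
    (hy : y ∉ T1) :
    ((sub H M).filter fun T2 => x ∉ T2 ∧ y ∈ T2 ∧ ¬ Disjoint T1 T2).card ≤ 2 := by
  have h1 : (sub H M).filter (fun T2 => x ∉ T2 ∧ y ∈ T2 ∧ ¬ Disjoint T1 T2) ⊆
      (T1.erase x).biUnion fun p => (sub H M).filter (fun T' => y ∈ T' ∧ p ∈ T') := by
    intro T2 hT2
    rw [mem_filter] at hT2
    obtain ⟨p, hp1, hp2⟩ := not_disjoint_iff.1 hT2.2.2.2
    rw [mem_biUnion]
    refine ⟨p, mem_erase.2 ⟨?_, hp1⟩, mem_filter.2 ⟨hT2.1, hT2.2.2.1, hp2⟩⟩
    rintro rfl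
    exact hT2.2.1 hp2
  calc _ ≤ _ := card_le_card h1
    _ ≤ ∑ p ∈ T1.erase x, ((sub H M).filter (fun T' => y ∈ T' ∧ p ∈ T')).card := card_biUnion_le
    _ ≤ ∑ p ∈ T1.erase x, 1 := by
      refine Finset.sum_le_sum fun p hp => codeg_le_one hH ?_
      rintro rfl
      exact hy (mem_of_mem_erase hp)
    _ = 2 := by
      rw [sum_const, smul_eq_mul, mul_one, card_erase_of_mem hx, hH.card3 T1 (mem_sub.1 hT1).1]

theorem P2_le (hH : IsLin3 H) (x y : V) : P2 H M x y ≤ 2 * deg H M x := by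
  rw [P2_eq_card]
  unfold deg
  refine card_le_mul_card_image_of_maps_to (f := Prod.fst) (fun q hq => ?_) 2 (fun T1 hT1 => ?_)
  · rw [mem_pathSet] at hq
    exact mem_filter.2 ⟨hq.1.1, hq.2.1⟩
  · rw [mem_filter] at hT1
    by_cases hy : y ∈ T1
    · have : (pathSet H M x y).filter (fun a => Prod.fst a = T1) = ∅ := by
        rw [filter_eq_empty_iff]
        rintro q hq rfl
        rw [mem_pathSet] at hq
        exact hq.2.2.2.2.1 hy
      rw [this]; simp
    · refine le_trans ?_ (two_choices hH hT1.1 hT1.2 hy)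
      refine card_le_card_of_injOn Prod.snd ?_ ?_
      · rintro q hq
        rw [mem_coe, mem_filter] at hq
        obtain ⟨hq, rfl⟩ := hq
        rw [mem_pathSet] at hq
        rw [mem_coe, mem_filter]
        exact ⟨hq.1.2, hq.2.2.1, hq.2.2.2.1, hq.2.2.2.2.2⟩
      · rintro q hq q' hq' h
        rw [mem_coe, mem_filter] at hq hq'
        exact Prod.ext (hq.2.trans hq'.2.symm) h

theorem bb_nat (x : V) : bb H M x =
    ((∑ T ∈ (sub H M).filter (fun T => x ∈ T), ∑ z ∈ T.erase x, deg H M z : ℕ) : ℝ) := by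
  unfold bb SN
  push_cast
  refine Finset.sum_congr rfl fun T hT => ?_
  have h := Finset.add_sum_erase T (fun z => (deg H M z : ℝ)) (mem_filter.1 hT).2
  rw [← h]; ring

theorem sum_P2_nat (hH : IsLin3 H) (x : V) :
    ∑ y ∈ M, P2 H M x y ≤
      2 * ∑ T ∈ (sub H M).filter (fun T => x ∈ T), ∑ z ∈ T.erase x, deg H M z := by
  have h1 := Finset.sum_card_bipartiteAbove_eq_sum_card_bipartiteBelow (s := M)
    (t := sub H M ×ˢ sub H M) (fun (y : V) (q : Finset V × Finset V) =>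
      x ∈ q.1 ∧ x ∉ q.2 ∧ y ∈ q.2 ∧ y ∉ q.1 ∧ ¬ Disjoint q.1 q.2)
  have h2 : ∑ y ∈ M, P2 H M x y = ∑ y ∈ M, (Finset.bipartiteAbove (fun (y : V)
      (q : Finset V × Finset V) => x ∈ q.1 ∧ x ∉ q.2 ∧ y ∈ q.2 ∧ y ∉ q.1 ∧ ¬ Disjoint q.1 q.2)
      (sub H M ×ˢ sub H M) y).card := rfl
  rw [h2, h1]
  set Q0 := (sub H M ×ˢ sub H M).filter fun q => x ∈ q.1 ∧ x ∉ q.2 ∧ ¬ Disjoint q.1 q.2 with hQ0
  calc _ ≤ ∑ q ∈ sub H M ×ˢ sub H M, if x ∈ q.1 ∧ x ∉ q.2 ∧ ¬ Disjoint q.1 q.2 then 2 else 0 := by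
        refine Finset.sum_le_sum fun q hq => ?_
        rw [mem_product] at hq
        split_ifs with hc
        · have hsub : Finset.bipartiteBelow (fun (y : V)
              (q : Finset V × Finset V) => x ∈ q.1 ∧ x ∉ q.2 ∧ y ∈ q.2 ∧ y ∉ q.1 ∧ ¬ Disjoint q.1 q.2)
              M q ⊆ q.2 \ q.1 := by
            intro y hy
            unfold Finset.bipartiteBelow at hy
            rw [mem_filter] at hy
            exact mem_sdiff.2 ⟨hy.2.2.2.1, hy.2.2.2.2.1⟩
          refine le_trans (card_le_card hsub) ?_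
          have h5 : (q.2 \ q.1).card + (q.2 ∩ q.1).card = q.2.card :=
            card_sdiff_add_card_inter q.2 q.1
          rw [hH.card3 q.2 (mem_sub.1 hq.2).1] at h5
          have h6 : 0 < (q.2 ∩ q.1).card := by
            rw [card_pos, nonempty_iff_ne_empty]
            intro h0
            exact hc.2.2 (disjoint_iff_inter_eq_empty.2 (by rw [inter_comm]; exact h0))
          omega
        · have : Finset.bipartiteBelow (fun (y : V)
              (q : Finset V × Finset V) => x ∈ q.1 ∧ x ∉ q.2 ∧ y ∈ q.2 ∧ y ∉ q.1 ∧ ¬ Disjoint q.1 q.2)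
              M q = ∅ := by
            unfold Finset.bipartiteBelow
            rw [filter_eq_empty_iff]
            intro y _ hy
            exact hc ⟨hy.1, hy.2.1, hy.2.2.2.2⟩
          rw [this]; simp
    _ = 2 * Q0.card := by
        rw [← Finset.sum_filter, Finset.sum_const, smul_eq_mul, mul_comm]
    _ ≤ 2 * ∑ T ∈ (sub H M).filter (fun T => x ∈ T), ∑ z ∈ T.erase x, deg H M z := by
        refine Nat.mul_le_mul_left _ ?_
        rw [Finset.card_eq_sum_card_fiberwise (f := Prod.fst)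
          (t := (sub H M).filter (fun T => x ∈ T)) (fun q hq => by
            rw [mem_coe, hQ0, mem_filter, mem_product] at hq
            exact mem_coe.2 (mem_filter.2 ⟨hq.1.1, hq.2.1⟩))]
        refine Finset.sum_le_sum fun T hT => ?_
        have h7 : (Q0.filter fun q => q.1 = T).card ≤
            ((T.erase x).biUnion fun z => (sub H M).filter (fun T' => z ∈ T')).card := by
          refine card_le_card_of_injOn Prod.snd ?_ ?_
          · rintro q hq
            rw [mem_coe, mem_filter] at hq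
            obtain ⟨hq, rfl⟩ := hq
            rw [hQ0, mem_filter, mem_product] at hq
            obtain ⟨p, hp1, hp2⟩ := not_disjoint_iff.1 hq.2.2.2
            rw [mem_coe, mem_biUnion]
            refine ⟨p, mem_erase.2 ⟨?_, hp1⟩, mem_filter.2 ⟨hq.1.2, hp2⟩⟩
            rintro rfl
            exact hq.2.2.1 hp2
          · rintro q hq q' hq' h
            rw [mem_coe, mem_filter] at hq hq'
            exact Prod.ext (hq.2.trans hq'.2.symm) h
        exact le_trans h7 card_biUnion_le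

theorem sum_P2_le (hH : IsLin3 H) (x : V) :
    ∑ y ∈ M, (P2 H M x y : ℝ) ≤ 2 * bb H M x := by
  rw [bb_nat]
  have h := sum_P2_nat (M := M) hH x
  exact_mod_cast h

/-- heavy end points -/
theorem sum_P2_sq_le (hH : IsLin3 H) (x : V) :
    ∑ y ∈ M, (P2 H M x y : ℝ) ^ 2 ≤ 4 * (deg H M x * bb H M x) := by
  calc ∑ y ∈ M, (P2 H M x y : ℝ) ^ 2 ≤ ∑ y ∈ M, (2 * deg H M x : ℝ) * (P2 H M x y : ℝ) := by
        refine Finset.sum_le_sum fun y _ => ?_
        rw [sq]
        refine mul_le_mul_of_nonneg_right ?_ (Nat.cast_nonneg _)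
        exact_mod_cast P2_le hH x y
    _ = (2 * deg H M x : ℝ) * ∑ y ∈ M, (P2 H M x y : ℝ) := by rw [Finset.mul_sum]
    _ ≤ (2 * deg H M x : ℝ) * (2 * bb H M x) :=
        mul_le_mul_of_nonneg_left (sum_P2_le hH x) (by positivity)
    _ = 4 * (deg H M x * bb H M x) := by ring

/-- nondegenerate pairs of 2-paths -/
def goodSet (H : Finset (Finset V)) (M : Finset V) (x y : V) :
    Finset ((Finset V × Finset V) × (Finset V × Finset V)) :=
  (pathSet H M x y ×ˢ pathSet H M x y).filter fun w =>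
    Disjoint w.1.1 w.2.2 ∧ Disjoint w.1.2 w.2.1

theorem bad1 (hH : IsLin3 H) (x y : V) :
    ((pathSet H M x y ×ˢ pathSet H M x y).filter fun w => ¬ Disjoint w.1.1 w.2.2).card ≤
      9 * P2 H M x y := by
  rw [P2_eq_card]
  refine card_le_mul_card_image_of_maps_to (f := Prod.fst) (fun w hw => ?_) 9 (fun q hq => ?_)
  · rw [mem_filter, mem_product] at hw
    exact hw.1.1
  · rw [mem_pathSet] at hq
    have h1 : (((pathSet H M x y ×ˢ pathSet H M x y).filter
        fun w => ¬ Disjoint w.1.1 w.2.2).filter fun w => Prod.fst w = q).card ≤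
        ((pathSet H M x y).filter fun q' => ¬ Disjoint q.1 q'.2).card := by
      refine card_le_card_of_injOn Prod.snd ?_ ?_
      · rintro w hw
        rw [mem_coe, mem_filter, mem_filter, mem_product] at hw
        obtain ⟨hw, rfl⟩ := hw
        exact mem_coe.2 (mem_filter.2 ⟨hw.1.2, hw.2⟩)
      · rintro w hw w' hw' h
        rw [mem_coe, mem_filter] at hw hw'
        exact Prod.ext (hw.2.trans hw'.2.symm) h
    refine le_trans h1 ?_
    have h2 : ((pathSet H M x y).filter fun q' => ¬ Disjoint q.1 q'.2).card ≤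
        3 * ((sub H M).filter (fun T' => y ∈ T' ∧ ¬ Disjoint T' q.1)).card := by
      refine card_le_mul_card_image_of_maps_to (f := Prod.snd) (fun q' hq' => ?_) 3
        (fun T4 hT4 => ?_)
      · rw [mem_filter, mem_pathSet] at hq'
        exact mem_filter.2 ⟨hq'.1.1.2, hq'.1.2.2.2.1, fun h => hq'.2 h.symm⟩
      · rw [mem_filter] at hT4
        by_cases hx : x ∈ T4
        · have : ((pathSet H M x y).filter fun q' => ¬ Disjoint q.1 q'.2).filter
              (fun a => Prod.snd a = T4) = ∅ := by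
            rw [filter_eq_empty_iff]
            rintro q' hq' rfl
            rw [mem_filter, mem_pathSet] at hq'
            exact hq'.1.2.2.1 hx
          rw [this]; simp
        · refine le_trans ?_ (dl_le hH hT4.1 hx)
          unfold dl
          refine card_le_card_of_injOn Prod.fst ?_ ?_
          · rintro q' hq'
            rw [mem_coe, mem_filter, mem_filter, mem_pathSet] at hq'
            obtain ⟨hq', rfl⟩ := hq'
            exact mem_coe.2 (mem_filter.2 ⟨hq'.1.1.1, hq'.1.2.1, hq'.1.2.2.2.2.2⟩)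
          · rintro a ha a' ha' h
            rw [mem_coe, mem_filter] at ha ha'
            exact Prod.ext h (ha.2.trans ha'.2.symm)
    have h3 : ((sub H M).filter (fun T' => y ∈ T' ∧ ¬ Disjoint T' q.1)).card ≤ 3 :=
      dl_le hH hq.1.1 hq.2.2.2.2.1
    omega

theorem bad2 (hH : IsLin3 H) (x y : V) :
    ((pathSet H M x y ×ˢ pathSet H M x y).filter fun w => ¬ Disjoint w.1.2 w.2.1).card ≤
      9 * P2 H M x y := by
  rw [P2_eq_card]
  refine card_le_mul_card_image_of_maps_to (f := Prod.fst) (fun w hw => ?_) 9 (fun q hq => ?_)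
  · rw [mem_filter, mem_product] at hw
    exact hw.1.1
  · rw [mem_pathSet] at hq
    have h1 : (((pathSet H M x y ×ˢ pathSet H M x y).filter
        fun w => ¬ Disjoint w.1.2 w.2.1).filter fun w => Prod.fst w = q).card ≤
        ((pathSet H M x y).filter fun q' => ¬ Disjoint q.2 q'.1).card := by
      refine card_le_card_of_injOn Prod.snd ?_ ?_
      · rintro w hw
        rw [mem_coe, mem_filter, mem_filter, mem_product] at hw
        obtain ⟨hw, rfl⟩ := hw
        exact mem_coe.2 (mem_filter.2 ⟨hw.1.2, hw.2⟩)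
      · rintro w hw w' hw' h
        rw [mem_coe, mem_filter] at hw hw'
        exact Prod.ext (hw.2.trans hw'.2.symm) h
    refine le_trans h1 ?_
    have h2 : ((pathSet H M x y).filter fun q' => ¬ Disjoint q.2 q'.1).card ≤
        3 * ((sub H M).filter (fun T' => x ∈ T' ∧ ¬ Disjoint T' q.2)).card := by
      refine card_le_mul_card_image_of_maps_to (f := Prod.fst) (fun q' hq' => ?_) 3
        (fun T3 hT3 => ?_)
      · rw [mem_filter, mem_pathSet] at hq'
        exact mem_filter.2 ⟨hq'.1.1.1, hq'.1.2.1, fun h => hq'.2 h.symm⟩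
      · rw [mem_filter] at hT3
        by_cases hy : y ∈ T3
        · have : ((pathSet H M x y).filter fun q' => ¬ Disjoint q.2 q'.1).filter
              (fun a => Prod.fst a = T3) = ∅ := by
            rw [filter_eq_empty_iff]
            rintro q' hq' rfl
            rw [mem_filter, mem_pathSet] at hq'
            exact hq'.1.2.2.2.2.1 hy
          rw [this]; simp
        · refine le_trans ?_ (dl_le hH hT3.1 hy)
          unfold dl
          refine card_le_card_of_injOn Prod.snd ?_ ?_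
          · rintro q' hq'
            rw [mem_coe, mem_filter, mem_filter, mem_pathSet] at hq'
            obtain ⟨hq', rfl⟩ := hq'
            exact mem_coe.2 (mem_filter.2 ⟨hq'.1.1.2, hq'.1.2.2.2.1,
              fun h => hq'.1.2.2.2.2.2 h.symm⟩)
          · rintro a ha a' ha' h
            rw [mem_coe, mem_filter] at ha ha'
            exact Prod.ext (ha.2.trans ha'.2.symm) h
    have h3 : ((sub H M).filter (fun T' => x ∈ T' ∧ ¬ Disjoint T' q.2)).card ≤ 3 :=
      dl_le hH hq.1.2 hq.2.2.1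
    omega

theorem P2_sq_le (hH : IsLin3 H) (x y : V) :
    P2 H M x y ^ 2 ≤ (goodSet H M x y).card + 18 * P2 H M x y := by
  have h1 : P2 H M x y ^ 2 = (pathSet H M x y ×ˢ pathSet H M x y).card := by
    rw [card_product, sq, P2_eq_card]
  have h2 : pathSet H M x y ×ˢ pathSet H M x y ⊆ goodSet H M x y ∪
      (((pathSet H M x y ×ˢ pathSet H M x y).filter fun w => ¬ Disjoint w.1.1 w.2.2) ∪
      ((pathSet H M x y ×ˢ pathSet H M x y).filter fun w => ¬ Disjoint w.1.2 w.2.1)) := by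
    intro w hw
    rw [mem_union, mem_union]
    by_cases ha : Disjoint w.1.1 w.2.2
    · by_cases hb : Disjoint w.1.2 w.2.1
      · exact Or.inl (mem_filter.2 ⟨hw, ha, hb⟩)
      · exact Or.inr (Or.inr (mem_filter.2 ⟨hw, hb⟩))
    · exact Or.inr (Or.inl (mem_filter.2 ⟨hw, ha⟩))
  have h3 := card_le_card h2
  have h4 := card_union_le (goodSet H M x y)
      (((pathSet H M x y ×ˢ pathSet H M x y).filter fun w => ¬ Disjoint w.1.1 w.2.2) ∪
      ((pathSet H M x y ×ˢ pathSet H M x y).filter fun w => ¬ Disjoint w.1.2 w.2.1))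
  have h5 := card_union_le
      ((pathSet H M x y ×ˢ pathSet H M x y).filter fun w => ¬ Disjoint w.1.1 w.2.2)
      ((pathSet H M x y ×ˢ pathSet H M x y).filter fun w => ¬ Disjoint w.1.2 w.2.1)
  have h6 := bad1 (M := M) hH x y
  have h7 := bad2 (M := M) hH x y
  omega

theorem lin_unique (hH : IsLin3 H) {A B : Finset V} (hA : A ∈ sub H M) (hB : B ∈ sub H M)
    (hne : A ≠ B) {x x' : V} (h1 : x ∈ A) (h2 : x ∈ B) (h3 : x' ∈ A) (h4 : x' ∈ B) : x = x' := by
  have h := hH.lin A (mem_sub.1 hA).1 B (mem_sub.1 hB).1 hne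
  rw [card_le_one] at h
  exact h x (mem_inter.2 ⟨h1, h2⟩) x' (mem_inter.2 ⟨h3, h4⟩)

theorem good_total (hH : IsLin3 H) :
    ∑ x ∈ M, ∑ y ∈ M, (goodSet H M x y).card ≤ (C4 H M).card := by
  rw [← Finset.sum_product' (s := M) (t := M) (f := fun x y => (goodSet H M x y).card),
    ← Finset.card_sigma]
  refine card_le_card_of_injOn (fun w => (w.2.1.1, w.2.1.2, w.2.2.2, w.2.2.1)) ?_ ?_
  · rintro ⟨⟨x, y⟩, ⟨T1, T2⟩, ⟨T3, T4⟩⟩ hw
    rw [mem_coe, mem_sigma] at hw
    simp only [goodSet, mem_filter, mem_product, mem_pathSet] at hw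
    obtain ⟨_, ⟨⟨⟨a1, a2⟩, a3, a4, a5, a6, a7⟩, ⟨b1, b2⟩, b3, b4, b5, b6, b7⟩, c1, c2⟩ := hw
    rw [mem_coe]
    unfold C4
    simp only [mem_filter, mem_product]
    exact ⟨⟨a1, a2, b2, b1⟩, a7, not_disjoint_iff.2 ⟨y, a5, b5⟩, fun h => b7 h.symm,
      not_disjoint_iff.2 ⟨x, b3, a3⟩, c1, c2⟩
  · rintro ⟨⟨x, y⟩, ⟨T1, T2⟩, ⟨T3, T4⟩⟩ hw ⟨⟨x', y'⟩, ⟨T1', T2'⟩, ⟨T3', T4'⟩⟩ hw' h
    rw [mem_coe, mem_sigma] at hw hw'
    simp only [goodSet, mem_filter, mem_product, mem_pathSet] at hw hw'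
    obtain ⟨_, ⟨⟨⟨a1, a2⟩, a3, a4, a5, a6, a7⟩, ⟨b1, b2⟩, b3, b4, b5, b6, b7⟩, c1, c2⟩ := hw
    obtain ⟨_, ⟨⟨⟨a1', a2'⟩, a3', a4', a5', a6', a7'⟩, ⟨b1', b2'⟩, b3', b4', b5', b6', b7'⟩,
      c1', c2'⟩ := hw'
    simp only [Prod.mk.injEq] at h
    obtain ⟨rfl, rfl, rfl, rfl⟩ := h
    have hx : x = x' := by
      refine lin_unique hH a1 b1 ?_ a3 b3 a3' b3'
      rintro rfl
      exact b7 c1
    have hy : y = y' := by
      refine lin_unique hH a2 b2 ?_ a5 b5 a5' b5'
      rintro rfl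
      exact b7 c2.symm
    subst hx hy
    rfl

theorem sum_bb_eq (hH : IsLin3 H) : ∑ x ∈ M, bb H M x = 2 * ∑ x ∈ M, (deg H M x : ℝ) ^ 2 := by
  unfold bb SN
  rw [sum_vert_edge (fun T y => ∑ z ∈ T, (deg H M z : ℝ) - deg H M y), ← sum_sT, Finset.mul_sum]
  refine Finset.sum_congr rfl fun T hT => ?_
  rw [Finset.sum_sub_distrib, Finset.sum_const, hH.card3 T (mem_sub.1 hT).1, nsmul_eq_mul]
  unfold sT
  push_cast
  ring

/-- pairs of 2-paths with the same ends: nondegenerate ones are induced 4-cycles -/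
theorem sum_P2_sq_total (hH : IsLin3 H) :
    ∑ x ∈ M, ∑ y ∈ M, (P2 H M x y : ℝ) ^ 2 ≤
      Th H M + 72 * ∑ x ∈ M, (deg H M x : ℝ) ^ 2 := by
  have h1 : ∑ x ∈ M, ∑ y ∈ M, (P2 H M x y : ℝ) ^ 2 ≤
      ∑ x ∈ M, ∑ y ∈ M, (((goodSet H M x y).card : ℝ) + 18 * P2 H M x y) := by
    refine Finset.sum_le_sum fun x _ => Finset.sum_le_sum fun y _ => ?_
    exact_mod_cast P2_sq_le hH x y
  have h2 : ∑ x ∈ M, ∑ y ∈ M, (((goodSet H M x y).card : ℝ) + 18 * P2 H M x y) =
      ∑ x ∈ M, ∑ y ∈ M, ((goodSet H M x y).card : ℝ) +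
        18 * ∑ x ∈ M, ∑ y ∈ M, (P2 H M x y : ℝ) := by
    rw [Finset.mul_sum, ← Finset.sum_add_distrib]
    refine Finset.sum_congr rfl fun x _ => ?_
    rw [Finset.mul_sum, ← Finset.sum_add_distrib]
  have h3 : ∑ x ∈ M, ∑ y ∈ M, ((goodSet H M x y).card : ℝ) ≤ Th H M := by
    unfold Th
    exact_mod_cast good_total hH
  have h4 : ∑ x ∈ M, ∑ y ∈ M, (P2 H M x y : ℝ) ≤ ∑ x ∈ M, 2 * bb H M x :=
    Finset.sum_le_sum fun x _ => sum_P2_le hH x
  rw [← Finset.mul_sum, sum_bb_eq hH] at h4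
  rw [h2] at h1
  linarith

/-- one triple `T'` disjoint from `T` -/
theorem one_edge_dl (hH : IsLin3 H) {T T' : Finset V} (hT' : T' ∈ sub H M)
    {y : V} (hy : y ∈ T') (hd : Disjoint T' T) :
    ∑ z ∈ T'.erase y, dl H M T z ≤
      ∑ x ∈ T, ((sub H M).filter fun T1 => x ∈ T1 ∧ y ∉ T1 ∧ ¬ Disjoint T1 T').card := by
  have e1 : ∑ z ∈ T'.erase y, dl H M T z = ∑ T1 ∈ sub H M,
      ∑ z ∈ T'.erase y, if (z ∈ T1 ∧ ¬ Disjoint T1 T) then 1 else 0 := by
    rw [Finset.sum_comm]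
    refine Finset.sum_congr rfl fun z _ => ?_
    rw [← Finset.sum_filter, Finset.sum_const, smul_eq_mul, mul_one, dl]
  have e2 : ∑ x ∈ T, ((sub H M).filter fun T1 => x ∈ T1 ∧ y ∉ T1 ∧ ¬ Disjoint T1 T').card =
      ∑ T1 ∈ sub H M, ∑ x ∈ T, if (x ∈ T1 ∧ y ∉ T1 ∧ ¬ Disjoint T1 T') then 1 else 0 := by
    rw [Finset.sum_comm]
    refine Finset.sum_congr rfl fun z _ => ?_
    rw [← Finset.sum_filter, Finset.sum_const, smul_eq_mul, mul_one]
  rw [e1, e2]
  refine Finset.sum_le_sum fun T1 hT1 => ?_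
  rw [← Finset.sum_filter, Finset.sum_const, smul_eq_mul, mul_one, ← Finset.sum_filter,
    Finset.sum_const, smul_eq_mul, mul_one]
  by_cases hm : Disjoint T1 T
  · have : (T'.erase y).filter (fun z => z ∈ T1 ∧ ¬ Disjoint T1 T) = ∅ := by
      rw [filter_eq_empty_iff]
      intro z _ hz
      exact hz.2 hm
    rw [this]; simp
  · have hne : T1 ≠ T' := by
      rintro rfl
      exact hm hd
    rcases ((T'.erase y).filter (fun z => z ∈ T1 ∧ ¬ Disjoint T1 T)).eq_empty_or_nonempty with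
      h0 | ⟨z, hz⟩
    · rw [h0]; simp
    · rw [mem_filter, mem_erase] at hz
      have hyT1 : y ∉ T1 := fun h => hz.1.1 (lin_unique hH hT1 hT' hne hz.2.1 hz.1.2 h hy)
      obtain ⟨x, hx1, hx2⟩ := not_disjoint_iff.1 hm
      have h5 : 0 < (T.filter fun x => x ∈ T1 ∧ y ∉ T1 ∧ ¬ Disjoint T1 T').card := by
        rw [card_pos]
        exact ⟨x, mem_filter.2 ⟨hx2, hx1, hyT1, not_disjoint_iff.2 ⟨z, hz.2.1, hz.1.2⟩⟩⟩
      have h6 : ((T'.erase y).filter (fun z => z ∈ T1 ∧ ¬ Disjoint T1 T)).card ≤ 1 := by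
        rw [card_le_one]
        intro a ha b hb
        rw [mem_filter, mem_erase] at ha hb
        exact lin_unique hH hT1 hT' hne ha.2.1 ha.1.2 hb.2.1 hb.1.2
      omega

/-- `g_y(T) ≤ ∑_{x ∈ T} P2(x,y)` -/
theorem sum_dl_le_P2 (hH : IsLin3 H) {T : Finset V} (hT : T ∈ sub H M) {y : V} (hy : y ∈ M \ T) :
    ∑ T' ∈ sub H M with y ∈ T' ∧ Disjoint T' T, (∑ z ∈ T', (dl H M T z : ℝ) - dl H M T y) ≤
      ∑ x ∈ T, (P2 H M x y : ℝ) := by
  have h1 : ∑ T' ∈ sub H M with y ∈ T' ∧ Disjoint T' T,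
      (∑ z ∈ T', (dl H M T z : ℝ) - dl H M T y) =
      ((∑ T' ∈ sub H M with y ∈ T' ∧ Disjoint T' T, ∑ z ∈ T'.erase y, dl H M T z : ℕ) : ℝ) := by
    push_cast
    refine Finset.sum_congr rfl fun T' hT' => ?_
    have h := Finset.add_sum_erase T' (fun z => (dl H M T z : ℝ)) (mem_filter.1 hT').2.1
    rw [← h]; ring
  rw [h1]
  have h2 : ∑ T' ∈ sub H M with y ∈ T' ∧ Disjoint T' T, ∑ z ∈ T'.erase y, dl H M T z ≤
      ∑ x ∈ T, P2 H M x y := by
    calc _ ≤ ∑ T' ∈ sub H M with y ∈ T' ∧ Disjoint T' T, ∑ x ∈ T,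
          ((sub H M).filter fun T1 => x ∈ T1 ∧ y ∉ T1 ∧ ¬ Disjoint T1 T').card := by
          refine Finset.sum_le_sum fun T' hT' => ?_
          rw [mem_filter] at hT'
          exact one_edge_dl hH hT'.1 hT'.2.1 hT'.2.2
      _ = ∑ x ∈ T, ∑ T' ∈ sub H M with y ∈ T' ∧ Disjoint T' T,
          ((sub H M).filter fun T1 => x ∈ T1 ∧ y ∉ T1 ∧ ¬ Disjoint T1 T').card :=
          Finset.sum_comm
      _ ≤ ∑ x ∈ T, P2 H M x y := by
          refine Finset.sum_le_sum fun x hx => ?_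
          rw [P2_eq_card, ← Finset.card_sigma]
          refine card_le_card_of_injOn (fun w => (w.2, w.1)) ?_ ?_
          · rintro ⟨T', T1⟩ hw
            rw [mem_coe, mem_sigma] at hw
            simp only [mem_filter] at hw
            obtain ⟨⟨c1, c2, c3⟩, c4, c5, c6, c7⟩ := hw
            rw [mem_coe, mem_pathSet]
            exact ⟨⟨c4, c1⟩, c5, fun h => (disjoint_left.1 c3 h hx), c2, c6, c7⟩
          · rintro ⟨T', T1⟩ _ ⟨T'', T1'⟩ _ h
            simp only [Prod.mk.injEq] at h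
            obtain ⟨rfl, rfl⟩ := h
            rfl
  exact_mod_cast h2

end Vale.Agent.P046LF
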