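import Vale.Agent.P046LF.FInf

/-!
P046 log-free, module POINT: pointwise error inequalities (PL1)-(PL3) of the note.
-/

namespace Vale.Agent.P046LF

open Vale.Agent.P046

/-! ### auxiliary one-variable facts -/

theorem even_pow8 (ν : ℝ) : 0 ≤ ν ^ 8 := by positivity

theorem theta_pow_le {θ : ℝ} (hθ : 0 ≤ θ) (j : ℕ) (hj : j ≤ 8) : θ ^ j ≤ 2 ^ j + 2 * tt θ := by
  rcases le_total θ 2 with h | h
  · have h1 := pow_le_pow_left₀ hθ h j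
    have h2 := tt_nonneg θ
    linarith
  · have h1 := pow_le_tt' h hj
    have h2 : (0 : ℝ) ≤ 2 ^ j := by positivity
    linarith

/-- `ξ² ≤ 4 f + 2 ν²` -/
theorem xi_le {θ ν : ℝ} (hθ : 0 ≤ θ) (hν : |ν| ≤ 1 / 4) :
    (θ - 1) ^ 2 ≤ 4 * ff (θ - ν) + 2 * ν ^ 2 := by
  have h0 := (abs_le.1 hν).2
  have h1 := sq_le_ff (show -1 / 4 ≤ θ - ν by linarith)
  nlinarith [sq_nonneg (θ - ν - 1 - ν)]

theorem nu_sq_le {ν : ℝ} (hν : |ν| ≤ 1 / 4) : ν ^ 2 ≤ 1 / 16 := by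
  have h2 := sq_abs ν
  have h3 := abs_nonneg ν
  nlinarith

/-- `ξ⁴, ξ⁸ ≤ C (f + t + ν⁴)` -/
theorem xi_pow_le {θ ν : ℝ} (hθ : 0 ≤ θ) (hν : |ν| ≤ 1 / 4) :
    (θ - 1) ^ 4 ≤ 200 * (ff (θ - ν) + tt θ + ν ^ 4) ∧
      (θ - 1) ^ 8 ≤ 200 * (ff (θ - ν) + tt θ + ν ^ 4) := by
  have hf := ff_nonneg (θ - ν)
  have ht := tt_nonneg θ
  have hn : 0 ≤ ν ^ 4 := by positivity
  rcases le_total θ 2 with h | h
  · have h1 := xi_le hθ hν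
    have hlo := (abs_le.1 hν).1
    have hhi := (abs_le.1 hν).2
    have h2 : ff (θ - ν) ≤ 625 / 100 := by
      have h3 := ff_le (θ - ν)
      have h4 : (θ - ν) ^ 2 ≤ 525 / 100 := by nlinarith
      linarith
    have h3 : ((θ - 1) ^ 2) ^ 2 ≤ (4 * ff (θ - ν) + 2 * ν ^ 2) ^ 2 :=
      pow_le_pow_left₀ (sq_nonneg _) h1 2
    have h4 : (θ - 1) ^ 4 ≤ 200 * (ff (θ - ν) + tt θ + ν ^ 4) := by
      have e1 : (θ - 1) ^ 4 = ((θ - 1) ^ 2) ^ 2 := by ring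
      have e2 : (4 * ff (θ - ν) + 2 * ν ^ 2) ^ 2 ≤ 32 * ff (θ - ν) ^ 2 + 8 * ν ^ 4 := by
        nlinarith [sq_nonneg (4 * ff (θ - ν) - 2 * ν ^ 2)]
      have e3 : ff (θ - ν) ^ 2 ≤ 625 / 100 * ff (θ - ν) := by nlinarith
      rw [e1]
      linarith
    refine ⟨h4, ?_⟩
    have h5 : (θ - 1) ^ 2 ≤ 1 := by nlinarith
    have h6 : (θ - 1) ^ 8 ≤ (θ - 1) ^ 4 := by
      have e1 : (θ - 1) ^ 8 = ((θ - 1) ^ 2) ^ 2 * (θ - 1) ^ 4 := by ring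
      have e2 : ((θ - 1) ^ 2) ^ 2 ≤ 1 := pow_le_one₀ (sq_nonneg _) h5
      have e3 : 0 ≤ (θ - 1) ^ 4 := by positivity
      rw [e1]
      nlinarith
    linarith
  · have h1 := pow_le_tt' h (show 4 ≤ 8 by norm_num)
    have h2 := pow_le_tt' h (show 8 ≤ 8 by norm_num)
    have h3 : (θ - 1) ^ 4 ≤ θ ^ 4 := pow_le_pow_left₀ (by linarith) (by linarith) 4
    have h4 : (θ - 1) ^ 8 ≤ θ ^ 8 := pow_le_pow_left₀ (by linarith) (by linarith) 8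
    constructor <;> linarith

theorem inv_u {u : ℝ} (hu : 1 ≤ u) : 0 < 1 / u := by positivity

/-- `u³ ν² ≤ u¹⁵ ν⁸ + 1/u` -/
theorem nu2_amgm {u ν : ℝ} (hu : 1 ≤ u) : u ^ 3 * ν ^ 2 ≤ u ^ 15 * ν ^ 8 + 1 / u := by
  have hu0 : 0 < u := by linarith
  have e1 : u ^ 3 * ν ^ 2 = 1 / u * (u ^ 4 * ν ^ 2) := by
    field_simp
  have e2 : u ^ 15 * ν ^ 8 + 1 / u = 1 / u * ((u ^ 4 * ν ^ 2) ^ 4 + 1) := by
    field_simp
  rw [e1, e2]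
  refine mul_le_mul_of_nonneg_left ?_ (by positivity)
  have h : 0 ≤ u ^ 4 * ν ^ 2 := by positivity
  set x := u ^ 4 * ν ^ 2
  nlinarith [sq_nonneg (x ^ 2 - 1 / 2), sq_nonneg (x - 1 / 2), sq_nonneg (x ^ 2), sq_nonneg x]

/-- `u⁷ ν⁴ ≤ u¹⁵ ν⁸ + 1/u` -/
theorem nu4_amgm {u ν : ℝ} (hu : 1 ≤ u) : u ^ 7 * ν ^ 4 ≤ u ^ 15 * ν ^ 8 + 1 / u := by
  have hu0 : 0 < u := by linarith
  have e1 : u ^ 7 * ν ^ 4 = 1 / u * (u ^ 8 * ν ^ 4) := by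
    field_simp
  have e2 : u ^ 15 * ν ^ 8 + 1 / u = 1 / u * ((u ^ 8 * ν ^ 4) ^ 2 + 1) := by
    field_simp
  rw [e1, e2]
  refine mul_le_mul_of_nonneg_left ?_ (by positivity)
  nlinarith [sq_nonneg (u ^ 8 * ν ^ 4 - 1)]

theorem ee_pos {u θ ν : ℝ} (hu : 1 ≤ u) (hθ : 0 ≤ θ) : 0 < ee u θ ν := by
  unfold ee
  have h1 := ff_nonneg (θ - ν)
  have h2 := tt_nonneg θ
  have h3 := even_pow8 ν
  have h4 := inv_u hu
  have hu0 : 0 < u := by linarith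
  positivity

/-- (PL1) -/
theorem pl1 : ∃ C : ℝ, 1 ≤ C ∧ ∀ u θ ν : ℝ, 1000 ≤ u → 0 ≤ θ → |ν| ≤ 1 / 4 →
    u ^ 4 * (|ν| * (ff (θ - ν) * gg (θ - ν))) ≤ C * ee u θ ν := by
  refine ⟨50, by norm_num, fun u θ ν hu hθ hν => ?_⟩
  have hu0 : 0 < u := by linarith
  have hf := ff_nonneg (θ - ν)
  have hg := gg_nonneg (θ - ν)
  have hg' := gg_le (θ - ν)
  have ht := tt_nonneg θ
  have h8 := even_pow8 ν
  have hlo := (abs_le.1 hν).1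
  have hhi := (abs_le.1 hν).2
  have ha := abs_nonneg ν
  have hfg : ff (θ - ν) * gg (θ - ν) ≤ 10 * ff (θ - ν) := by nlinarith
  have hfg0 : 0 ≤ ff (θ - ν) * gg (θ - ν) := mul_nonneg hf hg
  have hfg' : ff (θ - ν) * gg (θ - ν) ≤ 50 * (1 + θ) := by
    rcases le_total (θ - ν) 1 with h | h
    · have h1 := ff_le (θ - ν)
      have h2 : (θ - ν) ^ 2 ≤ 1 := by nlinarith
      linarith
    · have h1 := ff_gg_le h
      linarith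
  have e0 : (0 : ℝ) < 1 / u := by positivity
  have p1 : 0 ≤ u ^ 3 * ff (θ - ν) := by positivity
  have p2 : 0 ≤ u ^ 3 * ((1 + θ) * tt θ) := by positivity
  have p3 : 0 ≤ u ^ 15 * ((1 + θ) * ν ^ 8) := by positivity
  unfold ee
  rcases le_total (|ν|) (1 / u) with h | h
  · have h1 : |ν| * (ff (θ - ν) * gg (θ - ν)) ≤ 1 / u * (10 * ff (θ - ν)) :=
      mul_le_mul h hfg hfg0 e0.le
    have h2 : u ^ 4 * (|ν| * (ff (θ - ν) * gg (θ - ν))) ≤ u ^ 4 * (1 / u * (10 * ff (θ - ν))) :=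
      mul_le_mul_of_nonneg_left h1 (by positivity)
    have h3 : u ^ 4 * (1 / u * (10 * ff (θ - ν))) = 10 * (u ^ 3 * ff (θ - ν)) := by
      field_simp
    rw [h3] at h2
    linarith
  · have h0 : 1 ≤ u * |ν| := by
      have := mul_le_mul_of_nonneg_left h hu0.le
      rwa [mul_one_div_cancel hu0.ne'] at this
    have h1 : |ν| ≤ u ^ 11 * ν ^ 8 := by
      have h2 : 1 ≤ (u * |ν|) ^ 7 := one_le_pow₀ h0
      have h3 : ν ^ 8 = |ν| ^ 8 := by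
        rw [show (8 : ℕ) = 2 * 4 by norm_num, pow_mul, pow_mul, sq_abs]
      have h4 : |ν| ≤ (u * |ν|) ^ 7 * |ν| := le_mul_of_one_le_left ha h2
      have h5 : (u * |ν|) ^ 7 * |ν| = u ^ 7 * ν ^ 8 := by rw [h3]; ring
      have h6 : u ^ 7 * ν ^ 8 ≤ u ^ 11 * ν ^ 8 :=
        mul_le_mul_of_nonneg_right (pow_le_pow_right₀ (by linarith) (by norm_num)) h8
      linarith
    have h2 : |ν| * (ff (θ - ν) * gg (θ - ν)) ≤ (u ^ 11 * ν ^ 8) * (50 * (1 + θ)) :=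
      mul_le_mul h1 hfg' hfg0 (by positivity)
    have h3 : u ^ 4 * (|ν| * (ff (θ - ν) * gg (θ - ν))) ≤
        u ^ 4 * ((u ^ 11 * ν ^ 8) * (50 * (1 + θ))) := mul_le_mul_of_nonneg_left h2 (by positivity)
    have h4 : u ^ 4 * ((u ^ 11 * ν ^ 8) * (50 * (1 + θ))) = 50 * (u ^ 15 * ((1 + θ) * ν ^ 8)) := by
      ring
    rw [h4] at h3
    linarith

/-- parts of `e2` -/
theorem e2_parts {u θ ν : ℝ} (hu : 1000 ≤ u) :
    (ff (θ - ν) + tt θ) / u ^ 2 ≤ e2 u θ ν ∧ u ^ 2 * ν ^ 4 ≤ e2 u θ ν ∧ 0 ≤ e2 u θ ν := by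
  have hu0 : 0 < u := by linarith
  have hf := ff_nonneg (θ - ν)
  have ht := tt_nonneg θ
  have h8 := even_pow8 ν
  have q1 : 0 ≤ (ff (θ - ν) + tt θ) / u ^ 2 := by positivity
  have q2 : 0 ≤ u ^ 10 * ν ^ 8 := by positivity
  have q3 : 0 ≤ 1 / u ^ 6 := by positivity
  have q4 : u ^ 2 * ν ^ 4 ≤ u ^ 10 * ν ^ 8 + 1 / u ^ 6 := by
    have e1 : u ^ 2 * ν ^ 4 = 1 / u ^ 6 * (u ^ 8 * ν ^ 4) := by field_simp
    have e2 : u ^ 10 * ν ^ 8 + 1 / u ^ 6 = 1 / u ^ 6 * ((u ^ 8 * ν ^ 4) ^ 2 + 1) := by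
      field_simp
    rw [e1, e2]
    refine mul_le_mul_of_nonneg_left ?_ (by positivity)
    nlinarith [sq_nonneg (u ^ 8 * ν ^ 4 - 1)]
  unfold e2
  refine ⟨by linarith, by linarith, by linarith⟩

/-- (PL2), three vertices `y, z, v` -/
theorem pl2 : ∃ C : ℝ, 1 ≤ C ∧ ∀ u θy νy θz νz θv νv : ℝ, 1000 ≤ u →
    0 ≤ θy → 0 ≤ θz → 0 ≤ θv → |νy| ≤ 1 / 4 → |νz| ≤ 1 / 4 → |νv| ≤ 1 / 4 →
    θy * νz ^ 2 * (θv - 1) ^ 2 ≤ C * e2 u θy νy + C * e2 u θz νz + C * e2 u θv νv := by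
  refine ⟨1000, by norm_num, fun u θy νy θz νz θv νv hu hy _ hv _ _ hνv => ?_⟩
  have hu0 : 0 < u := by linarith
  obtain ⟨y1, _, y3⟩ := e2_parts (θ := θy) (ν := νy) hu
  obtain ⟨_, z2, z3⟩ := e2_parts (θ := θz) (ν := νz) hu
  obtain ⟨v1, v2, v3⟩ := e2_parts (θ := θv) (ν := νv) hu
  obtain ⟨x4, x8⟩ := xi_pow_le hv hνv
  have hfy := ff_nonneg (θy - νy)
  have hty := tt_nonneg θy
  have hfv := ff_nonneg (θv - νv)
  have htv := tt_nonneg θv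
  have hn4 : 0 ≤ νv ^ 4 := by positivity
  -- the product bound
  have hP : θy ^ 2 * (θv - 1) ^ 4 ≤
      800 * (ff (θv - νv) + tt θv + νv ^ 4) + (ff (θy - νy) + tt θy) := by
    rcases le_total θy 2 with h | h
    · have h1 : θy ^ 2 ≤ 4 := by nlinarith
      have h2 : 0 ≤ (θv - 1) ^ 4 := by positivity
      have h3 : θy ^ 2 * (θv - 1) ^ 4 ≤ 4 * (θv - 1) ^ 4 := mul_le_mul_of_nonneg_right h1 h2
      linarith
    · have h1 := pow_le_tt' h (show 4 ≤ 8 by norm_num)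
      have h2 : θy ^ 2 * (θv - 1) ^ 4 ≤ (θy ^ 4 + (θv - 1) ^ 8) / 2 := by
        nlinarith [sq_nonneg (θy ^ 2 - (θv - 1) ^ 4)]
      linarith
  have h1 : θy * νz ^ 2 * (θv - 1) ^ 2 ≤ (u ^ 2 * νz ^ 4 + θy ^ 2 * (θv - 1) ^ 4 / u ^ 2) / 2 := by
    have e1 : θy * νz ^ 2 * (θv - 1) ^ 2 = (u * νz ^ 2) * (θy * (θv - 1) ^ 2 / u) := by
      field_simp
    have e2 : (u ^ 2 * νz ^ 4 + θy ^ 2 * (θv - 1) ^ 4 / u ^ 2) =
        (u * νz ^ 2) ^ 2 + (θy * (θv - 1) ^ 2 / u) ^ 2 := by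
      field_simp
    rw [e1, e2]
    nlinarith [sq_nonneg (u * νz ^ 2 - θy * (θv - 1) ^ 2 / u)]
  have h2 : θy ^ 2 * (θv - 1) ^ 4 / u ^ 2 ≤
      800 * ((ff (θv - νv) + tt θv) / u ^ 2) + 800 * (νv ^ 4 / u ^ 2) +
        (ff (θy - νy) + tt θy) / u ^ 2 := by
    have := div_le_div_of_nonneg_right hP (by positivity : 0 ≤ u ^ 2)
    refine this.trans (le_of_eq ?_)
    ring
  have h3 : νv ^ 4 / u ^ 2 ≤ e2 u θv νv := by
    refine le_trans ?_ v2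
    rw [div_le_iff₀ (by positivity)]
    have h4 : (1 : ℝ) ≤ u ^ 2 * u ^ 2 := by
      have h5 : (1 : ℝ) ≤ u ^ 2 := one_le_pow₀ (by linarith)
      nlinarith
    calc νv ^ 4 = νv ^ 4 * 1 := by ring
      _ ≤ νv ^ 4 * (u ^ 2 * u ^ 2) := mul_le_mul_of_nonneg_left h4 hn4
      _ = u ^ 2 * νv ^ 4 * u ^ 2 := by ring
  linarith

theorem pl2' : ∃ C : ℝ, 1 ≤ C ∧ ∀ u θ ν : ℝ, 1000 ≤ u → 0 ≤ θ → |ν| ≤ 1 / 4 →
    θ * e2 u θ ν ≤ C * (ee u θ ν / u ^ 5) := by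
  refine ⟨20, by norm_num, fun u θ ν hu hθ hν => ?_⟩
  have hu0 : 0 < u := by linarith
  have hf := ff_nonneg (θ - ν)
  have ht := tt_nonneg θ
  have h8 := even_pow8 ν
  have hlo := (abs_le.1 hν).1
  have hhi := (abs_le.1 hν).2
  have e : ee u θ ν / u ^ 5 = ff (θ - ν) / u ^ 2 + (1 + θ) * tt θ / u ^ 2 +
      u ^ 10 * ((1 + θ) * ν ^ 8) + 1 / u ^ 6 := by
    unfold ee
    field_simp
  have e' : θ * e2 u θ ν = θ * ff (θ - ν) / u ^ 2 + θ * tt θ / u ^ 2 + u ^ 10 * (θ * ν ^ 8) +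
      θ / u ^ 6 := by
    unfold e2
    ring
  rw [e, e']
  have a1 : θ * tt θ / u ^ 2 ≤ (1 + θ) * tt θ / u ^ 2 :=
    div_le_div_of_nonneg_right (by nlinarith) (by positivity)
  have a2 : u ^ 10 * (θ * ν ^ 8) ≤ u ^ 10 * ((1 + θ) * ν ^ 8) :=
    mul_le_mul_of_nonneg_left (by nlinarith) (by positivity)
  have b1 : 0 ≤ (1 + θ) * tt θ / u ^ 2 := by positivity
  have b2 : 0 ≤ u ^ 10 * ((1 + θ) * ν ^ 8) := by positivity
  have b3 : 0 ≤ ff (θ - ν) / u ^ 2 := by positivity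
  have b4 : 0 ≤ 1 / u ^ 6 := by positivity
  have a3 : θ * ff (θ - ν) / u ^ 2 ≤ 2 * (ff (θ - ν) / u ^ 2) + 12 * ((1 + θ) * tt θ / u ^ 2) := by
    have h1 : θ * ff (θ - ν) ≤ 2 * ff (θ - ν) + 12 * ((1 + θ) * tt θ) := by
      rcases le_total θ 2 with h | h
      · have : 0 ≤ (1 + θ) * tt θ := by positivity
        nlinarith
      · have h2 := ff_le (θ - ν)
        have h3 : 1 + (θ - ν) ^ 2 ≤ 3 * θ ^ 2 := by nlinarith
        have h4 : θ * ff (θ - ν) ≤ 3 * θ ^ 3 := by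
          have : θ * ff (θ - ν) ≤ θ * (3 * θ ^ 2) :=
            mul_le_mul_of_nonneg_left (h2.trans h3) hθ
          linarith [this, show θ * (3 * θ ^ 2) = 3 * θ ^ 3 by ring]
        have h5 := pow_le_tt' h (show 3 ≤ 8 by norm_num)
        have h6 : tt θ ≤ (1 + θ) * tt θ := by nlinarith
        linarith
    have := div_le_div_of_nonneg_right h1 (by positivity : 0 ≤ u ^ 2)
    refine this.trans (le_of_eq ?_)
    ring
  have a4 : θ / u ^ 6 ≤ 2 * (1 / u ^ 6) + 2 * ((1 + θ) * tt θ / u ^ 2) := by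
    have h1 := theta_pow_le hθ 1 (by norm_num)
    rw [pow_one, pow_one] at h1
    have h2 : θ / u ^ 6 ≤ (2 + 2 * tt θ) / u ^ 6 := div_le_div_of_nonneg_right h1 (by positivity)
    have h3 : tt θ / u ^ 6 ≤ (1 + θ) * tt θ / u ^ 2 := by
      have h4 : tt θ ≤ (1 + θ) * tt θ := by nlinarith
      have h5 : u ^ 2 ≤ u ^ 6 := pow_le_pow_right₀ (by linarith) (by norm_num)
      exact div_le_div₀ (by positivity) h4 (by positivity) h5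
    have h6 : (2 + 2 * tt θ) / u ^ 6 = 2 * (1 / u ^ 6) + 2 * (tt θ / u ^ 6) := by ring
    linarith
  linarith

/-- (PL3) -/
theorem pl3 : ∃ C : ℝ, 1 ≤ C ∧ ∀ u θz νz θv νv : ℝ, 1000 ≤ u →
    0 ≤ θz → 0 ≤ θv → |νz| ≤ 1 / 4 → |νv| ≤ 1 / 4 →
    νz ^ 2 * θv ≤ C * e3 u θz νz + C * e3 u θv νv := by
  refine ⟨2, by norm_num, fun u θz νz θv νv hu hz hv hνz hνv => ?_⟩
  have hu0 : 0 < u := by linarith
  have htz := tt_nonneg θz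
  have htv := tt_nonneg θv
  have h8z := even_pow8 νz
  have h8v := even_pow8 νv
  have c1 : 0 ≤ u ^ 2 * tt θz := by positivity
  have c2 : 0 ≤ u ^ 2 * tt θv := by positivity
  have c3 : 0 ≤ u ^ 14 * νz ^ 8 := by positivity
  have c4 : 0 ≤ u ^ 14 * νv ^ 8 := by positivity
  have c5 : 0 ≤ 1 / u ^ 2 := by positivity
  have hz2 := nu_sq_le hνz
  have hu2 : (1 : ℝ) ≤ u ^ 2 := one_le_pow₀ (by linarith)
  have h1 : u ^ 2 * νz ^ 2 ≤ u ^ 14 * νz ^ 8 + 1 / u ^ 2 := by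
    have h2 := nu2_amgm (u := u) (ν := νz) (by linarith)
    have e1 : u ^ 2 * νz ^ 2 = (u ^ 3 * νz ^ 2) / u := by field_simp
    have e2 : u ^ 14 * νz ^ 8 + 1 / u ^ 2 = (u ^ 15 * νz ^ 8 + 1 / u) / u := by
      field_simp
    rw [e1, e2]
    exact div_le_div_of_nonneg_right h2 hu0.le
  have h2 : νz ^ 2 ≤ u ^ 2 * νz ^ 2 := le_mul_of_one_le_left (sq_nonneg _) hu2
  unfold e3
  rcases le_total θv 2 with h | h
  · have h3 : νz ^ 2 * θv ≤ νz ^ 2 * 2 := mul_le_mul_of_nonneg_left h (sq_nonneg _)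
    linarith
  · have h3 := pow_le_tt' h (show 1 ≤ 8 by norm_num)
    rw [pow_one] at h3
    have h4 : νz ^ 2 * θv ≤ 1 * θv := mul_le_mul_of_nonneg_right (by linarith) hv
    have h5 : tt θv ≤ u ^ 2 * tt θv := le_mul_of_one_le_left htv hu2
    linarith

theorem pl3' : ∃ C : ℝ, 1 ≤ C ∧ ∀ u θ ν : ℝ, 1000 ≤ u → 0 ≤ θ → |ν| ≤ 1 / 4 →
    θ * e3 u θ ν ≤ C * (ee u θ ν / u) := by
  refine ⟨4, by norm_num, fun u θ ν hu hθ hν => ?_⟩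
  have hu0 : 0 < u := by linarith
  have hf := ff_nonneg (θ - ν)
  have ht := tt_nonneg θ
  have h8 := even_pow8 ν
  have e : ee u θ ν / u = u ^ 2 * ff (θ - ν) + u ^ 2 * ((1 + θ) * tt θ) +
      u ^ 14 * ((1 + θ) * ν ^ 8) + 1 / u ^ 2 := by
    unfold ee
    field_simp
  have e' : θ * e3 u θ ν = u ^ 2 * (θ * tt θ) + u ^ 14 * (θ * ν ^ 8) + θ / u ^ 2 := by
    unfold e3
    ring
  rw [e, e']
  have a1 : u ^ 2 * (θ * tt θ) ≤ u ^ 2 * ((1 + θ) * tt θ) :=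
    mul_le_mul_of_nonneg_left (by nlinarith) (by positivity)
  have a2 : u ^ 14 * (θ * ν ^ 8) ≤ u ^ 14 * ((1 + θ) * ν ^ 8) :=
    mul_le_mul_of_nonneg_left (by nlinarith) (by positivity)
  have b1 : 0 ≤ u ^ 2 * ((1 + θ) * tt θ) := by positivity
  have b2 : 0 ≤ u ^ 14 * ((1 + θ) * ν ^ 8) := by positivity
  have b3 : 0 ≤ u ^ 2 * ff (θ - ν) := by positivity
  have b4 : 0 ≤ 1 / u ^ 2 := by positivity
  have a4 : θ / u ^ 2 ≤ 2 * (1 / u ^ 2) + 2 * (u ^ 2 * ((1 + θ) * tt θ)) := by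
    have h1 := theta_pow_le hθ 1 (by norm_num)
    rw [pow_one, pow_one] at h1
    have h2 : θ / u ^ 2 ≤ (2 + 2 * tt θ) / u ^ 2 := div_le_div_of_nonneg_right h1 (by positivity)
    have h3 : tt θ / u ^ 2 ≤ u ^ 2 * ((1 + θ) * tt θ) := by
      have h4 : tt θ ≤ (1 + θ) * tt θ := by nlinarith
      have h5 : (1 : ℝ) ≤ u ^ 2 := one_le_pow₀ (by linarith)
      have h6 : 0 ≤ (1 + θ) * tt θ := by positivity
      calc tt θ / u ^ 2 ≤ tt θ := div_le_self ht h5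
        _ ≤ (1 + θ) * tt θ := h4
        _ ≤ u ^ 2 * ((1 + θ) * tt θ) := le_mul_of_one_le_left h6 h5
    have h6 : (2 + 2 * tt θ) / u ^ 2 = 2 * (1 / u ^ 2) + 2 * (tt θ / u ^ 2) := by ring
    linarith
  linarith

/-- low degree vertices are paid for -/
theorem low_le : ∃ C : ℝ, 1 ≤ C ∧ ∀ θ ν : ℝ, 0 ≤ θ → |ν| ≤ 1 / 4 →
    (if θ < 63 / 64 then (1 : ℝ) else 0) ≤ C * (ff (θ - ν) + ν ^ 8) := by
  refine ⟨128 ^ 8, by norm_num, fun θ ν hθ hν => ?_⟩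
  have hf := ff_nonneg (θ - ν)
  have h8 := even_pow8 ν
  split_ifs with h
  · have hhi := (abs_le.1 hν).2
    rcases le_total (|ν|) (1 / 128) with h1 | h1
    · have h2 := (abs_le.1 h1).1
      have h3 := sq_le_ff (show -1 / 4 ≤ θ - ν by linarith)
      have h4 : (1 / 128 : ℝ) ^ 2 ≤ (θ - ν - 1) ^ 2 := by
        nlinarith
      nlinarith
    · have h2 : (1 / 128 : ℝ) ^ 8 ≤ |ν| ^ 8 := pow_le_pow_left₀ (by norm_num) h1 8
      have h3 : ν ^ 8 = |ν| ^ 8 := by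
        rw [show (8 : ℕ) = 2 * 4 by norm_num, pow_mul, pow_mul, sq_abs]
      have h4 : (128 : ℝ) ^ 8 * (1 / 128 : ℝ) ^ 8 = 1 := by norm_num
      have h5 : (128 : ℝ) ^ 8 * (1 / 128 : ℝ) ^ 8 ≤ 128 ^ 8 * ν ^ 8 := by
        rw [h3]
        exact mul_le_mul_of_nonneg_left h2 (by norm_num)
      have h6 : 0 ≤ (128 : ℝ) ^ 8 * ff (θ - ν) := by positivity
      linarith
  · positivity

/-- frozen vertices are paid for -/
theorem frozen_le {ν : ℝ} (h : 1 / 8 ≤ |ν|) : (1 : ℝ) ≤ 8 ^ 8 * ν ^ 8 := by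
  have h2 : (1 / 8 : ℝ) ^ 8 ≤ |ν| ^ 8 := pow_le_pow_left₀ (by norm_num) h 8
  have h3 : ν ^ 8 = |ν| ^ 8 := by
    rw [show (8 : ℕ) = 2 * 4 by norm_num, pow_mul, pow_mul, sq_abs]
  have h4 : (8 : ℝ) ^ 8 * (1 / 8 : ℝ) ^ 8 = 1 := by norm_num
  have h5 : (8 : ℝ) ^ 8 * (1 / 8 : ℝ) ^ 8 ≤ 8 ^ 8 * ν ^ 8 := by
    rw [h3]
    exact mul_le_mul_of_nonneg_left h2 (by norm_num)
  linarith

/-- fourth and second powers of `N` -/
theorem u5_N4_le {u θ ν : ℝ} (hu : 1000 ≤ u) (hθ : 0 ≤ θ) : u ^ 5 * ν ^ 4 ≤ ee u θ ν := by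
  have hu0 : 0 < u := by linarith
  have hf := ff_nonneg (θ - ν)
  have ht := tt_nonneg θ
  have h8 := even_pow8 ν
  have h1 := nu4_amgm (u := u) (ν := ν) (by linarith)
  have h2 : u ^ 5 * ν ^ 4 ≤ u ^ 7 * ν ^ 4 :=
    mul_le_mul_of_nonneg_right (pow_le_pow_right₀ (by linarith) (by norm_num)) (by positivity)
  have h3 : u ^ 15 * ν ^ 8 ≤ u ^ 15 * ((1 + θ) * ν ^ 8) :=
    mul_le_mul_of_nonneg_left (by nlinarith) (by positivity)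
  have p1 : 0 ≤ u ^ 3 * ff (θ - ν) := by positivity
  have p2 : 0 ≤ u ^ 3 * ((1 + θ) * tt θ) := by positivity
  unfold ee
  linarith

theorem u3_N2_le {u θ ν : ℝ} (hu : 1000 ≤ u) (hθ : 0 ≤ θ) : u ^ 3 * ν ^ 2 ≤ ee u θ ν := by
  have hu0 : 0 < u := by linarith
  have hf := ff_nonneg (θ - ν)
  have ht := tt_nonneg θ
  have h8 := even_pow8 ν
  have h1 := nu2_amgm (u := u) (ν := ν) (by linarith)
  have h3 : u ^ 15 * ν ^ 8 ≤ u ^ 15 * ((1 + θ) * ν ^ 8) :=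
    mul_le_mul_of_nonneg_left (by nlinarith) (by positivity)
  have p1 : 0 ≤ u ^ 3 * ff (θ - ν) := by positivity
  have p2 : 0 ≤ u ^ 3 * ((1 + θ) * tt θ) := by positivity
  unfold ee
  linarith

end Vale.Agent.P046LF
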