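import Vale.Agent.P046LF.Basic

/-!
P046 log-free, module S2C: the second cross term (item (3) in the proof of (S2)).
-/

namespace Vale.Agent.P046LF

open Finset Vale.Agent.P046

/-- item (3): for a triple `T'` and a vertex `z ∈ T'`, the sum of the changes of `N z` over the
removed triples disjoint from `T'` is small -/
theorem sum_dN_disjoint {V : Type} [DecidableEq V] {H : Finset (Finset V)} {M : Finset V}
    {N : V → ℝ} {κ S S' m Q u D D' K : ℝ} (g : GS H M N κ S S' m Q u D D' K)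
    {T' : Finset V} (hT' : T' ∈ sub H M) {z : V} (hz : z ∈ T') :
    |∑ T ∈ sub H M with Disjoint T' T, dN H M N D' T z| ≤ 3 * (sT H M T' : ℝ) / D' := by
  have hH := g.lin
  have hu : (1000 : ℝ) ≤ u := g.hu
  have hDp : 0 < D := lt_of_lt_of_le (by positivity) g.D_lo
  have hD'p : 0 < D' := lt_of_lt_of_le (by positivity) g.D'_lo
  have hzM : z ∈ M := (mem_sub.1 hT').2 hz
  have hs : (0 : ℝ) ≤ (sT H M T' : ℝ) - 2 := by
    have := sT_eq hH hT'
    have h2 : (3 : ℝ) ≤ (sT H M T' : ℝ) := by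
      exact_mod_cast (by omega : 3 ≤ sT H M T')
    linarith
  by_cases hN : |N z| < 1 / 8
  · have e1 : ∀ T : Finset V, dN H M N D' T z = -(((dl H M T z : ℝ) - cd H M z) / D') := by
      intro T
      unfold dN Nup
      rw [if_pos hN]; ring
    simp only [e1]
    have hQp : (0 : ℝ) < ((sub H M).card : ℝ) := by
      exact_mod_cast card_pos.2 ⟨T', hT'⟩
    -- the total over the triples avoiding z
    have h0 := sum_dl_eq hH (H := H) (M := M) hzM
    have hc : ((sub H M).card : ℝ) * cd H M z = bb H M z - 2 * deg H M z := by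
      unfold cd; field_simp
    have hc0 := cd_nonneg hH (H := H) (M := M) hzM
    have hc3 := cd_le_three hH (H := H) (M := M) hzM
    -- splitting
    have h1 : ∑ T ∈ sub H M with z ∉ T, (dl H M T z : ℝ) =
        ∑ T ∈ sub H M with Disjoint T' T, (dl H M T z : ℝ) +
        ∑ T ∈ (sub H M).filter (fun T => z ∉ T ∧ ¬ Disjoint T' T), (dl H M T z : ℝ) := by
      rw [← Finset.sum_filter_add_sum_filter_not ((sub H M).filter fun T => z ∉ T)
        (fun T => Disjoint T' T), filter_filter, filter_filter]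
      congr 1
      refine Finset.sum_congr ?_ fun _ _ => rfl
      refine Finset.filter_congr fun T _ => ⟨fun h => h.2, fun h => ⟨?_, h⟩⟩
      exact Finset.disjoint_left.1 h hz
    have hXle : ∑ T ∈ (sub H M).filter (fun T => z ∉ T ∧ ¬ Disjoint T' T), (dl H M T z : ℝ) ≤
        3 * ((sT H M T' : ℝ) - 2) := by
      have k1 : ∀ T ∈ (sub H M).filter (fun T => z ∉ T ∧ ¬ Disjoint T' T),
          (dl H M T z : ℝ) ≤ 3 := by
        intro T hT
        rw [mem_filter] at hT
        exact_mod_cast dl_le hH hT.1 hT.2.1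
      refine (Finset.sum_le_card_nsmul _ _ _ k1).trans ?_
      rw [nsmul_eq_mul]
      have k2 : (((sub H M).filter (fun T => z ∉ T ∧ ¬ Disjoint T' T)).card : ℝ) ≤
          (sT H M T' : ℝ) - 2 := by
        rw [← card_meet_eq hH hT']
        have : (sub H M).filter (fun T => z ∉ T ∧ ¬ Disjoint T' T) ⊆
            (sub H M).filter (fun T => ¬ Disjoint T T') := by
          intro T hT
          rw [mem_filter] at hT ⊢
          exact ⟨hT.1, fun h => hT.2.2 h.symm⟩
        exact_mod_cast card_le_card this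
      linarith
    have hX0 : 0 ≤ ∑ T ∈ (sub H M).filter (fun T => z ∉ T ∧ ¬ Disjoint T' T),
        (dl H M T z : ℝ) := Finset.sum_nonneg fun _ _ => Nat.cast_nonneg _
    -- number of disjoint triples
    have hcard : (((sub H M).filter (fun T => Disjoint T' T)).card : ℝ) =
        ((sub H M).card : ℝ) - ((sT H M T' : ℝ) - 2) := by
      rw [← card_meet_eq hH hT']
      have k := card_filter_add_card_filter_not (s := sub H M) (fun T => Disjoint T' T)
      have k' : (sub H M).filter (fun T => ¬ Disjoint T' T) =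
          (sub H M).filter (fun T => ¬ Disjoint T T') := by
        refine Finset.filter_congr fun T _ => by rw [disjoint_comm]
      rw [k'] at k
      have k'' : (((sub H M).filter (fun T => Disjoint T' T)).card : ℝ) +
          (((sub H M).filter (fun T => ¬ Disjoint T T')).card : ℝ) = ((sub H M).card : ℝ) := by
        exact_mod_cast k
      linarith
    have h2 : ∑ T ∈ sub H M with Disjoint T' T, -(((dl H M T z : ℝ) - cd H M z) / D') =
        (∑ T ∈ (sub H M).filter (fun T => z ∉ T ∧ ¬ Disjoint T' T), (dl H M T z : ℝ) -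
          cd H M z * ((sT H M T' : ℝ) - 2)) / D' := by
      rw [Finset.sum_neg_distrib, ← Finset.sum_div, Finset.sum_sub_distrib, Finset.sum_const,
        nsmul_eq_mul, hcard]
      rw [neg_div']
      congr 1
      rw [h0, ← hc] at h1
      linarith
    rw [h2, abs_div, abs_of_pos hD'p]
    refine div_le_div_of_nonneg_right ?_ hD'p.le
    rw [abs_le]
    have k3 : cd H M z * ((sT H M T' : ℝ) - 2) ≤ 3 * ((sT H M T' : ℝ) - 2) :=
      mul_le_mul_of_nonneg_right hc3 hs
    have k4 : 0 ≤ cd H M z * ((sT H M T' : ℝ) - 2) := mul_nonneg hc0 hs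
    constructor <;> linarith
  · have e1 : ∀ T : Finset V, dN H M N D' T z = 0 := by
      intro T
      unfold dN Nup
      rw [if_neg hN]; ring
    simp only [e1, Finset.sum_const_zero, abs_zero]
    positivity

/-- the sum over the removed triples of the noise part -/
theorem sum_GG_le {V : Type} [DecidableEq V] {H : Finset (Finset V)} {M : Finset V}
    {N : V → ℝ} {κ S S' m Q u D D' K : ℝ} (g : GS H M N κ S S' m Q u D D' K) {y : V} :
    |∑ T ∈ sub H M with y ∉ T, GG H M N D' T y| ≤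
      6 / D' * ∑ T' ∈ sub H M with y ∈ T', (sT H M T' : ℝ) := by
  have hH := g.lin
  have hu : (1000 : ℝ) ≤ u := g.hu
  have hDp : 0 < D := lt_of_lt_of_le (by positivity) g.D_lo
  have hD'p : 0 < D' := lt_of_lt_of_le (by positivity) g.D'_lo
  have h1 : ∑ T ∈ sub H M with y ∉ T, GG H M N D' T y =
      ∑ T' ∈ sub H M with y ∈ T', ∑ T ∈ sub H M with Disjoint T' T,
        (∑ z ∈ T', dN H M N D' T z - dN H M N D' T y) := by
    unfold GG
    have k1 : ∀ T ∈ sub H M, (∑ T' ∈ sub H M with y ∈ T' ∧ Disjoint T' T,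
        (∑ z ∈ T', dN H M N D' T z - dN H M N D' T y)) =
        ∑ T' ∈ sub H M with y ∈ T', if Disjoint T' T then
          (∑ z ∈ T', dN H M N D' T z - dN H M N D' T y) else 0 := by
      intro T _
      rw [← Finset.sum_filter, filter_filter]
    rw [Finset.sum_congr rfl fun T hT => k1 T (mem_filter.1 hT).1, Finset.sum_comm]
    refine Finset.sum_congr rfl fun T' hT' => ?_
    rw [← Finset.sum_filter, filter_filter]
    refine Finset.sum_congr (Finset.filter_congr fun T _ => ⟨fun h => h.2, fun h => ⟨?_, h⟩⟩)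
      fun _ _ => rfl
    exact Finset.disjoint_left.1 h (mem_filter.1 hT').2
  rw [h1, Finset.mul_sum]
  refine (Finset.abs_sum_le_sum_abs _ _).trans (Finset.sum_le_sum fun T' hT' => ?_)
  rw [mem_filter] at hT'
  have h3 := hH.card3 T' (mem_sub.1 hT'.1).1
  have h2 : ∀ T : Finset V, (∑ z ∈ T', dN H M N D' T z - dN H M N D' T y) =
      ∑ z ∈ T'.erase y, dN H M N D' T z := by
    intro T
    rw [← Finset.add_sum_erase T' _ hT'.2]; ring
  simp only [h2]
  rw [Finset.sum_comm]
  refine (Finset.abs_sum_le_sum_abs _ _).trans ?_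
  have h4 : ∀ z ∈ T'.erase y, |∑ T ∈ sub H M with Disjoint T' T, dN H M N D' T z| ≤
      3 * (sT H M T' : ℝ) / D' := fun z hz =>
    sum_dN_disjoint g hT'.1 (Finset.mem_of_mem_erase hz)
  refine (Finset.sum_le_card_nsmul _ _ _ h4).trans ?_
  rw [card_erase_of_mem hT'.2, h3, nsmul_eq_mul]
  apply le_of_eq
  push_cast
  ring

theorem sum_J_sq_le {V : Type} [DecidableEq V] {H : Finset (Finset V)} {M : Finset V}
    (hH : IsLin3 H) :
    ∑ y ∈ M, (∑ T' ∈ sub H M with y ∈ T', (sT H M T' : ℝ)) ^ 2 ≤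
      9 * ∑ x ∈ M, (deg H M x : ℝ) ^ 4 := by
  refine le_trans ?_ (sT_cube_sum hH)
  have h1 : ∀ y ∈ M, (∑ T' ∈ sub H M with y ∈ T', (sT H M T' : ℝ)) ^ 2 ≤
      ∑ T' ∈ sub H M with y ∈ T', (deg H M y : ℝ) * (sT H M T' : ℝ) ^ 2 := by
    intro y _
    refine sq_sum_le_card_mul_sum_sq.trans (le_of_eq ?_)
    rw [Finset.mul_sum]
    rfl
  refine (Finset.sum_le_sum h1).trans (le_of_eq ?_)
  rw [sum_vert_edge (fun T' y => (deg H M y : ℝ) * (sT H M T' : ℝ) ^ 2)]
  refine Finset.sum_congr rfl fun T' _ => ?_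
  rw [← Finset.sum_mul]
  have : ∑ y ∈ T', (deg H M y : ℝ) = (sT H M T' : ℝ) := by unfold sT; push_cast; rfl
  rw [this]; ring

theorem cross_G_le : ∃ C : ℝ, 1 ≤ C ∧ ∀ (V : Type) [DecidableEq V] (H : Finset (Finset V))
    (M : Finset V) (N : V → ℝ) (κ S S' m Q u D D' K : ℝ), GS H M N κ S S' m Q u D D' K →
    2 * ∑ T ∈ sub H M, ∑ y ∈ M \ T, SN H M N y * GG H M N D' T y ≤
      Q * (3 / (10 * m) * ZZ H M N + 3 / m * (C * (u ^ 3 * EE H M N D u))) := by
  refine ⟨10 ^ 6, by norm_num, fun V _ H M N κ S S' m Q u D D' K g => ?_⟩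
  have hH := g.lin
  have hu : (1000 : ℝ) ≤ u := g.hu
  have hm : (0 : ℝ) < m := lt_of_lt_of_le (by norm_num) g.m_big
  have hDp : 0 < D := lt_of_lt_of_le (by positivity) g.D_lo
  have hD'p : 0 < D' := lt_of_lt_of_le (by positivity) g.D'_lo
  have hQ0 : 0 < Q := lt_of_lt_of_le (by positivity) g.Q_lo
  have hE : 0 ≤ EE H M N D u := le_trans (by positivity) g.EE_ge_m
  have hZ : 0 ≤ ZZ H M N := Finset.sum_nonneg fun _ _ => sq_nonneg _
  -- D in terms of Q
  have hDQ : D ≤ Q * (3 / m * (1002 / 1000)) := by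
    have h1 := g.DQ_hi
    rw [div_le_iff₀ hQ0] at h1
    have h2 : 2 / u ≤ 2 / 1000 := div_le_div_of_nonneg_left (by norm_num) (by norm_num) hu
    have h3 : 3 / m * (1 + 2 / u) * Q ≤ 3 / m * (1002 / 1000) * Q := by
      refine mul_le_mul_of_nonneg_right (mul_le_mul_of_nonneg_left ?_ (by positivity)) hQ0.le
      linarith
    linarith
  -- the exchange
  rw [sum_sdiff_comm (fun T y => SN H M N y * GG H M N D' T y), Finset.mul_sum]
  have h1 : ∀ y ∈ M, 2 * ∑ T ∈ sub H M with y ∉ T, SN H M N y * GG H M N D' T y ≤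
      D / 12 * SN H M N y ^ 2 +
        432 / (D * D' ^ 2) * (∑ T' ∈ sub H M with y ∈ T', (sT H M T' : ℝ)) ^ 2 := by
    intro y _
    rw [← Finset.mul_sum]
    have k := sum_GG_le g (y := y)
    set A := SN H M N y
    set B := ∑ T ∈ sub H M with y ∉ T, GG H M N D' T y
    set J := ∑ T' ∈ sub H M with y ∈ T', (sT H M T' : ℝ)
    have k1 : A * B ≤ |A| * (6 / D' * J) := by
      refine (le_abs_self _).trans ?_
      rw [abs_mul]
      exact mul_le_mul_of_nonneg_left k (abs_nonneg _)
    have k2 : 0 ≤ (D / 12) * (|A| - (12 / D) * (6 / D' * J)) ^ 2 := by positivity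
    have k3 : (D / 12) * (|A| - (12 / D) * (6 / D' * J)) ^ 2 =
        D / 12 * |A| ^ 2 - 2 * (|A| * (6 / D' * J)) + 432 / (D * D' ^ 2) * J ^ 2 := by
      field_simp; ring
    rw [k3, sq_abs] at k2
    linarith
  refine (Finset.sum_le_sum h1).trans ?_
  rw [Finset.sum_add_distrib, ← Finset.mul_sum, ← Finset.mul_sum]
  have h2 : D / 12 * ∑ y ∈ M, SN H M N y ^ 2 ≤ Q * (3 / (10 * m) * ZZ H M N) := by
    change D / 12 * ZZ H M N ≤ _
    have : D / 12 ≤ Q * (3 / (10 * m)) := by
      have e : Q * (3 / (10 * m)) = Q * (3 / m) / 10 := by field_simp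
      have e2 : Q * (3 / m * (1002 / 1000)) = Q * (3 / m) * (1002 / 1000) := by ring
      rw [e]; rw [e2] at hDQ
      have : 0 < Q * (3 / m) := by positivity
      linarith
    calc _ ≤ Q * (3 / (10 * m)) * ZZ H M N := mul_le_mul_of_nonneg_right this hZ
      _ = _ := by ring
  have h3 : ∑ x ∈ M, (deg H M x : ℝ) ^ 4 ≤ D ^ 4 * (89 * (2 * (u * EE H M N D u))) := by
    have k1 : ∀ x ∈ M, (deg H M x : ℝ) ^ 4 ≤ D ^ 4 * (89 * (1 + tt ((deg H M x : ℝ) / D))) := by
      intro x _
      have := pow_le_tt (g.theta_nonneg x) (j := 4) (by norm_num)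
      calc (deg H M x : ℝ) ^ 4 = D ^ 4 * ((deg H M x : ℝ) / D) ^ 4 := by field_simp
        _ ≤ _ := mul_le_mul_of_nonneg_left this (by positivity)
    refine (Finset.sum_le_sum k1).trans ?_
    rw [← Finset.mul_sum, ← Finset.mul_sum, Finset.sum_add_distrib, Finset.sum_const,
      nsmul_eq_mul, mul_one, g.hm]
    exact mul_le_mul_of_nonneg_left (mul_le_mul_of_nonneg_left g.sum_one_tt_le (by norm_num))
      (by positivity)
  have h4 := sum_J_sq_le hH (M := M)
  have h5 : 432 / (D * D' ^ 2) *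
      ∑ y ∈ M, (∑ T' ∈ sub H M with y ∈ T', (sT H M T' : ℝ)) ^ 2 ≤
      Q * (3 / m * (10 ^ 6 * (u ^ 3 * EE H M N D u))) := by
    have k1 : 432 / (D * D' ^ 2) *
        ∑ y ∈ M, (∑ T' ∈ sub H M with y ∈ T', (sT H M T' : ℝ)) ^ 2 ≤
        432 / (D * D' ^ 2) * (9 * (D ^ 4 * (89 * (2 * (u * EE H M N D u))))) :=
      mul_le_mul_of_nonneg_left (h4.trans (mul_le_mul_of_nonneg_left h3 (by norm_num)))
        (by positivity)
    have k2 : 432 / (D * D' ^ 2) * (9 * (D ^ 4 * (89 * (2 * (u * EE H M N D u))))) ≤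
        700000 * (99 / 100 * D / D') ^ 2 * (D * (u * EE H M N D u)) * (1021 / 1000) := by
      have : 432 / (D * D' ^ 2) * (9 * (D ^ 4 * (89 * (2 * (u * EE H M N D u))))) =
        692064 * (D / D') ^ 2 * (D * (u * EE H M N D u)) := by field_simp; ring
      rw [this]
      have e : (99 / 100 * D / D') ^ 2 = 9801 / 10000 * (D / D') ^ 2 := by field_simp; ring
      rw [e]
      have : 0 ≤ (D / D') ^ 2 * (D * (u * EE H M N D u)) := by positivity
      nlinarith
    have k3 : (99 / 100 * D / D') ^ 2 ≤ 1 := by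
      rw [sq_le_one_iff₀ (by positivity), div_le_one hD'p]
      exact g.D'_lo
    have k4 : D * (u * EE H M N D u) ≤ Q * (3 / m * (1002 / 1000)) * (u ^ 3 * EE H M N D u) := by
      refine mul_le_mul hDQ ?_ (by positivity) (by positivity)
      refine mul_le_mul_of_nonneg_right ?_ hE
      have : (1:ℝ) ≤ u ^ 2 := one_le_pow₀ (by linarith)
      nlinarith
    have k5 : 700000 * (99 / 100 * D / D') ^ 2 * (D * (u * EE H M N D u)) * (1021 / 1000) ≤
        700000 * 1 * (Q * (3 / m * (1002 / 1000)) * (u ^ 3 * EE H M N D u)) * (1021 / 1000) := by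
      gcongr
    have k6 : 700000 * 1 * (Q * (3 / m * (1002 / 1000)) * (u ^ 3 * EE H M N D u)) *
        (1021 / 1000) ≤ Q * (3 / m * (10 ^ 6 * (u ^ 3 * EE H M N D u))) := by
      have : 0 ≤ Q * (3 / m) * (u ^ 3 * EE H M N D u) := by positivity
      nlinarith
    linarith
  calc _ ≤ Q * (3 / (10 * m) * ZZ H M N) + Q * (3 / m * (10 ^ 6 * (u ^ 3 * EE H M N D u))) :=
        add_le_add h2 h5
    _ = _ := by ring

end Vale.Agent.P046LF
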