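import Vale.Agent.P046LF.Basic
import Vale.Agent.P046LF.Paths

/-!
P046 log-free, module S2D: the noise squares (item (4) in the proof of (S2)).
-/

namespace Vale.Agent.P046LF

open Finset Vale.Agent.P046

section

variable {V : Type} [DecidableEq V] {H : Finset (Finset V)} {M : Finset V} {N : V → ℝ}
  {κ S S' m Q u D D' K : ℝ}

/-- pointwise bound of the noise -/
theorem GG_abs_le (g : GS H M N κ S S' m Q u D D' K) (hD' : 0 < D') {T : Finset V}
    (hT : T ∈ sub H M) {y : V} (hy : y ∈ M \ T) :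
    |GG H M N D' T y| ≤ (∑ x ∈ T, (P2 H M x y : ℝ) + SN H M (cd H M) y) / D' := by
  unfold GG
  have h1 : ∀ T' ∈ (sub H M).filter (fun T' => y ∈ T' ∧ Disjoint T' T),
      |∑ z ∈ T', dN H M N D' T z - dN H M N D' T y| ≤
        ((∑ z ∈ T', (dl H M T z : ℝ) - dl H M T y) + (∑ z ∈ T', cd H M z - cd H M y)) / D' := by
    intro T' hT'
    rw [mem_filter] at hT'
    obtain ⟨hT', hy', _⟩ := hT'
    have e1 : ∀ φ : V → ℝ, ∑ z ∈ T', φ z - φ y = ∑ z ∈ T'.erase y, φ z := by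
      intro φ
      rw [← Finset.add_sum_erase T' φ hy']
      ring
    rw [e1 (fun z => dN H M N D' T z), e1 (fun z => (dl H M T z : ℝ)), e1 (fun z => cd H M z),
      ← Finset.sum_add_distrib, Finset.sum_div]
    refine (Finset.abs_sum_le_sum_abs _ _).trans (Finset.sum_le_sum fun z hz => ?_)
    exact g.dN_le ((mem_sub.1 hT').2 (mem_of_mem_erase hz))
  refine (Finset.abs_sum_le_sum_abs _ _).trans ((Finset.sum_le_sum h1).trans ?_)
  rw [← Finset.sum_div, Finset.sum_add_distrib]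
  refine div_le_div_of_nonneg_right (add_le_add ?_ ?_) hD'.le
  · exact sum_dl_le_P2 g.lin hT hy
  · unfold SN
    refine Finset.sum_le_sum_of_subset_of_nonneg ?_ ?_
    · intro T' hT'
      rw [mem_filter] at hT' ⊢
      exact ⟨hT'.1, hT'.2.1⟩
    · intro T' hT' _
      rw [mem_filter] at hT'
      rw [← Finset.add_sum_erase T' (cd H M) hT'.2, add_sub_cancel_left]
      exact Finset.sum_nonneg fun z hz =>
        cd_nonneg g.lin ((mem_sub.1 hT'.1).2 (mem_of_mem_erase hz))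

theorem sum_P2_le_deg (hH : IsLin3 H) :
    ∑ T ∈ sub H M, ∑ y ∈ M \ T, (∑ x ∈ T, (P2 H M x y : ℝ)) ^ 2 ≤
      3 * ∑ x ∈ M, (deg H M x : ℝ) * ∑ y ∈ M, (P2 H M x y : ℝ) ^ 2 := by
  rw [← sum_sub_sum (H := H) (M := M) (fun x => ∑ y ∈ M, (P2 H M x y : ℝ) ^ 2), Finset.mul_sum]
  refine Finset.sum_le_sum fun T hT => ?_
  have h3 := hH.card3 T (mem_sub.1 hT).1
  rw [Finset.sum_comm, Finset.mul_sum]
  refine (Finset.sum_le_sum_of_subset_of_nonneg (sdiff_subset : M \ T ⊆ M)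
    (fun y _ _ => sq_nonneg _)).trans (Finset.sum_le_sum fun y _ => ?_)
  have := sq_sum_le_card_mul_sum_sq (s := T) (f := fun x => (P2 H M x y : ℝ))
  rw [h3] at this
  push_cast at this
  exact this

/-- heavy vertices -/
noncomputable def hv (D a : ℝ) : ℝ := if 2 * D < a then a ^ 3 else 0

theorem hv_nonneg {D a : ℝ} (ha : 0 ≤ a) : 0 ≤ hv D a := by
  unfold hv
  split_ifs
  · positivity
  · exact le_rfl

theorem light_heavy (hH : IsLin3 H) (hD : 0 < D) :
    ∑ x ∈ M, (deg H M x : ℝ) * ∑ y ∈ M, (P2 H M x y : ℝ) ^ 2 ≤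
      2 * D * (Th H M + 72 * ∑ x ∈ M, (deg H M x : ℝ) ^ 2) +
        24 * ∑ x ∈ M, (deg H M x : ℝ) * hv D (deg H M x : ℝ) := by
  have hl := sum_P2_sq_total (H := H) (M := M) hH
  -- weights `4 a² 1_heavy`
  set φ : V → ℝ := fun x => if 2 * D < (deg H M x : ℝ) then 4 * (deg H M x : ℝ) ^ 2 else 0 with hφ
  have hφ0 : ∀ x ∈ M, 0 ≤ φ x := by
    intro x _
    rw [hφ]
    simp only
    split_ifs
    · positivity
    · exact le_rfl
  have h1 : ∀ x ∈ M, (deg H M x : ℝ) * ∑ y ∈ M, (P2 H M x y : ℝ) ^ 2 ≤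
      2 * D * ∑ y ∈ M, (P2 H M x y : ℝ) ^ 2 + φ x * bb H M x := by
    intro x _
    have hs : 0 ≤ ∑ y ∈ M, (P2 H M x y : ℝ) ^ 2 := Finset.sum_nonneg fun y _ => sq_nonneg _
    have ha : (0 : ℝ) ≤ deg H M x := Nat.cast_nonneg _
    have hb := bb_nonneg (H := H) (M := M) x
    rw [hφ]
    simp only
    split_ifs with h
    · have h2 := sum_P2_sq_le (M := M) hH x
      have h3 := mul_le_mul_of_nonneg_left h2 ha
      have h4 : 0 ≤ 2 * D * ∑ y ∈ M, (P2 H M x y : ℝ) ^ 2 := by positivity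
      have e : (deg H M x : ℝ) * (4 * (deg H M x * bb H M x)) =
          4 * (deg H M x : ℝ) ^ 2 * bb H M x := by ring
      rw [e] at h3
      linarith
    · push Not at h
      have := mul_le_mul_of_nonneg_right h hs
      linarith
  refine (Finset.sum_le_sum h1).trans ?_
  rw [Finset.sum_add_distrib, ← Finset.mul_sum]
  have h2 : ∑ x ∈ M, φ x * bb H M x ≤ 24 * ∑ x ∈ M, (deg H M x : ℝ) * hv D (deg H M x : ℝ) := by
    refine (bb_mul_sum_le hφ0).trans ?_
    have h3 := pair_sum (H := H) (M := M) hH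
      (F := fun y z : V => φ y * (deg H M z : ℝ))
      (Φ := fun y : V => 4 * hv D (deg H M y : ℝ)) (Ψ := fun z : V => 4 * hv D (deg H M z : ℝ))
      (by
        intro y _ z _
        have ha : (0 : ℝ) ≤ deg H M y := Nat.cast_nonneg _
        have hb : (0 : ℝ) ≤ deg H M z := Nat.cast_nonneg _
        have hva := hv_nonneg (D := D) ha
        have hvb := hv_nonneg (D := D) hb
        rw [hφ]
        simp only
        set a := (deg H M y : ℝ)
        set b := (deg H M z : ℝ)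
        split_ifs with h
        · rcases le_total b a with hab | hab
          · have e1 : hv D a = a ^ 3 := by unfold hv; rw [if_pos h]
            have e2 : a ^ 2 * b ≤ a ^ 3 := by
              have := mul_le_mul_of_nonneg_left hab (sq_nonneg a)
              calc a ^ 2 * b ≤ a ^ 2 * a := this
                _ = a ^ 3 := by ring
            rw [e1]
            linarith
          · have e1 : hv D b = b ^ 3 := by unfold hv; rw [if_pos (h.trans_le hab)]
            have e2 : a ^ 2 * b ≤ b ^ 3 := by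
              have h4 : a ^ 2 ≤ b ^ 2 := pow_le_pow_left₀ ha hab 2
              have := mul_le_mul_of_nonneg_right h4 hb
              calc a ^ 2 * b ≤ b ^ 2 * b := this
                _ = b ^ 3 := by ring
            rw [e1]
            linarith
        · rw [zero_mul]
          positivity)
    refine h3.trans (le_of_eq ?_)
    rw [Finset.mul_sum, Finset.mul_sum]
    refine Finset.sum_congr rfl fun x _ => ?_
    ring
  have h3 : 2 * D * ∑ x ∈ M, ∑ y ∈ M, (P2 H M x y : ℝ) ^ 2 ≤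
      2 * D * (Th H M + 72 * ∑ x ∈ M, (deg H M x : ℝ) ^ 2) :=
    mul_le_mul_of_nonneg_left hl (by positivity)
  linarith

theorem heavy_le (hD : 0 < D) :
    ∑ x ∈ M, (deg H M x : ℝ) * hv D (deg H M x : ℝ) ≤
      2 * D ^ 4 * ∑ x ∈ M, tt ((deg H M x : ℝ) / D) := by
  rw [Finset.mul_sum]
  refine Finset.sum_le_sum fun x _ => ?_
  have ht := tt_nonneg ((deg H M x : ℝ) / D)
  unfold hv
  split_ifs with h
  · have h1 : 2 ≤ (deg H M x : ℝ) / D := by
      rw [le_div_iff₀ hD]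
      exact h.le
    have h2 := pow_le_tt' h1 (j := 4) (by norm_num)
    have h3 := mul_le_mul_of_nonneg_left h2 (by positivity : 0 ≤ D ^ 4)
    have e : D ^ 4 * ((deg H M x : ℝ) / D) ^ 4 = (deg H M x : ℝ) * (deg H M x : ℝ) ^ 3 := by
      field_simp
    rw [e] at h3
    linarith
  · rw [mul_zero]
    positivity

theorem c_part (hH : IsLin3 H) (hD : 0 < D) (hQ : ((sub H M).card : ℝ) = Q) (hQ0 : 0 < Q) :
    Q * ∑ y ∈ M, SN H M (cd H M) y ^ 2 ≤
      14418 / Q * D ^ 6 * ∑ x ∈ M, (1 + tt ((deg H M x : ℝ) / D)) := by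
  have h1 := SN_sq_sum_le (M := M) hH (cd H M)
  have h2 : ∀ z ∈ M, cd H M z ^ 2 * bb H M z ≤ bb H M z ^ 3 / Q ^ 2 := by
    intro z hz
    have hb := bb_nonneg (H := H) (M := M) z
    have hc := cd_nonneg hH hz
    have hc2 := cd_le (H := H) (M := M) z
    rw [hQ] at hc2
    have h3 : cd H M z ^ 2 ≤ (bb H M z / Q) ^ 2 := pow_le_pow_left₀ hc hc2 2
    have h4 := mul_le_mul_of_nonneg_right h3 hb
    refine h4.trans (le_of_eq ?_)
    field_simp
  have h3 := Finset.sum_le_sum h2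
  rw [← Finset.sum_div] at h3
  have h4 := bb_cube_sum (M := M) hH
  have h5 : ∑ x ∈ M, (deg H M x : ℝ) ^ 6 ≤
      D ^ 6 * (89 * ∑ x ∈ M, (1 + tt ((deg H M x : ℝ) / D))) := by
    rw [Finset.mul_sum, Finset.mul_sum]
    refine Finset.sum_le_sum fun x _ => ?_
    have hθ : 0 ≤ (deg H M x : ℝ) / D := by positivity
    have h6 := pow_le_tt hθ (j := 6) (by norm_num)
    have h7 := mul_le_mul_of_nonneg_left h6 (by positivity : 0 ≤ D ^ 6)
    refine le_trans (le_of_eq ?_) h7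
    field_simp
  have h6 : ∑ z ∈ M, bb H M z ^ 3 ≤
      81 * (D ^ 6 * (89 * ∑ x ∈ M, (1 + tt ((deg H M x : ℝ) / D)))) :=
    h4.trans (mul_le_mul_of_nonneg_left h5 (by norm_num))
  have h7 : (∑ z ∈ M, bb H M z ^ 3) / Q ^ 2 ≤
      81 * (D ^ 6 * (89 * ∑ x ∈ M, (1 + tt ((deg H M x : ℝ) / D)))) / Q ^ 2 :=
    div_le_div_of_nonneg_right h6 (by positivity)
  have h8 : ∑ y ∈ M, SN H M (cd H M) y ^ 2 ≤
      2 * (81 * (D ^ 6 * (89 * ∑ x ∈ M, (1 + tt ((deg H M x : ℝ) / D)))) / Q ^ 2) := by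
    linarith
  have h9 := mul_le_mul_of_nonneg_left h8 hQ0.le
  refine h9.trans (le_of_eq ?_)
  field_simp
  ring

/-- the sum of the squares before the final estimate -/
theorem GG_sum_le (g : GS H M N κ S S' m Q u D D' K) (hD : 0 < D) (hD' : 0 < D') (hQ0 : 0 < Q) :
    ∑ T ∈ sub H M, ∑ y ∈ M \ T, GG H M N D' T y ^ 2 ≤
      2 / D' ^ 2 * (3 * (2 * D * (Th H M + 72 * ∑ x ∈ M, (deg H M x : ℝ) ^ 2) +
        24 * (2 * D ^ 4 * ∑ x ∈ M, tt ((deg H M x : ℝ) / D))) +
        14418 / Q * D ^ 6 * ∑ x ∈ M, (1 + tt ((deg H M x : ℝ) / D))) := by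
  have h1 : ∀ T ∈ sub H M, ∑ y ∈ M \ T, GG H M N D' T y ^ 2 ≤
      2 / D' ^ 2 * (∑ y ∈ M \ T, (∑ x ∈ T, (P2 H M x y : ℝ)) ^ 2 +
        ∑ y ∈ M, SN H M (cd H M) y ^ 2) := by
    intro T hT
    have h2 : ∀ y ∈ M \ T, GG H M N D' T y ^ 2 ≤
        2 / D' ^ 2 * ((∑ x ∈ T, (P2 H M x y : ℝ)) ^ 2 + SN H M (cd H M) y ^ 2) := by
      intro y hy
      have h3 := GG_abs_le g hD' hT hy
      have h4 := pow_le_pow_left₀ (abs_nonneg _) h3 2
      rw [sq_abs, div_pow] at h4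
      refine h4.trans ?_
      rw [div_mul_eq_mul_div]
      refine div_le_div_of_nonneg_right ?_ (by positivity)
      nlinarith [sq_nonneg (∑ x ∈ T, (P2 H M x y : ℝ) - SN H M (cd H M) y)]
    refine (Finset.sum_le_sum h2).trans ?_
    rw [← Finset.mul_sum, Finset.sum_add_distrib]
    refine mul_le_mul_of_nonneg_left (add_le_add le_rfl ?_) (by positivity)
    exact Finset.sum_le_sum_of_subset_of_nonneg sdiff_subset fun y _ _ => sq_nonneg _
  refine (Finset.sum_le_sum h1).trans ?_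
  rw [← Finset.mul_sum, Finset.sum_add_distrib, Finset.sum_const, nsmul_eq_mul, g.hQ]
  have h2 := sum_P2_le_deg (M := M) g.lin
  have h3 := light_heavy (M := M) g.lin hD
  have h4 := heavy_le (H := H) (M := M) hD
  have h5 := c_part (M := M) g.lin hD g.hQ hQ0
  refine mul_le_mul_of_nonneg_left (add_le_add ?_ h5) (by positivity)
  refine h2.trans (mul_le_mul_of_nonneg_left (h3.trans ?_) (by norm_num))
  linarith

end

theorem noise_alg {m Q u D D' Th EE A T₁ : ℝ} (hm : 0 < m) (hu : 1000 ≤ u) (hum : u ^ 6 ≤ m)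
    (hDlo : 9 / 10 * u ^ 4 ≤ D) (hDhi : D ≤ u ^ 4) (hD' : 99 / 100 * D ≤ D')
    (hQlo : 3 / 10 * (m * D) ≤ Q) (hDQ : 99 / 100 * D ≤ Q * (3 / m)) (hTh : 0 ≤ Th)
    (hA : A ≤ 3 * m * D ^ 2) (hT0 : 0 ≤ T₁) (hEm : m / u ≤ EE) (hET : u ^ 3 * T₁ ≤ EE)
    (hE1 : m + T₁ ≤ 2 * (u * EE)) :
    2 * (2 / D' ^ 2 * (3 * (2 * D * (Th + 72 * A) + 24 * (2 * D ^ 4 * T₁)) +
      14418 / Q * D ^ 6 * (m + T₁))) ≤
      Q * (3 / m * (1000000 * (Th / u ^ 8 + u ^ 3 * EE))) := by
  have hu0 : 0 < u := by linarith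
  have hu4 : 0 < u ^ 4 := by positivity
  have hD0 : 0 < D := by linarith
  have hD'0 : 0 < D' := by linarith
  have hQ0 : 0 < Q := by
    have : 0 < m * D := by positivity
    linarith
  have hEE0 : 0 ≤ EE := by
    have : 0 ≤ m / u := by positivity
    linarith
  -- `4 / D'² ≤ 5 / D²`
  have hfr : 2 * (2 / D' ^ 2) ≤ 5 / D ^ 2 := by
    have h1 : (99 / 100 * D) ^ 2 ≤ D' ^ 2 := pow_le_pow_left₀ (by positivity) hD' 2
    rw [mul_div_assoc', div_le_div_iff₀ (by positivity) (by positivity)]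
    nlinarith
  -- the main quantity
  set X := 3 * (2 * D * (Th + 72 * A) + 24 * (2 * D ^ 4 * T₁)) + 14418 / Q * D ^ 6 * (m + T₁)
    with hX
  have hX0 : X ≤ 6 * D * Th + 1296 * m * D ^ 3 + 144 * D ^ 4 * T₁ +
      48060 * D ^ 5 / m * (m + T₁) := by
    have h1 : 432 * D * A ≤ 432 * D * (3 * m * D ^ 2) :=
      mul_le_mul_of_nonneg_left hA (by positivity)
    have h2 : 14418 / Q * D ^ 6 ≤ 48060 * D ^ 5 / m := by
      rw [div_mul_eq_mul_div, div_le_div_iff₀ hQ0 hm]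
      have := mul_le_mul_of_nonneg_left hQlo (by positivity : 0 ≤ 48060 * D ^ 5)
      nlinarith
    have h3 : 14418 / Q * D ^ 6 * (m + T₁) ≤ 48060 * D ^ 5 / m * (m + T₁) :=
      mul_le_mul_of_nonneg_right h2 (by positivity)
    rw [hX]
    nlinarith
  have hstep : 2 * (2 / D' ^ 2 * X) ≤ 5 / D ^ 2 * (6 * D * Th + 1296 * m * D ^ 3 +
      144 * D ^ 4 * T₁ + 48060 * D ^ 5 / m * (m + T₁)) := by
    have h1 : 2 * (2 / D' ^ 2 * X) ≤ 2 * (2 / D' ^ 2) * (6 * D * Th + 1296 * m * D ^ 3 +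
      144 * D ^ 4 * T₁ + 48060 * D ^ 5 / m * (m + T₁)) := by
      rw [← mul_assoc]
      exact mul_le_mul_of_nonneg_left hX0 (by positivity)
    refine h1.trans (mul_le_mul_of_nonneg_right hfr (by positivity))
  have e1 : 5 / D ^ 2 * (6 * D * Th + 1296 * m * D ^ 3 + 144 * D ^ 4 * T₁ +
      48060 * D ^ 5 / m * (m + T₁)) =
      30 * (Th / D) + 6480 * (m * D) + 720 * (D ^ 2 * T₁) + 240300 * (D ^ 3 / m * (m + T₁)) := by
    field_simp
    ring
  rw [e1] at hstep
  refine hstep.trans ?_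
  have hmain : 99 / 100 * D * (1000000 * (Th / u ^ 8 + u ^ 3 * EE)) ≤
      Q * (3 / m * (1000000 * (Th / u ^ 8 + u ^ 3 * EE))) := by
    rw [← mul_assoc Q]
    exact mul_le_mul_of_nonneg_right hDQ (by positivity)
  refine le_trans ?_ hmain
  -- the four terms
  have t1 : 30 * (Th / D) ≤ 99 / 100 * D * (1000000 * (Th / u ^ 8)) := by
    have h1 : (9 / 10 * u ^ 4) ^ 2 ≤ D ^ 2 := pow_le_pow_left₀ (by positivity) hDlo 2
    have h2 : Th / D ≤ 2 * (D * (Th / u ^ 8)) := by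
      rw [div_le_iff₀ hD0]
      have e : 2 * (D * (Th / u ^ 8)) * D = Th * (2 * D ^ 2 / u ^ 8) := by ring
      rw [e]
      have h3 : 1 ≤ 2 * D ^ 2 / u ^ 8 := by
        rw [le_div_iff₀ (by positivity)]
        have e2 : (9 / 10 * u ^ 4) ^ 2 = 81 / 100 * u ^ 8 := by ring
        have : 0 < u ^ 8 := by positivity
        linarith
      have := mul_le_mul_of_nonneg_left h3 hTh
      linarith
    have h3 : 0 ≤ D * (Th / u ^ 8) := by positivity
    linarith
  have hu2 : 1 ≤ u ^ 2 := one_le_pow₀ (by linarith)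
  have t2 : 6480 * (m * D) ≤ 10000 * (D * (u ^ 3 * EE)) := by
    have h1 : m ≤ u * EE := by
      rw [div_le_iff₀ hu0] at hEm
      linarith
    have h2 : u * EE ≤ u ^ 3 * EE := by
      have : u ^ 1 ≤ u ^ 3 := pow_le_pow_right₀ (by linarith) (by norm_num)
      rw [pow_one] at this
      exact mul_le_mul_of_nonneg_right this hEE0
    have h3 := mul_le_mul_of_nonneg_left (h1.trans h2) hD0.le
    have h4 : 0 ≤ D * (u ^ 3 * EE) := by positivity
    linarith
  have t3 : 720 * (D ^ 2 * T₁) ≤ 720 * (D * (u ^ 3 * EE)) := by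
    have h1 : D * T₁ ≤ u ^ 3 * EE := by
      have h2 : D * T₁ ≤ u ^ 4 * T₁ := mul_le_mul_of_nonneg_right hDhi hT0
      have h3 : u ^ 4 * T₁ ≤ u ^ 6 * T₁ :=
        mul_le_mul_of_nonneg_right (pow_le_pow_right₀ (by linarith) (by norm_num)) hT0
      have h4 := mul_le_mul_of_nonneg_left hET (by positivity : 0 ≤ u ^ 3)
      have e : u ^ 3 * (u ^ 3 * T₁) = u ^ 6 * T₁ := by ring
      rw [e] at h4
      linarith
    have h2 := mul_le_mul_of_nonneg_left h1 hD0.le
    have e : D * (D * T₁) = D ^ 2 * T₁ := by ring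
    rw [e] at h2
    linarith
  have t4 : 240300 * (D ^ 3 / m * (m + T₁)) ≤ 480600 * (D * (u ^ 3 * EE)) := by
    have h1 : D ^ 2 / m ≤ u ^ 2 := by
      rw [div_le_iff₀ hm]
      have h2 : D ^ 2 ≤ (u ^ 4) ^ 2 := pow_le_pow_left₀ hD0.le hDhi 2
      have h3 := mul_le_mul_of_nonneg_left hum (by positivity : 0 ≤ u ^ 2)
      have e : (u ^ 4) ^ 2 = u ^ 2 * u ^ 6 := by ring
      linarith
    have h2 : D ^ 2 / m * (m + T₁) ≤ u ^ 2 * (2 * (u * EE)) :=
      mul_le_mul h1 hE1 (by positivity) (by positivity)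
    have h3 := mul_le_mul_of_nonneg_left h2 hD0.le
    have e : D * (D ^ 2 / m * (m + T₁)) = D ^ 3 / m * (m + T₁) := by ring
    rw [e] at h3
    have e2 : D * (u ^ 2 * (2 * (u * EE))) = 2 * (D * (u ^ 3 * EE)) := by ring
    rw [e2] at h3
    linarith
  have h0 : 0 ≤ D * (u ^ 3 * EE) := by positivity
  have e3 : 99 / 100 * D * (1000000 * (Th / u ^ 8 + u ^ 3 * EE)) =
      99 / 100 * D * (1000000 * (Th / u ^ 8)) + 990000 * (D * (u ^ 3 * EE)) := by ring
  rw [e3]
  linarith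

theorem noise_sq_le : ∃ C : ℝ, 1 ≤ C ∧ ∀ (V : Type) [DecidableEq V] (H : Finset (Finset V))
    (M : Finset V) (N : V → ℝ) (κ S S' m Q u D D' K : ℝ), GS H M N κ S S' m Q u D D' K →
    2 * ∑ T ∈ sub H M, ∑ y ∈ M \ T, GG H M N D' T y ^ 2 ≤
      Q * (3 / m * (C * (Th H M / u ^ 8 + u ^ 3 * EE H M N D u))) := by
  refine ⟨1000000, by norm_num, ?_⟩
  intro V _ H M N κ S S' m Q u D D' K g
  have hm := g.m_big
  have hm0 : 0 < m := by linarith
  have hu := g.hu
  have hu0 : 0 < u := by linarith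
  have hDlo := g.D_lo
  have hDhi := g.D_hi
  have hD0 : 0 < D := by
    have : 0 < u ^ 4 := by positivity
    linarith
  have hD'lo := g.D'_lo
  have hD'0 : 0 < D' := by linarith
  have hQlo := g.Q_lo
  have hQ0 : 0 < Q := by
    have : 0 < m * D := by positivity
    linarith
  have hDQ : 99 / 100 * D ≤ Q * (3 / m) := by
    have h1 := g.DQ_hi
    have h2 : 3 / m * (1 + 2 / u) ≤ 3 / m * (501 / 500) := by
      refine mul_le_mul_of_nonneg_left ?_ (by positivity)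
      have : 2 / u ≤ 1 / 500 := by
        rw [div_le_div_iff₀ hu0 (by norm_num)]
        linarith
      linarith
    have h3 := h1.trans h2
    rw [div_le_iff₀ hQ0] at h3
    have h4 : 0 ≤ Q * (3 / m) := by positivity
    nlinarith
  have hsum := GG_sum_le g hD0 hD'0 hQ0
  have hA : ∑ x ∈ M, (deg H M x : ℝ) ^ 2 ≤ 3 * m * D ^ 2 := by
    have h1 := g.sumsq_le
    have h2 := mul_le_mul_of_nonneg_right h1 (sq_nonneg D)
    refine le_trans (le_of_eq ?_) h2
    rw [Finset.sum_mul]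
    refine Finset.sum_congr rfl fun x _ => ?_
    field_simp
  have hone : ∑ x ∈ M, (1 + tt ((deg H M x : ℝ) / D)) =
      m + ∑ x ∈ M, tt ((deg H M x : ℝ) / D) := by
    rw [Finset.sum_add_distrib, Finset.sum_const, nsmul_eq_mul, mul_one, g.hm]
  rw [hone] at hsum
  have hT0 : 0 ≤ ∑ x ∈ M, tt ((deg H M x : ℝ) / D) := Finset.sum_nonneg fun x _ => tt_nonneg _
  have hET : u ^ 3 * ∑ x ∈ M, tt ((deg H M x : ℝ) / D) ≤ EE H M N D u := by
    refine le_trans (mul_le_mul_of_nonneg_left (Finset.sum_le_sum fun x _ => ?_)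
      (by positivity)) g.EE_ge_T
    have h1 := g.theta_nonneg x
    have h2 := tt_nonneg ((deg H M x : ℝ) / D)
    nlinarith
  have hTh0 : 0 ≤ Th H M := by unfold Th; positivity
  have halg := noise_alg hm0 hu g.hum hDlo hDhi hD'lo hQlo hDQ hTh0 hA hT0 g.EE_ge_m hET
    g.sum_one_tt_le
  refine le_trans ?_ halg
  exact mul_le_mul_of_nonneg_left hsum (by norm_num)

end Vale.Agent.P046LF
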