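import Vale.Agent.P046LF.S2b
import Vale.Agent.P046LF.S2c
import Vale.Agent.P046LF.S2d

/-!
P046 log-free, module S2: the step for `Z` (assembly of S2A-S2D).
-/

namespace Vale.Agent.P046LF

open Finset Vale.Agent.P046

theorem step_Z : ∃ C : ℝ, 1 ≤ C ∧ ∀ (V : Type) [DecidableEq V] (H : Finset (Finset V))
    (M : Finset V) (N : V → ℝ) (κ S S' m Q u D D' K : ℝ), GS H M N κ S S' m Q u D D' K →
    ∑ T ∈ sub H M, ZZ H (M \ T) (Nup H M N D' T) ≤
      Q * (ZZ H M N * (1 - 11 / m) +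
        3 / m * (C * (Th H M / u ^ 8 + u ^ 3 * EE H M N D u))) := by
  obtain ⟨C1, hC1, h1⟩ := cross_L_le
  obtain ⟨C2, hC2, h2⟩ := lost_sq_le
  obtain ⟨C3, hC3, h3⟩ := cross_G_le
  obtain ⟨C4, hC4, h4⟩ := noise_sq_le
  refine ⟨C1 + C2 + C3 + C4, by linarith, fun V _ H M N κ S S' m Q u D D' K g => ?_⟩
  have k0 := ZZ_split g
  have k1 := h1 V H M N κ S S' m Q u D D' K g
  have k2 := h2 V H M N κ S S' m Q u D D' K g
  have k3 := h3 V H M N κ S S' m Q u D D' K g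
  have k4 := h4 V H M N κ S S' m Q u D D' K g
  have hm : 0 < m := lt_of_lt_of_le (by norm_num) g.m_big
  have hu : 0 < u := lt_of_lt_of_le (by norm_num) g.hu
  have hQ : 0 ≤ Q := by rw [← g.hQ]; positivity
  have hE : 0 ≤ EE H M N D u := le_trans (by positivity) g.EE_ge_m
  have hZ : 0 ≤ ZZ H M N := Finset.sum_nonneg fun _ _ => sq_nonneg _
  have hT : 0 ≤ Th H M := by unfold Th; positivity
  have hX : 0 ≤ Th H M / u ^ 8 := by positivity
  have e : Q * ZZ H M N + Q * (-(117 / (10 * m)) * ZZ H M N + 3 / m * (C1 * (u ^ 3 * EE H M N D u))) +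
      Q * (3 / (10 * m) * ZZ H M N + 3 / m * (C3 * (u ^ 3 * EE H M N D u))) +
      Q * (3 / m * (C2 * (u ^ 3 * EE H M N D u))) +
      Q * (3 / m * (C4 * (Th H M / u ^ 8 + u ^ 3 * EE H M N D u))) =
      Q * (ZZ H M N * (1 - 114 / (10 * m)) + 3 / m * (C4 * (Th H M / u ^ 8) +
        (C1 + C2 + C3 + C4) * (u ^ 3 * EE H M N D u))) := by
    field_simp; ring
  have h5 : Q * (ZZ H M N * (1 - 114 / (10 * m)) + 3 / m * (C4 * (Th H M / u ^ 8) +
        (C1 + C2 + C3 + C4) * (u ^ 3 * EE H M N D u))) ≤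
      Q * (ZZ H M N * (1 - 11 / m) +
        3 / m * ((C1 + C2 + C3 + C4) * (Th H M / u ^ 8 + u ^ 3 * EE H M N D u))) := by
    refine mul_le_mul_of_nonneg_left ?_ hQ
    have a1 : ZZ H M N * (1 - 114 / (10 * m)) ≤ ZZ H M N * (1 - 11 / m) := by
      refine mul_le_mul_of_nonneg_left ?_ hZ
      have : 11 / m ≤ 114 / (10 * m) := by
        rw [div_le_div_iff₀ hm (by positivity)]; nlinarith
      linarith
    have a2 : 3 / m * (C4 * (Th H M / u ^ 8) + (C1 + C2 + C3 + C4) * (u ^ 3 * EE H M N D u)) ≤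
        3 / m * ((C1 + C2 + C3 + C4) * (Th H M / u ^ 8 + u ^ 3 * EE H M N D u)) := by
      refine mul_le_mul_of_nonneg_left ?_ (by positivity)
      have : C4 * (Th H M / u ^ 8) ≤ (C1 + C2 + C3 + C4) * (Th H M / u ^ 8) :=
        mul_le_mul_of_nonneg_right (by linarith) hX
      linarith
    linarith
  linarith

end Vale.Agent.P046LF
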