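import Vale.Agent.P046LF.Basic
import Vale.Agent.P046LF.Point
import Vale.Agent.P046LF.Cycles

/-!
P046 log-free, module S3: the step for `Θ` (assembly).
-/

namespace Vale.Agent.P046LF

open Finset Vale.Agent.P046

/-- the indicator of low degree -/
noncomputable def bad (θ : ℝ) : ℝ := if θ < 63 / 64 then (1 : ℝ) else 0

theorem bad_nonneg (θ : ℝ) : 0 ≤ bad θ := by unfold bad; split_ifs <;> norm_num

theorem bad_le_one (θ : ℝ) : bad θ ≤ 1 := by unfold bad; split_ifs <;> norm_num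

/-- pair sum of `1_bad(y) s_T²` -/
theorem bad_pair {V : Type} [DecidableEq V] {H : Finset (Finset V)} {M : Finset V} {D : ℝ}
    (hH : IsLin3 H) (hD : 0 < D) :
    ∑ T ∈ sub H M, (∑ x ∈ T, bad ((deg H M x : ℝ) / D)) * (sT H M T : ℝ) ^ 2 ≤
      9 * D ^ 3 * ∑ x ∈ M, ((deg H M x : ℝ) / D) *
        (4 * bad ((deg H M x : ℝ) / D) + 2 * tt ((deg H M x : ℝ) / D)) := by
  have h1 : ∀ T ∈ sub H M, (∑ x ∈ T, bad ((deg H M x : ℝ) / D)) * (sT H M T : ℝ) ^ 2 ≤
      3 * D ^ 2 * ∑ y ∈ T, ∑ z ∈ T, bad ((deg H M y : ℝ) / D) * ((deg H M z : ℝ) / D) ^ 2 := by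
    intro T hT
    have h3 := hH.card3 T (mem_sub.1 hT).1
    have h2 : (sT H M T : ℝ) ^ 2 ≤ 3 * ∑ z ∈ T, (deg H M z : ℝ) ^ 2 := by
      have := sq_sum_le_card_mul_sum_sq (s := T) (f := fun z => (deg H M z : ℝ))
      rw [h3] at this
      unfold sT
      push_cast at this ⊢
      exact this
    have h4 : 3 * ∑ z ∈ T, (deg H M z : ℝ) ^ 2 =
        3 * D ^ 2 * ∑ z ∈ T, ((deg H M z : ℝ) / D) ^ 2 := by
      rw [mul_assoc, Finset.mul_sum (s := T) (a := D ^ 2)]
      congr 1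
      refine Finset.sum_congr rfl fun z _ => ?_
      field_simp
    have h5 : 0 ≤ ∑ x ∈ T, bad ((deg H M x : ℝ) / D) := Finset.sum_nonneg fun x _ => bad_nonneg _
    rw [h4] at h2
    have h6 := mul_le_mul_of_nonneg_left h2 h5
    refine h6.trans (le_of_eq ?_)
    rw [← Finset.sum_mul_sum]
    ring
  refine (Finset.sum_le_sum h1).trans ?_
  rw [← Finset.mul_sum]
  have h2 := pair_sum (H := H) (M := M) hH
    (F := fun y z : V => bad ((deg H M y : ℝ) / D) * ((deg H M z : ℝ) / D) ^ 2)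
    (Φ := fun y : V => 4 * bad ((deg H M y : ℝ) / D))
    (Ψ := fun z : V => 2 * tt ((deg H M z : ℝ) / D))
    (by
      intro y _ z _
      set a := (deg H M y : ℝ) / D
      have hb : 0 ≤ (deg H M z : ℝ) / D := by positivity
      set b := (deg H M z : ℝ) / D
      have g1 := bad_nonneg a
      have g2 := bad_le_one a
      have g3 := tt_nonneg b
      rcases lt_or_ge b 2 with h | h
      · have : b ^ 2 ≤ 4 := by nlinarith
        nlinarith
      · have := pow_le_tt' h (j := 2) (by norm_num)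
        have h4 : bad a * b ^ 2 ≤ 1 * b ^ 2 := mul_le_mul_of_nonneg_right g2 (sq_nonneg b)
        linarith)
  have h3 : ∑ x ∈ M, (deg H M x : ℝ) * (4 * bad ((deg H M x : ℝ) / D) +
      2 * tt ((deg H M x : ℝ) / D)) = D * ∑ x ∈ M, ((deg H M x : ℝ) / D) *
        (4 * bad ((deg H M x : ℝ) / D) + 2 * tt ((deg H M x : ℝ) / D)) := by
    rw [Finset.mul_sum]
    refine Finset.sum_congr rfl fun x _ => ?_
    field_simp
  rw [h3] at h2
  have h4 := mul_le_mul_of_nonneg_left h2 (by positivity : 0 ≤ 3 * D ^ 2)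
  refine h4.trans (le_of_eq ?_)
  ring

theorem step_Th : ∃ C : ℝ, 1 ≤ C ∧ ∀ (V : Type) [DecidableEq V] (H : Finset (Finset V))
    (M : Finset V) (N : V → ℝ) (κ S S' m Q u D D' K : ℝ), GS H M N κ S S' m Q u D D' K →
    ∑ T ∈ sub H M, Th H (M \ T) ≤
      Q * (Th H M * (1 - 117 / (5 * m)) + 3 / m * (C * (u ^ 9 * EE H M N D u))) := by
  obtain ⟨C₁, hC₁, hlow⟩ := low_le
  refine ⟨1000 * (4 * C₁ + 2), by linarith, ?_⟩
  intro V _ H M N κ S S' m Q u D D' K g
  have hm := g.m_big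
  have hm0 : 0 < m := by linarith
  have hu := g.hu
  have hu0 : 0 < u := by linarith
  have hDlo := g.D_lo
  have hDhi := g.D_hi
  have hu4 : (1000 : ℝ) ^ 4 ≤ u ^ 4 := pow_le_pow_left₀ (by norm_num) hu 4
  have hD0 : 0 < D := by
    have : 0 < u ^ 4 := by positivity
    linarith
  have hQlo := g.Q_lo
  have hQ0 : 0 < Q := by
    have : 0 < m * D := by positivity
    linarith
  have h1 := Th_step g.lin (M := M)
  rw [g.hQ] at h1
  have hTh0 : 0 ≤ Th H M := by unfold Th; positivity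
  -- lower bound of the vertex sums
  have h2 : ∀ q ∈ C4 H M, 63 / 8 * D - D * ∑ x ∈ q.1 ∪ q.2.1 ∪ q.2.2.1 ∪ q.2.2.2,
      bad ((deg H M x : ℝ) / D) ≤
      ∑ x ∈ q.1 ∪ q.2.1 ∪ q.2.2.1 ∪ q.2.2.2, (deg H M x : ℝ) := by
    intro q hq
    have hc := C4_union_card g.lin hq
    have h3 : ∀ x ∈ q.1 ∪ q.2.1 ∪ q.2.2.1 ∪ q.2.2.2,
        63 / 64 * D - D * bad ((deg H M x : ℝ) / D) ≤ (deg H M x : ℝ) := by
      intro x _
      unfold bad
      split_ifs with h
      · have : (0 : ℝ) ≤ deg H M x := Nat.cast_nonneg _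
        linarith
      · push Not at h
        rw [le_div_iff₀ hD0] at h
        linarith
    have h4 := Finset.sum_le_sum h3
    rw [Finset.sum_sub_distrib, Finset.sum_const, hc, ← Finset.mul_sum, nsmul_eq_mul] at h4
    refine le_trans (le_of_eq ?_) h4
    push_cast
    ring
  have h3 := Finset.sum_le_sum h2
  rw [Finset.sum_sub_distrib, Finset.sum_const, nsmul_eq_mul, ← Finset.mul_sum] at h3
  have h4 := C4_vertex_sum g.lin (H := H) (M := M) (ψ := fun x => bad ((deg H M x : ℝ) / D))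
    (fun x _ => bad_nonneg _)
  have h5 := bad_pair (H := H) (M := M) g.lin hD0
  -- the sum over vertices
  have hW := g.EE_ge_W
  have hT := g.EE_ge_T
  have hN := g.EE_ge_N
  have hEE0 : 0 ≤ EE H M N D u := by
    have := g.EE_ge_m
    have : 0 ≤ m / u := by positivity
    linarith
  have h6 : ∑ x ∈ M, ((deg H M x : ℝ) / D) *
        (4 * bad ((deg H M x : ℝ) / D) + 2 * tt ((deg H M x : ℝ) / D)) ≤
      (4 * C₁ + 2) * (2 * (EE H M N D u / u ^ 3)) := by
    have h7 : ∀ x ∈ M, ((deg H M x : ℝ) / D) *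
        (4 * bad ((deg H M x : ℝ) / D) + 2 * tt ((deg H M x : ℝ) / D)) ≤
        4 * C₁ * (ff ((deg H M x : ℝ) / D - N x) + (1 + (deg H M x : ℝ) / D) * N x ^ 8) +
          2 * ((1 + (deg H M x : ℝ) / D) * tt ((deg H M x : ℝ) / D)) := by
      intro x hx
      have hθ := g.theta_nonneg x
      set θ := (deg H M x : ℝ) / D
      have b1 : θ * bad θ ≤ bad θ := by
        unfold bad
        split_ifs with h
        · linarith
        · simp
      have b2 : bad θ ≤ C₁ * (ff (θ - N x) + N x ^ 8) := hlow θ (N x) hθ (g.hN x hx)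
      have b3 : N x ^ 8 ≤ (1 + θ) * N x ^ 8 := by
        have : 0 ≤ N x ^ 8 := by positivity
        nlinarith
      have b4 := tt_nonneg θ
      have b5 : C₁ * (ff (θ - N x) + N x ^ 8) ≤ C₁ * (ff (θ - N x) + (1 + θ) * N x ^ 8) :=
        mul_le_mul_of_nonneg_left (by linarith) (by linarith)
      have e1 : θ * (4 * bad θ + 2 * tt θ) = 4 * (θ * bad θ) + 2 * (θ * tt θ) := by ring
      rw [e1]
      linarith
    refine (Finset.sum_le_sum h7).trans ?_
    rw [Finset.sum_add_distrib, ← Finset.mul_sum, ← Finset.mul_sum, Finset.sum_add_distrib]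
    have hu3 : 0 < u ^ 3 := by positivity
    have w1 : ∑ x ∈ M, ff ((deg H M x : ℝ) / D - N x) ≤ EE H M N D u / u ^ 3 := by
      rw [le_div_iff₀ hu3]
      have : WW H M N D = ∑ x ∈ M, ff ((deg H M x : ℝ) / D - N x) := rfl
      rw [← this]
      linarith
    have w2 : ∑ x ∈ M, (1 + (deg H M x : ℝ) / D) * tt ((deg H M x : ℝ) / D) ≤
        EE H M N D u / u ^ 3 := by
      rw [le_div_iff₀ hu3]
      linarith
    have w3 : ∑ x ∈ M, (1 + (deg H M x : ℝ) / D) * N x ^ 8 ≤ EE H M N D u / u ^ 3 := by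
      rw [le_div_iff₀ hu3]
      have hs : 0 ≤ ∑ x ∈ M, (1 + (deg H M x : ℝ) / D) * N x ^ 8 := by
        refine Finset.sum_nonneg fun x _ => ?_
        have := g.theta_nonneg x
        positivity
      have hp : u ^ 3 ≤ u ^ 15 := pow_le_pow_right₀ (by linarith) (by norm_num)
      have := mul_le_mul_of_nonneg_right hp hs
      linarith
    have w4 : 0 ≤ EE H M N D u / u ^ 3 := by positivity
    have w5 : 4 * C₁ * (∑ x ∈ M, ff ((deg H M x : ℝ) / D - N x) +
        ∑ x ∈ M, (1 + (deg H M x : ℝ) / D) * N x ^ 8) ≤ 4 * C₁ * (2 * (EE H M N D u / u ^ 3)) :=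
      mul_le_mul_of_nonneg_left (by linarith) (by linarith)
    linarith
  set B := ∑ x ∈ M, ((deg H M x : ℝ) / D) *
        (4 * bad ((deg H M x : ℝ) / D) + 2 * tt ((deg H M x : ℝ) / D)) with hB
  set G := ∑ q ∈ C4 H M, ∑ x ∈ q.1 ∪ q.2.1 ∪ q.2.2.1 ∪ q.2.2.2, bad ((deg H M x : ℝ) / D) with hG
  have hGle : G ≤ 36 * (9 * D ^ 3 * ((4 * C₁ + 2) * (2 * (EE H M N D u / u ^ 3)))) := by
    refine h4.trans ?_
    have a1 : 9 * D ^ 3 * B ≤ 9 * D ^ 3 * ((4 * C₁ + 2) * (2 * (EE H M N D u / u ^ 3))) :=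
      mul_le_mul_of_nonneg_left h6 (by positivity)
    linarith
  have hDQ := g.DQ_hi
  have hDQlo := g.DQ_lo
  have hDQ' : D ≤ Q * (3 / m * (501 / 500)) := by
    have a1 : 3 / m * (1 + 2 / u) ≤ 3 / m * (501 / 500) := by
      refine mul_le_mul_of_nonneg_left ?_ (by positivity)
      have : 2 / u ≤ 1 / 500 := by
        rw [div_le_div_iff₀ hu0 (by norm_num)]
        linarith
      linarith
    have a2 := hDQ.trans a1
    rw [div_le_iff₀ hQ0] at a2
    linarith
  have hDQ'' : Q * (3 / m * (499 / 500)) ≤ D := by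
    have a1 : 3 / m * (499 / 500) ≤ 3 / m * (1 - 2 / u) := by
      refine mul_le_mul_of_nonneg_left ?_ (by positivity)
      have : 2 / u ≤ 1 / 500 := by
        rw [div_le_div_iff₀ hu0 (by norm_num)]
        linarith
      linarith
    have a2 := a1.trans hDQlo
    rw [le_div_iff₀ hQ0] at a2
    linarith
  -- error term
  have herr : D * G ≤ Q * (3 / m * (1000 * (4 * C₁ + 2) * (u ^ 9 * EE H M N D u))) := by
    have hD3 : D ^ 3 ≤ u ^ 12 := by
      have := pow_le_pow_left₀ hD0.le hDhi 3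
      calc D ^ 3 ≤ (u ^ 4) ^ 3 := this
        _ = u ^ 12 := by ring
    have hE3 : 0 ≤ (4 * C₁ + 2) * (2 * (EE H M N D u / u ^ 3)) := by positivity
    have a1 : G ≤ 36 * (9 * u ^ 12 * ((4 * C₁ + 2) * (2 * (EE H M N D u / u ^ 3)))) := by
      have : 9 * D ^ 3 * ((4 * C₁ + 2) * (2 * (EE H M N D u / u ^ 3))) ≤
          9 * u ^ 12 * ((4 * C₁ + 2) * (2 * (EE H M N D u / u ^ 3))) :=
        mul_le_mul_of_nonneg_right (by linarith) hE3
      linarith
    have e1 : 36 * (9 * u ^ 12 * ((4 * C₁ + 2) * (2 * (EE H M N D u / u ^ 3)))) =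
        648 * (4 * C₁ + 2) * (u ^ 9 * EE H M N D u) := by
      field_simp
      ring
    rw [e1] at a1
    have a2 : D * G ≤ D * (648 * (4 * C₁ + 2) * (u ^ 9 * EE H M N D u)) :=
      mul_le_mul_of_nonneg_left a1 hD0.le
    have a3 : D * (648 * (4 * C₁ + 2) * (u ^ 9 * EE H M N D u)) ≤
        Q * (3 / m * (501 / 500)) * (648 * (4 * C₁ + 2) * (u ^ 9 * EE H M N D u)) :=
      mul_le_mul_of_nonneg_right hDQ' (by positivity)
    have a4 : 0 ≤ Q * (3 / m) * ((4 * C₁ + 2) * (u ^ 9 * EE H M N D u)) := by positivity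
    nlinarith
  -- main term
  have hmain : Th H M * (Q + 28 - 63 / 8 * D) ≤ Q * (Th H M * (1 - 117 / (5 * m))) := by
    have a1 : Q + 28 - 63 / 8 * D ≤ Q * (1 - 117 / (5 * m)) := by
      have b1 : 28 ≤ Q * (3 / m * (1 / 100)) := by
        have c1 : 3 / 10 * D ≤ Q / m := by
          rw [le_div_iff₀ hm0]
          linarith
        have c2 : Q * (3 / m * (1 / 100)) = 3 / 100 * (Q / m) := by ring
        rw [c2]
        have c3 : (9 : ℝ) / 10 * 1000 ^ 4 ≤ D := by linarith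
        norm_num at c3
        linarith
      have b2 : 63 / 8 * (Q * (3 / m * (499 / 500))) ≤ 63 / 8 * D := by linarith
      have b3 : Q * (1 - 117 / (5 * m)) = Q - Q * (3 / m * (39 / 5)) := by
        field_simp
        ring
      rw [b3]
      have b4 : 0 ≤ Q * (3 / m) := by positivity
      nlinarith
    have a2 := mul_le_mul_of_nonneg_left a1 hTh0
    linarith
  have hTheq : ((C4 H M).card : ℝ) = Th H M := rfl
  rw [hTheq] at h3
  have e2 : (Q + 28) * Th H M - (Th H M * (63 / 8 * D) - D * G) =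
      Th H M * (Q + 28 - 63 / 8 * D) + D * G := by ring
  have e3 : Q * (Th H M * (1 - 117 / (5 * m)) + 3 / m *
      (1000 * (4 * C₁ + 2) * (u ^ 9 * EE H M N D u))) = Q * (Th H M * (1 - 117 / (5 * m))) +
      Q * (3 / m * (1000 * (4 * C₁ + 2) * (u ^ 9 * EE H M N D u))) := by ring
  rw [e3]
  linarith

end Vale.Agent.P046LF
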