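import Vale.Agent.P046LF.Basic

/-!
P046 log-free, module S4: the step for the heavy tail `TT`.
-/

namespace Vale.Agent.P046LF

open Finset Vale.Agent.P046

/-- pointwise inequality behind `step_T` -/
theorem S4_point {m r θ ν u : ℝ} (hm : 10 ^ 18 ≤ m) (hr1 : 1 ≤ r) (hr : r - 1 ≤ 8 / m)
    (hu : 2 / u ≤ 2 / 1000) (hθ : 0 ≤ θ) (hν : |ν| ≤ 1 / 4) :
    tt (r * θ) ≤ tt θ + 3 / m * ((1 - 2 / u) * (θ * tt θ)) -
      3 / m * (1 / 4 * ((1 + θ) * tt θ)) + 3 / m * (10 ^ 15 * ff (θ - ν)) := by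
  have hm0 : 0 < m := by linarith
  have htt := tt_nonneg θ
  have hff := ff_nonneg (θ - ν)
  have h3 : 0 < 3 / m := by positivity
  have hdil := tt_dilate hθ hr1
  by_cases h : 7 / 4 ≤ r * θ
  · rw [if_pos h] at hdil
    have hm8 : 8 / m ≤ 1 / 1000 := by
      rw [div_le_div_iff₀ hm0 (by norm_num)]
      linarith
    have hr2 : r ≤ 1 + 8 / m := by linarith
    have hr3 : r ≤ 1001 / 1000 := by linarith
    have hθ1 : 17 / 10 ≤ θ := by
      by_contra hc
      push Not at hc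
      have : r * θ ≤ 1001 / 1000 * (17 / 10) := by
        apply mul_le_mul hr3 hc.le hθ (by norm_num)
      linarith
    -- r ^ 8 - 1 ≤ 65 / m
    have hr8 : r ^ 8 - 1 ≤ 65 / m := by
      have e : r ^ 8 - 1 = (r - 1) * (r ^ 7 + r ^ 6 + r ^ 5 + r ^ 4 + r ^ 3 + r ^ 2 + r + 1) := by
        ring
      have hp : ∀ j : ℕ, j ≤ 7 → r ^ j ≤ 101 / 100 := by
        intro j hj
        calc r ^ j ≤ (1001 / 1000 : ℝ) ^ j := pow_le_pow_left₀ (by linarith) hr3 j
          _ ≤ (1001 / 1000 : ℝ) ^ 7 := pow_le_pow_right₀ (by norm_num) hj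
          _ ≤ 101 / 100 := by norm_num
      have h7 := hp 7 (by norm_num)
      have h6 := hp 6 (by norm_num)
      have h5 := hp 5 (by norm_num)
      have h4 := hp 4 (by norm_num)
      have h3' := hp 3 (by norm_num)
      have h2 := hp 2 (by norm_num)
      have hs : r ^ 7 + r ^ 6 + r ^ 5 + r ^ 4 + r ^ 3 + r ^ 2 + r + 1 ≤ 65 / 8 := by linarith
      rw [e]
      calc (r - 1) * (r ^ 7 + r ^ 6 + r ^ 5 + r ^ 4 + r ^ 3 + r ^ 2 + r + 1)
          ≤ 8 / m * (65 / 8) := by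
            apply mul_le_mul hr hs (by positivity) (by positivity)
        _ = 65 / m := by ring
    have hθ8 : 0 ≤ θ ^ 8 := by positivity
    have h1 : (r ^ 8 - 1) * θ ^ 8 ≤ 3 / m * (22 * θ ^ 8) := by
      calc (r ^ 8 - 1) * θ ^ 8 ≤ 65 / m * θ ^ 8 := mul_le_mul_of_nonneg_right hr8 hθ8
        _ = 3 / m * (65 / 3 * θ ^ 8) := by ring
        _ ≤ 3 / m * (22 * θ ^ 8) := by
          apply mul_le_mul_of_nonneg_left _ h3.le
          linarith
    have h2 : 22 * θ ^ 8 ≤ (1 - 2 / u) * (θ * tt θ) - 1 / 4 * ((1 + θ) * tt θ) +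
        10 ^ 15 * ff (θ - ν) := by
      have hkey : (748 / 1000 * θ - 1 / 4) * tt θ ≤
          (1 - 2 / u) * (θ * tt θ) - 1 / 4 * ((1 + θ) * tt θ) := by
        have h5 : 0 ≤ (2 / 1000 - 2 / u) * (θ * tt θ) :=
          mul_nonneg (by linarith) (mul_nonneg hθ htt)
        linarith
      by_cases h40 : 40 ≤ θ
      · have h6 : θ ^ 8 - (7 / 4) ^ 8 ≤ tt θ := le_max_left _ _
        have h7 : (40 : ℝ) ^ 8 ≤ θ ^ 8 := pow_le_pow_left₀ (by norm_num) h40 8
        have h8 : (29 : ℝ) * tt θ ≤ (748 / 1000 * θ - 1 / 4) * tt θ :=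
          mul_le_mul_of_nonneg_right (by linarith) htt
        norm_num at h6 h7
        linarith
      · push Not at h40
        have h6 : (0 : ℝ) ≤ (748 / 1000 * θ - 1 / 4) * tt θ :=
          mul_nonneg (by linarith) htt
        have hν2 := (abs_le.1 hν).2
        have h7 := sq_le_ff' (show 0 ≤ θ - ν by linarith)
        have h8 : (2 / 10 : ℝ) ≤ (θ - ν - 1) ^ 2 := by nlinarith
        have h9 : θ ^ 8 ≤ (40 : ℝ) ^ 8 := pow_le_pow_left₀ hθ h40.le 8
        norm_num at h9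
        linarith
    have h4 := mul_le_mul_of_nonneg_left h2 h3.le
    linarith
  · rw [if_neg h, add_zero] at hdil
    have hrθ : θ ≤ r * θ := by nlinarith
    have hθ2 : θ ≤ 7 / 4 := by linarith
    have ht0 : tt θ = 0 := by
      unfold tt
      apply max_eq_right
      have := pow_le_pow_left₀ hθ hθ2 8
      linarith
    rw [ht0] at hdil ⊢
    have h4 : 0 ≤ 3 / m * (10 ^ 15 * ff (θ - ν)) := by positivity
    simp only [mul_zero, add_zero, sub_zero, zero_add]
    linarith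

theorem step_T : ∃ C : ℝ, 1 ≤ C ∧ ∀ (V : Type) [DecidableEq V] (H : Finset (Finset V))
    (M : Finset V) (N : V → ℝ) (κ S S' m Q u D D' K : ℝ), GS H M N κ S S' m Q u D D' K →
    ∑ T ∈ sub H M, TT H (M \ T) D' ≤
      Q * (TT H M D -
        3 / m * (1 / 4 * ∑ x ∈ M, (1 + (deg H M x : ℝ) / D) * tt ((deg H M x : ℝ) / D)) +
        3 / m * (C * WW H M N D)) := by
  refine ⟨10 ^ 15, by norm_num, ?_⟩
  intro V _ H M N κ S S' m Q u D D' K g
  have hD := g.D_pos
  have hD' := g.D'_pos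
  have hQ := g.Q_pos
  have hm := g.m_pos
  have hr1 : 1 ≤ D / D' := by
    rw [le_div_iff₀ hD', one_mul]
    exact g.D'_hi
  -- step 1: compare with the old degrees
  have h1 : ∀ T ∈ sub H M, TT H (M \ T) D' ≤
      ∑ x ∈ M \ T, tt (D / D' * ((deg H M x : ℝ) / D)) := by
    intro T _
    unfold TT
    refine Finset.sum_le_sum fun x _ => ?_
    apply tt_mono (div_nonneg (Nat.cast_nonneg _) hD'.le)
    have e : D / D' * ((deg H M x : ℝ) / D) = (deg H M x : ℝ) / D' := by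
      field_simp
    rw [e]
    apply div_le_div_of_nonneg_right _ hD'.le
    rw [g.deg_next T x]
    have : (0 : ℝ) ≤ dl H M T x := Nat.cast_nonneg _
    linarith
  refine (Finset.sum_le_sum h1).trans ?_
  rw [sum_sdiff_eq, g.hQ]
  -- step 2: pointwise
  have h2 : ∀ x ∈ M, (Q - (deg H M x : ℝ)) * tt (D / D' * ((deg H M x : ℝ) / D)) ≤
      Q * (tt ((deg H M x : ℝ) / D) -
        3 / m * (1 / 4 * ((1 + (deg H M x : ℝ) / D) * tt ((deg H M x : ℝ) / D))) +
        3 / m * (10 ^ 15 * ff ((deg H M x : ℝ) / D - N x))) := by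
    intro x hx
    have hθ := g.theta_nonneg x
    have hp := S4_point (ν := N x) g.m_big hr1 g.r_hi g.two_div_u hθ (g.hN x hx)
    have hmono : tt ((deg H M x : ℝ) / D) ≤ tt (D / D' * ((deg H M x : ℝ) / D)) := by
      apply tt_mono hθ
      nlinarith
    have hdq : Q * (3 / m * ((1 - 2 / u) * ((deg H M x : ℝ) / D * tt ((deg H M x : ℝ) / D)))) ≤
        (deg H M x : ℝ) * tt (D / D' * ((deg H M x : ℝ) / D)) := by
      have a1 : 3 / m * (1 - 2 / u) ≤ D / Q := g.DQ_lo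
      have a2 : 0 ≤ (deg H M x : ℝ) / D * tt ((deg H M x : ℝ) / D) :=
        mul_nonneg hθ (tt_nonneg _)
      calc Q * (3 / m * ((1 - 2 / u) * ((deg H M x : ℝ) / D * tt ((deg H M x : ℝ) / D))))
          = Q * ((3 / m * (1 - 2 / u)) * ((deg H M x : ℝ) / D * tt ((deg H M x : ℝ) / D))) := by
            ring
        _ ≤ Q * ((D / Q) * ((deg H M x : ℝ) / D * tt ((deg H M x : ℝ) / D))) :=
            mul_le_mul_of_nonneg_left (mul_le_mul_of_nonneg_right a1 a2) hQ.le
        _ = (deg H M x : ℝ) * tt ((deg H M x : ℝ) / D) := by field_simp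
        _ ≤ _ := mul_le_mul_of_nonneg_left hmono (Nat.cast_nonneg _)
    have h5 := mul_le_mul_of_nonneg_left hp hQ.le
    linarith
  refine (Finset.sum_le_sum h2).trans (le_of_eq ?_)
  unfold TT WW
  rw [← Finset.mul_sum, Finset.sum_add_distrib, Finset.sum_sub_distrib]
  simp only [← Finset.mul_sum]

end Vale.Agent.P046LF
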