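import Vale.Agent.P046LF.Basic

/-!
P046 log-free, module S5: the step for the eighth moment of `N`.
-/

namespace Vale.Agent.P046LF

open Finset Vale.Agent.P046

theorem s5_mix {a b : ℝ} (ha : 0 ≤ a) (hb : 0 ≤ b) (j : ℕ) (hj : j ≤ 6) :
    a ^ j * b ^ (6 - j) ≤ a ^ 6 + b ^ 6 := by
  have ha6 : 0 ≤ a ^ 6 := by positivity
  have hb6 : 0 ≤ b ^ 6 := by positivity
  rcases le_total a b with h | h
  · have h1 : a ^ j * b ^ (6 - j) ≤ b ^ j * b ^ (6 - j) :=
      mul_le_mul_of_nonneg_right (pow_le_pow_left₀ ha h j) (by positivity)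
    rw [← pow_add, Nat.add_sub_cancel' hj] at h1
    linarith
  · have h1 : a ^ j * b ^ (6 - j) ≤ a ^ j * a ^ (6 - j) :=
      mul_le_mul_of_nonneg_left (pow_le_pow_left₀ hb h _) (by positivity)
    rw [← pow_add, Nat.add_sub_cancel' hj] at h1
    linarith

theorem s5_pow8 (x δ : ℝ) :
    (x + δ) ^ 8 ≤ x ^ 8 + 8 * x ^ 7 * δ + 247 * ((x ^ 6 + δ ^ 6) * δ ^ 2) := by
  have hx6 : |x| ^ 6 = x ^ 6 := by
    rw [← abs_pow]; exact abs_of_nonneg (by positivity)
  have hd6 : |δ| ^ 6 = δ ^ 6 := by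
    rw [← abs_pow]; exact abs_of_nonneg (by positivity)
  have key : ∀ j : ℕ, j ≤ 6 → x ^ j * δ ^ (6 - j) * δ ^ 2 ≤ (x ^ 6 + δ ^ 6) * δ ^ 2 := by
    intro j hj
    have h := s5_mix (abs_nonneg x) (abs_nonneg δ) j hj
    rw [hx6, hd6] at h
    have h2 : x ^ j * δ ^ (6 - j) ≤ |x| ^ j * |δ| ^ (6 - j) := by
      rw [← abs_pow, ← abs_pow, ← abs_mul]; exact le_abs_self _
    exact mul_le_mul_of_nonneg_right (h2.trans h) (by positivity)
  have k6 := key 6 (by norm_num)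
  have k5 := key 5 (by norm_num)
  have k4 := key 4 (by norm_num)
  have k3 := key 3 (by norm_num)
  have k2 := key 2 (by norm_num)
  have k1 := key 1 (by norm_num)
  have k0 := key 0 (by norm_num)
  norm_num at k6 k5 k4 k3 k2 k1 k0
  have e : (x + δ) ^ 8 = x ^ 8 + 8 * x ^ 7 * δ + 28 * (x ^ 6 * δ ^ 2) + 56 * (x ^ 5 * δ * δ ^ 2) +
      70 * (x ^ 4 * δ ^ 2 * δ ^ 2) + 56 * (x ^ 3 * δ ^ 3 * δ ^ 2) + 28 * (x ^ 2 * δ ^ 4 * δ ^ 2) +
      8 * (x * δ ^ 5 * δ ^ 2) + δ ^ 6 * δ ^ 2 := by ring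
  rw [e]
  linarith

variable {V : Type} [DecidableEq V] {H : Finset (Finset V)} {M : Finset V} {N : V → ℝ}
  {κ S S' m Q u D D' K : ℝ}

theorem s5_card (hQ : ((sub H M).card : ℝ) = Q) (y : V) :
    (((sub H M).filter fun T => y ∉ T).card : ℝ) = Q - deg H M y := by
  have h := card_filter_add_card_filter_not (s := sub H M) (fun T => y ∈ T)
  have h2 : ((((sub H M).filter fun T => y ∈ T).card + ((sub H M).filter fun T => ¬ y ∈ T).card :
      ℕ) : ℝ) = ((sub H M).card : ℝ) := by exact_mod_cast h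
  push_cast at h2
  rw [hQ] at h2
  unfold deg
  linarith

/-- one vertex -/
theorem s5_vertex (g : GS H M N κ S S' m Q u D D' K) {y : V} (hy : y ∈ M) (hD' : 0 < D')
    (hQ0 : 0 < Q) :
    ∑ T ∈ sub H M with y ∉ T, Nup H M N D' T y ^ 8 ≤
      (Q - deg H M y) * N y ^ 8 + 8 * (|N y| ^ 7 * (deg H M y * cd H M y)) / D' +
      1482 * ((N y ^ 6 + (3 / D') ^ 6) * bb H M y) / D' ^ 2 := by
  have hc0 := cd_nonneg (M := M) g.lin hy
  have hc3 := cd_le_three (M := M) g.lin hy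
  have hb0 := bb_nonneg (H := H) (M := M) y
  have hcard := s5_card g.hQ y
  have hA0 : 0 ≤ 8 * (|N y| ^ 7 * (deg H M y * cd H M y)) / D' := by positivity
  have hN6 : 0 ≤ N y ^ 6 := by positivity
  have hB0 : 0 ≤ 1482 * ((N y ^ 6 + (3 / D') ^ 6) * bb H M y) / D' ^ 2 := by positivity
  by_cases hfr : |N y| < 1 / 8
  · -- active
    have hnup : ∀ T ∈ (sub H M).filter (fun T => y ∉ T),
        Nup H M N D' T y ^ 8 ≤ N y ^ 8 + 8 * N y ^ 7 * (-((dl H M T y : ℝ) - cd H M y) / D') +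
          247 * ((N y ^ 6 + (3 / D') ^ 6) *
            ((3 * (dl H M T y : ℝ) + 3 * cd H M y) / D' ^ 2)) := by
      intro T hT
      obtain ⟨hT1, hT2⟩ := mem_filter.1 hT
      have hd3 : (dl H M T y : ℝ) ≤ 3 := by exact_mod_cast dl_le g.lin hT1 hT2
      have hd0 : (0 : ℝ) ≤ dl H M T y := by positivity
      have e1 : Nup H M N D' T y = N y + (-((dl H M T y : ℝ) - cd H M y) / D') := by
        unfold Nup; rw [if_pos hfr]; ring
      rw [e1]
      set δ : ℝ := -((dl H M T y : ℝ) - cd H M y) / D' with hδ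
      have h1 := s5_pow8 (N y) δ
      have hδ2 : δ ^ 2 ≤ (3 * (dl H M T y : ℝ) + 3 * cd H M y) / D' ^ 2 := by
        rw [hδ, div_pow]
        apply div_le_div_of_nonneg_right _ (by positivity)
        nlinarith [mul_nonneg hd0 hc0, mul_nonneg hd0 (sub_nonneg.2 hd3),
          mul_nonneg hc0 (sub_nonneg.2 hc3)]
      have hδa : |δ| ≤ 3 / D' := by
        rw [hδ, abs_div, abs_of_pos hD', abs_neg]
        apply div_le_div_of_nonneg_right _ hD'.le
        rw [abs_le]; constructor <;> linarith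
      have hδ6 : δ ^ 6 ≤ (3 / D') ^ 6 := by
        have : |δ| ^ 6 = δ ^ 6 := by
          rw [← abs_pow]; exact abs_of_nonneg (by positivity)
        rw [← this]
        exact pow_le_pow_left₀ (abs_nonneg _) hδa 6
      have h2 : (N y ^ 6 + δ ^ 6) * δ ^ 2 ≤ (N y ^ 6 + (3 / D') ^ 6) *
          ((3 * (dl H M T y : ℝ) + 3 * cd H M y) / D' ^ 2) := by
        apply mul_le_mul (by linarith) hδ2 (by positivity) (by positivity)
      linarith
    refine (sum_le_sum hnup).trans ?_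
    have hdl := sum_dl_eq g.lin hy
    have hcdQ : Q * cd H M y = bb H M y - 2 * deg H M y := by
      unfold cd; rw [g.hQ]; field_simp
    have e2 : ∑ T ∈ sub H M with y ∉ T,
        (N y ^ 8 + 8 * N y ^ 7 * (-((dl H M T y : ℝ) - cd H M y) / D') +
          247 * ((N y ^ 6 + (3 / D') ^ 6) *
            ((3 * (dl H M T y : ℝ) + 3 * cd H M y) / D' ^ 2))) =
        (Q - deg H M y) * N y ^ 8 + 8 * N y ^ 7 * (-(deg H M y * cd H M y) / D') +
          247 * ((N y ^ 6 + (3 / D') ^ 6) *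
            ((3 * (bb H M y - 2 * deg H M y) + 3 * ((Q - deg H M y) * cd H M y)) / D' ^ 2)) := by
      have e3 : ∀ T ∈ (sub H M).filter (fun T => y ∉ T),
        (N y ^ 8 + 8 * N y ^ 7 * (-((dl H M T y : ℝ) - cd H M y) / D') +
          247 * ((N y ^ 6 + (3 / D') ^ 6) *
            ((3 * (dl H M T y : ℝ) + 3 * cd H M y) / D' ^ 2))) =
          (N y ^ 8 + 8 * N y ^ 7 * (cd H M y / D') + 247 * ((N y ^ 6 + (3 / D') ^ 6) *
            (3 * cd H M y / D' ^ 2))) + (247 * ((N y ^ 6 + (3 / D') ^ 6) * (3 / D' ^ 2)) -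
            8 * N y ^ 7 * (1 / D')) * (dl H M T y : ℝ) := by
        intro T _; ring
      rw [sum_congr rfl e3, sum_add_distrib, sum_const, nsmul_eq_mul, hcard, ← mul_sum, hdl]
      have : bb H M y = Q * cd H M y + 2 * deg H M y := by linarith
      rw [this]; ring
    rw [e2]
    have h7 : N y ^ 7 * (-(deg H M y * cd H M y) / D') ≤
        |N y| ^ 7 * (deg H M y * cd H M y) / D' := by
      have : -(|N y| ^ 7) ≤ N y ^ 7 := by
        rw [← abs_pow]; exact neg_abs_le _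
      have h8 : 0 ≤ deg H M y * cd H M y / D' := by positivity
      have := mul_le_mul_of_nonneg_right this h8
      calc N y ^ 7 * (-(deg H M y * cd H M y) / D') = -(N y ^ 7 * (deg H M y * cd H M y / D')) := by
            ring
        _ ≤ |N y| ^ 7 * (deg H M y * cd H M y / D') := by linarith
        _ = _ := by ring
    have h9 : (3 * (bb H M y - 2 * deg H M y) + 3 * ((Q - deg H M y) * cd H M y)) / D' ^ 2 ≤
        6 * bb H M y / D' ^ 2 := by
      apply div_le_div_of_nonneg_right _ (by positivity)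
      have hdg : (0 : ℝ) ≤ deg H M y := by positivity
      nlinarith [mul_nonneg hdg hc0]
    have h10 : (N y ^ 6 + (3 / D') ^ 6) *
            ((3 * (bb H M y - 2 * deg H M y) + 3 * ((Q - deg H M y) * cd H M y)) / D' ^ 2) ≤
        (N y ^ 6 + (3 / D') ^ 6) * (6 * bb H M y / D' ^ 2) :=
      mul_le_mul_of_nonneg_left h9 (by positivity)
    have e11 : 1482 * ((N y ^ 6 + (3 / D') ^ 6) * bb H M y) / D' ^ 2 =
        247 * ((N y ^ 6 + (3 / D') ^ 6) * (6 * bb H M y / D' ^ 2)) := by ring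
    have e12 : 8 * (|N y| ^ 7 * (deg H M y * cd H M y)) / D' =
        8 * (|N y| ^ 7 * (deg H M y * cd H M y) / D') := by ring
    rw [e11, e12]
    have e13 : 8 * N y ^ 7 * (-(deg H M y * cd H M y) / D') =
        8 * (N y ^ 7 * (-(deg H M y * cd H M y) / D')) := by ring
    rw [e13]
    linarith
  · -- frozen
    have e1 : ∀ T ∈ (sub H M).filter (fun T => y ∉ T), Nup H M N D' T y ^ 8 = N y ^ 8 := by
      intro T _
      unfold Nup; rw [if_neg hfr]
    rw [sum_congr rfl e1, sum_const, nsmul_eq_mul, hcard]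
    linarith

/-- `|N|^7 ≤ λ N^8 + λ^{-7}` -/
theorem s5_seven {x l : ℝ} (hl : 0 < l) : |x| ^ 7 ≤ l * x ^ 8 + 1 / l ^ 7 := by
  have h8 : |x| ^ 8 = x ^ 8 := by
    rw [← abs_pow]; exact abs_of_nonneg (by positivity)
  rw [← h8]
  have hx := abs_nonneg x
  generalize |x| = a at hx
  rcases le_total (1 / l) a with h | h
  · have h1 : 1 ≤ l * a := by
      rw [div_le_iff₀ hl] at h; linarith
    have h2 : a ^ 7 * 1 ≤ a ^ 7 * (l * a) := mul_le_mul_of_nonneg_left h1 (by positivity)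
    have h3 : 0 ≤ 1 / l ^ 7 := by positivity
    nlinarith
  · have h1 : a ^ 7 ≤ (1 / l) ^ 7 := pow_le_pow_left₀ hx h 7
    rw [div_pow, one_pow] at h1
    have h2 : 0 ≤ l * a ^ 8 := by positivity
    linarith

/-- `N^6 θ ≤ λ N^8 + λ^{-3} θ^4` -/
theorem s5_six {x t l : ℝ} (hl : 0 < l) (ht : 0 ≤ t) :
    x ^ 6 * t ≤ l * x ^ 8 + t ^ 4 / l ^ 3 := by
  rcases le_total t (l * x ^ 2) with h | h
  · have h1 : x ^ 6 * t ≤ x ^ 6 * (l * x ^ 2) := mul_le_mul_of_nonneg_left h (by positivity)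
    have h2 : 0 ≤ t ^ 4 / l ^ 3 := by positivity
    nlinarith
  · have h1 : x ^ 2 ≤ t / l := by rw [le_div_iff₀ hl]; linarith
    have h2 : (x ^ 2) ^ 3 ≤ (t / l) ^ 3 := pow_le_pow_left₀ (by positivity) h1 3
    have h3 : x ^ 6 * t ≤ (t / l) ^ 3 * t := by
      have : x ^ 6 = (x ^ 2) ^ 3 := by ring
      rw [this]
      exact mul_le_mul_of_nonneg_right h2 ht
    have h4 : (t / l) ^ 3 * t = t ^ 4 / l ^ 3 := by
      field_simp
    have h5 : 0 ≤ l * x ^ 8 := by positivity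
    linarith

/-- final arithmetic -/
theorem s5_arith {P D u X s : ℝ} (hu : 1000 ≤ u) (hD : 9 / 10 * u ^ 4 ≤ D) (hP1 : 9 / 10 * D ≤ P)
    (hP2 : 998 / 1000 * P ≤ D) (hX : 0 ≤ X) (hs : 0 ≤ s) :
    -(D * s) + 24 * (100 / 99) * (D / 200 * s + (200 / D) ^ 7 * (89 * X)) +
      1482 * (100 / 99) ^ 2 * (3 * (D / 50000 * s + (50000 / D) ^ 3 * (89 * X))) +
      1482 * (100 / 99) ^ 8 * (729 / D ^ 8 * (3 * (D ^ 2 * (89 * X)))) ≤
      -(P * (1 / 4 * s)) + P * (10 ^ 21 * (X / u ^ 16)) := by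
  have hu0 : 0 < u := by linarith
  have hu4 : (1000 : ℝ) ^ 4 ≤ u ^ 4 := pow_le_pow_left₀ (by norm_num) hu 4
  have hD0 : 0 < D := by nlinarith
  have hD1 : 1 ≤ D := by nlinarith
  have hD4 : (9 / 10 : ℝ) ^ 4 * u ^ 16 ≤ D ^ 4 := by
    have := pow_le_pow_left₀ (by positivity) hD 4
    calc (9 / 10 : ℝ) ^ 4 * u ^ 16 = (9 / 10 * u ^ 4) ^ 4 := by ring
      _ ≤ D ^ 4 := this
  have hi4 : 1 / D ^ 4 ≤ 1.53 * (1 / u ^ 16) := by
    rw [div_le_iff₀ (by positivity)]
    have : 1 ≤ (1.53 * (9 / 10 : ℝ) ^ 4) * 1 := by norm_num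
    calc (1 : ℝ) ≤ 1.53 * (9 / 10 : ℝ) ^ 4 := by linarith
      _ = 1.53 * (1 / u ^ 16) * ((9 / 10 : ℝ) ^ 4 * u ^ 16) := by field_simp
      _ ≤ 1.53 * (1 / u ^ 16) * D ^ 4 := mul_le_mul_of_nonneg_left hD4 (by positivity)
  have hXu : 0 ≤ X / u ^ 16 := by positivity
  -- D^{-7} ≤ D * D^{-4}
  have hi7 : 1 / D ^ 7 ≤ D * (1 / D ^ 4) := by
    rw [mul_one_div, div_le_div_iff₀ (by positivity) (by positivity)]
    have : D ^ 4 ≤ D ^ 8 := pow_le_pow_right₀ hD1 (by norm_num)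
    nlinarith
  have hi3 : 1 / D ^ 3 = D * (1 / D ^ 4) := by field_simp
  have hi6 : D ^ 2 / D ^ 8 ≤ D * (1 / D ^ 4) := by
    rw [mul_one_div, div_le_div_iff₀ (by positivity) (by positivity)]
    have : D ^ 6 ≤ D ^ 9 := pow_le_pow_right₀ hD1 (by norm_num)
    nlinarith
  have hDX : D * (1 / D ^ 4) * X ≤ 1.53 * (D * (X / u ^ 16)) := by
    have := mul_le_mul_of_nonneg_left hi4 (by positivity : 0 ≤ D * X)
    calc D * (1 / D ^ 4) * X = D * X * (1 / D ^ 4) := by ring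
      _ ≤ D * X * (1.53 * (1 / u ^ 16)) := this
      _ = 1.53 * (D * (X / u ^ 16)) := by ring
  have t1 : (200 / D) ^ 7 * (89 * X) ≤ 200 ^ 7 * 89 * (1.53 * (D * (X / u ^ 16))) := by
    calc (200 / D) ^ 7 * (89 * X) = 200 ^ 7 * 89 * (1 / D ^ 7 * X) := by rw [div_pow]; ring
      _ ≤ 200 ^ 7 * 89 * (D * (1 / D ^ 4) * X) := by
        apply mul_le_mul_of_nonneg_left _ (by norm_num)
        exact mul_le_mul_of_nonneg_right hi7 hX
      _ ≤ _ := mul_le_mul_of_nonneg_left hDX (by norm_num)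
  have t2 : (50000 / D) ^ 3 * (89 * X) ≤ 50000 ^ 3 * 89 * (1.53 * (D * (X / u ^ 16))) := by
    calc (50000 / D) ^ 3 * (89 * X) = 50000 ^ 3 * 89 * (1 / D ^ 3 * X) := by rw [div_pow]; ring
      _ = 50000 ^ 3 * 89 * (D * (1 / D ^ 4) * X) := by rw [hi3]
      _ ≤ _ := mul_le_mul_of_nonneg_left hDX (by norm_num)
  have t3 : 729 / D ^ 8 * (3 * (D ^ 2 * (89 * X))) ≤ 729 * 3 * 89 * (1.53 * (D * (X / u ^ 16))) := by
    calc 729 / D ^ 8 * (3 * (D ^ 2 * (89 * X))) = 729 * 3 * 89 * (D ^ 2 / D ^ 8 * X) := by ring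
      _ ≤ 729 * 3 * 89 * (D * (1 / D ^ 4) * X) := by
        apply mul_le_mul_of_nonneg_left _ (by norm_num)
        exact mul_le_mul_of_nonneg_right hi6 hX
      _ ≤ _ := mul_le_mul_of_nonneg_left hDX (by norm_num)
  have hYD : 0 ≤ D * (X / u ^ 16) := by positivity
  have hY : D * (X / u ^ 16) ≤ 10 / 9 * (P * (X / u ^ 16)) := by
    have := mul_le_mul_of_nonneg_right hP1 hXu
    linarith
  have hDs : 998 / 1000 * (P * s) ≤ D * s := by
    have := mul_le_mul_of_nonneg_right hP2 hs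
    linarith
  have hPs : 0 ≤ P * s := mul_nonneg (by nlinarith) hs
  generalize D * (X / u ^ 16) = Y at *
  have e1 : D / 200 * s = (D * s) / 200 := by ring
  have e2 : D / 50000 * s = (D * s) / 50000 := by ring
  have e3 : P * (10 ^ 21 * (X / u ^ 16)) = 10 ^ 21 * (P * (X / u ^ 16)) := by ring
  have e4 : P * (1 / 4 * s) = 1 / 4 * (P * s) := by ring
  rw [e1, e2, e3, e4]
  generalize D * s = A at *
  generalize P * s = B at *
  generalize P * (X / u ^ 16) = Z at *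
  generalize (200 / D) ^ 7 * (89 * X) = W1 at *
  generalize (50000 / D) ^ 3 * (89 * X) = W2 at *
  generalize 729 / D ^ 8 * (3 * (D ^ 2 * (89 * X))) = W3 at *
  norm_num at t1 t2 t3 ⊢
  linarith

theorem step_M8 : ∃ C : ℝ, 1 ≤ C ∧ ∀ (V : Type) [DecidableEq V] (H : Finset (Finset V))
    (M : Finset V) (N : V → ℝ) (κ S S' m Q u D D' K : ℝ), GS H M N κ S S' m Q u D D' K →
    ∑ T ∈ sub H M, M8 (M \ T) (Nup H M N D' T) ≤
      Q * (M8 M N - 3 / m * (1 / 4 * ∑ x ∈ M, (deg H M x : ℝ) / D * N x ^ 8) +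
        3 / m * (C * ((m + TT H M D) / u ^ 16))) := by
  refine ⟨10 ^ 21, by norm_num, ?_⟩
  intro V _ H M N κ S S' m Q u D D' K g
  have hu := g.hu
  have hu0 : 0 < u := by linarith
  have hu4 : (1000 : ℝ) ^ 4 ≤ u ^ 4 := pow_le_pow_left₀ (by norm_num) hu 4
  have hm := g.m_big
  have hm0 : 0 < m := lt_of_lt_of_le (by norm_num) hm
  have hDlo := g.D_lo
  have hD0 : 0 < D := by nlinarith
  have hD'lo := g.D'_lo
  have hD'0 : 0 < D' := by linarith
  have hQlo := g.Q_lo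
  have hQ0 : 0 < Q := lt_of_lt_of_le (by positivity) hQlo
  have hDQ := g.DQ_lo
  -- P
  set P : ℝ := Q * (3 / m) with hP
  have hP1 : 9 / 10 * D ≤ P := by
    rw [hP, mul_div_assoc', le_div_iff₀ hm0]; linarith
  have hP0 : 0 < P := by positivity
  have hP2 : 998 / 1000 * P ≤ D := by
    rw [le_div_iff₀ hQ0] at hDQ
    have h1 : 998 / 1000 ≤ 1 - 2 / u := by
      have : 2 / u ≤ 2 / 1000 := div_le_div_of_nonneg_left (by norm_num) (by norm_num) hu
      linarith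
    have h2 : 998 / 1000 * P ≤ (1 - 2 / u) * P := mul_le_mul_of_nonneg_right h1 hP0.le
    have h3 : (1 - 2 / u) * P = 3 / m * (1 - 2 / u) * Q := by rw [hP]; ring
    linarith
  -- θ
  set θ : V → ℝ := fun x => (deg H M x : ℝ) / D with hθ
  have hdeg : ∀ x, (deg H M x : ℝ) = D * θ x := by
    intro x; simp only [hθ]; field_simp
  have hθ0 : ∀ x, 0 ≤ θ x := fun x => g.theta_nonneg x
  -- power sums
  have hX0 : 0 ≤ m + TT H M D := by
    have : 0 ≤ TT H M D := sum_nonneg fun x _ => tt_nonneg _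
    linarith
  have hpow : ∀ j : ℕ, j ≤ 8 → ∑ x ∈ M, θ x ^ j ≤ 89 * (m + TT H M D) := by
    intro j hj
    calc ∑ x ∈ M, θ x ^ j ≤ ∑ x ∈ M, 89 * (1 + tt (θ x)) :=
          sum_le_sum fun x _ => pow_le_tt (hθ0 x) hj
      _ = 89 * (m + TT H M D) := by
          rw [← mul_sum, sum_add_distrib, sum_const, nsmul_eq_mul, mul_one, g.hm]; rfl
  -- exchange
  have h1 : ∑ T ∈ sub H M, M8 (M \ T) (Nup H M N D' T) =
      ∑ y ∈ M, ∑ T ∈ sub H M with y ∉ T, Nup H M N D' T y ^ 8 := by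
    unfold M8
    exact sum_sdiff_comm fun T y => Nup H M N D' T y ^ 8
  have h2 : ∑ T ∈ sub H M, M8 (M \ T) (Nup H M N D' T) ≤
      ∑ y ∈ M, ((Q - deg H M y) * N y ^ 8 + 8 * (|N y| ^ 7 * (deg H M y * cd H M y)) / D' +
      1482 * ((N y ^ 6 + (3 / D') ^ 6) * bb H M y) / D' ^ 2) := by
    rw [h1]
    exact sum_le_sum fun y hy => s5_vertex g hy hD'0 hQ0
  set s : ℝ := ∑ x ∈ M, θ x * N x ^ 8 with hs
  have hs0 : 0 ≤ s := sum_nonneg fun x _ => mul_nonneg (hθ0 x) (by positivity)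
  -- term A
  have hA : ∑ y ∈ M, (Q - deg H M y) * N y ^ 8 = Q * M8 M N - D * s := by
    unfold M8
    rw [hs, mul_sum, mul_sum, ← sum_sub_distrib]
    refine sum_congr rfl fun y _ => ?_
    rw [hdeg y]; ring
  -- term B
  have hDD' : D / D' ≤ 100 / 99 := by
    rw [div_le_iff₀ hD'0]; linarith
  have hB : ∑ y ∈ M, 8 * (|N y| ^ 7 * (deg H M y * cd H M y)) / D' ≤
      24 * (100 / 99) * (D / 200 * s + (200 / D) ^ 7 * (89 * (m + TT H M D))) := by
    have hb1 : ∀ y ∈ M, 8 * (|N y| ^ 7 * (deg H M y * cd H M y)) / D' ≤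
        24 * (100 / 99) * (θ y * (D / 200 * N y ^ 8 + (200 / D) ^ 7)) := by
      intro y hy
      have hc0 := cd_nonneg (M := M) g.lin hy
      have hc3 := cd_le_three (M := M) g.lin hy
      have h7 := s5_seven (x := N y) (l := D / 200) (by positivity)
      have e7 : 1 / (D / 200) ^ 7 = (200 / D) ^ 7 := by
        rw [div_pow, div_pow, one_div_div]
      rw [e7] at h7
      have h70 : 0 ≤ |N y| ^ 7 := by positivity
      calc 8 * (|N y| ^ 7 * (deg H M y * cd H M y)) / D'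
          = 8 * (|N y| ^ 7 * (θ y * cd H M y)) * (D / D') := by rw [hdeg y]; ring
        _ ≤ 8 * (|N y| ^ 7 * (θ y * 3)) * (100 / 99) := by
            have h71 : |N y| ^ 7 * (θ y * cd H M y) ≤ |N y| ^ 7 * (θ y * 3) :=
              mul_le_mul_of_nonneg_left (mul_le_mul_of_nonneg_left hc3 (hθ0 y)) h70
            have h72 : 0 ≤ |N y| ^ 7 * (θ y * 3) :=
              mul_nonneg h70 (mul_nonneg (hθ0 y) (by norm_num))
            apply mul_le_mul (by linarith) hDD' (by positivity) (by linarith)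
        _ = 24 * (100 / 99) * (θ y * |N y| ^ 7) := by ring
        _ ≤ _ := by
            apply mul_le_mul_of_nonneg_left _ (by norm_num)
            exact mul_le_mul_of_nonneg_left h7 (hθ0 y)
    refine (sum_le_sum hb1).trans ?_
    rw [← mul_sum]
    apply mul_le_mul_of_nonneg_left _ (by norm_num)
    have e1 : ∑ y ∈ M, θ y * (D / 200 * N y ^ 8 + (200 / D) ^ 7) =
        D / 200 * s + (200 / D) ^ 7 * ∑ y ∈ M, θ y := by
      rw [hs, mul_sum, mul_sum, ← sum_add_distrib]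
      exact sum_congr rfl fun y _ => by ring
    rw [e1]
    have h3 := hpow 1 (by norm_num)
    simp only [pow_one] at h3
    have := mul_le_mul_of_nonneg_left h3 (by positivity : 0 ≤ (200 / D) ^ 7)
    linarith
  -- term C1
  have hC1a : ∑ y ∈ M, N y ^ 6 * bb H M y ≤
      3 * (D ^ 2 * (D / 50000 * s + (50000 / D) ^ 3 * (89 * (m + TT H M D)))) := by
    have h3 := bb_mul_sum_le (H := H) (M := M) (φ := fun y => N y ^ 6)
      (fun x _ => by positivity)
    have h4 := pair_sum (H := H) (M := M) g.lin (F := fun y z => N y ^ 6 * (deg H M z : ℝ))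
      (Φ := fun y => D * (D / 50000 * N y ^ 8))
      (Ψ := fun z => D * ((50000 / D) ^ 3 * θ z ^ 4)) (by
        intro y _ z _
        have h6 := s5_six (x := N y) (t := θ z) (l := D / 50000) (by positivity) (hθ0 z)
        have e6 : θ z ^ 4 / (D / 50000) ^ 3 = (50000 / D) ^ 3 * θ z ^ 4 := by
          rw [div_pow, div_pow]; field_simp
        rw [e6] at h6
        have := mul_le_mul_of_nonneg_left h6 hD0.le
        rw [hdeg z]
        calc N y ^ 6 * (D * θ z) = D * (N y ^ 6 * θ z) := by ring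
          _ ≤ _ := this
          _ = _ := by ring)
    have h5 : ∑ x ∈ M, (deg H M x : ℝ) * (D * (D / 50000 * N x ^ 8) +
        D * ((50000 / D) ^ 3 * θ x ^ 4)) =
        D ^ 2 * (D / 50000 * s + (50000 / D) ^ 3 * ∑ x ∈ M, θ x ^ 5) := by
      rw [hs, mul_sum, mul_sum, ← sum_add_distrib, mul_sum]
      refine sum_congr rfl fun x _ => ?_
      rw [hdeg x]; ring
    have h6 := hpow 5 (by norm_num)
    have h7 := mul_le_mul_of_nonneg_left h6 (by positivity : 0 ≤ (50000 / D) ^ 3)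
    have h8 : D ^ 2 * (D / 50000 * s + (50000 / D) ^ 3 * ∑ x ∈ M, θ x ^ 5) ≤
        D ^ 2 * (D / 50000 * s + (50000 / D) ^ 3 * (89 * (m + TT H M D))) :=
      mul_le_mul_of_nonneg_left (by linarith) (by positivity)
    have h9 := h3.trans h4
    rw [h5] at h9
    linarith
  have hC2a : ∑ y ∈ M, bb H M y ≤ 3 * (D ^ 2 * (89 * (m + TT H M D))) := by
    have h3 := bb_sum (H := H) (M := M) g.lin
    have h4 : ∑ x ∈ M, (deg H M x : ℝ) ^ 2 = D ^ 2 * ∑ x ∈ M, θ x ^ 2 := by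
      rw [mul_sum]
      exact sum_congr rfl fun x _ => by rw [hdeg x]; ring
    have h5 := mul_le_mul_of_nonneg_left (hpow 2 (by norm_num)) (by positivity : 0 ≤ D ^ 2)
    linarith
  have hinv2 : 1 / D' ^ 2 ≤ (100 / 99) ^ 2 * (1 / D ^ 2) := by
    have : (D / D') ^ 2 ≤ (100 / 99) ^ 2 := pow_le_pow_left₀ (by positivity) hDD' 2
    calc 1 / D' ^ 2 = (D / D') ^ 2 * (1 / D ^ 2) := by field_simp
      _ ≤ _ := mul_le_mul_of_nonneg_right this (by positivity)
  have hinv8 : 1 / D' ^ 8 ≤ (100 / 99) ^ 8 * (1 / D ^ 8) := by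
    have : (D / D') ^ 8 ≤ (100 / 99) ^ 8 := pow_le_pow_left₀ (by positivity) hDD' 8
    calc 1 / D' ^ 8 = (D / D') ^ 8 * (1 / D ^ 8) := by field_simp
      _ ≤ _ := mul_le_mul_of_nonneg_right this (by positivity)
  have hY0 : 0 ≤ D / 50000 * s + (50000 / D) ^ 3 * (89 * (m + TT H M D)) := by positivity
  have hC : ∑ y ∈ M, 1482 * ((N y ^ 6 + (3 / D') ^ 6) * bb H M y) / D' ^ 2 ≤
      1482 * (100 / 99) ^ 2 * (3 * (D / 50000 * s + (50000 / D) ^ 3 * (89 * (m + TT H M D)))) +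
      1482 * (100 / 99) ^ 8 * (729 / D ^ 8 * (3 * (D ^ 2 * (89 * (m + TT H M D))))) := by
    have e1 : ∑ y ∈ M, 1482 * ((N y ^ 6 + (3 / D') ^ 6) * bb H M y) / D' ^ 2 =
        1482 * (1 / D' ^ 2) * ∑ y ∈ M, N y ^ 6 * bb H M y +
        1482 * (729 * (1 / D' ^ 8)) * ∑ y ∈ M, bb H M y := by
      rw [mul_sum, mul_sum, ← sum_add_distrib]
      refine sum_congr rfl fun y _ => ?_
      field_simp; ring
    rw [e1]
    have h3 : 1482 * (1 / D' ^ 2) * ∑ y ∈ M, N y ^ 6 * bb H M y ≤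
        1482 * ((100 / 99) ^ 2 * (1 / D ^ 2)) *
          (3 * (D ^ 2 * (D / 50000 * s + (50000 / D) ^ 3 * (89 * (m + TT H M D))))) := by
      apply mul_le_mul (by linarith) hC1a
      · exact sum_nonneg fun y _ => mul_nonneg (by positivity) (bb_nonneg y)
      · positivity
    have h4 : 1482 * (729 * (1 / D' ^ 8)) * ∑ y ∈ M, bb H M y ≤
        1482 * (729 * ((100 / 99) ^ 8 * (1 / D ^ 8))) *
          (3 * (D ^ 2 * (89 * (m + TT H M D)))) := by
      apply mul_le_mul (by linarith) hC2a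
      · exact sum_nonneg fun y _ => bb_nonneg y
      · positivity
    have e3 : 1482 * ((100 / 99) ^ 2 * (1 / D ^ 2)) *
          (3 * (D ^ 2 * (D / 50000 * s + (50000 / D) ^ 3 * (89 * (m + TT H M D))))) =
        1482 * (100 / 99) ^ 2 *
          (3 * (D / 50000 * s + (50000 / D) ^ 3 * (89 * (m + TT H M D)))) := by
      field_simp
    have e4 : 1482 * (729 * ((100 / 99) ^ 8 * (1 / D ^ 8))) *
          (3 * (D ^ 2 * (89 * (m + TT H M D)))) =
        1482 * (100 / 99) ^ 8 * (729 / D ^ 8 * (3 * (D ^ 2 * (89 * (m + TT H M D))))) := by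
      ring
    rw [e3] at h3
    rw [e4] at h4
    linarith
  rw [sum_add_distrib, sum_add_distrib, hA] at h2
  have hfin := s5_arith (P := P) (D := D) (u := u) (X := m + TT H M D) (s := s) hu hDlo hP1 hP2
    hX0 hs0
  have eR : Q * (M8 M N - 3 / m * (1 / 4 * ∑ x ∈ M, (deg H M x : ℝ) / D * N x ^ 8) +
        3 / m * (10 ^ 21 * ((m + TT H M D) / u ^ 16))) =
      Q * M8 M N + (-(P * (1 / 4 * s)) + P * (10 ^ 21 * ((m + TT H M D) / u ^ 16))) := by
    rw [hP, hs]; ring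
  rw [eR]
  linarith

end Vale.Agent.P046LF
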