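import Vale.Agent.P046LF.Basic
import Vale.Agent.P046LF.Point

/-!
P046 log-free, module S6: the number of triples (`Z1 = Q/Qh + S - 1`) and the increment of `S`.
-/

namespace Vale.Agent.P046LF

open Finset Vale.Agent.P046

/-- the real-variable end of `step_Z1` -/
theorem S6_real {Z Q c m u : ℝ} (hu : 0 < u) (hu1 : 1000 ≤ u) (hQ : 0 < Q) (hc : 0 < c)
    (hm0 : 0 < m) (hcQ : 99 / 100 * Q ≤ c) (hAlo : 81 / 100 * u ^ 4 ≤ Q * (3 / m)) :
    Q * Z ^ 2 + 4 * Z * Q / c + 430 / u ^ 2 ≤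
      Q * (Z ^ 2 + 3 / m * (Z ^ 2 + 1000 / u ^ 6)) := by
  set A := Q * (3 / m) with hA
  have hu4 : 0 < u ^ 4 := by positivity
  have hA0 : 0 < A := by linarith
  have hu2 : 1 ≤ u ^ 2 := by nlinarith
  -- the cross term
  have h1 : 4 * Z * Q / c ≤ 5 * |Z| := by
    rw [div_le_iff₀ hc]
    have h3 := abs_nonneg Z
    have h2 : Z * Q ≤ |Z| * Q := mul_le_mul_of_nonneg_right (le_abs_self Z) hQ.le
    have h4 : |Z| * (99 / 100 * Q) ≤ |Z| * c := mul_le_mul_of_nonneg_left hcQ h3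
    have h5 : 0 ≤ |Z| * Q := mul_nonneg h3 hQ.le
    linarith
  have h2 : 5 * |Z| ≤ A * Z ^ 2 + 25 / (4 * A) := by
    have h3 : 0 ≤ (2 * A * |Z| - 5) ^ 2 / (4 * A) := by positivity
    have h4 : (2 * A * |Z| - 5) ^ 2 / (4 * A) = A * |Z| ^ 2 - 5 * |Z| + 25 / (4 * A) := by
      field_simp
      ring
    rw [h4, sq_abs] at h3
    linarith
  have h3 : 25 / (4 * A) ≤ 8 / u ^ 2 := by
    rw [div_le_div_iff₀ (by positivity) (by positivity)]
    have h4 : u ^ 2 ≤ u ^ 4 := by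
      have : u ^ 4 = u ^ 2 * u ^ 2 := by ring
      nlinarith
    linarith
  have hfin : 438 / u ^ 2 ≤ A * (1000 / u ^ 6) := by
    have h1 : 438 / u ^ 2 = 438 * u ^ 4 / u ^ 6 := by
      field_simp
    have h2 : A * (1000 / u ^ 6) = 1000 * A / u ^ 6 := by ring
    rw [h1, h2]
    apply div_le_div_of_nonneg_right _ (by positivity)
    linarith
  have hsplit : 430 / u ^ 2 + 8 / u ^ 2 = 438 / u ^ 2 := by ring
  have hgoal : Q * (Z ^ 2 + 3 / m * (Z ^ 2 + 1000 / u ^ 6)) =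
      Q * Z ^ 2 + A * Z ^ 2 + A * (1000 / u ^ 6) := by
    rw [hA]; ring
  rw [hgoal]
  linarith

theorem step_Z1 : ∃ C : ℝ, 1 ≤ C ∧ ∀ (V : Type) [DecidableEq V] (H : Finset (Finset V))
    (M : Finset V) (N : V → ℝ) (κ S S' m Q u D D' K : ℝ), GS H M N κ S S' m Q u D D' K →
    ∑ T ∈ sub H M, (((sub H (M \ T)).card : ℝ) / Qh κ (m - 3) + S' - 1) ^ 2 ≤
      Q * ((Q / Qh κ m + S - 1) ^ 2 +
        3 / m * ((Q / Qh κ m + S - 1) ^ 2 + C / u ^ 6)) := by
  refine ⟨1000, by norm_num, ?_⟩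
  intro V _ H M N κ S S' m Q u D D' K g
  have hm := g.m_big
  have hm0 := g.m_pos
  have hQ := g.Q_pos
  have hD := g.D_pos
  have hu := g.u_pos
  have hu1 := g.hu
  have hc := g.Qh3_pos
  have hQh := g.Qh_pos
  set c := Qh κ (m - 3) with hcdef
  set Z := Q / Qh κ m + S - 1 with hZdef
  -- `c` in terms of `Qh κ m`
  have hcm : m * c = (m - 9) * Qh κ m := by
    rw [hcdef]; unfold Qh; ring
  have hQc : Q / c = Q / Qh κ m + 9 * Q / (m * c) := by
    have h9 : m - 9 ≠ 0 := by linarith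
    have hcne := hc.ne'
    have hQhne := hQh.ne'
    have hmne := hm0.ne'
    have e1 : Q / c = (m - 9) * Q / ((m - 9) * c) := by
      field_simp
    rw [div_add_div _ _ hQhne (mul_ne_zero hmne hcne), div_eq_div_iff hcne
      (mul_ne_zero hQhne (mul_ne_zero hmne hcne))]
    have e2 : m * c = (m - 9) * Qh κ m := hcm
    calc Q * (Qh κ m * (m * c)) = Q * Qh κ m * (m * c) := by ring
      _ = (Q * (m * c) + Qh κ m * (9 * Q)) * c := by
        have e3 : (m * c) * c = (m - 9) * Qh κ m * c := by rw [e2]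
        linear_combination - Q * e3
  -- the increments
  have hstep : ∀ T ∈ sub H M, ((sub H (M \ T)).card : ℝ) / c + S' - 1 =
      Z + (S2 H M / Q + 2 - sT H M T) / c := by
    intro T hT
    have h1 : ((sub H (M \ T)).card : ℝ) = Q + 2 - sT H M T := by
      have h2 := card_sub_sdiff g.lin hT
      have h3 := sT_eq g.lin hT
      have h4 : ((sub H (M \ T)).card : ℝ) + (1 + nb H M T) = Q := by
        rw [← g.hQ]; exact_mod_cast h2
      have h5 : (sT H M T : ℝ) = 3 + nb H M T := by exact_mod_cast h3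
      linarith
    rw [h1, g.hS', ← hcdef]
    have hQne := hQ.ne'
    have hcne := hc.ne'
    have hmne := hm0.ne'
    have e1 : (S2 H M - m * (3 * Q / m) ^ 2) / (Q * c) = S2 H M / Q / c - 9 * Q / (m * c) := by
      field_simp
      ring
    have e2 : (Q + 2 - (sT H M T : ℝ)) / c = Q / c + (2 - sT H M T) / c := by ring
    have e3 : (S2 H M / Q + 2 - (sT H M T : ℝ)) / c = S2 H M / Q / c + (2 - sT H M T) / c := by
      ring
    rw [e1, e2, e3, hQc, hZdef]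
    ring
  rw [Finset.sum_congr rfl fun T hT => by rw [hstep T hT]]
  -- bounds
  have hsumS2 : ∑ T ∈ sub H M, (sT H M T : ℝ) = S2 H M := sum_sT
  have hS2nn : 0 ≤ S2 H M := Finset.sum_nonneg fun _ _ => by positivity
  have hS2le : S2 H M ≤ 3 * m * D ^ 2 := by
    have h1 := g.sumsq_le
    have h2 : S2 H M = D ^ 2 * ∑ x ∈ M, ((deg H M x : ℝ) / D) ^ 2 := by
      rw [Finset.mul_sum]
      unfold S2
      refine Finset.sum_congr rfl fun x _ => ?_
      field_simp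
    rw [h2]
    nlinarith [sq_nonneg D]
  have hsT : ∀ T ∈ sub H M, (sT H M T : ℝ) ≤ 3 * m / u ^ 2 := by
    intro T hT
    rw [sT_cast]
    have h3 := g.lin.card3 T (mem_sub.1 hT).1
    have h4 : ∀ z ∈ T, (deg H M z : ℝ) ≤ m / u ^ 2 := by
      intro z hz
      rw [le_div_iff₀ (by positivity)]
      exact g.hdeg z ((mem_sub.1 hT).2 hz)
    calc ∑ z ∈ T, (deg H M z : ℝ) ≤ ∑ z ∈ T, m / u ^ 2 := Finset.sum_le_sum h4
      _ = 3 * m / u ^ 2 := by rw [Finset.sum_const, h3, nsmul_eq_mul]; push_cast; ring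
  have hcard : ∑ T ∈ sub H M, (1 : ℝ) = Q := by
    rw [Finset.sum_const, nsmul_eq_mul, mul_one, g.hQ]
  -- average
  have havg : S2 H M / Q ≤ 3 * m / u ^ 2 := by
    rw [div_le_iff₀ hQ, ← hsumS2, ← g.hQ]
    calc ∑ T ∈ sub H M, (sT H M T : ℝ) ≤ ∑ T ∈ sub H M, 3 * m / u ^ 2 := Finset.sum_le_sum hsT
      _ = 3 * m / u ^ 2 * ((sub H M).card : ℝ) := by
        rw [Finset.sum_const, nsmul_eq_mul]; ring
  -- expand the square
  have hexp : ∑ T ∈ sub H M, (Z + (S2 H M / Q + 2 - sT H M T) / c) ^ 2 =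
      Q * Z ^ 2 + 4 * Z * Q / c + ∑ T ∈ sub H M, ((S2 H M / Q + 2 - sT H M T) / c) ^ 2 := by
    have e1 : ∀ T ∈ sub H M, (Z + (S2 H M / Q + 2 - (sT H M T : ℝ)) / c) ^ 2 =
        (Z ^ 2 + 2 * Z * (S2 H M / Q + 2) / c) * 1 - 2 * Z / c * (sT H M T : ℝ) +
        ((S2 H M / Q + 2 - (sT H M T : ℝ)) / c) ^ 2 := fun T _ => by ring
    rw [Finset.sum_congr rfl e1, Finset.sum_add_distrib, Finset.sum_sub_distrib, ← Finset.mul_sum,
      ← Finset.mul_sum, hcard, hsumS2]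
    have hQne := hQ.ne'
    have hcne := hc.ne'
    field_simp
    ring
  rw [hexp]
  have hvar : ∑ T ∈ sub H M, ((S2 H M / Q + 2 - sT H M T) / c) ^ 2 ≤
      12 * m / u ^ 2 * S2 H M / c ^ 2 := by
    have e1 : ∀ T ∈ sub H M, ((S2 H M / Q + 2 - (sT H M T : ℝ)) / c) ^ 2 ≤
        (2 * (3 * m / u ^ 2) * (S2 H M / Q) / c ^ 2) * 1 +
          2 * (3 * m / u ^ 2) / c ^ 2 * (sT H M T : ℝ) := by
      intro T hT
      have h1 := hsT T hT
      have h2 : (3 : ℝ) ≤ sT H M T := by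
        rw [sT_eq g.lin hT]; push_cast; linarith [Nat.cast_nonneg (α := ℝ) (nb H M T)]
      have h3 : 0 ≤ S2 H M / Q := div_nonneg hS2nn hQ.le
      have h4 : (S2 H M / Q + 2 - (sT H M T : ℝ)) ^ 2 ≤
          2 * (S2 H M / Q) ^ 2 + 2 * (sT H M T : ℝ) ^ 2 := by
        nlinarith [sq_nonneg (S2 H M / Q + (sT H M T - 2))]
      have h5 : (S2 H M / Q) ^ 2 ≤ 3 * m / u ^ 2 * (S2 H M / Q) := by
        rw [sq]; exact mul_le_mul_of_nonneg_right havg h3
      have h6 : (sT H M T : ℝ) ^ 2 ≤ 3 * m / u ^ 2 * (sT H M T : ℝ) := by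
        rw [sq]; exact mul_le_mul_of_nonneg_right h1 (by linarith)
      rw [div_pow]
      have h7 : (2 * (3 * m / u ^ 2) * (S2 H M / Q) / c ^ 2) * 1 +
          2 * (3 * m / u ^ 2) / c ^ 2 * (sT H M T : ℝ) =
          (2 * (3 * m / u ^ 2 * (S2 H M / Q)) + 2 * (3 * m / u ^ 2 * (sT H M T : ℝ))) / c ^ 2 := by
        ring
      rw [h7]
      apply div_le_div_of_nonneg_right _ (by positivity)
      linarith
    refine (Finset.sum_le_sum e1).trans (le_of_eq ?_)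
    rw [Finset.sum_add_distrib, ← Finset.mul_sum, ← Finset.mul_sum, hcard, hsumS2]
    have hQne := hQ.ne'
    have hcne := hc.ne'
    field_simp
    ring
  -- `c` is comparable with `Q`
  have hcQ : 99 / 100 * Q ≤ c := by
    have hZ1 := (abs_le.1 g.Z_le).2
    have hS0 := g.hS0
    have h1 : Q / Qh κ m ≤ 1001 / 1000 := by linarith
    rw [div_le_iff₀ hQh] at h1
    have h2 : 999 / 1000 * m * Qh κ m ≤ (m - 9) * Qh κ m :=
      mul_le_mul_of_nonneg_right (by linarith) hQh.le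
    have h3 : 999 / 1000 * Qh κ m ≤ c := by
      have h4 : m * (999 / 1000 * Qh κ m) ≤ m * c := by rw [hcm]; linarith
      exact le_of_mul_le_mul_left h4 hm0
    linarith
  have hQlo := g.Q_lo
  have hDlo := g.D_lo
  have hcbig : 29 / 100 * (m * D) ≤ c := by
    have : 0 < m * D := mul_pos hm0 hD
    linarith
  -- the variance part
  have hvar2 : 12 * m / u ^ 2 * S2 H M / c ^ 2 ≤ 430 / u ^ 2 := by
    have h1 : (29 / 100 * (m * D)) ^ 2 ≤ c ^ 2 := by
      apply pow_le_pow_left₀ (by positivity) hcbig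
    rw [div_le_iff₀ (by positivity)]
    calc 12 * m / u ^ 2 * S2 H M ≤ 12 * m / u ^ 2 * (3 * m * D ^ 2) :=
          mul_le_mul_of_nonneg_left hS2le (by positivity)
      _ = 36 / u ^ 2 * (m * D) ^ 2 := by ring
      _ ≤ 430 / u ^ 2 * (29 / 100 * (m * D)) ^ 2 := by
        have h2 : 0 ≤ (m * D) ^ 2 / u ^ 2 := by positivity
        have h3 : 430 / u ^ 2 * (29 / 100 * (m * D)) ^ 2 =
            (430 * (29 / 100) ^ 2) * ((m * D) ^ 2 / u ^ 2) := by ring
        have h4 : 36 / u ^ 2 * (m * D) ^ 2 = 36 * ((m * D) ^ 2 / u ^ 2) := by ring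
        rw [h3, h4]
        exact mul_le_mul_of_nonneg_right (by norm_num) h2
      _ ≤ 430 / u ^ 2 * c ^ 2 := mul_le_mul_of_nonneg_left h1 (by positivity)
  have hcu : 81 / 100 * u ^ 4 ≤ Q * (3 / m) := by
    have h1 : Q * (3 / m) = 3 * Q / m := by ring
    rw [h1, le_div_iff₀ hm0]
    have h2 : m * (9 / 10 * u ^ 4) ≤ m * D := mul_le_mul_of_nonneg_left hDlo hm0.le
    linarith
  have h7 := S6_real (Z := Z) hu g.hu hQ hc hm0 hcQ hcu
  linarith

theorem step_S : ∃ C : ℝ, 1 ≤ C ∧ ∀ (V : Type) [DecidableEq V] (H : Finset (Finset V))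
    (M : Finset V) (N : V → ℝ) (κ S S' m Q u D D' K : ℝ), GS H M N κ S S' m Q u D D' K →
    K * (S' - S) ≤ 3 / m * (C * (EE H M N D u / m)) := by
  refine ⟨22, by norm_num, ?_⟩
  intro V _ H M N κ S S' m Q u D D' K g
  have hm0 := g.m_pos
  have hu := g.u_pos
  have hK : 0 ≤ K := by linarith [g.hK1]
  have h1 : K * ∑ x ∈ M, ((deg H M x : ℝ) / D - 1) ^ 2 ≤ 6 * EE H M N D u := by
    have h2 : K * ∑ x ∈ M, ((deg H M x : ℝ) / D - 1) ^ 2 ≤
        u ^ 3 * ∑ x ∈ M, ((deg H M x : ℝ) / D - 1) ^ 2 :=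
      mul_le_mul_of_nonneg_right g.hK (Finset.sum_nonneg fun _ _ => sq_nonneg _)
    have h3 : u ^ 3 * ∑ x ∈ M, ((deg H M x : ℝ) / D - 1) ^ 2 ≤
        4 * (u ^ 3 * WW H M N D) + 2 * ∑ x ∈ M, u ^ 3 * N x ^ 2 := by
      have h4 : ∑ x ∈ M, ((deg H M x : ℝ) / D - 1) ^ 2 ≤
          ∑ x ∈ M, (4 * ff ((deg H M x : ℝ) / D - N x) + 2 * N x ^ 2) :=
        Finset.sum_le_sum fun x hx => g.xi_sq hx
      rw [Finset.sum_add_distrib, ← Finset.mul_sum, ← Finset.mul_sum] at h4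
      have h5 := mul_le_mul_of_nonneg_left h4 (by positivity : (0 : ℝ) ≤ u ^ 3)
      unfold WW
      rw [← Finset.mul_sum]
      linarith
    have h4 : ∑ x ∈ M, u ^ 3 * N x ^ 2 ≤ EE H M N D u := by
      unfold EE
      exact Finset.sum_le_sum fun x _ => u3_N2_le g.hu (g.theta_nonneg x)
    have h5 := g.EE_ge_W
    linarith
  have h2 := mul_le_mul_of_nonneg_left g.dS_le hK
  calc K * (S' - S) ≤ K * (11 / m * ((∑ x ∈ M, ((deg H M x : ℝ) / D - 1) ^ 2) / m)) := h2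
    _ = 11 / m * ((K * ∑ x ∈ M, ((deg H M x : ℝ) / D - 1) ^ 2) / m) := by ring
    _ ≤ 11 / m * (6 * EE H M N D u / m) := by
      apply mul_le_mul_of_nonneg_left _ (by positivity)
      exact div_le_div_of_nonneg_right h1 hm0.le
    _ = 3 / m * (22 * (EE H M N D u / m)) := by ring

end Vale.Agent.P046LF
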