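import Mathlib

/-!
P046 log-free, module S7 (part 1): the weights.
-/

namespace Vale.Agent.P046LF

noncomputable section

def uu (uL μ m : ℝ) : ℝ := uL * Real.sqrt (m / μ)

def ep (uL μ R m : ℝ) : ℝ := Real.sqrt (m / R) + 1 / uu uL μ m

def cw (uL μ C m : ℝ) : ℝ := 2 * C / uL * (1 - Real.sqrt (μ / m))

def Gf (uL μ R C1 C2 m : ℝ) : ℝ :=
  2 * C1 * (1 - Real.sqrt (m / R)) + 2 * C2 / uL * (Real.sqrt (μ / m) - Real.sqrt (μ / R))

/-- the ratio `s = √(1 - 3/m)` -/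
def sr (m : ℝ) : ℝ := Real.sqrt (1 - 3 / m)

variable {uL μ R m : ℝ}

theorem sr_sq (hm : 1000 ≤ m) : sr m ^ 2 = 1 - 3 / m := by
  unfold sr
  rw [Real.sq_sqrt]
  have : 3 / m ≤ 1 := by rw [div_le_one (by linarith)]; linarith
  linarith

theorem sr_pos (hm : 1000 ≤ m) : 0 < sr m := by
  unfold sr
  apply Real.sqrt_pos.2
  have : 3 / m < 1 := by rw [div_lt_one (by linarith)]; linarith
  linarith

theorem x_bounds (hm : 1000 ≤ m) : 0 < 3 / m ∧ 3 / m ≤ 3 / 1000 := by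
  constructor
  · positivity
  · exact div_le_div_of_nonneg_left (by norm_num) (by norm_num) hm

theorem sr_le (hm : 1000 ≤ m) : sr m ≤ 1 - 3 / m / 2 := by
  obtain ⟨h0, h1⟩ := x_bounds hm
  have h2 := sr_sq hm
  have h3 := sr_pos hm
  refine (pow_le_pow_iff_left₀ h3.le (by linarith) two_ne_zero).1 ?_
  rw [h2]
  nlinarith [sq_nonneg (3 / m)]

theorem sr_ge (hm : 1000 ≤ m) : 1 - 3 / m / 2 - (3 / m) ^ 2 / 2 ≤ sr m := by
  obtain ⟨h0, h1⟩ := x_bounds hm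
  have h2 := sr_sq hm
  have h3 := sr_pos hm
  generalize 3 / m = x at *
  refine (pow_le_pow_iff_left₀ (by nlinarith) h3.le two_ne_zero).1 ?_
  rw [h2]
  have : (1 - x / 2 - x ^ 2 / 2) ^ 2 = 1 - x - 3 / 4 * x ^ 2 + x ^ 3 / 2 + x ^ 4 / 4 := by ring
  rw [this]
  have h5 : x ^ 3 ≤ x ^ 2 * (3 / 1000) := by
    have : x ^ 3 = x ^ 2 * x := by ring
    rw [this]; exact mul_le_mul_of_nonneg_left h1 (by positivity)
  have h6 : x ^ 4 ≤ x ^ 2 * (3 / 1000) := by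
    have : x ^ 4 = x ^ 2 * (x * x) := by ring
    rw [this]
    refine mul_le_mul_of_nonneg_left ?_ (by positivity)
    nlinarith
  nlinarith [sq_nonneg x]

theorem sr_le_one (hm : 1000 ≤ m) : sr m ≤ 1 := by
  have := sr_le hm
  have := (x_bounds hm).1
  linarith

theorem m3_eq (hm : 1000 ≤ m) : m - 3 = m * sr m ^ 2 := by
  rw [sr_sq hm]; field_simp

theorem sqrt_m3 (hm : 1000 ≤ m) (a : ℝ) : Real.sqrt ((m - 3) / a) = sr m * Real.sqrt (m / a) := by
  rw [m3_eq hm, mul_comm m, mul_div_assoc, Real.sqrt_mul (sq_nonneg _), Real.sqrt_sq (sr_pos hm).le]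

theorem sqrt_inv_m3 (hm : 1000 ≤ m) (hμ : 0 < μ) :
    Real.sqrt (μ / (m - 3)) = Real.sqrt (μ / m) / sr m := by
  have h1 := sr_pos hm
  have hm0 : 0 < m := by linarith
  rw [m3_eq hm, eq_div_iff h1.ne']
  have : μ / (m * sr m ^ 2) = μ / m * (1 / sr m) ^ 2 := by field_simp
  rw [this, Real.sqrt_mul (by positivity), Real.sqrt_sq (by positivity)]
  field_simp

theorem uu_m3 (hm : 1000 ≤ m) : uu uL μ (m - 3) = uu uL μ m * sr m := by
  unfold uu; rw [sqrt_m3 hm]; ring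

theorem uu_pos (huL : 0 < uL) (hμ : 0 < μ) (hm : 0 < m) : 0 < uu uL μ m := by
  unfold uu; positivity

theorem uu_sq (hμ : 0 < μ) (hm : 0 < m) : uu uL μ m ^ 2 = uL ^ 2 * (m / μ) := by
  unfold uu; rw [mul_pow, Real.sq_sqrt (by positivity)]

theorem uu_pow4 (hμ : 0 < μ) (hm : 0 < m) : uu uL μ m ^ 4 = uL ^ 4 * (m / μ) ^ 2 := by
  have : uu uL μ m ^ 4 = (uu uL μ m ^ 2) ^ 2 := by ring
  rw [this, uu_sq hμ hm]; ring

theorem uu_pow6 (hμ : 0 < μ) (hm : 0 < m) : uu uL μ m ^ 6 = uL ^ 6 * (m / μ) ^ 3 := by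
  have : uu uL μ m ^ 6 = (uu uL μ m ^ 2) ^ 3 := by ring
  rw [this, uu_sq hμ hm]; ring

theorem uL_le_uu (huL : 0 < uL) (hμ : 0 < μ) (hm : μ ≤ m) : uL ≤ uu uL μ m := by
  unfold uu
  have : 1 ≤ Real.sqrt (m / μ) := by
    rw [Real.one_le_sqrt, le_div_iff₀ hμ]; linarith
  calc uL = uL * 1 := by ring
    _ ≤ _ := mul_le_mul_of_nonneg_left this huL.le

theorem inv_uu (huL : 0 < uL) (hμ : 0 < μ) (hm : 0 < m) :
    1 / uu uL μ m = 1 / uL * Real.sqrt (μ / m) := by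
  unfold uu
  have h : Real.sqrt (μ / m) = 1 / Real.sqrt (m / μ) := by
    rw [← Real.sqrt_one, ← Real.sqrt_div zero_le_one, one_div_div]
  rw [h]
  have : 0 < Real.sqrt (m / μ) := by positivity
  field_simp

theorem ep_pos (huL : 0 < uL) (hμ : 0 < μ) (hm : 0 < m) : 0 < ep uL μ R m := by
  unfold ep
  have := uu_pos huL hμ hm
  have : 0 ≤ Real.sqrt (m / R) := Real.sqrt_nonneg _
  positivity

theorem inv_le_ep (_huL : 0 < uL) (_hμ : 0 < μ) (_hm : 0 < m) : 1 / uu uL μ m ≤ ep uL μ R m := by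
  unfold ep
  have : 0 ≤ Real.sqrt (m / R) := Real.sqrt_nonneg _
  linarith

theorem ep_m3 (huL : 0 < uL) (hμ : 0 < μ) (hm : 1000 ≤ m) :
    sr m * ep uL μ R m ≤ ep uL μ R (m - 3) := by
  have h1 := sr_pos hm
  have h2 := sr_le_one hm
  have hu := uu_pos huL hμ (by linarith : 0 < m)
  unfold ep
  rw [sqrt_m3 hm, uu_m3 hm, mul_add]
  have : sr m * (1 / uu uL μ m) ≤ 1 / (uu uL μ m * sr m) := by
    rw [mul_one_div, div_le_div_iff₀ hu (by positivity)]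
    have : sr m * (uu uL μ m * sr m) ≤ 1 * (uu uL μ m * 1) := by
      refine mul_le_mul h2 ?_ (by positivity) (by norm_num)
      exact mul_le_mul_of_nonneg_left h2 hu.le
    linarith
  linarith

/-! ### the five weights -/

theorem wW (huL : 0 < uL) (hμ : 0 < μ) (hm : 1000 ≤ m) :
    uu uL μ (m - 3) ^ 4 / (m - 3) * (1 + 3 / m) ≤ uu uL μ m ^ 4 / m ∧
    uu uL μ (m - 3) ^ 4 / (m - 3) ≤ uu uL μ m ^ 4 / m := by
  have h1 := sr_pos hm
  have h2 := sr_sq hm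
  have hu := uu_pos huL hμ (by linarith : 0 < m)
  obtain ⟨h0, h3⟩ := x_bounds hm
  have hm0 : 0 < m := by linarith
  have e : uu uL μ (m - 3) ^ 4 / (m - 3) = uu uL μ m ^ 4 / m * (1 - 3 / m) := by
    rw [uu_m3 hm, m3_eq hm, ← h2]; field_simp
  rw [e]
  have h4 : 0 < uu uL μ m ^ 4 / m := by positivity
  constructor
  · rw [mul_assoc]
    have : (1 - 3 / m) * (1 + 3 / m) ≤ 1 := by nlinarith
    calc _ ≤ uu uL μ m ^ 4 / m * 1 := mul_le_mul_of_nonneg_left this h4.le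
      _ = _ := by ring
  · calc _ ≤ uu uL μ m ^ 4 / m * 1 := mul_le_mul_of_nonneg_left (by linarith) h4.le
      _ = _ := by ring

theorem bern2 {a b : ℝ} (ha : 0 ≤ a) (hb : 0 ≤ b) : 1 - (a + b) ≤ (1 - a) * (1 - b) := by
  nlinarith [mul_nonneg ha hb]

theorem bern3 {a b c : ℝ} (ha : 0 ≤ a) (hb : 0 ≤ b) (hc : 0 ≤ c) (hc1 : c ≤ 1) :
    1 - (a + b + c) ≤ (1 - a) * (1 - b) * (1 - c) := by
  have h1 := bern2 ha hb
  have h2 := mul_le_mul_of_nonneg_right h1 (by linarith : 0 ≤ 1 - c)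
  have h3 := bern2 (by linarith : 0 ≤ a + b) hc
  linarith

theorem bern_pow {x : ℝ} (hx : 0 ≤ x) (hx1 : x ≤ 1) (k : ℕ) : 1 - k * x ≤ (1 - x) ^ k := by
  induction k with
  | zero => simp
  | succ k ih =>
    rw [pow_succ]
    have h1 := mul_le_mul_of_nonneg_right ih (by linarith : 0 ≤ 1 - x)
    push_cast
    have h2 := bern2 (by positivity : 0 ≤ (k : ℝ) * x) hx
    linarith

theorem sr7 (hm : 1000 ≤ m) : 1 - 11 / m ≤ (1 - 3 / m / 8) * sr m ^ 7 := by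
  have h1 := sr_pos hm
  have h2 := sr_sq hm
  have h3 := sr_ge hm
  obtain ⟨h0, h4⟩ := x_bounds hm
  have e : sr m ^ 7 = (sr m ^ 2) ^ 3 * sr m := by ring
  have e2 : 11 / m = 11 / 3 * (3 / m) := by field_simp
  rw [e, h2, e2]
  generalize 3 / m = x at *
  generalize sr m = s at *
  have hb := bern_pow h0.le (by linarith : x ≤ 1) 3
  have h5 : 0 ≤ 1 - x / 8 := by linarith
  have h6 : 1 - x / 2 - 3 / 2000 * x ≤ s := by nlinarith
  have h7 : 0 ≤ 1 - x / 2 - 3 / 2000 * x := by linarith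
  push_cast at hb
  have h8 : (1 - 3 * x) * (1 - (x / 2 + 3 / 2000 * x)) ≤ (1 - x) ^ 3 * s :=
    mul_le_mul hb (by linarith) (by linarith) (by have : 0 ≤ 1 - x := by linarith
                                                  positivity)
  have h9 := mul_le_mul_of_nonneg_left h8 h5
  have h10 := bern3 (a := x / 8) (b := 3 * x) (c := x / 2 + 3 / 2000 * x) (by linarith)
    (by linarith) (by linarith) (by linarith)
  linarith

theorem sr15 (hm : 1000 ≤ m) : 1 - 117 / (5 * m) ≤ (1 - 3 / m / 8) * sr m ^ 15 := by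
  have h1 := sr_pos hm
  have h2 := sr_sq hm
  have h3 := sr_ge hm
  obtain ⟨h0, h4⟩ := x_bounds hm
  have e : sr m ^ 15 = (sr m ^ 2) ^ 7 * sr m := by ring
  have e2 : 117 / (5 * m) = 39 / 5 * (3 / m) := by field_simp; norm_num
  rw [e, h2, e2]
  generalize 3 / m = x at *
  generalize sr m = s at *
  have hb := bern_pow h0.le (by linarith : x ≤ 1) 7
  have h5 : 0 ≤ 1 - x / 8 := by linarith
  have h6 : 1 - x / 2 - 3 / 2000 * x ≤ s := by nlinarith
  have h7 : 0 ≤ 1 - x / 2 - 3 / 2000 * x := by linarith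
  push_cast at hb
  have h8 : (1 - 7 * x) * (1 - (x / 2 + 3 / 2000 * x)) ≤ (1 - x) ^ 7 * s :=
    mul_le_mul hb (by linarith) (by linarith) (by have : 0 ≤ 1 - x := by linarith
                                                  positivity)
  have h9 := mul_le_mul_of_nonneg_left h8 h5
  have h10 := bern3 (a := x / 8) (b := 7 * x) (c := x / 2 + 3 / 2000 * x) (by linarith)
    (by linarith) (by linarith) (by linarith)
  linarith

theorem sr13 (hm : 1000 ≤ m) : sr m ^ 13 ≤ 1 - 18 / m ∧ 9 / 10 ≤ sr m ^ 13 := by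
  have h1 := sr_pos hm
  have h2 := sr_sq hm
  have h3 := sr_le hm
  have h3' := sr_ge hm
  obtain ⟨h0, h4⟩ := x_bounds hm
  have e : sr m ^ 13 = (sr m ^ 2) ^ 6 * sr m := by ring
  have e2 : 18 / m = 6 * (3 / m) := by ring
  rw [e, h2, e2]
  generalize 3 / m = x at *
  generalize sr m = s at *
  have hp : 0 ≤ 1 - x := by linarith
  constructor
  · have h5 : (1 - x) ^ 6 ≤ 1 - 6 * x + 15 * x ^ 2 := by
      have e3 : (1 - 6 * x + 15 * x ^ 2) - (1 - x) ^ 6 = x ^ 3 * (20 - 15 * x + 6 * x ^ 2 - x ^ 3) := by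
        ring
      have : 0 ≤ x ^ 3 * (20 - 15 * x + 6 * x ^ 2 - x ^ 3) := by
        apply mul_nonneg (by positivity)
        have : x ^ 3 ≤ 1 := pow_le_one₀ h0.le (by linarith)
        nlinarith [sq_nonneg x]
      linarith
    have h6 : (1 - x) ^ 6 * s ≤ (1 - 6 * x + 15 * x ^ 2) * (1 - x / 2) :=
      mul_le_mul h5 h3 h1.le (by nlinarith)
    have h7 : (1 - 6 * x + 15 * x ^ 2) * (1 - x / 2) - (1 - 6 * x) =
      x * (18 * x - 1 / 2 - 15 / 2 * x ^ 2) := by ring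
    have h8 : x * (18 * x - 1 / 2 - 15 / 2 * x ^ 2) ≤ 0 := by
      apply mul_nonpos_of_nonneg_of_nonpos h0.le
      nlinarith [sq_nonneg x]
    linarith
  · have hb := bern_pow h0.le (by linarith : x ≤ 1) 6
    push_cast at hb
    have h6 : 1 - x / 2 - 3 / 2000 * x ≤ s := by nlinarith
    have h8 : (1 - 6 * x) * (1 - (x / 2 + 3 / 2000 * x)) ≤ (1 - x) ^ 6 * s :=
      mul_le_mul hb (by linarith) (by linarith) (by positivity)
    have := bern2 (a := 6 * x) (b := x / 2 + 3 / 2000 * x) (by linarith) (by linarith)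
    linarith

theorem sr5 (hm : 1000 ≤ m) : sr m ^ 5 * (1 + 3 / m) ≤ 1 - 13 / 10 * (3 / m) ∧ sr m ^ 5 ≤ 1 := by
  have h1 := sr_pos hm
  have h2 := sr_sq hm
  have h3 := sr_le hm
  obtain ⟨h0, h4⟩ := x_bounds hm
  have e : sr m ^ 5 = (sr m ^ 2) ^ 2 * sr m := by ring
  refine ⟨?_, pow_le_one₀ h1.le (sr_le_one hm)⟩
  rw [e, h2]
  generalize 3 / m = x at *
  generalize sr m = s at *
  have hp : 0 ≤ 1 - x := by linarith
  have h5 : (1 - x) ^ 2 * s * (1 + x) ≤ (1 - x) ^ 2 * (1 - x / 2) * (1 + x) := by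
    refine mul_le_mul_of_nonneg_right ?_ (by linarith)
    exact mul_le_mul_of_nonneg_left h3 (by positivity)
  have h6 : (1 - x) ^ 2 * (1 - x / 2) * (1 + x) = 1 - 3 / 2 * x - x ^ 2 / 2 + 3 / 2 * x ^ 3 -
      x ^ 4 / 2 := by ring
  have h7 : x ^ 3 ≤ x ^ 2 * (3 / 1000) := by
    have : x ^ 3 = x ^ 2 * x := by ring
    rw [this]; exact mul_le_mul_of_nonneg_left h4 (by positivity)
  have h8 : 0 ≤ x ^ 4 := by positivity
  nlinarith [sq_nonneg x]

/-- weight of `ZZ` -/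
theorem wZ (huL : 0 < uL) (hμ : 0 < μ) (hm : 1000 ≤ m) :
    1 / (ep uL μ R (m - 3) * (m - 3) * uu uL μ (m - 3) ^ 4) * (1 - 11 / m) ≤
      1 / (ep uL μ R m * m * uu uL μ m ^ 4) * (1 - 3 / m / 8) ∧
    1 / (ep uL μ R (m - 3) * (m - 3) * uu uL μ (m - 3) ^ 4) ≤
      2 * (1 / (ep uL μ R m * m * uu uL μ m ^ 4)) := by
  have hs := sr_pos hm
  have hm0 : 0 < m := by linarith
  have hu := uu_pos huL hμ hm0
  have he := ep_pos (R := R) huL hμ hm0
  obtain ⟨h0, h4⟩ := x_bounds hm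
  have h11 : 0 ≤ 1 - 11 / m := by
    have : 11 / m = 11 / 3 * (3 / m) := by field_simp
    rw [this]; linarith
  have key : 1 / (ep uL μ R (m - 3) * (m - 3) * uu uL μ (m - 3) ^ 4) ≤
      1 / (ep uL μ R m * m * uu uL μ m ^ 4) / sr m ^ 7 := by
    rw [div_div]
    refine one_div_le_one_div_of_le (by positivity) ?_
    rw [uu_m3 hm, m3_eq hm]
    have h5 := ep_m3 (R := R) huL hμ hm
    rw [m3_eq hm] at h5
    have h6 := mul_le_mul_of_nonneg_right h5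
      (by positivity : 0 ≤ (m * sr m ^ 2) * (uu uL μ m * sr m) ^ 4)
    calc _ = sr m * ep uL μ R m * (m * sr m ^ 2 * (uu uL μ m * sr m) ^ 4) := by ring
      _ ≤ _ := h6
      _ = _ := by ring
  have hB : 0 < 1 / (ep uL μ R m * m * uu uL μ m ^ 4) := by positivity
  constructor
  · refine (mul_le_mul_of_nonneg_right key h11).trans ?_
    rw [div_mul_eq_mul_div, div_le_iff₀ (by positivity)]
    refine (mul_le_mul_of_nonneg_left (sr7 hm) hB.le).trans (le_of_eq ?_)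
    ring
  · refine key.trans ?_
    rw [div_le_iff₀ (by positivity)]
    have h7 := sr7 hm
    have : 1 / 2 ≤ sr m ^ 7 := by
      have e : 11 / m = 11 / 3 * (3 / m) := by field_simp
      rw [e] at h7
      have h8 : (1 - 3 / m / 8) * sr m ^ 7 ≤ 1 * sr m ^ 7 :=
        mul_le_mul_of_nonneg_right (by linarith) (by positivity)
      linarith
    nlinarith

/-- weight of `Th` -/
theorem wTh (huL : 0 < uL) (hμ : 0 < μ) (hm : 1000 ≤ m) :
    1 / (ep uL μ R (m - 3) * (m - 3) * uu uL μ (m - 3) ^ 12) * (1 - 117 / (5 * m)) ≤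
      1 / (ep uL μ R m * m * uu uL μ m ^ 12) * (1 - 3 / m / 8) ∧
    1 / (ep uL μ R (m - 3) * (m - 3) * uu uL μ (m - 3) ^ 12) ≤
      2 * (1 / (ep uL μ R m * m * uu uL μ m ^ 12)) := by
  have hs := sr_pos hm
  have hm0 : 0 < m := by linarith
  have hu := uu_pos huL hμ hm0
  have he := ep_pos (R := R) huL hμ hm0
  obtain ⟨h0, h4⟩ := x_bounds hm
  have e2 : 117 / (5 * m) = 39 / 5 * (3 / m) := by field_simp; norm_num
  have h11 : 0 ≤ 1 - 117 / (5 * m) := by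
    rw [e2]; linarith
  have key : 1 / (ep uL μ R (m - 3) * (m - 3) * uu uL μ (m - 3) ^ 12) ≤
      1 / (ep uL μ R m * m * uu uL μ m ^ 12) / sr m ^ 15 := by
    rw [div_div]
    refine one_div_le_one_div_of_le (by positivity) ?_
    rw [uu_m3 hm, m3_eq hm]
    have h5 := ep_m3 (R := R) huL hμ hm
    rw [m3_eq hm] at h5
    have h6 := mul_le_mul_of_nonneg_right h5
      (by positivity : 0 ≤ (m * sr m ^ 2) * (uu uL μ m * sr m) ^ 12)
    calc _ = sr m * ep uL μ R m * (m * sr m ^ 2 * (uu uL μ m * sr m) ^ 12) := by ring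
      _ ≤ _ := h6
      _ = _ := by ring
  have hB : 0 < 1 / (ep uL μ R m * m * uu uL μ m ^ 12) := by positivity
  constructor
  · refine (mul_le_mul_of_nonneg_right key h11).trans ?_
    rw [div_mul_eq_mul_div, div_le_iff₀ (by positivity)]
    refine (mul_le_mul_of_nonneg_left (sr15 hm) hB.le).trans (le_of_eq ?_)
    ring
  · refine key.trans ?_
    rw [div_le_iff₀ (by positivity)]
    have h7 := sr15 hm
    have : 1 / 2 ≤ sr m ^ 15 := by
      rw [e2] at h7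
      have h8 : (1 - 3 / m / 8) * sr m ^ 15 ≤ 1 * sr m ^ 15 :=
        mul_le_mul_of_nonneg_right (by linarith) (by positivity)
      linarith
    nlinarith

/-- weight of `TT` -/
theorem wT (huL : 0 < uL) (hμ : 0 < μ) (hm : 1000 ≤ m) :
    uu uL μ (m - 3) ^ 3 / (m - 3) ≤ uu uL μ m ^ 3 / m ∧
    99 / 100 * (uu uL μ m ^ 3 / m) ≤ uu uL μ (m - 3) ^ 3 / (m - 3) := by
  have hs := sr_pos hm
  have hm0 : 0 < m := by linarith
  have hu := uu_pos huL hμ hm0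
  have hB : 0 < uu uL μ m ^ 3 / m := by positivity
  have e : uu uL μ (m - 3) ^ 3 / (m - 3) = uu uL μ m ^ 3 / m * sr m := by
    rw [uu_m3 hm, m3_eq hm]; field_simp
  rw [e]
  have h1 := sr_le_one hm
  have h2 := sr_ge hm
  obtain ⟨h0, h4⟩ := x_bounds hm
  have h3 : 99 / 100 ≤ sr m := by nlinarith
  constructor
  · calc _ ≤ uu uL μ m ^ 3 / m * 1 := mul_le_mul_of_nonneg_left h1 hB.le
      _ = _ := by ring
  · calc _ = uu uL μ m ^ 3 / m * (99 / 100) := by ring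
      _ ≤ _ := mul_le_mul_of_nonneg_left h3 hB.le

/-- weight of `M8` -/
theorem wN (huL : 0 < uL) (hμ : 0 < μ) (hm : 1000 ≤ m) :
    uu uL μ (m - 3) ^ 15 / (m - 3) ≤ uu uL μ m ^ 15 / m * (1 - 18 / m) ∧
    9 / 10 * (uu uL μ m ^ 15 / m) ≤ uu uL μ (m - 3) ^ 15 / (m - 3) := by
  have hs := sr_pos hm
  have hm0 : 0 < m := by linarith
  have hu := uu_pos huL hμ hm0
  have hB : 0 < uu uL μ m ^ 15 / m := by positivity
  have e : uu uL μ (m - 3) ^ 15 / (m - 3) = uu uL μ m ^ 15 / m * sr m ^ 13 := by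
    rw [uu_m3 hm, m3_eq hm]; field_simp
  rw [e]
  obtain ⟨h1, h2⟩ := sr13 hm
  constructor
  · exact mul_le_mul_of_nonneg_left h1 hB.le
  · calc _ = uu uL μ m ^ 15 / m * (9 / 10) := by ring
      _ ≤ _ := mul_le_mul_of_nonneg_left h2 hB.le

/-- weight of `Z1²` -/
theorem wQ (huL : 0 < uL) (hμ : 0 < μ) (hm : 1000 ≤ m) :
    uu uL μ (m - 3) ^ 5 * (1 + 3 / m) ≤ uu uL μ m ^ 5 * (1 - 13 / 10 * (3 / m)) ∧
    uu uL μ (m - 3) ^ 5 ≤ uu uL μ m ^ 5 := by
  have hm0 : 0 < m := by linarith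
  have hu := uu_pos huL hμ hm0
  have hB : 0 < uu uL μ m ^ 5 := by positivity
  have e : uu uL μ (m - 3) ^ 5 = uu uL μ m ^ 5 * sr m ^ 5 := by
    rw [uu_m3 hm]; ring
  rw [e]
  obtain ⟨h1, h2⟩ := sr5 hm
  constructor
  · rw [mul_assoc]; exact mul_le_mul_of_nonneg_left h1 hB.le
  · calc _ ≤ uu uL μ m ^ 5 * 1 := mul_le_mul_of_nonneg_left h2 hB.le
      _ = _ := by ring

theorem inv_sr (hm : 1000 ≤ m) : 3 / m / 2 ≤ 1 / sr m - 1 := by
  have hs := sr_pos hm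
  have h1 := sr_le hm
  obtain ⟨h0, h4⟩ := x_bounds hm
  have : 1 + 3 / m / 2 ≤ 1 / sr m := by
    rw [le_div_iff₀ hs]
    nlinarith
  linarith

/-- the deterministic term -/
theorem cw_diff {C : ℝ} (hC : 0 ≤ C) (huL : 0 < uL) (hμ : 0 < μ) (hm : 1000 ≤ m) :
    cw uL μ C (m - 3) + 3 / m * (C / uu uL μ m) ≤ cw uL μ C m := by
  have hs := sr_pos hm
  have hm0 : 0 < m := by linarith
  have h1 := inv_sr hm
  have h2 := inv_uu (μ := μ) huL hμ hm0
  unfold cw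
  rw [sqrt_inv_m3 hm hμ]
  have h3 : 0 ≤ Real.sqrt (μ / m) := Real.sqrt_nonneg _
  have e1 : C / uu uL μ m = C / uL * Real.sqrt (μ / m) := by
    have : C / uu uL μ m = C * (1 / uu uL μ m) := by ring
    rw [this, h2]; ring
  rw [e1]
  have h4 := mul_le_mul_of_nonneg_left h1 (by positivity : 0 ≤ 2 * C / uL * Real.sqrt (μ / m))
  have e2 : Real.sqrt (μ / m) / sr m = Real.sqrt (μ / m) * (1 / sr m) := by ring
  rw [e2]
  have e3 : 2 * C / uL * Real.sqrt (μ / m) * (3 / m / 2) = 3 / m * (C / uL * Real.sqrt (μ / m)) := by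
    ring
  linarith

theorem cw_nonneg {C : ℝ} (hC : 0 ≤ C) (huL : 0 < uL) (hμ : 0 < μ) (hm : μ ≤ m) :
    0 ≤ cw uL μ C m := by
  unfold cw
  have : Real.sqrt (μ / m) ≤ 1 := by
    rw [Real.sqrt_le_one, div_le_one (by linarith)]; exact hm
  have h2 : 0 ≤ 1 - Real.sqrt (μ / m) := by linarith
  positivity

theorem cw_le {C : ℝ} (hC : 0 ≤ C) (huL : 0 < uL) : cw uL μ C m ≤ 2 * C / uL := by
  unfold cw
  have : 0 ≤ Real.sqrt (μ / m) := Real.sqrt_nonneg _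
  calc _ ≤ 2 * C / uL * 1 := mul_le_mul_of_nonneg_left (by linarith) (by positivity)
    _ = _ := by ring

theorem Gf_diff {C1 C2 : ℝ} (hC1 : 0 ≤ C1) (hC2 : 0 ≤ C2) (huL : 0 < uL) (hμ : 0 < μ)
    (hm : 1000 ≤ m) :
    Gf uL μ R C1 C2 m + 3 / m * (C1 * Real.sqrt (m / R) + C2 / uu uL μ m) ≤
      Gf uL μ R C1 C2 (m - 3) := by
  have hs := sr_pos hm
  have hm0 : 0 < m := by linarith
  have h1 := inv_sr hm
  have h2 := inv_uu (μ := μ) huL hμ hm0
  have h5 := sr_le hm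
  unfold Gf
  rw [sqrt_inv_m3 hm hμ, sqrt_m3 hm]
  have h3 : 0 ≤ Real.sqrt (μ / m) := Real.sqrt_nonneg _
  have h3' : 0 ≤ Real.sqrt (m / R) := Real.sqrt_nonneg _
  have e1 : C2 / uu uL μ m = C2 / uL * Real.sqrt (μ / m) := by
    have : C2 / uu uL μ m = C2 * (1 / uu uL μ m) := by ring
    rw [this, h2]; ring
  rw [e1]
  have h4 := mul_le_mul_of_nonneg_left h1 (by positivity : 0 ≤ 2 * C2 / uL * Real.sqrt (μ / m))
  have h6 := mul_le_mul_of_nonneg_left h5 (by positivity : 0 ≤ 2 * C1 * Real.sqrt (m / R))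
  have e2 : Real.sqrt (μ / m) / sr m = Real.sqrt (μ / m) * (1 / sr m) := by ring
  rw [e2]
  have e3 : 2 * C2 / uL * Real.sqrt (μ / m) * (3 / m / 2) = 3 / m * (C2 / uL * Real.sqrt (μ / m)) := by
    ring
  have e4 : 2 * C1 * Real.sqrt (m / R) * (1 - 3 / m / 2) = 2 * C1 * Real.sqrt (m / R) -
    3 / m * (C1 * Real.sqrt (m / R)) := by ring
  rw [e3] at h4
  rw [e4] at h6
  linarith

theorem Gf_nonneg {C1 C2 : ℝ} (hC1 : 0 ≤ C1) (hC2 : 0 ≤ C2) (huL : 0 < uL) (hμ : 0 < μ)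
    (hm : μ ≤ m) (hR : m ≤ R) : 0 ≤ Gf uL μ R C1 C2 m := by
  have hm0 : 0 < m := by linarith
  have hR0 : 0 < R := by linarith
  unfold Gf
  have h1 : Real.sqrt (m / R) ≤ 1 := by
    rw [Real.sqrt_le_one, div_le_one hR0]; exact hR
  have h2 : Real.sqrt (μ / R) ≤ Real.sqrt (μ / m) := by
    apply Real.sqrt_le_sqrt
    exact div_le_div_of_nonneg_left hμ.le hm0 hR
  have h3 : 0 ≤ 1 - Real.sqrt (m / R) := by linarith
  have h4 : 0 ≤ Real.sqrt (μ / m) - Real.sqrt (μ / R) := by linarith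
  positivity

theorem Gf_le {C1 C2 : ℝ} (hC1 : 0 ≤ C1) (hC2 : 0 ≤ C2) (huL : 0 < uL) (hμ : 0 < μ)
    (hm : μ ≤ m) : Gf uL μ R C1 C2 m ≤ 2 * C1 + 2 * C2 / uL := by
  have hm0 : 0 < m := by linarith
  unfold Gf
  have h1 : 0 ≤ Real.sqrt (m / R) := Real.sqrt_nonneg _
  have h2 : 0 ≤ Real.sqrt (μ / R) := Real.sqrt_nonneg _
  have h3 : Real.sqrt (μ / m) ≤ 1 := by
    rw [Real.sqrt_le_one, div_le_one hm0]; exact hm
  have h4 : 2 * C1 * (1 - Real.sqrt (m / R)) ≤ 2 * C1 * 1 :=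
    mul_le_mul_of_nonneg_left (by linarith) (by positivity)
  have h5 : 2 * C2 / uL * (Real.sqrt (μ / m) - Real.sqrt (μ / R)) ≤ 2 * C2 / uL * 1 :=
    mul_le_mul_of_nonneg_left (by linarith) (by positivity)
  linarith

end

end Vale.Agent.P046LF
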