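import Vale.Agent.P046LF.S1
import Vale.Agent.P046LF.S2
import Vale.Agent.P046LF.S3
import Vale.Agent.P046LF.S4
import Vale.Agent.P046LF.S5
import Vale.Agent.P046LF.S6
import Vale.Agent.P046LF.Weights
import Vale.Agent.P046LF.Comb

/-!
P046 log-free, module S7 (part 3): the potential and its one-step inequality.
-/

namespace Vale.Agent.P046LF

open Finset Vale.Agent.P046

/-- the seven step inequalities with the constants `c` -/
structure Steps (c : Cs) : Prop where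
  W : ∀ (V : Type) [DecidableEq V] (H : Finset (Finset V))
    (M : Finset V) (N : V → ℝ) (κ S S' m Q u D D' K : ℝ), GS H M N κ S S' m Q u D D' K →
    ∀ ε : ℝ, 0 < ε →
    ∑ T ∈ sub H M, WW H (M \ T) (Nup H M N D' T) D' ≤
      Q * (WW H M N D * (1 + 3 / m) + 3 / m * (c.W * (ε * WW H M N D + ZZ H M N / (ε * u ^ 8) +
        EE H M N D u / u ^ 4 + u * m * (Q / Qh κ m + S - 1) ^ 2 +
        Real.sqrt K / u ^ 2 * WW H M N D)))
  Z : ∀ (V : Type) [DecidableEq V] (H : Finset (Finset V))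
    (M : Finset V) (N : V → ℝ) (κ S S' m Q u D D' K : ℝ), GS H M N κ S S' m Q u D D' K →
    ∑ T ∈ sub H M, ZZ H (M \ T) (Nup H M N D' T) ≤
      Q * (ZZ H M N * (1 - 11 / m) +
        3 / m * (c.Z * (Th H M / u ^ 8 + u ^ 3 * EE H M N D u)))
  Th : ∀ (V : Type) [DecidableEq V] (H : Finset (Finset V))
    (M : Finset V) (N : V → ℝ) (κ S S' m Q u D D' K : ℝ), GS H M N κ S S' m Q u D D' K →
    ∑ T ∈ sub H M, Th H (M \ T) ≤
      Q * (Th H M * (1 - 117 / (5 * m)) + 3 / m * (c.Th * (u ^ 9 * EE H M N D u)))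
  T : ∀ (V : Type) [DecidableEq V] (H : Finset (Finset V))
    (M : Finset V) (N : V → ℝ) (κ S S' m Q u D D' K : ℝ), GS H M N κ S S' m Q u D D' K →
    ∑ T ∈ sub H M, TT H (M \ T) D' ≤
      Q * (TT H M D -
        3 / m * (1 / 4 * ∑ x ∈ M, (1 + (deg H M x : ℝ) / D) * tt ((deg H M x : ℝ) / D)) +
        3 / m * (c.T * WW H M N D))
  N : ∀ (V : Type) [DecidableEq V] (H : Finset (Finset V))
    (M : Finset V) (N : V → ℝ) (κ S S' m Q u D D' K : ℝ), GS H M N κ S S' m Q u D D' K →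
    ∑ T ∈ sub H M, M8 (M \ T) (Nup H M N D' T) ≤
      Q * (M8 M N - 3 / m * (1 / 4 * ∑ x ∈ M, (deg H M x : ℝ) / D * N x ^ 8) +
        3 / m * (c.N * ((m + TT H M D) / u ^ 16)))
  q : ∀ (V : Type) [DecidableEq V] (H : Finset (Finset V))
    (M : Finset V) (N : V → ℝ) (κ S S' m Q u D D' K : ℝ), GS H M N κ S S' m Q u D D' K →
    ∑ T ∈ sub H M, (((sub H (M \ T)).card : ℝ) / Qh κ (m - 3) + S' - 1) ^ 2 ≤
      Q * ((Q / Qh κ m + S - 1) ^ 2 +
        3 / m * ((Q / Qh κ m + S - 1) ^ 2 + c.q / u ^ 6))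
  S : ∀ (V : Type) [DecidableEq V] (H : Finset (Finset V))
    (M : Finset V) (N : V → ℝ) (κ S S' m Q u D D' K : ℝ), GS H M N κ S S' m Q u D D' K →
    K * (S' - S) ≤ 3 / m * (c.S * (EE H M N D u / m))

theorem exists_Steps : ∃ c : Cs, Steps c := by
  obtain ⟨C1, h1, H1⟩ := step_W
  obtain ⟨C2, h2, H2⟩ := step_Z
  obtain ⟨C3, h3, H3⟩ := step_Th
  obtain ⟨C4, h4, H4⟩ := step_T
  obtain ⟨C5, h5, H5⟩ := step_M8
  obtain ⟨C6, h6, H6⟩ := step_Z1
  obtain ⟨C7, h7, H7⟩ := step_S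
  exact ⟨⟨C1, C2, C3, C4, C5, C6, C7, h1, h2, h3, h4, h5, h6, h7⟩,
    ⟨H1, H2, H3, H4, H5, H6, H7⟩⟩

variable {V : Type} [DecidableEq V] {H : Finset (Finset V)} {M : Finset V} {N : V → ℝ}

/-- reference degree -/
noncomputable def Dr (κ m S : ℝ) : ℝ := κ * (m - 3) * (m - 6) * (1 - S)

/-- the potential (before normalization) -/
noncomputable def Phi (c : Cs) (κ uL μ R K : ℝ) (H : Finset (Finset V)) (M : Finset V)
    (N : V → ℝ) (S : ℝ) : ℝ :=
  uu uL μ M.card ^ 4 / M.card * WW H M N (Dr κ M.card S) +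
  c.AZ * (1 / (ep uL μ R M.card * M.card * uu uL μ M.card ^ 4) * ZZ H M N) +
  c.ATh * (1 / (ep uL μ R M.card * M.card * uu uL μ M.card ^ 12) * Th H M) +
  c.AT * (uu uL μ M.card ^ 3 / M.card * TT H M (Dr κ M.card S)) +
  c.AN * (uu uL μ M.card ^ 15 / M.card * M8 M N) +
  c.W * (uu uL μ M.card ^ 5 * ((sub H M).card / Qh κ M.card + S - 1) ^ 2) +
  16 * (K * S) + cw uL μ c.C3 M.card

theorem Th_nonneg : 0 ≤ Th H M := by unfold Th; positivity
theorem TT_nonneg (D : ℝ) : 0 ≤ TT H M D := Finset.sum_nonneg fun _ _ => tt_nonneg _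
theorem M8_nonneg : 0 ≤ M8 M N := Finset.sum_nonneg fun _ _ => by positivity

/-- expansion of the error sum -/
theorem EE_eq (D u : ℝ) : EE H M N D u = u ^ 3 * WW H M N D +
    u ^ 3 * ∑ x ∈ M, (1 + (deg H M x : ℝ) / D) * tt ((deg H M x : ℝ) / D) +
    u ^ 15 * ∑ x ∈ M, (1 + (deg H M x : ℝ) / D) * N x ^ 8 + M.card * (1 / u) := by
  unfold EE ee WW
  rw [sum_add_distrib, sum_add_distrib, sum_add_distrib, ← mul_sum, ← mul_sum, ← mul_sum,
    sum_const, nsmul_eq_mul]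

section weighted

variable {κ S S' m Q u D D' K uL μ R : ℝ} {c : Cs}

theorem weighted_W (hc : Steps c) (g : GS H M N κ S S' m Q u D D' K) (huL : 0 < uL) (hμ : 0 < μ)
    (hu : u = uu uL μ m) {ε : ℝ} (hε : ε = ep uL μ R m) :
    uu uL μ (m - 3) ^ 4 / (m - 3) * ∑ T ∈ sub H M, WW H (M \ T) (Nup H M N D' T) D' ≤
      Q * (u ^ 4 / m * WW H M N D + 3 / m * (c.W * (ε * (u ^ 4 / m * WW H M N D) +
        1 / (ε * m * u ^ 4) * ZZ H M N + EE H M N D u / m +
        u ^ 5 * (Q / Qh κ m + S - 1) ^ 2 + Real.sqrt K / u ^ 2 * (u ^ 4 / m * WW H M N D)))) := by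
  have hm : 1000 ≤ m := le_trans (by norm_num) g.m_big
  have hm0 : 0 < m := by linarith
  have hm3 : 0 < m - 3 := by linarith
  have hup : 0 < u := lt_of_lt_of_le (by norm_num) g.hu
  have hεp : 0 < ε := by rw [hε]; exact ep_pos huL hμ hm0
  have hQ : 0 ≤ Q := by rw [← g.hQ]; positivity
  have hW := hc.W V H M N κ S S' m Q u D D' K g ε hεp
  obtain ⟨w1, w2⟩ := wW huL hμ hm (m := m)
  rw [← hu] at w1 w2
  have hWn : 0 ≤ WW H M N D := WW_nonneg
  have hZn : 0 ≤ ZZ H M N := ZZ_nonneg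
  have hEn : 0 ≤ EE H M N D u := le_trans (by positivity) g.EE_ge_m
  have hwp : 0 ≤ uu uL μ (m - 3) ^ 4 / (m - 3) := by
    have := uu_pos huL hμ hm3
    positivity
  have hcW := c.hW
  refine (mul_le_mul_of_nonneg_left hW hwp).trans ?_
  rw [← mul_assoc, mul_comm _ Q, mul_assoc]
  refine mul_le_mul_of_nonneg_left ?_ hQ
  rw [mul_add]
  refine add_le_add ?_ ?_
  · have := mul_le_mul_of_nonneg_right w1 hWn
    linarith
  · have hX : 0 ≤ ε * WW H M N D + ZZ H M N / (ε * u ^ 8) +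
        EE H M N D u / u ^ 4 + u * m * (Q / Qh κ m + S - 1) ^ 2 +
        Real.sqrt K / u ^ 2 * WW H M N D := by positivity
    have h1 : 0 ≤ 3 / m * (c.W * (ε * WW H M N D + ZZ H M N / (ε * u ^ 8) +
        EE H M N D u / u ^ 4 + u * m * (Q / Qh κ m + S - 1) ^ 2 +
        Real.sqrt K / u ^ 2 * WW H M N D)) := by positivity
    refine (mul_le_mul_of_nonneg_right w2 h1).trans (le_of_eq ?_)
    field_simp

theorem weighted_Z (hc : Steps c) (g : GS H M N κ S S' m Q u D D' K) (huL : 0 < uL) (hμ : 0 < μ)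
    (hu : u = uu uL μ m) {ε : ℝ} (hε : ε = ep uL μ R m) :
    1 / (ep uL μ R (m - 3) * (m - 3) * uu uL μ (m - 3) ^ 4) *
      ∑ T ∈ sub H M, ZZ H (M \ T) (Nup H M N D' T) ≤
      Q * (1 / (ε * m * u ^ 4) * ZZ H M N - 3 / m / 8 * (1 / (ε * m * u ^ 4) * ZZ H M N) +
        3 / m * (2 * c.Z * (1 / (ε * m * u ^ 12) * Th H M + EE H M N D u / m))) := by
  have hm : 1000 ≤ m := le_trans (by norm_num) g.m_big
  have hm0 : 0 < m := by linarith
  have hm3 : 0 < m - 3 := by linarith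
  have hup : 0 < u := lt_of_lt_of_le (by norm_num) g.hu
  have hεp : 0 < ε := by rw [hε]; exact ep_pos huL hμ hm0
  have hεu : 1 / u ≤ ε := by rw [hε, hu]; exact inv_le_ep huL hμ hm0
  have hQ : 0 ≤ Q := by rw [← g.hQ]; positivity
  have hZ := hc.Z V H M N κ S S' m Q u D D' K g
  obtain ⟨w1, w2⟩ := wZ (R := R) huL hμ hm (m := m)
  rw [← hu, ← hε] at w1 w2
  have hZn : 0 ≤ ZZ H M N := ZZ_nonneg
  have hTn : 0 ≤ Th H M := Th_nonneg
  have hEn : 0 ≤ EE H M N D u := le_trans (by positivity) g.EE_ge_m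
  have hwp : 0 ≤ 1 / (ep uL μ R (m - 3) * (m - 3) * uu uL μ (m - 3) ^ 4) := by
    have := uu_pos huL hμ hm3
    have := ep_pos (R := R) huL hμ hm3
    positivity
  have hcZ := c.hZ
  refine (mul_le_mul_of_nonneg_left hZ hwp).trans ?_
  rw [← mul_assoc, mul_comm _ Q, mul_assoc]
  refine mul_le_mul_of_nonneg_left ?_ hQ
  rw [mul_add]
  refine add_le_add ?_ ?_
  · have := mul_le_mul_of_nonneg_right w1 hZn
    calc _ = 1 / (ep uL μ R (m - 3) * (m - 3) * uu uL μ (m - 3) ^ 4) * (1 - 11 / m) *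
          ZZ H M N := by ring
      _ ≤ _ := this
      _ = _ := by ring
  · have hX : 0 ≤ 3 / m * (c.Z * (Th H M / u ^ 8 + u ^ 3 * EE H M N D u)) := by positivity
    refine (mul_le_mul_of_nonneg_right w2 hX).trans ?_
    have e1 : 2 * (1 / (ε * m * u ^ 4)) * (3 / m * (c.Z * (Th H M / u ^ 8 + u ^ 3 * EE H M N D u))) =
        3 / m * (2 * c.Z * (1 / (ε * m * u ^ 12) * Th H M + (1 / (ε * u)) * (EE H M N D u / m))) := by
      field_simp
    rw [e1]
    refine mul_le_mul_of_nonneg_left ?_ (by positivity)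
    refine mul_le_mul_of_nonneg_left ?_ (by positivity)
    have h1 : 1 / (ε * u) ≤ 1 := by
      rw [div_le_one (by positivity)]
      rw [div_le_iff₀ hup] at hεu
      exact hεu
    have h2 : (1 / (ε * u)) * (EE H M N D u / m) ≤ 1 * (EE H M N D u / m) :=
      mul_le_mul_of_nonneg_right h1 (by positivity)
    linarith

theorem weighted_Th (hc : Steps c) (g : GS H M N κ S S' m Q u D D' K) (huL : 0 < uL) (hμ : 0 < μ)
    (hu : u = uu uL μ m) {ε : ℝ} (hε : ε = ep uL μ R m) :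
    1 / (ep uL μ R (m - 3) * (m - 3) * uu uL μ (m - 3) ^ 12) *
      ∑ T ∈ sub H M, Th H (M \ T) ≤
      Q * (1 / (ε * m * u ^ 12) * Th H M - 3 / m / 8 * (1 / (ε * m * u ^ 12) * Th H M) +
        3 / m * (2 * c.Th * (EE H M N D u / m))) := by
  have hm : 1000 ≤ m := le_trans (by norm_num) g.m_big
  have hm0 : 0 < m := by linarith
  have hm3 : 0 < m - 3 := by linarith
  have hup : 0 < u := lt_of_lt_of_le (by norm_num) g.hu
  have hu1 : 1 ≤ u := le_trans (by norm_num) g.hu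
  have hεp : 0 < ε := by rw [hε]; exact ep_pos huL hμ hm0
  have hεu : 1 / u ≤ ε := by rw [hε, hu]; exact inv_le_ep huL hμ hm0
  have hQ : 0 ≤ Q := by rw [← g.hQ]; positivity
  have hZ := hc.Th V H M N κ S S' m Q u D D' K g
  obtain ⟨w1, w2⟩ := wTh (R := R) huL hμ hm (m := m)
  rw [← hu, ← hε] at w1 w2
  have hTn : 0 ≤ Th H M := Th_nonneg
  have hEn : 0 ≤ EE H M N D u := le_trans (by positivity) g.EE_ge_m
  have hwp : 0 ≤ 1 / (ep uL μ R (m - 3) * (m - 3) * uu uL μ (m - 3) ^ 12) := by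
    have := uu_pos huL hμ hm3
    have := ep_pos (R := R) huL hμ hm3
    positivity
  have hcZ := c.hTh
  refine (mul_le_mul_of_nonneg_left hZ hwp).trans ?_
  rw [← mul_assoc, mul_comm _ Q, mul_assoc]
  refine mul_le_mul_of_nonneg_left ?_ hQ
  rw [mul_add]
  refine add_le_add ?_ ?_
  · have := mul_le_mul_of_nonneg_right w1 hTn
    calc _ = 1 / (ep uL μ R (m - 3) * (m - 3) * uu uL μ (m - 3) ^ 12) * (1 - 117 / (5 * m)) *
          Th H M := by ring
      _ ≤ _ := this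
      _ = _ := by ring
  · have hX : 0 ≤ 3 / m * (c.Th * (u ^ 9 * EE H M N D u)) := by positivity
    refine (mul_le_mul_of_nonneg_right w2 hX).trans ?_
    have e1 : 2 * (1 / (ε * m * u ^ 12)) * (3 / m * (c.Th * (u ^ 9 * EE H M N D u))) =
        3 / m * (2 * c.Th * ((1 / (ε * u ^ 3)) * (EE H M N D u / m))) := by
      field_simp
    rw [e1]
    refine mul_le_mul_of_nonneg_left ?_ (by positivity)
    refine mul_le_mul_of_nonneg_left ?_ (by positivity)
    have h1 : 1 / (ε * u ^ 3) ≤ 1 := by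
      rw [div_le_one (by positivity)]
      rw [div_le_iff₀ hup] at hεu
      have h3 : ε * u * 1 ≤ ε * u * u ^ 2 :=
        mul_le_mul_of_nonneg_left (one_le_pow₀ hu1) (by positivity)
      calc (1 : ℝ) ≤ ε * u * 1 := by linarith
        _ ≤ ε * u * u ^ 2 := h3
        _ = ε * u ^ 3 := by ring
    have h2 : (1 / (ε * u ^ 3)) * (EE H M N D u / m) ≤ 1 * (EE H M N D u / m) :=
      mul_le_mul_of_nonneg_right h1 (by positivity)
    linarith

theorem weighted_T (hc : Steps c) (g : GS H M N κ S S' m Q u D D' K) (huL : 0 < uL) (hμ : 0 < μ)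
    (hu : u = uu uL μ m) :
    uu uL μ (m - 3) ^ 3 / (m - 3) * ∑ T ∈ sub H M, TT H (M \ T) D' ≤
      Q * (u ^ 3 / m * TT H M D - 3 / m * (99 / 400 * (u ^ 3 / m *
        ∑ x ∈ M, (1 + (deg H M x : ℝ) / D) * tt ((deg H M x : ℝ) / D))) +
        3 / m * (c.T * (1 / u * (u ^ 4 / m * WW H M N D)))) := by
  have hm : 1000 ≤ m := le_trans (by norm_num) g.m_big
  have hm0 : 0 < m := by linarith
  have hm3 : 0 < m - 3 := by linarith
  have hup : 0 < u := lt_of_lt_of_le (by norm_num) g.hu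
  have hQ : 0 ≤ Q := by rw [← g.hQ]; positivity
  have hZ := hc.T V H M N κ S S' m Q u D D' K g
  obtain ⟨w1, w2⟩ := wT huL hμ hm (m := m)
  rw [← hu] at w1 w2
  have hTn : 0 ≤ TT H M D := TT_nonneg D
  have hWn : 0 ≤ WW H M N D := WW_nonneg
  have hsn : 0 ≤ ∑ x ∈ M, (1 + (deg H M x : ℝ) / D) * tt ((deg H M x : ℝ) / D) :=
    Finset.sum_nonneg fun x _ => mul_nonneg (by have := g.theta_nonneg x; linarith) (tt_nonneg _)
  generalize ∑ x ∈ M, (1 + (deg H M x : ℝ) / D) * tt ((deg H M x : ℝ) / D) = s at *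
  have hwp : 0 ≤ uu uL μ (m - 3) ^ 3 / (m - 3) := by
    have := uu_pos huL hμ hm3
    positivity
  have hcZ := c.hT
  refine (mul_le_mul_of_nonneg_left hZ hwp).trans ?_
  rw [← mul_assoc, mul_comm _ Q, mul_assoc]
  refine mul_le_mul_of_nonneg_left ?_ hQ
  have h1 := mul_le_mul_of_nonneg_right w1 hTn
  have h2 := mul_le_mul_of_nonneg_right w2 (by positivity : 0 ≤ 3 / m * (1 / 4 * s))
  have h3 := mul_le_mul_of_nonneg_right w1 (by positivity : 0 ≤ 3 / m * (c.T * WW H M N D))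
  have e1 : u ^ 3 / m * (3 / m * (c.T * WW H M N D)) =
      3 / m * (c.T * (1 / u * (u ^ 4 / m * WW H M N D))) := by field_simp
  rw [e1] at h3
  have e2 : 99 / 100 * (u ^ 3 / m) * (3 / m * (1 / 4 * s)) =
    3 / m * (99 / 400 * (u ^ 3 / m * s)) := by ring
  rw [e2] at h2
  rw [mul_add, mul_sub]
  linarith

theorem weighted_N (hc : Steps c) (g : GS H M N κ S S' m Q u D D' K) (huL : 0 < uL) (hμ : 0 < μ)
    (hu : u = uu uL μ m) :
    uu uL μ (m - 3) ^ 15 / (m - 3) * ∑ T ∈ sub H M, M8 (M \ T) (Nup H M N D' T) ≤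
      Q * (u ^ 15 / m * M8 M N - 3 / m * (u ^ 15 / m *
        (∑ x ∈ M, (1 + (deg H M x : ℝ) / D) * N x ^ 8) / 5) +
        3 / m * (c.N * (1 / u + u ^ 3 / m *
          ∑ x ∈ M, (1 + (deg H M x : ℝ) / D) * tt ((deg H M x : ℝ) / D)))) := by
  have hm : 1000 ≤ m := le_trans (by norm_num) g.m_big
  have hm0 : 0 < m := by linarith
  have hm3 : 0 < m - 3 := by linarith
  have hup : 0 < u := lt_of_lt_of_le (by norm_num) g.hu
  have hu1 : 1 ≤ u := le_trans (by norm_num) g.hu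
  have hQ : 0 ≤ Q := by rw [← g.hQ]; positivity
  have hZ := hc.N V H M N κ S S' m Q u D D' K g
  obtain ⟨w1, w2⟩ := wN huL hμ hm (m := m)
  rw [← hu] at w1 w2
  have hMn : 0 ≤ M8 M N := M8_nonneg
  have hTn : 0 ≤ TT H M D := TT_nonneg D
  have hsn : 0 ≤ ∑ x ∈ M, (deg H M x : ℝ) / D * N x ^ 8 :=
    Finset.sum_nonneg fun x _ => mul_nonneg (g.theta_nonneg x) (by positivity)
  have hTT : TT H M D ≤ ∑ x ∈ M, (1 + (deg H M x : ℝ) / D) * tt ((deg H M x : ℝ) / D) := by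
    refine Finset.sum_le_sum fun x _ => ?_
    have h1 := g.theta_nonneg x
    have h2 := tt_nonneg ((deg H M x : ℝ) / D)
    nlinarith
  have e0 : ∑ x ∈ M, (1 + (deg H M x : ℝ) / D) * N x ^ 8 =
      M8 M N + ∑ x ∈ M, (deg H M x : ℝ) / D * N x ^ 8 := by
    unfold M8; rw [← sum_add_distrib]; exact sum_congr rfl fun x _ => by ring
  rw [e0]
  generalize ∑ x ∈ M, (deg H M x : ℝ) / D * N x ^ 8 = s at *
  generalize ∑ x ∈ M, (1 + (deg H M x : ℝ) / D) * tt ((deg H M x : ℝ) / D) = s2 at *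
  have hwp : 0 ≤ uu uL μ (m - 3) ^ 15 / (m - 3) := by
    have := uu_pos huL hμ hm3
    positivity
  have hcZ := c.hN
  refine (mul_le_mul_of_nonneg_left hZ hwp).trans ?_
  rw [← mul_assoc, mul_comm _ Q, mul_assoc]
  refine mul_le_mul_of_nonneg_left ?_ hQ
  have h1 := mul_le_mul_of_nonneg_right w1 hMn
  have h2 := mul_le_mul_of_nonneg_right w2 (by positivity : 0 ≤ 3 / m * (1 / 4 * s))
  have hw1' : uu uL μ (m - 3) ^ 15 / (m - 3) ≤ u ^ 15 / m := by
    refine w1.trans ?_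
    have h5 : 0 ≤ 18 / m := by positivity
    calc u ^ 15 / m * (1 - 18 / m) ≤ u ^ 15 / m * 1 :=
          mul_le_mul_of_nonneg_left (by linarith) (by positivity)
      _ = _ := by ring
  have h3 := mul_le_mul_of_nonneg_right hw1'
    (by positivity : 0 ≤ 3 / m * (c.N * ((m + TT H M D) / u ^ 16)))
  have e1 : u ^ 15 / m * (3 / m * (c.N * ((m + TT H M D) / u ^ 16))) =
      3 / m * (c.N * (1 / u + 1 / u * (TT H M D / m))) := by field_simp
  rw [e1] at h3
  have h4 : 3 / m * (c.N * (1 / u + 1 / u * (TT H M D / m))) ≤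
      3 / m * (c.N * (1 / u + u ^ 3 / m * s2)) := by
    refine mul_le_mul_of_nonneg_left ?_ (by positivity)
    refine mul_le_mul_of_nonneg_left ?_ (by linarith)
    have h5 : 1 / u ≤ u ^ 3 := by
      rw [div_le_iff₀ hup]
      calc (1 : ℝ) ≤ u ^ 4 := one_le_pow₀ hu1
        _ = u ^ 3 * u := by ring
    have h6 : TT H M D / m ≤ s2 / m := div_le_div_of_nonneg_right hTT hm0.le
    have h7 : 1 / u * (TT H M D / m) ≤ u ^ 3 * (s2 / m) :=
      mul_le_mul h5 h6 (by positivity) (by positivity)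
    have e3 : u ^ 3 * (s2 / m) = u ^ 3 / m * s2 := by ring
    linarith
  have e2 : 9 / 10 * (u ^ 15 / m) * (3 / m * (1 / 4 * s)) =
    3 / m * (9 / 40 * (u ^ 15 / m * s)) := by ring
  rw [e2] at h2
  have e4 : u ^ 15 / m * (1 - 18 / m) * M8 M N = u ^ 15 / m * M8 M N -
    3 / m * (6 * (u ^ 15 / m * M8 M N)) := by ring
  rw [e4] at h1
  have h8 : 3 / m * (u ^ 15 / m * (M8 M N + s) / 5) ≤
      3 / m * (6 * (u ^ 15 / m * M8 M N)) + 3 / m * (9 / 40 * (u ^ 15 / m * s)) := by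
    rw [← mul_add]
    refine mul_le_mul_of_nonneg_left ?_ (by positivity)
    have h9 : 0 ≤ u ^ 15 / m * M8 M N := by positivity
    have h10 : 0 ≤ u ^ 15 / m * s := by positivity
    have e5 : u ^ 15 / m * (M8 M N + s) / 5 = (u ^ 15 / m * M8 M N + u ^ 15 / m * s) / 5 := by ring
    rw [e5]; linarith
  rw [mul_add, mul_sub]
  linarith

theorem weighted_q (hc : Steps c) (g : GS H M N κ S S' m Q u D D' K) (huL : 0 < uL) (hμ : 0 < μ)
    (hu : u = uu uL μ m) :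
    uu uL μ (m - 3) ^ 5 *
      ∑ T ∈ sub H M, (((sub H (M \ T)).card : ℝ) / Qh κ (m - 3) + S' - 1) ^ 2 ≤
      Q * (u ^ 5 * (Q / Qh κ m + S - 1) ^ 2 -
        3 / m * (13 / 10 * (u ^ 5 * (Q / Qh κ m + S - 1) ^ 2)) + 3 / m * (c.q * (1 / u))) := by
  have hm : 1000 ≤ m := le_trans (by norm_num) g.m_big
  have hm0 : 0 < m := by linarith
  have hm3 : 0 < m - 3 := by linarith
  have hup : 0 < u := lt_of_lt_of_le (by norm_num) g.hu
  have hQ : 0 ≤ Q := by rw [← g.hQ]; positivity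
  have hZ := hc.q V H M N κ S S' m Q u D D' K g
  obtain ⟨w1, w2⟩ := wQ huL hμ hm (m := m)
  rw [← hu] at w1 w2
  have hs : 0 ≤ (Q / Qh κ m + S - 1) ^ 2 := sq_nonneg _
  generalize (Q / Qh κ m + S - 1) ^ 2 = s at *
  have hwp : 0 ≤ uu uL μ (m - 3) ^ 5 := by
    have := uu_pos huL hμ hm3
    positivity
  have hcq := c.hq
  refine (mul_le_mul_of_nonneg_left hZ hwp).trans ?_
  rw [← mul_assoc, mul_comm _ Q, mul_assoc]
  refine mul_le_mul_of_nonneg_left ?_ hQ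
  have h1 := mul_le_mul_of_nonneg_right w1 hs
  have h2 := mul_le_mul_of_nonneg_right w2 (by positivity : 0 ≤ 3 / m * (c.q / u ^ 6))
  have e1 : u ^ 5 * (3 / m * (c.q / u ^ 6)) = 3 / m * (c.q * (1 / u)) := by field_simp
  rw [e1] at h2
  have e2 : uu uL μ (m - 3) ^ 5 * (s + 3 / m * (s + c.q / u ^ 6)) =
    uu uL μ (m - 3) ^ 5 * (1 + 3 / m) * s + uu uL μ (m - 3) ^ 5 * (3 / m * (c.q / u ^ 6)) := by ring
  rw [e2]
  have e3 : u ^ 5 * (1 - 13 / 10 * (3 / m)) * s = u ^ 5 * s - 3 / m * (13 / 10 * (u ^ 5 * s)) := by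
    ring
  rw [e3] at h1
  linarith

end weighted

end Vale.Agent.P046LF
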