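import Vale.Agent.P046LF.Pot

/-!
P046 log-free, module S7 (part 4): one step for the whole potential.
-/

namespace Vale.Agent.P046LF

open Finset Vale.Agent.P046

variable {V : Type} [DecidableEq V] {H : Finset (Finset V)} {M : Finset V} {N : V → ℝ}
  {κ S S' m Q u D D' K uL μ R : ℝ} {c : Cs}

theorem card_next (g : GS H M N κ S S' m Q u D D' K) {T : Finset V} (hT : T ∈ sub H M) :
    (((M \ T).card : ℕ) : ℝ) = m - 3 := by
  have h3 := card_sdiff_of_mem g.lin hT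
  have : ((M \ T).card : ℝ) + 3 = M.card := by exact_mod_cast h3
  rw [← g.hm]; linarith

/-- the constant in the growth rate -/
noncomputable def C4c (c : Cs) (uL : ℝ) : ℝ := c.W + c.W * Real.sqrt uL + c.C2

theorem Phi_nonneg (huL : 0 < uL) (hμ : 0 < μ) (hm : μ ≤ (M.card : ℝ)) (hS : 0 ≤ S) (hK : 0 ≤ K) :
    0 ≤ Phi c κ uL μ R K H M N S := by
  have hm0 : (0 : ℝ) < M.card := by linarith
  have hu := uu_pos huL hμ hm0
  have he := ep_pos (R := R) huL hμ hm0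
  have h1 : 0 ≤ WW H M N (Dr κ M.card S) := WW_nonneg
  have h2 : 0 ≤ ZZ H M N := ZZ_nonneg
  have h3 : 0 ≤ Th H M := Th_nonneg
  have h4 : 0 ≤ TT H M (Dr κ M.card S) := TT_nonneg _
  have h5 : 0 ≤ M8 M N := M8_nonneg
  have h6 := cw_nonneg (le_trans zero_le_one c.C3_pos) huL hμ hm
  have a1 := c.AZ_pos
  have a2 := c.ATh_pos
  have a3 := c.AT_pos
  have a4 := c.AN_pos
  have a5 := c.hW
  unfold Phi
  positivity

theorem W_le_Phi (huL : 0 < uL) (hμ : 0 < μ) (hm : μ ≤ (M.card : ℝ)) (hS : 0 ≤ S) (hK : 0 ≤ K) :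
    uu uL μ M.card ^ 4 / M.card * WW H M N (Dr κ M.card S) ≤ Phi c κ uL μ R K H M N S ∧
    uu uL μ M.card ^ 5 * ((sub H M).card / Qh κ M.card + S - 1) ^ 2 ≤
      Phi c κ uL μ R K H M N S ∧
    16 * (K * S) ≤ Phi c κ uL μ R K H M N S ∧
    uu uL μ M.card ^ 15 / M.card * M8 M N ≤ Phi c κ uL μ R K H M N S := by
  have hm0 : (0 : ℝ) < M.card := by linarith
  have hu := uu_pos huL hμ hm0
  have he := ep_pos (R := R) huL hμ hm0
  have h1 : 0 ≤ WW H M N (Dr κ M.card S) := WW_nonneg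
  have h2 : 0 ≤ ZZ H M N := ZZ_nonneg
  have h3 : 0 ≤ Th H M := Th_nonneg
  have h4 : 0 ≤ TT H M (Dr κ M.card S) := TT_nonneg _
  have h5 : 0 ≤ M8 M N := M8_nonneg
  have h6 := cw_nonneg (le_trans zero_le_one c.C3_pos) huL hμ hm
  have a1 := c.AZ_pos
  have a2 := c.ATh_pos
  have a3 := c.AT_pos
  have a4 := c.AN_pos
  have a5 := c.hW
  have b1 : 0 ≤ uu uL μ M.card ^ 4 / M.card * WW H M N (Dr κ M.card S) := by positivity
  have b2 : 0 ≤ c.AZ * (1 / (ep uL μ R M.card * M.card * uu uL μ M.card ^ 4) * ZZ H M N) := by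
    positivity
  have b3 : 0 ≤ c.ATh * (1 / (ep uL μ R M.card * M.card * uu uL μ M.card ^ 12) * Th H M) := by
    positivity
  have b4 : 0 ≤ c.AT * (uu uL μ M.card ^ 3 / M.card * TT H M (Dr κ M.card S)) := by positivity
  have b5' : 0 ≤ uu uL μ M.card ^ 15 / M.card * M8 M N := by positivity
  have b5 : uu uL μ M.card ^ 15 / M.card * M8 M N ≤
      c.AN * (uu uL μ M.card ^ 15 / M.card * M8 M N) := by nlinarith
  have b6' : 0 ≤ uu uL μ M.card ^ 5 * ((sub H M).card / Qh κ M.card + S - 1) ^ 2 := by positivity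
  have b6 : uu uL μ M.card ^ 5 * ((sub H M).card / Qh κ M.card + S - 1) ^ 2 ≤
      c.W * (uu uL μ M.card ^ 5 * ((sub H M).card / Qh κ M.card + S - 1) ^ 2) := by nlinarith
  have b7 : 0 ≤ 16 * (K * S) := by positivity
  unfold Phi
  refine ⟨?_, ?_, ?_, ?_⟩ <;> linarith

theorem Phi_step (hc : Steps c) (g : GS H M N κ S S' m Q u D D' K) (huL : 0 < uL) (hμ : 0 < μ)
    (hμm : μ ≤ m) (hu : u = uu uL μ m) (hKL : K ≤ uL ^ 3) :
    ∑ T ∈ sub H M, Phi c κ uL μ R K H (M \ T) (Nup H M N D' T) S' ≤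
      Q * (Phi c κ uL μ R K H M N S * (1 + 3 / m * (c.W * Real.sqrt (m / R) + C4c c uL / u))) := by
  have hm : 1000 ≤ m := le_trans (by norm_num) g.m_big
  have hm0 : 0 < m := by linarith
  have hm3 : 0 < m - 3 := by linarith
  have hup : 0 < u := lt_of_lt_of_le (by norm_num) g.hu
  have hQnn : 0 ≤ Q := by rw [← g.hQ]; positivity
  have hQ : 0 < Q := by
    have h1 := g.Q_lo
    have h2 := g.D_lo
    have h3 : 0 < D := lt_of_lt_of_le (by positivity) h2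
    have : 0 < 3 / 10 * (m * D) := by positivity
    linarith
  obtain ⟨ε, hε⟩ : ∃ ε, ε = ep uL μ R m := ⟨_, rfl⟩
  have hεp : 0 < ε := by rw [hε]; exact ep_pos huL hμ hm0
  have i1 := weighted_W hc g huL hμ hu hε
  have i2 := weighted_Z hc g huL hμ hu hε
  have i3 := weighted_Th hc g huL hμ hu hε
  have i4 := weighted_T hc g huL hμ hu
  have i5 := weighted_N hc g huL hμ hu
  have i6 := weighted_q hc g huL hμ hu
  have i7 := hc.S V H M N κ S S' m Q u D D' K g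
  have i8 := cw_diff (uL := uL) (μ := μ) (m := m) (le_trans zero_le_one c.C3_pos) huL hμ hm
  rw [← hu] at i8
  -- nonnegativity
  have hWn : 0 ≤ WW H M N D := WW_nonneg
  have hZn : 0 ≤ ZZ H M N := ZZ_nonneg
  have hTn : 0 ≤ Th H M := Th_nonneg
  have hE := EE_eq (H := H) (M := M) (N := N) D u
  rw [g.hm] at hE
  have hs1 : 0 ≤ ∑ x ∈ M, (1 + (deg H M x : ℝ) / D) * tt ((deg H M x : ℝ) / D) :=
    Finset.sum_nonneg fun x _ => mul_nonneg (by have := g.theta_nonneg x; linarith) (tt_nonneg _)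
  have hs2 : 0 ≤ ∑ x ∈ M, (1 + (deg H M x : ℝ) / D) * N x ^ 8 :=
    Finset.sum_nonneg fun x _ => mul_nonneg (by have := g.theta_nonneg x; linarith) (by positivity)
  have hq2 : 0 ≤ (Q / Qh κ m + S - 1) ^ 2 := sq_nonneg _
  -- the sum of the children
  have hchild : ∀ T ∈ sub H M, Phi c κ uL μ R K H (M \ T) (Nup H M N D' T) S' =
      uu uL μ (m - 3) ^ 4 / (m - 3) * WW H (M \ T) (Nup H M N D' T) D' +
      c.AZ * (1 / (ep uL μ R (m - 3) * (m - 3) * uu uL μ (m - 3) ^ 4) *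
        ZZ H (M \ T) (Nup H M N D' T)) +
      c.ATh * (1 / (ep uL μ R (m - 3) * (m - 3) * uu uL μ (m - 3) ^ 12) * Th H (M \ T)) +
      c.AT * (uu uL μ (m - 3) ^ 3 / (m - 3) * TT H (M \ T) D') +
      c.AN * (uu uL μ (m - 3) ^ 15 / (m - 3) * M8 (M \ T) (Nup H M N D' T)) +
      c.W * (uu uL μ (m - 3) ^ 5 *
        (((sub H (M \ T)).card : ℝ) / Qh κ (m - 3) + S' - 1) ^ 2) +
      16 * (K * S') + cw uL μ c.C3 (m - 3) := by
    intro T hT
    have e1 : Dr κ (m - 3) S' = D' := by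
      rw [g.hD']; unfold Dr; ring
    unfold Phi
    rw [card_next g hT, e1]
  rw [sum_congr rfl hchild]
  simp only [sum_add_distrib, ← mul_sum, sum_const, nsmul_eq_mul]
  rw [g.hQ]
  -- divide by Q
  obtain ⟨w', hw'⟩ : ∃ w', w' = (uu uL μ (m - 3) ^ 4 / (m - 3) *
    ∑ T ∈ sub H M, WW H (M \ T) (Nup H M N D' T) D') / Q := ⟨_, rfl⟩
  obtain ⟨z', hz'⟩ : ∃ z', z' = (1 / (ep uL μ R (m - 3) * (m - 3) * uu uL μ (m - 3) ^ 4) *
      ∑ T ∈ sub H M, ZZ H (M \ T) (Nup H M N D' T)) / Q := ⟨_, rfl⟩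
  obtain ⟨t', ht'⟩ : ∃ t', t' = (1 / (ep uL μ R (m - 3) * (m - 3) * uu uL μ (m - 3) ^ 12) *
      ∑ T ∈ sub H M, Th H (M \ T)) / Q := ⟨_, rfl⟩
  obtain ⟨tb', htb'⟩ : ∃ tb', tb' = (uu uL μ (m - 3) ^ 3 / (m - 3) *
      ∑ T ∈ sub H M, TT H (M \ T) D') / Q := ⟨_, rfl⟩
  obtain ⟨n', hn'⟩ : ∃ n', n' = (uu uL μ (m - 3) ^ 15 / (m - 3) *
      ∑ T ∈ sub H M, M8 (M \ T) (Nup H M N D' T)) / Q := ⟨_, rfl⟩
  obtain ⟨q', hq'⟩ : ∃ q', q' = (uu uL μ (m - 3) ^ 5 *
      ∑ T ∈ sub H M, (((sub H (M \ T)).card : ℝ) / Qh κ (m - 3) + S' - 1) ^ 2) / Q := ⟨_, rfl⟩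
  have div_le : ∀ {a b : ℝ}, a ≤ Q * b → a / Q ≤ b := by
    intro a b h
    rw [div_le_iff₀ hQ, mul_comm]; exact h
  have j1 := div_le i1
  have j2 := div_le i2
  have j3 := div_le i3
  have j4 := div_le i4
  have j5 := div_le i5
  have j6 := div_le i6
  rw [← hw'] at j1
  rw [← hz'] at j2
  rw [← ht'] at j3
  rw [← htb'] at j4
  rw [← hn'] at j5
  rw [← hq'] at j6
  have hmulQ : ∀ {a b : ℝ}, b = a / Q → a = Q * b := by
    intro a b h
    rw [h]; field_simp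
  rw [hmulQ hw', hmulQ hz', hmulQ ht', hmulQ htb', hmulQ hn', hmulQ hq']
  have hcomb := c.comb (x := 3 / m) (ε := ε) (k := Real.sqrt K / u ^ 2)
    (w := u ^ 4 / m * WW H M N D) (z := 1 / (ε * m * u ^ 4) * ZZ H M N)
    (θ := 1 / (ε * m * u ^ 12) * Th H M)
    (t := u ^ 3 / m * ∑ x ∈ M, (1 + (deg H M x : ℝ) / D) * tt ((deg H M x : ℝ) / D))
    (tb := u ^ 3 / m * TT H M D)
    (n := u ^ 15 / m * ∑ x ∈ M, (1 + (deg H M x : ℝ) / D) * N x ^ 8)
    (nb := u ^ 15 / m * M8 M N)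
    (q := u ^ 5 * (Q / Qh κ m + S - 1) ^ 2)
    (iu := 1 / u) (eb := EE H M N D u / m) (s := K * S) (cc := cw uL μ c.C3 m)
    (w' := w') (z' := z') (θ' := t') (tb' := tb') (nb' := n') (q' := q') (s' := K * S')
    (cc' := cw uL μ c.C3 (m - 3))
    (by positivity) hεp.le (by positivity) (by positivity) (by positivity) (by positivity)
    (by positivity) (by positivity) (by positivity) (by positivity)
    (by rw [hE]; field_simp) j1 j2 j3 (by linarith) (by linarith) j6 (by linarith)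
    (by
      have e : c.C3 * (1 / u) = c.C3 / u := by ring
      rw [e]; exact i8)
  -- growth coefficient
  have hK0 : 0 ≤ K := le_trans zero_le_one g.hK1
  have huLu : uL ≤ u := by rw [hu]; exact uL_le_uu huL hμ hμm
  have hk : Real.sqrt K / u ^ 2 ≤ Real.sqrt uL / u := by
    rw [div_le_div_iff₀ (by positivity) hup]
    have h1 : Real.sqrt K ≤ Real.sqrt uL * u := by
      rw [← Real.sqrt_sq hup.le, ← Real.sqrt_mul huL.le]
      apply Real.sqrt_le_sqrt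
      have h2 : uL ^ 2 ≤ u ^ 2 := pow_le_pow_left₀ huL.le huLu 2
      calc K ≤ uL ^ 3 := hKL
        _ = uL * uL ^ 2 := by ring
        _ ≤ uL * u ^ 2 := mul_le_mul_of_nonneg_left h2 huL.le
    have := mul_le_mul_of_nonneg_right h1 hup.le
    linarith
  have hPhi : Phi c κ uL μ R K H M N S = (u ^ 4 / m * WW H M N D +
      c.AZ * (1 / (ε * m * u ^ 4) * ZZ H M N) + c.ATh * (1 / (ε * m * u ^ 12) * Th H M) +
      c.AT * (u ^ 3 / m * TT H M D) + c.AN * (u ^ 15 / m * M8 M N) +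
      c.W * (u ^ 5 * (Q / Qh κ m + S - 1) ^ 2) + 16 * (K * S) + cw uL μ c.C3 m) := by
    have e1 : Dr κ m S = D := by rw [g.hD]; rfl
    unfold Phi
    rw [g.hm, g.hQ, ← hu, ← hε, e1]
  have hwPhi : u ^ 4 / m * WW H M N D ≤ Phi c κ uL μ R K H M N S := by
    have h1 := (W_le_Phi (c := c) (κ := κ) (R := R) (H := H) (M := M) (N := N) (S := S) (K := K)
      huL hμ (by rw [g.hm]; exact hμm) g.hS0 hK0).1
    have e1 : Dr κ m S = D := by rw [g.hD]; rfl
    rw [g.hm, ← hu, e1] at h1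
    exact h1
  rw [← hPhi] at hcomb
  have hPn : 0 ≤ Phi c κ uL μ R K H M N S :=
    Phi_nonneg huL hμ (by rw [g.hm]; exact hμm) g.hS0 hK0
  have hcoef : c.W * ε + c.W * (Real.sqrt K / u ^ 2) + c.C2 * (1 / u) ≤
      c.W * Real.sqrt (m / R) + C4c c uL / u := by
    have hW := c.hW
    have h1 := mul_le_mul_of_nonneg_left hk (by linarith : 0 ≤ c.W)
    have e1 : C4c c uL / u = c.W * (1 / u) + c.W * (Real.sqrt uL / u) + c.C2 * (1 / u) := by
      unfold C4c; ring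
    have e2 : ε = Real.sqrt (m / R) + 1 / u := by rw [hε, hu]; rfl
    rw [e1, e2]
    linarith
  have hcoef0 : 0 ≤ c.W * ε + c.W * (Real.sqrt K / u ^ 2) + c.C2 * (1 / u) := by
    have hW := c.hW
    have hC2 := c.C2_pos
    positivity
  have hgr : (c.W * ε + c.W * (Real.sqrt K / u ^ 2) + c.C2 * (1 / u)) *
      (u ^ 4 / m * WW H M N D) ≤
      (c.W * Real.sqrt (m / R) + C4c c uL / u) * Phi c κ uL μ R K H M N S :=
    mul_le_mul hcoef hwPhi (by positivity) (hcoef0.trans hcoef)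
  have hgr2 := mul_le_mul_of_nonneg_left hgr (by positivity : 0 ≤ 3 / m)
  have hfin : w' + c.AZ * z' + c.ATh * t' + c.AT * tb' + c.AN * n' + c.W * q' + 16 * (K * S') +
      cw uL μ c.C3 (m - 3) ≤ Phi c κ uL μ R K H M N S *
        (1 + 3 / m * (c.W * Real.sqrt (m / R) + C4c c uL / u)) := by
    refine hcomb.trans ?_
    linarith
  have := mul_le_mul_of_nonneg_left hfin hQnn
  refine le_trans (le_of_eq ?_) this
  ring

end Vale.Agent.P046LF
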