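import Vale.Agent.P046LF.Pot2

/-!
P046 log-free, module S7 (part 5): the induction.
-/

namespace Vale.Agent.P046LF

open Finset Vale.Agent.P046

variable {V : Type} [DecidableEq V] {H : Finset (Finset V)} {M : Finset V} {N : V → ℝ}
  {κ S S' m Q u D D' K uL μ R : ℝ} {c : Cs}

/-- the normalizing constant -/
noncomputable def G0 (c : Cs) (uL : ℝ) : ℝ := 2 * c.W + 2 * C4c c uL / uL

/-- normalized potential -/
noncomputable def LamK (c : Cs) (κ uL μ R K : ℝ) (H : Finset (Finset V)) (M : Finset V)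
    (N : V → ℝ) (S : ℝ) : ℝ :=
  Real.exp (G0 c uL - Gf uL μ R c.W (C4c c uL) M.card) * (Phi c κ uL μ R K H M N S / K)

theorem C4c_nonneg : 0 ≤ C4c c uL := by
  have h1 := c.hW
  have h2 := c.C2_pos
  unfold C4c
  positivity

theorem le_LamK (huL : 0 < uL) (hμ : 0 < μ) (hm : μ ≤ (M.card : ℝ)) (hS : 0 ≤ S) (hK : 0 < K) :
    Phi c κ uL μ R K H M N S / K ≤ LamK c κ uL μ R K H M N S := by
  have h1 := Phi_nonneg (c := c) (κ := κ) (R := R) (H := H) (M := M) (N := N) huL hμ hm hS hK.le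
  have h2 := Gf_le (R := R) (le_trans zero_le_one c.hW) (C4c_nonneg (c := c) (uL := uL)) huL hμ hm
  have h3 : 1 ≤ Real.exp (G0 c uL - Gf uL μ R c.W (C4c c uL) M.card) := by
    apply Real.one_le_exp
    unfold G0
    linarith
  unfold LamK
  have h4 : 0 ≤ Phi c κ uL μ R K H M N S / K := by positivity
  calc Phi c κ uL μ R K H M N S / K = 1 * (Phi c κ uL μ R K H M N S / K) := by ring
    _ ≤ _ := mul_le_mul_of_nonneg_right h3 h4

theorem LamK_nonneg (huL : 0 < uL) (hμ : 0 < μ) (hm : μ ≤ (M.card : ℝ)) (hS : 0 ≤ S)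
    (hK : 0 < K) : 0 ≤ LamK c κ uL μ R K H M N S := by
  have h1 := Phi_nonneg (c := c) (κ := κ) (R := R) (H := H) (M := M) (N := N) huL hμ hm hS hK.le
  unfold LamK
  positivity

theorem one_le_LamK (huL : 1 ≤ uL) (hμ : 0 < μ) (hm : μ ≤ (M.card : ℝ)) (hS : 0 ≤ S)
    (hK : 0 < K) (hKL : K ≤ uL ^ 3)
    (hbad : 1 / 16 < S ∨ 1 / uu uL μ M.card < |((sub H M).card : ℝ) / Qh κ M.card + S - 1| ∨
      K * M.card < uu uL μ M.card ^ 4 * WW H M N (Dr κ M.card S)) :
    1 ≤ LamK c κ uL μ R K H M N S := by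
  have huL0 : 0 < uL := by linarith
  have hm0 : (0 : ℝ) < M.card := by linarith
  refine le_trans ?_ (le_LamK huL0 hμ hm hS hK)
  rw [one_le_div hK]
  obtain ⟨h1, h2, h3, _⟩ := W_le_Phi (c := c) (κ := κ) (R := R) (H := H) (M := M) (N := N)
    (S := S) (K := K) huL0 hμ hm hS hK.le
  have hu := uu_pos huL0 hμ hm0
  have hul := uL_le_uu huL0 hμ hm
  rcases hbad with h | h | h
  · refine le_trans ?_ h3
    nlinarith
  · refine le_trans ?_ h2
    have h4 : (1 / uu uL μ M.card) ^ 2 ≤ (((sub H M).card : ℝ) / Qh κ M.card + S - 1) ^ 2 := by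
      rw [← sq_abs (((sub H M).card : ℝ) / Qh κ M.card + S - 1)]
      exact pow_le_pow_left₀ (by positivity) h.le 2
    have h5 := mul_le_mul_of_nonneg_left h4 (by positivity : 0 ≤ uu uL μ M.card ^ 5)
    refine le_trans ?_ h5
    have e : uu uL μ M.card ^ 5 * (1 / uu uL μ M.card) ^ 2 = uu uL μ M.card ^ 3 := by
      field_simp
    rw [e]
    exact hKL.trans (pow_le_pow_left₀ huL0.le hul 3)
  · refine le_trans ?_ h1
    have e : uu uL μ M.card ^ 4 / M.card * WW H M N (Dr κ M.card S) =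
      uu uL μ M.card ^ 4 * WW H M N (Dr κ M.card S) / M.card := by ring
    rw [e, le_div_iff₀ hm0]
    exact h.le

/-- one step of the induction -/
theorem LamK_step (hc : Steps c) (g : GS H M N κ S S' m Q u D D' K) (huL : 0 < uL) (hμ : 0 < μ)
    (hμm : μ ≤ m) (hu : u = uu uL μ m) (hKL : K ≤ uL ^ 3) :
    ∑ T ∈ sub H M, LamK c κ uL μ R K H (M \ T) (Nup H M N D' T) S' ≤
      Q * LamK c κ uL μ R K H M N S := by
  have hm : 1000 ≤ m := le_trans (by norm_num) g.m_big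
  have hm0 : 0 < m := by linarith
  have hup : 0 < u := lt_of_lt_of_le (by norm_num) g.hu
  have hK0 : 0 < K := lt_of_lt_of_le zero_lt_one g.hK1
  have hQ : 0 ≤ Q := by rw [← g.hQ]; positivity
  have hstep := Phi_step (R := R) hc g huL hμ hμm hu hKL
  have hP : 0 ≤ Phi c κ uL μ R K H M N S :=
    Phi_nonneg huL hμ (by rw [g.hm]; exact hμm) g.hS0 hK0.le
  have hG := Gf_diff (R := R) (le_trans zero_le_one c.hW) (C4c_nonneg (c := c) (uL := uL)) huL hμ hm
  rw [← hu] at hG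
  have e1 : ∀ T ∈ sub H M, LamK c κ uL μ R K H (M \ T) (Nup H M N D' T) S' =
      Real.exp (G0 c uL - Gf uL μ R c.W (C4c c uL) (m - 3)) / K *
        Phi c κ uL μ R K H (M \ T) (Nup H M N D' T) S' := by
    intro T hT
    unfold LamK
    rw [card_next g hT]; ring
  rw [sum_congr rfl e1, ← mul_sum]
  refine (mul_le_mul_of_nonneg_left hstep (by positivity)).trans ?_
  obtain ⟨y, hy⟩ : ∃ y, y = 3 / m * (c.W * Real.sqrt (m / R) + C4c c uL / u) := ⟨_, rfl⟩
  rw [← hy] at hG ⊢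
  have h1 : 1 + y ≤ Real.exp y := by
    have := Real.add_one_le_exp y
    linarith
  have h2 : Real.exp (G0 c uL - Gf uL μ R c.W (C4c c uL) (m - 3)) * (1 + y) ≤
      Real.exp (G0 c uL - Gf uL μ R c.W (C4c c uL) m) := by
    calc _ ≤ Real.exp (G0 c uL - Gf uL μ R c.W (C4c c uL) (m - 3)) * Real.exp y :=
          mul_le_mul_of_nonneg_left h1 (Real.exp_pos _).le
      _ = Real.exp (G0 c uL - Gf uL μ R c.W (C4c c uL) (m - 3) + y) := (Real.exp_add _ _).symm
      _ ≤ _ := Real.exp_le_exp.2 (by linarith)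
  unfold LamK
  rw [g.hm]
  have h3 : 0 ≤ Q * (Phi c κ uL μ R K H M N S / K) := by positivity
  have h4 := mul_le_mul_of_nonneg_right h2 h3
  calc _ = Real.exp (G0 c uL - Gf uL μ R c.W (C4c c uL) (m - 3)) * (1 + y) *
        (Q * (Phi c κ uL μ R K H M N S / K)) := by ring
    _ ≤ _ := h4
    _ = _ := by ring

theorem cost_le_LamK {D0 : ℝ} {g : Finset V → ℝ} (hc : Steps c) (hH : IsLin3 H) (hκ : 0 < κ)
    (huL : 1000 ≤ uL) (hμ : 0 < μ) (huL4 : uL ^ 4 = κ * μ ^ 2) (hR6 : uL ^ 6 * R ^ 2 ≤ μ ^ 3)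
    (hD0 : D0 * uL ^ 2 ≤ μ) (hK1 : 1 ≤ K) (hKL : K ≤ uL ^ 3) (hg1 : ∀ M, g M ≤ 1)
    (hg : ∀ (M : Finset V) (N : V → ℝ) (S : ℝ), (M.card : ℝ) = μ → (∀ x ∈ M, |N x| ≤ 1 / 4) →
      0 ≤ S → g M ≤ LamK c κ uL μ R K H M N S) (k : ℕ) :
    ∀ (M : Finset V) (N : V → ℝ) (S : ℝ), (M.card : ℝ) = μ + 3 * k → (M.card : ℝ) ≤ R →
      (∀ x ∈ M, |N x| ≤ 1 / 4) → 0 ≤ S → (∀ x ∈ M, (deg H M x : ℝ) ≤ D0) →
      cost H g k M ≤ LamK c κ uL μ R K H M N S := by
  have huL0 : 0 < uL := by linarith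
  have hK0 : 0 < K := by linarith
  induction k with
  | zero =>
    intro M N S hM _ hN hS _
    unfold cost
    exact hg M N S (by rw [hM]; simp) hN hS
  | succ k ih =>
    intro M N S hM hMR hN hS hdeg
    have hk0 : (0 : ℝ) ≤ k := by positivity
    push_cast at hM
    have hmμ : μ ≤ (M.card : ℝ) := by rw [hM]; linarith
    by_cases hbad : 1 / 16 < S ∨ 1 / uu uL μ M.card <
        |((sub H M).card : ℝ) / Qh κ M.card + S - 1| ∨
        K * M.card < uu uL μ M.card ^ 4 * WW H M N (Dr κ M.card S)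
    · exact (cost_le_one hg1 _ _).trans (one_le_LamK (by linarith) hμ hmμ hS hK0 hKL hbad)
    push Not at hbad
    obtain ⟨hS1, hZ, hF⟩ := hbad
    obtain ⟨m, hm⟩ : ∃ m : ℝ, m = M.card := ⟨_, rfl⟩
    obtain ⟨Q, hQ⟩ : ∃ Q : ℝ, Q = (sub H M).card := ⟨_, rfl⟩
    obtain ⟨u, hu⟩ : ∃ u : ℝ, u = uu uL μ m := ⟨_, rfl⟩
    rw [← hm, ← hQ, ← hu] at hZ
    rw [← hm, ← hu] at hF
    rw [← hm] at hM hmμ hMR
    have hm0 : 0 < m := by linarith
    have hul : uL ≤ u := by rw [hu]; exact uL_le_uu huL0 hμ hmμ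
    obtain ⟨S', hS'⟩ : ∃ S' : ℝ, S' = S + (S2 H M - m * (3 * Q / m) ^ 2) / (Q * Qh κ (m - 3)) :=
      ⟨_, rfl⟩
    obtain ⟨D', hD'⟩ : ∃ D' : ℝ, D' = κ * (m - 6) * (m - 9) * (1 - S') := ⟨_, rfl⟩
    have hu2 : u ^ 2 = uL ^ 2 * (m / μ) := by rw [hu]; exact uu_sq hμ hm0
    have gs : GS H M N κ S S' m Q u (Dr κ m S) D' K := by
      refine ⟨hH, hm.symm, hQ.symm, hκ, by linarith, ?_, ?_, ?_, hN, hS, hS1, hS', rfl, hD', hZ,
        hK1, hKL.trans (pow_le_pow_left₀ huL0.le hul 3), hF⟩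
      · have : u ^ 4 = (u ^ 2) ^ 2 := by ring
        rw [this, hu2]
        have e : (uL ^ 2 * (m / μ)) ^ 2 = uL ^ 4 * (m / μ) ^ 2 := by ring
        rw [e, huL4]; field_simp
      · have : u ^ 6 = (u ^ 2) ^ 3 := by ring
        rw [this, hu2]
        have e : (uL ^ 2 * (m / μ)) ^ 3 = (uL ^ 6 * m ^ 2) * m / μ ^ 3 := by field_simp
        rw [e, div_le_iff₀ (by positivity)]
        have h1 : m ^ 2 ≤ R ^ 2 := pow_le_pow_left₀ hm0.le hMR 2
        have h2 := mul_le_mul_of_nonneg_left h1 (by positivity : 0 ≤ uL ^ 6)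
        have h3 : uL ^ 6 * m ^ 2 ≤ μ ^ 3 := h2.trans hR6
        have h4 := mul_le_mul_of_nonneg_right h3 hm0.le
        linarith
      · intro x hx
        rw [hu2]
        have h1 := hdeg x hx
        have h2 := mul_le_mul_of_nonneg_right h1 (by positivity : 0 ≤ uL ^ 2 * (m / μ))
        refine h2.trans ?_
        have e : D0 * (uL ^ 2 * (m / μ)) = D0 * uL ^ 2 * m / μ := by ring
        rw [e, div_le_iff₀ hμ]
        have h3 := mul_le_mul_of_nonneg_right hD0 hm0.le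
        linarith
    have hQ0 : 0 < Q := by
      have h1 := gs.Q_lo
      have h2 := gs.D_lo
      have hup : 0 < u := by linarith
      have h3 : 0 < Dr κ m S := lt_of_lt_of_le (by positivity) h2
      have : 0 < 3 / 10 * (m * Dr κ m S) := by positivity
      linarith
    have hne : sub H M ≠ ∅ := by
      intro h0; rw [h0] at hQ; simp at hQ; linarith
    have hchild : ∀ T ∈ sub H M, cost H g k (M \ T) ≤
        LamK c κ uL μ R K H (M \ T) (Nup H M N D' T) S' := by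
      intro T hT
      have hcn := card_next gs hT
      refine ih (M \ T) _ S' (by rw [hcn, hM]; ring) (by rw [hcn]; linarith)
        (fun x hx => gs.Nup_le hT hx) (hS.trans gs.S_le) ?_
      intro x hx
      have h2 := deg_le_of_subset (H := H) (M := M) (M' := M \ T) sdiff_subset x
      have h2' : (deg H (M \ T) x : ℝ) ≤ deg H M x := by exact_mod_cast h2
      exact h2'.trans (hdeg x (mem_sdiff.1 hx).1)
    have hstep := LamK_step (R := R) hc gs huL0 hμ hmμ hu hKL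
    rw [cost, if_neg hne, ← hQ, div_le_iff₀ hQ0]
    refine (Finset.sum_le_sum hchild).trans (hstep.trans (le_of_eq ?_))
    ring

end Vale.Agent.P046LF
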