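import Vale.Agent.P046LF.Basic
import Vale.Agent.P046LF.Point

/-!
P046 log-free, module S1B: the small errors of the step for `W`
(items (iv)-(viii) and frozen terms in the proof of (S1)).
-/

namespace Vale.Agent.P046LF

open Finset Vale.Agent.P046

section

variable {V : Type} [DecidableEq V] {H : Finset (Finset V)} {M : Finset V} {N : V → ℝ}
  {κ S S' m Q u D D' K : ℝ}

theorem s1b_D_pos (g : GS H M N κ S S' m Q u D D' K) : 0 < D := by
  have h1 := g.D_lo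
  have h2 := g.hu
  have : 0 < 9 / 10 * u ^ 4 := by positivity
  linarith

theorem s1b_m_pos (g : GS H M N κ S S' m Q u D D' K) : 0 < m := by
  have h1 := g.m_big
  linarith

theorem s1b_u_pos (g : GS H M N κ S S' m Q u D D' K) : 0 < u := by
  have h2 := g.hu
  linarith

theorem s1b_D'_pos (g : GS H M N κ S S' m Q u D D' K) : 0 < D' := by
  have h1 := g.D'_lo
  have h2 := s1b_D_pos g
  linarith

theorem s1b_Q_pos (g : GS H M N κ S S' m Q u D D' K) : 0 < Q := by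
  have h1 := g.Q_lo
  have h2 := s1b_D_pos g
  have h3 := s1b_m_pos g
  have : 0 < 3 / 10 * (m * D) := by positivity
  linarith

theorem s1b_EE_pos (g : GS H M N κ S S' m Q u D D' K) : 0 < EE H M N D u := by
  have h1 := g.EE_ge_m
  have h2 := s1b_u_pos g
  have h3 := s1b_m_pos g
  have : 0 < m / u := by positivity
  linarith

/-- `D u ≤ m` -/
theorem s1b_Du (g : GS H M N κ S S' m Q u D D' K) : D * u ≤ m := by
  have h1 := g.D_hi
  have h2 := s1b_u_pos g
  have h3 := g.hum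
  have h4 := g.hu
  have h5 : u ^ 4 * u ≤ u ^ 6 := by
    have : u ^ 6 = u ^ 4 * u * u := by ring
    rw [this]
    have : 0 < u ^ 4 * u := by positivity
    nlinarith
  calc D * u ≤ u ^ 4 * u := mul_le_mul_of_nonneg_right h1 h2.le
    _ ≤ u ^ 6 := h5
    _ ≤ m := h3

theorem s1b_rhs (g : GS H M N κ S S' m Q u D D' K) :
    81 / 100 * EE H M N D u ≤ Q * (3 / m * (EE H M N D u / u ^ 4)) := by
  have h1 := g.Q_lo
  have h2 := g.D_lo
  have hm := s1b_m_pos g
  have hu := s1b_u_pos g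
  have hE := s1b_EE_pos g
  have hu4 : 0 < u ^ 4 := by positivity
  have h3 : 27 / 100 * (m * u ^ 4) ≤ Q := by nlinarith
  have h4 : Q * (3 / m * (EE H M N D u / u ^ 4)) = (3 * Q / (m * u ^ 4)) * EE H M N D u := by
    field_simp
  rw [h4]
  refine mul_le_mul_of_nonneg_right ?_ hE.le
  rw [le_div_iff₀ (by positivity)]
  linarith

theorem s1b_fd (g : GS H M N κ S S' m Q u D D' K) {x : V} (hx : x ∈ M) :
    |fd ((deg H M x : ℝ) / D - N x)| ≤ 3 + 2 * ((deg H M x : ℝ) / D) := by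
  have h1 := abs_fd_le ((deg H M x : ℝ) / D - N x)
  have h2 := g.theta_nonneg x
  have h3 := g.hN x hx
  have h4 : |(deg H M x : ℝ) / D - N x| ≤ (deg H M x : ℝ) / D + 1 / 4 := by
    refine (abs_sub _ _).trans ?_
    rw [abs_of_nonneg h2]
    linarith
  linarith

theorem s1b_psi (g : GS H M N κ S S' m Q u D D' K) {x : V} (hx : x ∈ M) :
    |(deg H M x : ℝ) / D - N x| ≤ 1 + (deg H M x : ℝ) / D := by
  have h2 := g.theta_nonneg x
  have h3 := g.hN x hx
  refine (abs_sub _ _).trans ?_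
  rw [abs_of_nonneg h2]
  linarith

/-- sums of polynomials of the normalised degrees -/
theorem s1b_poly (g : GS H M N κ S S' m Q u D D' K) (p : ℝ → ℝ) (c : ℝ) (hc : 0 ≤ c)
    (h : ∀ θ : ℝ, 0 ≤ θ → p θ ≤ c * (1 + tt θ)) :
    ∑ x ∈ M, p ((deg H M x : ℝ) / D) ≤ c * (2 * (u * EE H M N D u)) := by
  have h1 : ∑ x ∈ M, p ((deg H M x : ℝ) / D) ≤
      ∑ x ∈ M, c * (1 + tt ((deg H M x : ℝ) / D)) :=
    sum_le_sum fun x _ => h _ (g.theta_nonneg x)
  refine h1.trans ?_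
  rw [← mul_sum]
  refine mul_le_mul_of_nonneg_left ?_ hc
  rw [sum_add_distrib, sum_const, nsmul_eq_mul, mul_one, g.hm]
  exact g.sum_one_tt_le

theorem s1b_deg (g : GS H M N κ S S' m Q u D D' K) (x : V) :
    (deg H M x : ℝ) = D * ((deg H M x : ℝ) / D) := by
  have := s1b_D_pos g
  field_simp

/-- item (iv) -/
theorem s1b_A (g : GS H M N κ S S' m Q u D D' K) :
    (D / D' - 1) * ∑ T ∈ sub H M, ∑ y ∈ T, ∑ z ∈ T,
      |fd ((deg H M y : ℝ) / D - N y)| * |(deg H M z : ℝ) / D - N z| ≤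
      10 ^ 6 * EE H M N D u := by
  have hD := s1b_D_pos g
  have hm := s1b_m_pos g
  have hE := s1b_EE_pos g
  have hu := s1b_u_pos g
  have hps := pair_sum (H := H) (M := M) g.lin
    (F := fun y z => |fd ((deg H M y : ℝ) / D - N y)| * |(deg H M z : ℝ) / D - N z|)
    (Φ := fun y => 3 / 2 * (1 + (deg H M y : ℝ) / D) ^ 2)
    (Ψ := fun y => 3 / 2 * (1 + (deg H M y : ℝ) / D) ^ 2) (by
      intro y hy z hz
      have h1 := s1b_fd g hy
      have h2 := s1b_psi g hz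
      have h3 := g.theta_nonneg y
      have h4 := g.theta_nonneg z
      have h5 : |fd ((deg H M y : ℝ) / D - N y)| * |(deg H M z : ℝ) / D - N z| ≤
          (3 * (1 + (deg H M y : ℝ) / D)) * (1 + (deg H M z : ℝ) / D) :=
        mul_le_mul (by linarith) h2 (abs_nonneg _) (by linarith)
      refine h5.trans ?_
      nlinarith [sq_nonneg ((1 + (deg H M y : ℝ) / D) - (1 + (deg H M z : ℝ) / D))])
  have h1 : ∑ x ∈ M, (deg H M x : ℝ) * (3 / 2 * (1 + (deg H M x : ℝ) / D) ^ 2 +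
      3 / 2 * (1 + (deg H M x : ℝ) / D) ^ 2) =
      3 * D * ∑ x ∈ M, ((deg H M x : ℝ) / D) * (1 + (deg H M x : ℝ) / D) ^ 2 := by
    rw [mul_sum]
    apply sum_congr rfl
    intro x _
    have := s1b_deg g x
    calc (deg H M x : ℝ) * (3 / 2 * (1 + (deg H M x : ℝ) / D) ^ 2 +
        3 / 2 * (1 + (deg H M x : ℝ) / D) ^ 2)
        = 3 * (deg H M x : ℝ) * (1 + (deg H M x : ℝ) / D) ^ 2 := by ring
      _ = 3 * (D * ((deg H M x : ℝ) / D)) * (1 + (deg H M x : ℝ) / D) ^ 2 := by rw [← this]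
      _ = 3 * D * (((deg H M x : ℝ) / D) * (1 + (deg H M x : ℝ) / D) ^ 2) := by ring
  have h2 := s1b_poly g (fun θ => θ * (1 + θ) ^ 2) (4 * 89) (by norm_num) (by
    intro θ hθ
    have a1 := pow_le_tt hθ (j := 1) (by norm_num)
    have a2 := pow_le_tt hθ (j := 2) (by norm_num)
    have a3 := pow_le_tt hθ (j := 3) (by norm_num)
    have e : θ * (1 + θ) ^ 2 = θ ^ 1 + 2 * θ ^ 2 + θ ^ 3 := by ring
    rw [e]
    linarith)
  rw [h1] at hps
  have hX : 0 ≤ ∑ T ∈ sub H M, ∑ y ∈ T, ∑ z ∈ T,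
      |fd ((deg H M y : ℝ) / D - N y)| * |(deg H M z : ℝ) / D - N z| :=
    sum_nonneg fun _ _ => sum_nonneg fun _ _ => sum_nonneg fun _ _ => by positivity
  have h3 : ∑ T ∈ sub H M, ∑ y ∈ T, ∑ z ∈ T,
      |fd ((deg H M y : ℝ) / D - N y)| * |(deg H M z : ℝ) / D - N z| ≤
      3 * (3 * D * (4 * 89 * (2 * (u * EE H M N D u)))) := by
    refine hps.trans ?_
    gcongr
  have h4 : (D / D' - 1) * ∑ T ∈ sub H M, ∑ y ∈ T, ∑ z ∈ T,
      |fd ((deg H M y : ℝ) / D - N y)| * |(deg H M z : ℝ) / D - N z| ≤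
      8 / m * (3 * (3 * D * (4 * 89 * (2 * (u * EE H M N D u))))) :=
    mul_le_mul g.r_hi h3 hX (by positivity)
  refine h4.trans ?_
  have h5 := s1b_Du g
  have e : 8 / m * (3 * (3 * D * (4 * 89 * (2 * (u * EE H M N D u))))) =
      51264 * (D * u / m) * EE H M N D u := by
    field_simp
    ring
  rw [e]
  refine mul_le_mul_of_nonneg_right ?_ hE.le
  have h6 : D * u / m ≤ 1 := by rw [div_le_one hm]; exact h5
  linarith

/-- item (v) -/
theorem s1b_B (g : GS H M N κ S S' m Q u D D' K) :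
    2 * (D / D') * ∑ x ∈ M, (deg H M x : ℝ) / D * |fd ((deg H M x : ℝ) / D - N x)| ≤
      100 * EE H M N D u := by
  have hD := s1b_D_pos g
  have hm := s1b_m_pos g
  have hE := s1b_EE_pos g
  have hu := s1b_u_pos g
  have hr : D / D' ≤ 2 := by
    have h1 := g.r_hi
    have h2 := g.m_big
    have h3 : 8 / m ≤ 1 := by
      rw [div_le_one hm]
      linarith
    linarith
  have h1 : ∑ x ∈ M, (deg H M x : ℝ) / D * |fd ((deg H M x : ℝ) / D - N x)| ≤
      ∑ x ∈ M, (6 * u * ff ((deg H M x : ℝ) / D - N x) +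
        1 / (2 * u) * ((deg H M x : ℝ) / D) ^ 2) := by
    refine sum_le_sum fun x _ => ?_
    have h2 := fd_sq_le ((deg H M x : ℝ) / D - N x)
    set a := (deg H M x : ℝ) / D
    set b := |fd (a - N x)| with hb
    have h3 : b ^ 2 = fd (a - N x) ^ 2 := by rw [hb, sq_abs]
    have h4 : 0 ≤ (a - u * b) ^ 2 / (2 * u) := by positivity
    have h5 : (a - u * b) ^ 2 / (2 * u) = 1 / (2 * u) * a ^ 2 - a * b + u / 2 * b ^ 2 := by
      field_simp
      ring
    rw [h5, h3] at h4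
    have h6 : u / 2 * fd (a - N x) ^ 2 ≤ u / 2 * (12 * ff (a - N x)) :=
      mul_le_mul_of_nonneg_left h2 (by positivity)
    linarith
  rw [sum_add_distrib, ← mul_sum, ← mul_sum] at h1
  have h2 := g.EE_ge_W
  have h3 := g.sumsq_le
  have h4 := g.EE_ge_m
  have h7 : ∑ x ∈ M, ff ((deg H M x : ℝ) / D - N x) = WW H M N D := rfl
  rw [h7] at h1
  have hW : 0 ≤ WW H M N D := sum_nonneg fun x _ => ff_nonneg _
  have h8 : 6 * u * WW H M N D ≤ 6 * (u ^ 3 * WW H M N D) := by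
    have : u ≤ u ^ 3 := by
      have h9 := g.hu
      have : 1 ≤ u ^ 2 := by nlinarith
      have e : u ^ 3 = u * u ^ 2 := by ring
      rw [e]
      nlinarith
    nlinarith
  have h9 : 1 / (2 * u) * ∑ x ∈ M, ((deg H M x : ℝ) / D) ^ 2 ≤ 3 / 2 * (m / u) := by
    calc 1 / (2 * u) * ∑ x ∈ M, ((deg H M x : ℝ) / D) ^ 2 ≤ 1 / (2 * u) * (3 * m) :=
          mul_le_mul_of_nonneg_left h3 (by positivity)
      _ = 3 / 2 * (m / u) := by field_simp
  have h10 : ∑ x ∈ M, (deg H M x : ℝ) / D * |fd ((deg H M x : ℝ) / D - N x)| ≤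
      15 / 2 * EE H M N D u := by linarith
  have h11 : 0 ≤ ∑ x ∈ M, (deg H M x : ℝ) / D * |fd ((deg H M x : ℝ) / D - N x)| :=
    sum_nonneg fun x _ => mul_nonneg (g.theta_nonneg x) (abs_nonneg _)
  have h12 : 2 * (D / D') * ∑ x ∈ M, (deg H M x : ℝ) / D * |fd ((deg H M x : ℝ) / D - N x)| ≤
      2 * 2 * (15 / 2 * EE H M N D u) :=
    mul_le_mul (by linarith) h10 h11 (by norm_num)
  linarith

/-- item (vi) -/
theorem s1b_C (g : GS H M N κ S S' m Q u D D' K) :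
    (D / D' - 1) * ∑ x ∈ M, (deg H M x : ℝ) *
      ((deg H M x : ℝ) / D * |fd ((deg H M x : ℝ) / D - N x)|) ≤ 10 ^ 6 * EE H M N D u := by
  have hD := s1b_D_pos g
  have hm := s1b_m_pos g
  have hE := s1b_EE_pos g
  have hu := s1b_u_pos g
  have h1 : ∑ x ∈ M, (deg H M x : ℝ) * ((deg H M x : ℝ) / D *
      |fd ((deg H M x : ℝ) / D - N x)|) ≤
      D * ∑ x ∈ M, ((deg H M x : ℝ) / D) ^ 2 * (3 + 2 * ((deg H M x : ℝ) / D)) := by
    rw [mul_sum]
    refine sum_le_sum fun x hx => ?_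
    have h2 := s1b_fd g hx
    have h3 := g.theta_nonneg x
    have h4 := s1b_deg g x
    calc (deg H M x : ℝ) * ((deg H M x : ℝ) / D * |fd ((deg H M x : ℝ) / D - N x)|)
        = (D * ((deg H M x : ℝ) / D)) * ((deg H M x : ℝ) / D *
            |fd ((deg H M x : ℝ) / D - N x)|) := by rw [← h4]
      _ = D * (((deg H M x : ℝ) / D) ^ 2 * |fd ((deg H M x : ℝ) / D - N x)|) := by ring
      _ ≤ _ := by gcongr
  have h2 := s1b_poly g (fun θ => θ ^ 2 * (3 + 2 * θ)) (5 * 89) (by norm_num) (by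
    intro θ hθ
    have a2 := pow_le_tt hθ (j := 2) (by norm_num)
    have a3 := pow_le_tt hθ (j := 3) (by norm_num)
    have e : θ ^ 2 * (3 + 2 * θ) = 3 * θ ^ 2 + 2 * θ ^ 3 := by ring
    rw [e]
    linarith)
  have h3 : ∑ x ∈ M, (deg H M x : ℝ) * ((deg H M x : ℝ) / D *
      |fd ((deg H M x : ℝ) / D - N x)|) ≤ D * (5 * 89 * (2 * (u * EE H M N D u))) := by
    refine h1.trans ?_
    gcongr
  have hX : 0 ≤ ∑ x ∈ M, (deg H M x : ℝ) * ((deg H M x : ℝ) / D *
      |fd ((deg H M x : ℝ) / D - N x)|) :=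
    sum_nonneg fun x _ => by
      have := g.theta_nonneg x
      positivity
  have h4 : (D / D' - 1) * ∑ x ∈ M, (deg H M x : ℝ) *
      ((deg H M x : ℝ) / D * |fd ((deg H M x : ℝ) / D - N x)|) ≤
      8 / m * (D * (5 * 89 * (2 * (u * EE H M N D u)))) :=
    mul_le_mul g.r_hi h3 hX (by positivity)
  refine h4.trans ?_
  have h5 := s1b_Du g
  have e : 8 / m * (D * (5 * 89 * (2 * (u * EE H M N D u)))) =
      7120 * (D * u / m) * EE H M N D u := by
    field_simp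
    ring
  rw [e]
  refine mul_le_mul_of_nonneg_right ?_ hE.le
  have h6 : D * u / m ≤ 1 := by rw [div_le_one hm]; exact h5
  linarith

/-- item (vii) -/
theorem s1b_E (g : GS H M N κ S S' m Q u D D' K) :
    1 / D' * ∑ x ∈ M, (deg H M x : ℝ) * cd H M x * |fd ((deg H M x : ℝ) / D - N x)| ≤
      10 ^ 6 * EE H M N D u := by
  have hD := s1b_D_pos g
  have hD' := s1b_D'_pos g
  have hm := s1b_m_pos g
  have hQ := s1b_Q_pos g
  have hE := s1b_EE_pos g
  have hu := s1b_u_pos g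
  have h1 : ∑ x ∈ M, (deg H M x : ℝ) * cd H M x * |fd ((deg H M x : ℝ) / D - N x)| ≤
      1 / Q * ∑ x ∈ M, ((deg H M x : ℝ) * (3 + 2 * ((deg H M x : ℝ) / D))) * bb H M x := by
    rw [mul_sum]
    refine sum_le_sum fun x hx => ?_
    have h2 := s1b_fd g hx
    have h3 := g.theta_nonneg x
    have h4 := cd_le (H := H) (M := M) x
    rw [g.hQ] at h4
    have h5 := cd_nonneg g.lin hx
    have h6 := bb_nonneg (H := H) (M := M) x
    calc (deg H M x : ℝ) * cd H M x * |fd ((deg H M x : ℝ) / D - N x)|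
        ≤ (deg H M x : ℝ) * (bb H M x / Q) * (3 + 2 * ((deg H M x : ℝ) / D)) := by gcongr
      _ = 1 / Q * (((deg H M x : ℝ) * (3 + 2 * ((deg H M x : ℝ) / D))) * bb H M x) := by
          field_simp
  have h2 := bb_mul_sum_le (H := H) (M := M)
    (φ := fun x => (deg H M x : ℝ) * (3 + 2 * ((deg H M x : ℝ) / D))) (by
      intro x _
      have := g.theta_nonneg x
      positivity)
  have hps := pair_sum (H := H) (M := M) g.lin
    (F := fun y z => ((deg H M y : ℝ) * (3 + 2 * ((deg H M y : ℝ) / D))) * deg H M z)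
    (Φ := fun y => D ^ 2 / 2 * (((deg H M y : ℝ) / D) * (3 + 2 * ((deg H M y : ℝ) / D))) ^ 2)
    (Ψ := fun y => D ^ 2 / 2 * ((deg H M y : ℝ) / D) ^ 2) (by
      intro y hy z hz
      have h4 := s1b_deg g y
      have h5 := s1b_deg g z
      rw [h4, h5]
      rw [← h4, ← h5]
      set a := (deg H M y : ℝ) / D
      set b := (deg H M z : ℝ) / D
      have e1 : (deg H M y : ℝ) = D * a := h4
      have e2 : (deg H M z : ℝ) = D * b := h5
      rw [e1, e2]
      nlinarith [mul_nonneg (sq_nonneg D) (sq_nonneg (a * (3 + 2 * a) - b))])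
  have h3 : ∑ x ∈ M, (deg H M x : ℝ) * (D ^ 2 / 2 * (((deg H M x : ℝ) / D) *
      (3 + 2 * ((deg H M x : ℝ) / D))) ^ 2 + D ^ 2 / 2 * ((deg H M x : ℝ) / D) ^ 2) =
      D ^ 3 / 2 * ∑ x ∈ M, (((deg H M x : ℝ) / D) ^ 3 * ((3 + 2 * ((deg H M x : ℝ) / D)) ^ 2 + 1))
      := by
    rw [mul_sum]
    apply sum_congr rfl
    intro x _
    have h4 := s1b_deg g x
    set a := (deg H M x : ℝ) / D
    rw [h4]
    ring
  have h4 := s1b_poly g (fun θ => θ ^ 3 * ((3 + 2 * θ) ^ 2 + 1)) (26 * 89) (by norm_num) (by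
    intro θ hθ
    have a3 := pow_le_tt hθ (j := 3) (by norm_num)
    have a4 := pow_le_tt hθ (j := 4) (by norm_num)
    have a5 := pow_le_tt hθ (j := 5) (by norm_num)
    have e : θ ^ 3 * ((3 + 2 * θ) ^ 2 + 1) = 10 * θ ^ 3 + 12 * θ ^ 4 + 4 * θ ^ 5 := by ring
    rw [e]
    linarith)
  rw [h3] at hps
  have h5 : ∑ x ∈ M, ((deg H M x : ℝ) * (3 + 2 * ((deg H M x : ℝ) / D))) * bb H M x ≤
      3 * (D ^ 3 / 2 * (26 * 89 * (2 * (u * EE H M N D u)))) := by
    refine h2.trans (hps.trans ?_)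
    gcongr
  have h6 : 1 / D' * ∑ x ∈ M, (deg H M x : ℝ) * cd H M x * |fd ((deg H M x : ℝ) / D - N x)| ≤
      1 / D' * (1 / Q * (3 * (D ^ 3 / 2 * (26 * 89 * (2 * (u * EE H M N D u)))))) := by
    refine mul_le_mul_of_nonneg_left (h1.trans ?_) (by positivity)
    exact mul_le_mul_of_nonneg_left h5 (by positivity)
  refine h6.trans ?_
  have h7 : 1 / D' ≤ 100 / 99 * (1 / D) := by
    have h8 := g.D'_lo
    rw [one_div, one_div, show (100 : ℝ) / 99 * D⁻¹ = (99 / 100 * D)⁻¹ by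
      rw [mul_inv]; norm_num]
    exact inv_anti₀ (by positivity) h8
  have h8 : 1 / Q ≤ 10 / 3 * (1 / (m * D)) := by
    have h9 := g.Q_lo
    rw [one_div, one_div, show (10 : ℝ) / 3 * (m * D)⁻¹ = (3 / 10 * (m * D))⁻¹ by
      field_simp]
    exact inv_anti₀ (by positivity) h9
  have h9 : 1 / D' * (1 / Q * (3 * (D ^ 3 / 2 * (26 * 89 * (2 * (u * EE H M N D u)))))) ≤
      (100 / 99 * (1 / D)) * ((10 / 3 * (1 / (m * D))) *
        (3 * (D ^ 3 / 2 * (26 * 89 * (2 * (u * EE H M N D u)))))) := by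
    gcongr
  refine h9.trans ?_
  have h10 := s1b_Du g
  have e : (100 / 99 * (1 / D)) * ((10 / 3 * (1 / (m * D))) *
        (3 * (D ^ 3 / 2 * (26 * 89 * (2 * (u * EE H M N D u)))))) =
      (100 / 99 * (10 / 3) * 3 / 2 * 26 * 89 * 2) * (D * u / m) * EE H M N D u := by
    field_simp
  rw [e]
  refine mul_le_mul_of_nonneg_right ?_ hE.le
  have h6 : D * u / m ≤ 1 := by rw [div_le_one hm]; exact h10
  nlinarith

/-- item (viii) -/
theorem s1b_F (g : GS H M N κ S S' m Q u D D' K) :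
    Q * ∑ x ∈ M, (6 * (D / D' - 1) ^ 2 * ((deg H M x : ℝ) / D) ^ 2 + 6 * cd H M x ^ 2 / D' ^ 2) ≤
      10 ^ 6 * EE H M N D u := by
  have hD := s1b_D_pos g
  have hD' := s1b_D'_pos g
  have hm := s1b_m_pos g
  have hQ := s1b_Q_pos g
  have hE := s1b_EE_pos g
  have hu := s1b_u_pos g
  have hr0 : 0 ≤ D / D' - 1 := by
    have := g.r_lo
    have h1 : 0 < 6 / m := by positivity
    linarith
  rw [sum_add_distrib, mul_add]
  -- first part
  have h1 : Q * ∑ x ∈ M, 6 * (D / D' - 1) ^ 2 * ((deg H M x : ℝ) / D) ^ 2 ≤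
      1000 * EE H M N D u := by
    rw [← mul_sum]
    have a1 : (D / D' - 1) ^ 2 ≤ (8 / m) ^ 2 := pow_le_pow_left₀ hr0 g.r_hi 2
    have a2 := g.sumsq_le
    have a3 := g.Q_hi
    have a4 : 0 ≤ ∑ x ∈ M, ((deg H M x : ℝ) / D) ^ 2 := sum_nonneg fun _ _ => sq_nonneg _
    have a5 : Q * (6 * (D / D' - 1) ^ 2 * ∑ x ∈ M, ((deg H M x : ℝ) / D) ^ 2) ≤
        (4 / 10 * (m * D)) * (6 * (8 / m) ^ 2 * (3 * m)) := by
      gcongr
    refine a5.trans ?_
    have e : (4 / 10 * (m * D)) * (6 * (8 / m) ^ 2 * (3 * m)) = (4 / 10 * 6 * 64 * 3) * D := by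
      field_simp
      ring
    rw [e]
    have a6 := g.EE_ge_m
    have a7 := s1b_Du g
    have a8 : D ≤ m / u := by rw [le_div_iff₀ hu]; exact a7
    nlinarith
  have h2 : Q * ∑ x ∈ M, 6 * cd H M x ^ 2 / D' ^ 2 ≤ 900000 * EE H M N D u := by
    have b1 : ∑ x ∈ M, 6 * cd H M x ^ 2 / D' ^ 2 ≤
        6 / (D' ^ 2 * Q ^ 2) * ∑ x ∈ M, bb H M x ^ 2 := by
      rw [mul_sum]
      refine sum_le_sum fun x hx => ?_
      have h4 := cd_le (H := H) (M := M) x
      rw [g.hQ] at h4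
      have h5 := cd_nonneg g.lin hx
      have h6 : cd H M x ^ 2 ≤ (bb H M x / Q) ^ 2 := pow_le_pow_left₀ h5 h4 2
      calc 6 * cd H M x ^ 2 / D' ^ 2 ≤ 6 * (bb H M x / Q) ^ 2 / D' ^ 2 := by gcongr
        _ = 6 / (D' ^ 2 * Q ^ 2) * bb H M x ^ 2 := by field_simp
    have b2 := bb_sq_sum (H := H) (M := M) g.lin
    have b3 : ∑ x ∈ M, (deg H M x : ℝ) ^ 4 = D ^ 4 * ∑ x ∈ M, ((deg H M x : ℝ) / D) ^ 4 := by
      rw [mul_sum]
      apply sum_congr rfl
      intro x _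
      have h4 := s1b_deg g x
      set a := (deg H M x : ℝ) / D
      rw [h4]
      ring
    have b4 := s1b_poly g (fun θ => θ ^ 4) 89 (by norm_num) (by
      intro θ hθ
      exact pow_le_tt hθ (j := 4) (by norm_num))
    have b5 : Q * ∑ x ∈ M, 6 * cd H M x ^ 2 / D' ^ 2 ≤
        Q * (6 / (D' ^ 2 * Q ^ 2) * (9 * (D ^ 4 * (89 * (2 * (u * EE H M N D u)))))) := by
      refine mul_le_mul_of_nonneg_left (b1.trans ?_) hQ.le
      refine mul_le_mul_of_nonneg_left (b2.trans ?_) (by positivity)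
      rw [b3]
      gcongr
    refine b5.trans ?_
    have e1 : Q * (6 / (D' ^ 2 * Q ^ 2) * (9 * (D ^ 4 * (89 * (2 * (u * EE H M N D u)))))) =
        (1 / D') ^ 2 * (1 / Q) * (6 * 9 * 89 * 2 * D ^ 4 * u * EE H M N D u) := by
      field_simp
    rw [e1]
    have h7 : 1 / D' ≤ 100 / 99 * (1 / D) := by
      have h8 := g.D'_lo
      rw [one_div, one_div, show (100 : ℝ) / 99 * D⁻¹ = (99 / 100 * D)⁻¹ by
        rw [mul_inv]; norm_num]
      exact inv_anti₀ (by positivity) h8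
    have h8 : 1 / Q ≤ 10 / 3 * (1 / (m * D)) := by
      have h9 := g.Q_lo
      rw [one_div, one_div, show (10 : ℝ) / 3 * (m * D)⁻¹ = (3 / 10 * (m * D))⁻¹ by
        field_simp]
      exact inv_anti₀ (by positivity) h9
    have b6 : (1 / D') ^ 2 * (1 / Q) * (6 * 9 * 89 * 2 * D ^ 4 * u * EE H M N D u) ≤
        (100 / 99 * (1 / D)) ^ 2 * (10 / 3 * (1 / (m * D))) *
          (6 * 9 * 89 * 2 * D ^ 4 * u * EE H M N D u) := by
      gcongr
    refine b6.trans ?_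
    have h10 := s1b_Du g
    have e : (100 / 99 * (1 / D)) ^ 2 * (10 / 3 * (1 / (m * D))) *
          (6 * 9 * 89 * 2 * D ^ 4 * u * EE H M N D u) =
        ((100 / 99) ^ 2 * (10 / 3) * 6 * 9 * 89 * 2) * (D * u / m) * EE H M N D u := by
      field_simp
    rw [e]
    refine mul_le_mul_of_nonneg_right ?_ hE.le
    have h6 : D * u / m ≤ 1 := by rw [div_le_one hm]; exact h10
    nlinarith
  linarith

/-- frozen part -/
theorem s1b_G (g : GS H M N κ S S' m Q u D D' K) :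
    18 / D' ^ 2 * ∑ x ∈ M with 1 / 8 ≤ |N x|, bb H M x ≤ 10 ^ 10 * EE H M N D u := by
  have hD := s1b_D_pos g
  have hD' := s1b_D'_pos g
  have hm := s1b_m_pos g
  have hE := s1b_EE_pos g
  have hu := s1b_u_pos g
  have h1 : ∑ x ∈ M with 1 / 8 ≤ |N x|, bb H M x =
      ∑ x ∈ M, (if 1 / 8 ≤ |N x| then (1 : ℝ) else 0) * bb H M x := by
    rw [sum_filter]
    apply sum_congr rfl
    intro x _
    split_ifs <;> simp
  have h2 := bb_mul_sum_le (H := H) (M := M)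
    (φ := fun x => (if 1 / 8 ≤ |N x| then (1 : ℝ) else 0)) (by
      intro x _
      split_ifs <;> norm_num)
  have hps := pair_sum (H := H) (M := M) g.lin
    (F := fun y z => (if 1 / 8 ≤ |N y| then (1 : ℝ) else 0) * deg H M z)
    (Φ := fun y => D * (2 * 8 ^ 8 * N y ^ 8))
    (Ψ := fun z => D * (2 * tt ((deg H M z : ℝ) / D))) (by
      intro y hy z hz
      have h5 := s1b_deg g z
      have h6 := g.theta_nonneg z
      have h7 := tt_nonneg ((deg H M z : ℝ) / D)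
      have hN8 : 0 ≤ N y ^ 8 := by positivity
      set b := (deg H M z : ℝ) / D
      rw [h5]
      split_ifs with hf
      · rw [one_mul, ← mul_add]
        refine mul_le_mul_of_nonneg_left ?_ hD.le
        have h8 : (1 : ℝ) ≤ 8 ^ 8 * N y ^ 8 := by
          have h9 : (1 / 8 : ℝ) ^ 8 ≤ |N y| ^ 8 := pow_le_pow_left₀ (by norm_num) hf 8
          have h10 : |N y| ^ 8 = N y ^ 8 := by
            rw [show (8 : ℕ) = 2 * 4 by norm_num, pow_mul, pow_mul, sq_abs]
          rw [h10] at h9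
          have e : (8 : ℝ) ^ 8 * (1 / 8) ^ 8 = 1 := by norm_num
          calc (1 : ℝ) = 8 ^ 8 * (1 / 8) ^ 8 := e.symm
            _ ≤ 8 ^ 8 * N y ^ 8 := mul_le_mul_of_nonneg_left h9 (by positivity)
        rcases le_or_gt b 2 with hb | hb
        · nlinarith
        · have h9 := pow_le_tt' hb.le (j := 1) (by norm_num)
          rw [pow_one] at h9
          nlinarith
      · rw [zero_mul]
        positivity)
  have h3 : ∑ x ∈ M, (deg H M x : ℝ) * (D * (2 * 8 ^ 8 * N x ^ 8) +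
      D * (2 * tt ((deg H M x : ℝ) / D))) ≤
      2 * 8 ^ 8 * D ^ 2 * ∑ x ∈ M, ((1 + (deg H M x : ℝ) / D) * N x ^ 8) +
      2 * D ^ 2 * ∑ x ∈ M, ((1 + (deg H M x : ℝ) / D) * tt ((deg H M x : ℝ) / D)) := by
    rw [mul_sum, mul_sum, ← sum_add_distrib]
    refine sum_le_sum fun x _ => ?_
    have h4 := s1b_deg g x
    have h7 := tt_nonneg ((deg H M x : ℝ) / D)
    have hN8 : 0 ≤ N x ^ 8 := by positivity
    set a := (deg H M x : ℝ) / D
    rw [h4]
    have e1 : 0 ≤ D ^ 2 * N x ^ 8 := by positivity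
    have e2 : 0 ≤ D ^ 2 * tt a := by positivity
    nlinarith
  have hN := g.EE_ge_N
  have hT := g.EE_ge_T
  set X1 := ∑ x ∈ M, ((1 + (deg H M x : ℝ) / D) * N x ^ 8) with hX1
  set X2 := ∑ x ∈ M, ((1 + (deg H M x : ℝ) / D) * tt ((deg H M x : ℝ) / D)) with hX2
  have hX10 : 0 ≤ X1 := sum_nonneg fun x _ => by
    have := g.theta_nonneg x
    positivity
  have hX20 : 0 ≤ X2 := sum_nonneg fun x _ => by
    have := g.theta_nonneg x
    have := tt_nonneg ((deg H M x : ℝ) / D)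
    positivity
  have hu1 : 1 ≤ u := by have := g.hu; linarith
  have hX1' : X1 ≤ EE H M N D u := by
    have : X1 ≤ u ^ 15 * X1 := le_mul_of_one_le_left hX10 (one_le_pow₀ hu1)
    linarith
  have hX2' : X2 ≤ EE H M N D u := by
    have : X2 ≤ u ^ 3 * X2 := le_mul_of_one_le_left hX20 (one_le_pow₀ hu1)
    linarith
  have h4 : ∑ x ∈ M with 1 / 8 ≤ |N x|, bb H M x ≤
      3 * (2 * 8 ^ 8 * D ^ 2 * EE H M N D u + 2 * D ^ 2 * EE H M N D u) := by
    rw [h1]
    refine h2.trans (hps.trans ?_)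
    refine mul_le_mul_of_nonneg_left (h3.trans ?_) (by norm_num)
    gcongr
  have h5 : 18 / D' ^ 2 * ∑ x ∈ M with 1 / 8 ≤ |N x|, bb H M x ≤
      18 / D' ^ 2 * (3 * (2 * 8 ^ 8 * D ^ 2 * EE H M N D u + 2 * D ^ 2 * EE H M N D u)) :=
    mul_le_mul_of_nonneg_left h4 (by positivity)
  refine h5.trans ?_
  have h6 : 18 / D' ^ 2 ≤ 19 / D ^ 2 := by
    have h8 := g.D'_lo
    rw [div_le_div_iff₀ (by positivity) (by positivity)]
    have h9 : (99 / 100 * D) ^ 2 ≤ D' ^ 2 := pow_le_pow_left₀ (by positivity) h8 2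
    nlinarith [sq_nonneg D]
  have h7 : 18 / D' ^ 2 * (3 * (2 * 8 ^ 8 * D ^ 2 * EE H M N D u + 2 * D ^ 2 * EE H M N D u)) ≤
      19 / D ^ 2 * (3 * (2 * 8 ^ 8 * D ^ 2 * EE H M N D u + 2 * D ^ 2 * EE H M N D u)) :=
    mul_le_mul_of_nonneg_right h6 (by positivity)
  refine h7.trans ?_
  have e : 19 / D ^ 2 * (3 * (2 * 8 ^ 8 * D ^ 2 * EE H M N D u + 2 * D ^ 2 * EE H M N D u)) =
      (19 * 3 * (2 * 8 ^ 8 + 2)) * EE H M N D u := by
    field_simp
  rw [e]
  refine mul_le_mul_of_nonneg_right ?_ hE.le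
  norm_num

end

theorem errW_le : ∃ C : ℝ, 1 ≤ C ∧ ∀ (V : Type) [DecidableEq V] (H : Finset (Finset V))
    (M : Finset V) (N : V → ℝ) (κ S S' m Q u D D' K : ℝ), GS H M N κ S S' m Q u D D' K →
    errW H M N Q D D' ≤ Q * (3 / m * (C * (EE H M N D u / u ^ 4))) := by
  refine ⟨2 * 10 ^ 10, by norm_num, ?_⟩
  intro V _ H M N κ S S' m Q u D D' K g
  have hA := s1b_A g
  have hB := s1b_B g
  have hC := s1b_C g
  have hE := s1b_E g
  have hF := s1b_F g
  have hG := s1b_G g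
  have hR := s1b_rhs g
  have hEE := s1b_EE_pos g
  have e : Q * (3 / m * (2 * 10 ^ 10 * (EE H M N D u / u ^ 4))) =
      2 * 10 ^ 10 * (Q * (3 / m * (EE H M N D u / u ^ 4))) := by ring
  rw [e]
  unfold errW
  linarith

end Vale.Agent.P046LF
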