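import Vale.Agent.P046LF.S1a
import Vale.Agent.P046LF.S1b

/-!
P046 log-free, module S1: the step for `W` (assembly).
-/

namespace Vale.Agent.P046LF

open Finset Vale.Agent.P046

/-- weighted AM-GM -/
theorem S1_amgm {t a s : ℝ} (ht : 0 < t) : 2 * a * s ≤ t * a ^ 2 + s ^ 2 / t := by
  have h : 0 ≤ (t * a - s) ^ 2 / t := by positivity
  have e : (t * a - s) ^ 2 / t = t * a ^ 2 + s ^ 2 / t - 2 * a * s := by field_simp; ring
  linarith

section

variable {V : Type} [DecidableEq V] {H : Finset (Finset V)} {M : Finset V} {N : V → ℝ}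
  {κ S S' m Q u D D' K : ℝ}

theorem WW_nonneg : 0 ≤ WW H M N D := sum_nonneg fun _ _ => ff_nonneg _

theorem ZZ_nonneg : 0 ≤ ZZ H M N := sum_nonneg fun _ _ => sq_nonneg _

/-- `|∑ θ f'(ψ)| ≤ 6 √(mW)` -/
theorem S1_sigma5 (g : GS H M N κ S S' m Q u D D' K) :
    |∑ x ∈ M, (deg H M x : ℝ) / D * fd ((deg H M x : ℝ) / D - N x)| ≤
      6 * Real.sqrt (m * WW H M N D) := by
  have hm : 0 < m := lt_of_lt_of_le (by positivity) g.m_big
  have hW : 0 ≤ WW H M N D := WW_nonneg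
  have h1 := sum_mul_sq_le_sq_mul_sq M (fun x => (deg H M x : ℝ) / D)
    (fun x => fd ((deg H M x : ℝ) / D - N x))
  have h2 := g.sumsq_le
  have h3 : ∑ x ∈ M, fd ((deg H M x : ℝ) / D - N x) ^ 2 ≤ 12 * WW H M N D := by
    unfold WW
    rw [mul_sum]
    exact sum_le_sum fun x _ => fd_sq_le _
  have h4 : (∑ x ∈ M, ((deg H M x : ℝ) / D) ^ 2) * ∑ x ∈ M, fd ((deg H M x : ℝ) / D - N x) ^ 2 ≤
      (3 * m) * (12 * WW H M N D) :=
    mul_le_mul h2 h3 (sum_nonneg fun _ _ => sq_nonneg _) (by positivity)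
  have h5 : (6 * Real.sqrt (m * WW H M N D)) ^ 2 = (3 * m) * (12 * WW H M N D) := by
    rw [mul_pow, Real.sq_sqrt (by positivity)]; ring
  apply abs_le_of_sq_le_sq _ (by positivity)
  rw [h5]
  exact h1.trans h4

/-- the coefficient `r - 1 - 2D/Q` -/
theorem S1_coef (g : GS H M N κ S S' m Q u D D' K) :
    |(D / D' - 1) - 2 * (D / Q)| ≤
      1 / m * (13 * ((∑ x ∈ M, ((deg H M x : ℝ) / D - 1) ^ 2) / m) + 100 / m +
        8 * |Q / Qh κ m + S - 1|) := by
  have hm : 0 < m := lt_of_lt_of_le (by positivity) g.m_big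
  have h1 := g.r_fine
  have h2 := g.DQ_Z
  have h3 : (D / D' - 1) - 2 * (D / Q) = (D / D' - 1 - 6 / m) - 2 * (D / Q - 3 / m) := by ring
  rw [h3]
  have h4 : |D / D' - 1 - 6 / m - 2 * (D / Q - 3 / m)| ≤
      |D / D' - 1 - 6 / m| + 2 * |D / Q - 3 / m| := by
    calc _ ≤ |D / D' - 1 - 6 / m| + |2 * (D / Q - 3 / m)| := abs_sub _ _
      _ = _ := by rw [abs_mul, abs_two]
  have h5 : 3 / m * (6 / 5 * |Q / Qh κ m + S - 1|) * 2 ≤ 1 / m * (8 * |Q / Qh κ m + S - 1|) := by
    have h6 : 0 ≤ 1 / m * |Q / Qh κ m + S - 1| := by positivity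
    have e : 3 / m * (6 / 5 * |Q / Qh κ m + S - 1|) * 2 =
        36 / 5 * (1 / m * |Q / Qh κ m + S - 1|) := by ring
    have e2 : 1 / m * (8 * |Q / Qh κ m + S - 1|) = 8 * (1 / m * |Q / Qh κ m + S - 1|) := by ring
    rw [e, e2]
    linarith
  have e : 1 / m * (13 * ((∑ x ∈ M, ((deg H M x : ℝ) / D - 1) ^ 2) / m) + 100 / m +
        8 * |Q / Qh κ m + S - 1|) =
      13 / m * ((∑ x ∈ M, ((deg H M x : ℝ) / D - 1) ^ 2) / m) + 100 / m ^ 2 +
        1 / m * (8 * |Q / Qh κ m + S - 1|) := by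
    field_simp
  rw [e]
  linarith

/-- `w ≤ 4W/m + 2 w_N` -/
theorem S1_w (g : GS H M N κ S S' m Q u D D' K) :
    (∑ x ∈ M, ((deg H M x : ℝ) / D - 1) ^ 2) / m ≤
      4 * (WW H M N D / m) + 2 * ((∑ x ∈ M, N x ^ 2) / m) := by
  have hm : 0 < m := lt_of_lt_of_le (by positivity) g.m_big
  have h : ∑ x ∈ M, ((deg H M x : ℝ) / D - 1) ^ 2 ≤
      4 * WW H M N D + 2 * ∑ x ∈ M, N x ^ 2 := by
    unfold WW
    rw [mul_sum, mul_sum, ← sum_add_distrib]
    exact sum_le_sum fun x hx => g.xi_sq hx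
  rw [← mul_div_assoc, ← mul_div_assoc, ← add_div]
  exact div_le_div_of_nonneg_right h hm.le

/-- `m w_N^2 ≤ ∑ N^4` and the payment for it -/
theorem S1_wN (g : GS H M N κ S S' m Q u D D' K) :
    u * m * ((∑ x ∈ M, N x ^ 2) / m) ^ 2 ≤ EE H M N D u / u ^ 4 := by
  have hm : 0 < m := lt_of_lt_of_le (by positivity) g.m_big
  have hu : 0 < u := lt_of_lt_of_le (by norm_num) g.hu
  have h1 : (∑ x ∈ M, N x ^ 2) ^ 2 ≤ m * ∑ x ∈ M, N x ^ 4 := by
    have h := sum_mul_sq_le_sq_mul_sq M (fun _ => (1 : ℝ)) (fun x => N x ^ 2)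
    simp only [one_mul, one_pow, sum_const, nsmul_eq_mul, mul_one] at h
    rw [g.hm] at h
    refine h.trans_eq ?_
    congr 1
    exact sum_congr rfl fun x _ => by ring
  have h2 : u ^ 5 * ∑ x ∈ M, N x ^ 4 ≤ EE H M N D u := by
    unfold EE
    rw [mul_sum]
    exact sum_le_sum fun x _ => u5_N4_le g.hu (g.theta_nonneg x)
  rw [le_div_iff₀ (by positivity)]
  have e : u * m * ((∑ x ∈ M, N x ^ 2) / m) ^ 2 * u ^ 4 =
      u ^ 5 * ((∑ x ∈ M, N x ^ 2) ^ 2 / m) := by field_simp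
  rw [e]
  refine le_trans ?_ h2
  apply mul_le_mul_of_nonneg_left _ (by positivity)
  rw [div_le_iff₀ hm]
  linarith

/-- the middle term -/
theorem S1_mid (g : GS H M N κ S S' m Q u D D' K) :
    ((D / D' - 1) * Q - 2 * D) *
        ∑ x ∈ M, (deg H M x : ℝ) / D * fd ((deg H M x : ℝ) / D - N x) ≤
      Q * (3 / m) * (8 * (u * m * (Q / Qh κ m + S - 1) ^ 2) + 300 * (EE H M N D u / u ^ 4) +
        104 * (Real.sqrt K / u ^ 2 * WW H M N D)) := by
  have hm18 := g.m_big
  have hm : 0 < m := lt_of_lt_of_le (by positivity) g.m_big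
  have hu : 0 < u := lt_of_lt_of_le (by norm_num) g.hu
  have hu1 := g.hu
  have hD : 0 < D := lt_of_lt_of_le (by positivity) g.D_lo
  have hQ : 0 < Q := lt_of_lt_of_le (by positivity) g.Q_lo
  have hW : 0 ≤ WW H M N D := WW_nonneg
  have h5 := S1_sigma5 g
  have hc := S1_coef g
  have hw := S1_w g
  have hwN := S1_wN g
  have hEW := g.EE_ge_W
  have hEm := g.EE_ge_m
  set W := WW H M N D with hWdef
  set s := Real.sqrt (m * W) with hs
  set z := |Q / Qh κ m + S - 1| with hz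
  set w := (∑ x ∈ M, ((deg H M x : ℝ) / D - 1) ^ 2) / m with hwdef
  set wN := (∑ x ∈ M, N x ^ 2) / m with hwNdef
  set A := EE H M N D u / u ^ 4 with hA
  set σ5 := ∑ x ∈ M, (deg H M x : ℝ) / D * fd ((deg H M x : ℝ) / D - N x) with hσ
  have hz2 : (Q / Qh κ m + S - 1) ^ 2 = z ^ 2 := by rw [hz, sq_abs]
  rw [hz2]
  have hz0 : 0 ≤ z := abs_nonneg _
  have hs0 : 0 ≤ s := Real.sqrt_nonneg _
  have hs2 : s ^ 2 = m * W := Real.sq_sqrt (by positivity)
  have hwN0 : 0 ≤ wN := div_nonneg (sum_nonneg fun _ _ => sq_nonneg _) hm.le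
  -- payments
  have hWu : W / u ≤ A := by
    rw [hA, div_le_div_iff₀ hu (by positivity)]
    calc W * u ^ 4 = u ^ 3 * W * u := by ring
      _ ≤ EE H M N D u * u := mul_le_mul_of_nonneg_right hEW hu.le
  have hA1 : 1 ≤ A := by
    rw [hA, le_div_iff₀ (by positivity)]
    have h6 := g.hum
    have h7 : 1 * u ^ 4 ≤ m / u := by
      rw [le_div_iff₀ hu]
      calc 1 * u ^ 4 * u = u ^ 5 * 1 := by ring
        _ ≤ u ^ 5 * u := mul_le_mul_of_nonneg_left (by linarith) (by positivity)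
        _ = u ^ 6 := by ring
        _ ≤ m := h6
    exact h7.trans hEm
  have hA0 : 0 ≤ A := by linarith
  -- (a)
  have ha : 16 * (z * s) ≤ 8 * (u * m * z ^ 2) + 8 * A := by
    have h := S1_amgm (t := u * m) (a := z) (s := s) (by positivity)
    have e : s ^ 2 / (u * m) = W / u := by rw [hs2]; field_simp
    rw [e] at h
    linarith
  -- (b)
  have hb : 200 / m * s ≤ 200 * A := by
    have h := S1_amgm (t := m) (a := 1) (s := s) hm
    have e : s ^ 2 / m = W := by rw [hs2]; field_simp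
    rw [e] at h
    have h8 : W / m ≤ A := by
      refine le_trans ?_ hWu
      apply div_le_div_of_nonneg_left hW hu
      calc u = u * 1 := by ring
        _ ≤ u * u ^ 5 := mul_le_mul_of_nonneg_left (one_le_pow₀ (by linarith)) hu.le
        _ = u ^ 6 := by ring
        _ ≤ m := g.hum
    have h9 : 200 / m * s ≤ 100 / m * (m + W) := by
      have e : 200 / m * s = 100 / m * (2 * s) := by ring
      rw [e]
      apply mul_le_mul_of_nonneg_left _ (by positivity)
      linarith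
    have e2 : 100 / m * (m + W) = 100 + 100 * (W / m) := by field_simp
    rw [e2] at h9
    linarith
  -- (c)
  have hcK : s ≤ m * (Real.sqrt K / u ^ 2) := by
    apply abs_le_of_sq_le_sq' _ (by positivity) |>.2
    rw [hs2, mul_pow, div_pow, Real.sq_sqrt (by linarith [g.hK1])]
    have hF := g.hF
    rw [← hWdef] at hF
    have e : m ^ 2 * (K / (u ^ 2) ^ 2) = m * ((K * m) / u ^ 4) := by ring
    rw [e]
    apply mul_le_mul_of_nonneg_left _ hm.le
    rw [le_div_iff₀ (by positivity)]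
    linarith
  have hc1 : 104 * (W / m) * s ≤ 104 * (Real.sqrt K / u ^ 2 * W) := by
    calc 104 * (W / m) * s ≤ 104 * (W / m) * (m * (Real.sqrt K / u ^ 2)) :=
          mul_le_mul_of_nonneg_left hcK (by positivity)
      _ = _ := by field_simp
  have hc2 : 52 * wN * s ≤ 52 * A := by
    have h := S1_amgm (t := u * m) (a := wN) (s := s) (by positivity)
    have e : s ^ 2 / (u * m) = W / u := by rw [hs2]; field_simp
    rw [e] at h
    linarith
  have hc3 : 26 * w * s ≤ 104 * (Real.sqrt K / u ^ 2 * W) + 52 * A := by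
    calc 26 * w * s ≤ 26 * (4 * (W / m) + 2 * wN) * s :=
          mul_le_mul_of_nonneg_right (by linarith) hs0
      _ = 104 * (W / m) * s + 52 * wN * s := by ring
      _ ≤ _ := add_le_add hc1 hc2
  -- the product
  have e1 : ((D / D' - 1) * Q - 2 * D) * σ5 = Q * (((D / D' - 1) - 2 * (D / Q)) * σ5) := by
    field_simp
  rw [e1, mul_assoc]
  apply mul_le_mul_of_nonneg_left _ hQ.le
  have h10 : ((D / D' - 1) - 2 * (D / Q)) * σ5 ≤ 1 / m * (13 * w + 100 / m + 8 * z) * (6 * s) := by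
    calc ((D / D' - 1) - 2 * (D / Q)) * σ5 ≤ |((D / D' - 1) - 2 * (D / Q)) * σ5| := le_abs_self _
      _ = |(D / D' - 1) - 2 * (D / Q)| * |σ5| := abs_mul _ _
      _ ≤ 1 / m * (13 * w + 100 / m + 8 * z) * (6 * s) :=
          mul_le_mul hc h5 (abs_nonneg _) ((abs_nonneg _).trans hc)
  refine h10.trans ?_
  have e2 : 1 / m * (13 * w + 100 / m + 8 * z) * (6 * s) =
      3 / m * (26 * w * s + 200 / m * s + 16 * (z * s)) := by ring
  rw [e2]
  apply mul_le_mul_of_nonneg_left _ (by positivity)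
  linarith

/-- the noise term -/
theorem S1_noise (g : GS H M N κ S S' m Q u D D' K) {ε : ℝ} (hε : 0 < ε) :
    - (D / D' * ∑ x ∈ M, fd ((deg H M x : ℝ) / D - N x) * SN H M N x) ≤
      Q * (3 / m) * (3 * (ε * WW H M N D) + 10 * (ZZ H M N / (ε * u ^ 8))) := by
  have hm : 0 < m := lt_of_lt_of_le (by positivity) g.m_big
  have hm18 := g.m_big
  have hu : 0 < u := lt_of_lt_of_le (by norm_num) g.hu
  have hD : 0 < D := lt_of_lt_of_le (by positivity) g.D_lo
  have hD' : 0 < D' := lt_of_lt_of_le (by positivity) g.D'_lo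
  have hW : 0 ≤ WW H M N D := WW_nonneg
  have hZ : 0 ≤ ZZ H M N := ZZ_nonneg
  have hr2 : D / D' ≤ 2 := by
    have h1 := g.r_hi
    have h2 : 8 / m ≤ 1 := by
      rw [div_le_one hm]; exact le_trans (by norm_num) hm18
    linarith
  have hr0 : 0 ≤ D / D' := by positivity
  have hQD := g.Q_lo
  have hG : 9 / 10 * D ≤ Q * (3 / m) := by
    calc 9 / 10 * D = 3 / 10 * (m * D) * (3 / m) := by field_simp; norm_num
      _ ≤ Q * (3 / m) := mul_le_mul_of_nonneg_right hQD (by positivity)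
  have h1 : - ∑ x ∈ M, fd ((deg H M x : ℝ) / D - N x) * SN H M N x ≤
      D * ε * WW H M N D + 3 / (D * ε) * ZZ H M N := by
    unfold WW ZZ
    rw [mul_sum, mul_sum, ← sum_add_distrib, ← sum_neg_distrib]
    refine sum_le_sum fun x _ => ?_
    have h2 := fd_sq_le ((deg H M x : ℝ) / D - N x)
    have h3 := S1_amgm (t := D * ε / 6) (a := -fd ((deg H M x : ℝ) / D - N x))
      (s := SN H M N x) (by positivity)
    have e : SN H M N x ^ 2 / (D * ε / 6) = 2 * (3 / (D * ε) * SN H M N x ^ 2) := by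
      field_simp; ring
    rw [e, neg_sq] at h3
    have h4 : D * ε / 6 * fd ((deg H M x : ℝ) / D - N x) ^ 2 ≤
        D * ε / 6 * (12 * ff ((deg H M x : ℝ) / D - N x)) :=
      mul_le_mul_of_nonneg_left h2 (by positivity)
    linarith
  have h5 : - (D / D' * ∑ x ∈ M, fd ((deg H M x : ℝ) / D - N x) * SN H M N x) ≤
      2 * (D * ε * WW H M N D + 3 / (D * ε) * ZZ H M N) := by
    rw [← mul_neg]
    calc _ ≤ D / D' * (D * ε * WW H M N D + 3 / (D * ε) * ZZ H M N) :=
          mul_le_mul_of_nonneg_left h1 hr0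
      _ ≤ _ := mul_le_mul_of_nonneg_right hr2 (by positivity)
  refine h5.trans ?_
  rw [mul_add (Q * (3 / m)), mul_add 2]
  apply add_le_add
  · calc 2 * (D * ε * WW H M N D) ≤ 3 * (9 / 10 * D) * (ε * WW H M N D) := by
          have : 0 ≤ D * (ε * WW H M N D) := by positivity
          have e1 : 2 * (D * ε * WW H M N D) = 2 * (D * (ε * WW H M N D)) := by ring
          have e2 : 3 * (9 / 10 * D) * (ε * WW H M N D) =
            27 / 10 * (D * (ε * WW H M N D)) := by ring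
          rw [e1, e2]; linarith
      _ ≤ 3 * (Q * (3 / m)) * (ε * WW H M N D) :=
          mul_le_mul_of_nonneg_right (mul_le_mul_of_nonneg_left hG (by norm_num)) (by positivity)
      _ = _ := by ring
  · have hD2 : 81 / 100 * u ^ 8 ≤ D ^ 2 := by
      have h6 := g.D_lo
      calc 81 / 100 * u ^ 8 = (9 / 10 * u ^ 4) ^ 2 := by ring
        _ ≤ D ^ 2 := pow_le_pow_left₀ (by positivity) h6 2
    have h7 : 3 / (D * ε) ≤ 9 / 2 * D / (ε * u ^ 8) := by
      rw [div_le_div_iff₀ (by positivity) (by positivity)]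
      have e1 : 3 * (ε * u ^ 8) = 3 * ε * u ^ 8 := by ring
      have e2 : 9 / 2 * D * (D * ε) = 9 / 2 * ε * D ^ 2 := by ring
      rw [e1, e2]
      calc 3 * ε * u ^ 8 ≤ 9 / 2 * ε * (81 / 100 * u ^ 8) := by
            have : 0 ≤ ε * u ^ 8 := by positivity
            have e3 : 9 / 2 * ε * (81 / 100 * u ^ 8) = 729 / 200 * (ε * u ^ 8) := by ring
            rw [e3, mul_assoc]; linarith
        _ ≤ 9 / 2 * ε * D ^ 2 := mul_le_mul_of_nonneg_left hD2 (by positivity)
    calc 2 * (3 / (D * ε) * ZZ H M N) ≤ 2 * (9 / 2 * D / (ε * u ^ 8) * ZZ H M N) := by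
          apply mul_le_mul_of_nonneg_left _ (by norm_num)
          exact mul_le_mul_of_nonneg_right h7 hZ
      _ = 10 * (9 / 10 * D) * (ZZ H M N / (ε * u ^ 8)) := by ring
      _ ≤ 10 * (Q * (3 / m)) * (ZZ H M N / (ε * u ^ 8)) :=
          mul_le_mul_of_nonneg_right (mul_le_mul_of_nonneg_left hG (by norm_num)) (by positivity)
      _ = _ := by ring

end

theorem step_W : ∃ C : ℝ, 1 ≤ C ∧ ∀ (V : Type) [DecidableEq V] (H : Finset (Finset V))
    (M : Finset V) (N : V → ℝ) (κ S S' m Q u D D' K : ℝ), GS H M N κ S S' m Q u D D' K →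
    ∀ ε : ℝ, 0 < ε →
    ∑ T ∈ sub H M, WW H (M \ T) (Nup H M N D' T) D' ≤
      Q * (WW H M N D * (1 + 3 / m) + 3 / m * (C * (ε * WW H M N D + ZZ H M N / (ε * u ^ 8) +
        EE H M N D u / u ^ 4 + u * m * (Q / Qh κ m + S - 1) ^ 2 +
        Real.sqrt K / u ^ 2 * WW H M N D))) := by
  obtain ⟨C1, hC1, hpl⟩ := pl1
  obtain ⟨C2, hC2, herr⟩ := errW_le
  refine ⟨2 * C1 + C2 + 400, by linarith, ?_⟩
  intro V _ H M N κ S S' m Q u D D' K g ε hε
  have hm18 := g.m_big
  have hm : 0 < m := lt_of_lt_of_le (by positivity) g.m_big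
  have hu : 0 < u := lt_of_lt_of_le (by norm_num) g.hu
  have hu1 := g.hu
  have hD : 0 < D := lt_of_lt_of_le (by positivity) g.D_lo
  have hQ : 0 < Q := lt_of_lt_of_le (by positivity) g.Q_lo
  have hW : 0 ≤ WW H M N D := WW_nonneg
  have hZ : 0 ≤ ZZ H M N := ZZ_nonneg
  have h1 := W_alg g
  have h2 := herr V H M N κ S S' m Q u D D' K g
  have h3 := S1_mid g
  have h4 := S1_noise g hε
  have hDQ := g.DQ_hi
  have hDG : D ≤ Q * (3 / m) * (1 + 2 / u) := by
    rw [div_le_iff₀ hQ] at hDQ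
    calc D ≤ 3 / m * (1 + 2 / u) * Q := hDQ
      _ = _ := by ring
  have h2u : 2 / u ≤ 1 := by rw [div_le_one hu]; linarith
  have hEW := g.EE_ge_W
  have hWu : WW H M N D / u ≤ EE H M N D u / u ^ 4 := by
    rw [div_le_div_iff₀ hu (by positivity)]
    calc WW H M N D * u ^ 4 = u ^ 3 * WW H M N D * u := by ring
      _ ≤ EE H M N D u * u := mul_le_mul_of_nonneg_right hEW hu.le
  have hE0 : 0 ≤ EE H M N D u / u ^ 4 := le_trans (by positivity) hWu
  -- the term `D W`
  have h5 : D * WW H M N D ≤ Q * (WW H M N D * (3 / m)) +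
      Q * (3 / m) * (2 * (EE H M N D u / u ^ 4)) := by
    calc D * WW H M N D ≤ Q * (3 / m) * (1 + 2 / u) * WW H M N D :=
          mul_le_mul_of_nonneg_right hDG hW
      _ = Q * (WW H M N D * (3 / m)) + Q * (3 / m) * (2 * (WW H M N D / u)) := by ring
      _ ≤ _ := by
          apply add_le_add_right
          exact mul_le_mul_of_nonneg_left (by linarith) (by positivity)
  -- the term with `|N|`
  have h6 : D * ∑ x ∈ M, |N x| * (ff ((deg H M x : ℝ) / D - N x) *
      gg ((deg H M x : ℝ) / D - N x)) ≤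
      Q * (3 / m) * (2 * C1 * (EE H M N D u / u ^ 4)) := by
    have h7 : ∑ x ∈ M, |N x| * (ff ((deg H M x : ℝ) / D - N x) *
        gg ((deg H M x : ℝ) / D - N x)) ≤ C1 * (EE H M N D u / u ^ 4) := by
      rw [← mul_div_assoc, le_div_iff₀ (by positivity), mul_comm]
      unfold EE
      rw [mul_sum, mul_sum]
      exact sum_le_sum fun x hx => hpl u _ _ g.hu (g.theta_nonneg x) (g.hN x hx)
    have hnn : 0 ≤ C1 * (EE H M N D u / u ^ 4) := by positivity
    calc _ ≤ D * (C1 * (EE H M N D u / u ^ 4)) := mul_le_mul_of_nonneg_left h7 hD.le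
      _ ≤ Q * (3 / m) * (1 + 2 / u) * (C1 * (EE H M N D u / u ^ 4)) :=
          mul_le_mul_of_nonneg_right hDG hnn
      _ ≤ Q * (3 / m) * 2 * (C1 * (EE H M N D u / u ^ 4)) := by
          apply mul_le_mul_of_nonneg_right _ hnn
          exact mul_le_mul_of_nonneg_left (by linarith) (by positivity)
      _ = _ := by ring
  have h8 : Q * (WW H M N D * (1 + 3 / m) + 3 / m * ((2 * C1 + C2 + 400) *
        (ε * WW H M N D + ZZ H M N / (ε * u ^ 8) +
        EE H M N D u / u ^ 4 + u * m * (Q / Qh κ m + S - 1) ^ 2 +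
        Real.sqrt K / u ^ 2 * WW H M N D))) =
      Q * WW H M N D + Q * (WW H M N D * (3 / m)) +
        Q * (3 / m) * ((2 * C1 + C2 + 400) * (ε * WW H M N D) +
          (2 * C1 + C2 + 400) * (ZZ H M N / (ε * u ^ 8)) +
          (2 * C1 + C2 + 400) * (EE H M N D u / u ^ 4) +
          (2 * C1 + C2 + 400) * (u * m * (Q / Qh κ m + S - 1) ^ 2) +
          (2 * C1 + C2 + 400) * (Real.sqrt K / u ^ 2 * WW H M N D)) := by ring
  rw [h8]
  have h9 : Q * (3 / m) * (2 * (EE H M N D u / u ^ 4)) +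
      Q * (3 / m) * (2 * C1 * (EE H M N D u / u ^ 4)) +
      Q * (3 / m) * (8 * (u * m * (Q / Qh κ m + S - 1) ^ 2) + 300 * (EE H M N D u / u ^ 4) +
        104 * (Real.sqrt K / u ^ 2 * WW H M N D)) +
      Q * (3 / m) * (3 * (ε * WW H M N D) + 10 * (ZZ H M N / (ε * u ^ 8))) +
      Q * (3 / m * (C2 * (EE H M N D u / u ^ 4))) ≤
      Q * (3 / m) * ((2 * C1 + C2 + 400) * (ε * WW H M N D) +
          (2 * C1 + C2 + 400) * (ZZ H M N / (ε * u ^ 8)) +
          (2 * C1 + C2 + 400) * (EE H M N D u / u ^ 4) +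
          (2 * C1 + C2 + 400) * (u * m * (Q / Qh κ m + S - 1) ^ 2) +
          (2 * C1 + C2 + 400) * (Real.sqrt K / u ^ 2 * WW H M N D)) := by
    rw [← mul_assoc Q (3 / m) (C2 * _), ← mul_add, ← mul_add, ← mul_add, ← mul_add]
    apply mul_le_mul_of_nonneg_left _ (by positivity)
    have a1 : 3 * (ε * WW H M N D) ≤ (2 * C1 + C2 + 400) * (ε * WW H M N D) :=
      mul_le_mul_of_nonneg_right (by linarith) (by positivity)
    have a2 : 10 * (ZZ H M N / (ε * u ^ 8)) ≤ (2 * C1 + C2 + 400) * (ZZ H M N / (ε * u ^ 8)) :=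
      mul_le_mul_of_nonneg_right (by linarith) (by positivity)
    have a3 : (2 + 2 * C1 + 300 + C2) * (EE H M N D u / u ^ 4) ≤
        (2 * C1 + C2 + 400) * (EE H M N D u / u ^ 4) :=
      mul_le_mul_of_nonneg_right (by linarith) hE0
    have a4 : 8 * (u * m * (Q / Qh κ m + S - 1) ^ 2) ≤
        (2 * C1 + C2 + 400) * (u * m * (Q / Qh κ m + S - 1) ^ 2) :=
      mul_le_mul_of_nonneg_right (by linarith) (by positivity)
    have a5 : 104 * (Real.sqrt K / u ^ 2 * WW H M N D) ≤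
        (2 * C1 + C2 + 400) * (Real.sqrt K / u ^ 2 * WW H M N D) :=
      mul_le_mul_of_nonneg_right (by linarith) (by positivity)
    linarith
  linarith

end Vale.Agent.P046LF
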