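import Vale.Agent.P046LF.Basic

/-!
P046 log-free, module S1A: the algebra of the step for `W` (proof of (S1), up to the part Collect).
-/

namespace Vale.Agent.P046LF

open Finset Vale.Agent.P046

variable {V : Type} [DecidableEq V] {H : Finset (Finset V)} {M : Finset V} {N : V → ℝ}
  {κ S S' m Q u D D' K : ℝ}

/-- one vertex, one step -/
theorem S1a_point (g : GS H M N κ S S' m Q u D D' K) (hD : 0 < D) (hD' : 0 < D')
    {T : Finset V} (hT : T ∈ sub H M) {y : V} (hy : y ∈ M \ T) :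
    ff ((deg H (M \ T) y : ℝ) / D' - Nup H M N D' T y) ≤
      (ff ((deg H M y : ℝ) / D - N y) +
        fd ((deg H M y : ℝ) / D - N y) * ((D / D' - 1) * ((deg H M y : ℝ) / D)) +
        6 * (D / D' - 1) ^ 2 * ((deg H M y : ℝ) / D) ^ 2 +
        (if |N y| < 1 / 8 then
          6 * cd H M y ^ 2 / D' ^ 2 - fd ((deg H M y : ℝ) / D - N y) * (cd H M y / D') else 0)) +
      (if |N y| < 1 / 8 then 0 else 18 / D' ^ 2 - fd ((deg H M y : ℝ) / D - N y) / D') *
        (dl H M T y : ℝ) := by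
  set θ := (deg H M y : ℝ) / D with hθ
  set ψ := θ - N y with hψ
  set c := cd H M y with hc
  set d := (dl H M T y : ℝ) with hd
  have hdeg : (deg H (M \ T) y : ℝ) / D' = D / D' * θ - d / D' := by
    rw [g.deg_next, ← hd, hθ]; field_simp
  have hd3 : d ≤ 3 := by
    rw [mem_sdiff] at hy; rw [hd]; exact_mod_cast dl_le g.lin hT hy.2
  have hd0 : 0 ≤ d := by rw [hd]; positivity
  unfold Nup
  rw [hdeg]
  split_ifs with h
  · have e1 : D / D' * θ - d / D' - (N y - (d - c) / D') =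
        ψ + ((D / D' - 1) * θ - c / D') := by rw [hψ]; ring
    rw [← hd, ← hc, e1]
    have h1 := ff_taylor ψ ((D / D' - 1) * θ - c / D')
    have h2 : ((D / D' - 1) * θ - c / D') ^ 2 ≤
        2 * ((D / D' - 1) ^ 2 * θ ^ 2) + 2 * (c ^ 2 / D' ^ 2) := by
      have : (c / D') ^ 2 = c ^ 2 / D' ^ 2 := by rw [div_pow]
      rw [← this]
      nlinarith [sq_nonneg ((D / D' - 1) * θ + c / D')]
    calc _ ≤ ff ψ + fd ψ * ((D / D' - 1) * θ - c / D') + 3 * ((D / D' - 1) * θ - c / D') ^ 2 := h1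
      _ ≤ ff ψ + fd ψ * ((D / D' - 1) * θ - c / D') +
          3 * (2 * ((D / D' - 1) ^ 2 * θ ^ 2) + 2 * (c ^ 2 / D' ^ 2)) := by linarith
      _ = _ := by ring
  · have e1 : D / D' * θ - d / D' - N y = ψ + ((D / D' - 1) * θ - d / D') := by rw [hψ]; ring
    rw [e1]
    have h1 := ff_taylor ψ ((D / D' - 1) * θ - d / D')
    have h2 : ((D / D' - 1) * θ - d / D') ^ 2 ≤
        2 * ((D / D' - 1) ^ 2 * θ ^ 2) + 6 * (d / D' ^ 2) := by
      have h3 : (d / D') ^ 2 ≤ 3 * (d / D' ^ 2) := by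
        rw [div_pow, ← mul_div_assoc]
        apply div_le_div_of_nonneg_right _ (by positivity)
        nlinarith
      nlinarith [sq_nonneg ((D / D' - 1) * θ + d / D')]
    calc _ ≤ ff ψ + fd ψ * ((D / D' - 1) * θ - d / D') + 3 * ((D / D' - 1) * θ - d / D') ^ 2 := h1
      _ ≤ ff ψ + fd ψ * ((D / D' - 1) * θ - d / D') +
          3 * (2 * ((D / D' - 1) ^ 2 * θ ^ 2) + 6 * (d / D' ^ 2)) := by linarith
      _ = _ := by ring

/-- summation over the steps -/
theorem S1a_sum (g : GS H M N κ S S' m Q u D D' K) (φ k : V → ℝ) :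
    ∑ T ∈ sub H M, ∑ y ∈ M \ T, (φ y + k y * (dl H M T y : ℝ)) =
      ∑ y ∈ M, ((Q - deg H M y) * φ y + k y * (bb H M y - 2 * deg H M y)) := by
  have h1 : ∑ T ∈ sub H M, ∑ y ∈ M \ T, (φ y + k y * (dl H M T y : ℝ)) =
      ∑ T ∈ sub H M, ∑ y ∈ M \ T, φ y + ∑ T ∈ sub H M, ∑ y ∈ M \ T, k y * (dl H M T y : ℝ) := by
    rw [← sum_add_distrib]
    exact sum_congr rfl fun T _ => by rw [sum_add_distrib]
  rw [h1, sum_sdiff_eq, sum_sdiff_comm, ← sum_add_distrib, g.hQ]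
  refine sum_congr rfl fun y hy => ?_
  rw [← mul_sum, sum_dl_eq g.lin hy]

/-- the pointwise inequality after summation -/
theorem S1a_after (hD' : 0 < D') {a b c q f' f θ r ν : ℝ} (ha : 0 ≤ a) (hc : 0 ≤ c)
    (hcq : c * q = b - 2 * a) (haq : a ≤ q) :
    (q - a) * (f + f' * (r * θ) + 6 * r ^ 2 * θ ^ 2 +
        (if ν < 1 / 8 then 6 * c ^ 2 / D' ^ 2 - f' * (c / D') else 0)) +
      (if ν < 1 / 8 then 0 else 18 / D' ^ 2 - f' / D') * (b - 2 * a) ≤
    q * f - a * f + q * r * (θ * f') - r * (a * (θ * f')) - f' * (b / D') + 2 * (a / D') * f' +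
      1 / D' * (a * c * |f'|) + q * (6 * r ^ 2 * θ ^ 2 + 6 * c ^ 2 / D' ^ 2) +
      (if 1 / 8 ≤ ν then 18 / D' ^ 2 * b else 0) := by
  have hsq : 0 ≤ 6 * r ^ 2 * θ ^ 2 := by positivity
  have hcc : 0 ≤ 6 * c ^ 2 / D' ^ 2 := by positivity
  have hq : 0 ≤ q := ha.trans haq
  split_ifs with h h2 h2
  · linarith
  · have h3 : a * c * f' / D' ≤ 1 / D' * (a * c * |f'|) := by
      rw [one_div, inv_mul_eq_div]
      apply div_le_div_of_nonneg_right _ hD'.le
      exact mul_le_mul_of_nonneg_left (le_abs_self _) (by positivity)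
    have e : (q - a) * (f + f' * (r * θ) + 6 * r ^ 2 * θ ^ 2 +
        (6 * c ^ 2 / D' ^ 2 - f' * (c / D'))) + 0 * (b - 2 * a) =
        q * f - a * f + q * r * (θ * f') - r * (a * (θ * f')) - f' * ((c * q) / D') +
          a * c * f' / D' + q * (6 * r ^ 2 * θ ^ 2 + 6 * c ^ 2 / D' ^ 2) -
          a * (6 * r ^ 2 * θ ^ 2 + 6 * c ^ 2 / D' ^ 2) := by ring
    rw [e, hcq]
    have h4 : 0 ≤ a * (6 * r ^ 2 * θ ^ 2 + 6 * c ^ 2 / D' ^ 2) := by positivity
    have e2 : f' * ((b - 2 * a) / D') = f' * (b / D') - 2 * (a / D') * f' := by ring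
    rw [e2]
    linarith
  · have h3 : 0 ≤ 1 / D' * (a * c * |f'|) := by positivity
    have h4 : 0 ≤ a * (6 * r ^ 2 * θ ^ 2) := by positivity
    have h5 : 18 / D' ^ 2 * (b - 2 * a) ≤ 18 / D' ^ 2 * b :=
      mul_le_mul_of_nonneg_left (by linarith) (by positivity)
    have h6 : 0 ≤ q * (6 * c ^ 2 / D' ^ 2) := by positivity
    have e : (q - a) * (f + f' * (r * θ) + 6 * r ^ 2 * θ ^ 2 + 0) +
        (18 / D' ^ 2 - f' / D') * (b - 2 * a) =
        q * f - a * f + q * r * (θ * f') - r * (a * (θ * f')) - f' * (b / D') +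
          2 * (a / D') * f' + q * (6 * r ^ 2 * θ ^ 2) - a * (6 * r ^ 2 * θ ^ 2) +
          18 / D' ^ 2 * (b - 2 * a) := by ring
    rw [e, mul_add q]
    linarith
  · exact absurd (not_lt.1 h) h2

/-- the structure sum: for one triple -/
theorem S1a_triple {T : Finset V} (hT3 : T.card = 3) {ψ : V → ℝ}
    (hψ : ∀ x ∈ T, -(3 / 10) ≤ ψ x) :
    0 ≤ ∑ y ∈ T, (ff (ψ y) + ff (ψ y) * gg (ψ y) - 2 * fd (ψ y) +
      fd (ψ y) * (∑ z ∈ T, ψ z - ψ y)) := by
  obtain ⟨a, b, c, hab, hac, hbc, rfl⟩ := card_eq_three.1 hT3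
  have ha := hψ a (by simp)
  have hb := hψ b (by simp)
  have hc := hψ c (by simp)
  have h := triple_ff ha hb hc
  have e : ∀ F : V → ℝ, ∑ y ∈ ({a, b, c} : Finset V), F y = F a + F b + F c := by
    intro F
    rw [sum_insert (by simp [hab, hac]), sum_insert (by simp [hbc]), sum_singleton]
    ring
  rw [e, e]
  linarith

/-- the structure sum: all triples -/
theorem S1a_struct (g : GS H M N κ S S' m Q u D D' K) :
    2 * ∑ x ∈ M, (deg H M x : ℝ) * fd ((deg H M x : ℝ) / D - N x) -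
      ∑ x ∈ M, (deg H M x : ℝ) * ff ((deg H M x : ℝ) / D - N x) -
      ∑ x ∈ M, (deg H M x : ℝ) *
        (ff ((deg H M x : ℝ) / D - N x) * gg ((deg H M x : ℝ) / D - N x)) ≤
    ∑ T ∈ sub H M, ∑ y ∈ T, fd ((deg H M y : ℝ) / D - N y) *
      (∑ z ∈ T, ((deg H M z : ℝ) / D - N z) - ((deg H M y : ℝ) / D - N y)) := by
  set ψ : V → ℝ := fun x => (deg H M x : ℝ) / D - N x with hψ
  have h : 0 ≤ ∑ T ∈ sub H M, ∑ y ∈ T, (ff (ψ y) + ff (ψ y) * gg (ψ y) - 2 * fd (ψ y) +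
      fd (ψ y) * (∑ z ∈ T, ψ z - ψ y)) := by
    refine sum_nonneg fun T hT => S1a_triple (g.lin.card3 T (mem_sub.1 hT).1) fun x hx => ?_
    have := g.psi_ge ((mem_sub.1 hT).2 hx)
    show -(3 / 10) ≤ (deg H M x : ℝ) / D - N x
    linarith
  have e : ∑ T ∈ sub H M, ∑ y ∈ T, (ff (ψ y) + ff (ψ y) * gg (ψ y) - 2 * fd (ψ y) +
      fd (ψ y) * (∑ z ∈ T, ψ z - ψ y)) =
      ∑ x ∈ M, (deg H M x : ℝ) * ff (ψ x) + ∑ x ∈ M, (deg H M x : ℝ) * (ff (ψ x) * gg (ψ x)) -
        2 * ∑ x ∈ M, (deg H M x : ℝ) * fd (ψ x) +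
        ∑ T ∈ sub H M, ∑ y ∈ T, fd (ψ y) * (∑ z ∈ T, ψ z - ψ y) := by
    rw [← sum_sub_sum (fun x => ff (ψ x)), ← sum_sub_sum (fun x => ff (ψ x) * gg (ψ x)),
      ← sum_sub_sum (fun x => fd (ψ x)), mul_sum, ← sum_add_distrib, ← sum_sub_distrib,
      ← sum_add_distrib]
    refine sum_congr rfl fun T _ => ?_
    rw [mul_sum, ← sum_add_distrib, ← sum_sub_distrib, ← sum_add_distrib]
  rw [e] at h
  linarith

theorem S1a_lin (hD : 0 < D) (hD' : 0 < D') :
    ∑ y ∈ M, fd ((deg H M y : ℝ) / D - N y) * (bb H M y / D') =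
      D / D' * (∑ T ∈ sub H M, ∑ y ∈ T, fd ((deg H M y : ℝ) / D - N y) *
        (∑ z ∈ T, ((deg H M z : ℝ) / D - N z) - ((deg H M y : ℝ) / D - N y))) +
      D / D' * ∑ x ∈ M, fd ((deg H M x : ℝ) / D - N x) * SN H M N x := by
  have hb : ∀ y, bb H M y / D' = D / D' *
      (SN H M (fun z => (deg H M z : ℝ) / D - N z) y + SN H M N y) := by
    intro y
    have h1 : SN H M (fun z => (deg H M z : ℝ) / D - N z) y + SN H M N y = bb H M y / D := by
      unfold bb SN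
      rw [← sum_add_distrib, sum_div]
      refine sum_congr rfl fun T _ => ?_
      rw [sum_sub_distrib, ← sum_div]
      ring
    rw [h1]
    field_simp
  rw [← SN_sum_mul (fun y => fd ((deg H M y : ℝ) / D - N y))
    (fun z => (deg H M z : ℝ) / D - N z), ← mul_add, ← sum_add_distrib, mul_sum]
  refine sum_congr rfl fun y _ => ?_
  rw [hb]
  ring

theorem S1a_iv :
    - ∑ T ∈ sub H M, ∑ y ∈ T, fd ((deg H M y : ℝ) / D - N y) *
        (∑ z ∈ T, ((deg H M z : ℝ) / D - N z) - ((deg H M y : ℝ) / D - N y)) ≤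
      ∑ T ∈ sub H M, ∑ y ∈ T, ∑ z ∈ T,
        |fd ((deg H M y : ℝ) / D - N y)| * |(deg H M z : ℝ) / D - N z| := by
  rw [← sum_neg_distrib]
  refine sum_le_sum fun T _ => ?_
  rw [← sum_neg_distrib]
  refine sum_le_sum fun y hy => ?_
  rw [← mul_sum, ← sum_erase_eq_sub hy]
  calc -(fd ((deg H M y : ℝ) / D - N y) * ∑ z ∈ T.erase y, ((deg H M z : ℝ) / D - N z))
      ≤ |fd ((deg H M y : ℝ) / D - N y) * ∑ z ∈ T.erase y, ((deg H M z : ℝ) / D - N z)| :=
        neg_le_abs _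
    _ = |fd ((deg H M y : ℝ) / D - N y)| * |∑ z ∈ T.erase y, ((deg H M z : ℝ) / D - N z)| :=
        abs_mul _ _
    _ ≤ |fd ((deg H M y : ℝ) / D - N y)| * ∑ z ∈ T, |(deg H M z : ℝ) / D - N z| := by
        apply mul_le_mul_of_nonneg_left _ (abs_nonneg _)
        exact (abs_sum_le_sum_abs _ _).trans
          (sum_le_sum_of_subset_of_nonneg (erase_subset _ _) fun _ _ _ => abs_nonneg _)

theorem W_alg (g : GS H M N κ S S' m Q u D D' K) :
    ∑ T ∈ sub H M, WW H (M \ T) (Nup H M N D' T) D' ≤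
      Q * WW H M N D + D * WW H M N D +
      D * ∑ x ∈ M, |N x| * (ff ((deg H M x : ℝ) / D - N x) * gg ((deg H M x : ℝ) / D - N x)) +
      ((D / D' - 1) * Q - 2 * D) *
        ∑ x ∈ M, (deg H M x : ℝ) / D * fd ((deg H M x : ℝ) / D - N x) -
      D / D' * ∑ x ∈ M, fd ((deg H M x : ℝ) / D - N x) * SN H M N x +
      errW H M N Q D D' := by
  have hu := g.hu
  have hD : 0 < D := lt_of_lt_of_le (by positivity) g.D_lo
  have hD' : 0 < D' := lt_of_lt_of_le (by positivity) g.D'_lo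
  have hm : 0 < m := lt_of_lt_of_le (by positivity) g.m_big
  have hQ : 0 < Q := lt_of_lt_of_le (by positivity) g.Q_lo
  have hr : 0 ≤ D / D' - 1 := le_trans (by positivity) g.r_lo
  have haQ : ∀ y, (deg H M y : ℝ) ≤ Q := by
    intro y
    rw [← g.hQ]
    exact_mod_cast card_filter_le _ _
  -- step 1: pointwise + exchange
  have h1 : ∑ T ∈ sub H M, WW H (M \ T) (Nup H M N D' T) D' ≤
      ∑ y ∈ M, (Q * ff ((deg H M y : ℝ) / D - N y) -
        (deg H M y : ℝ) * ff ((deg H M y : ℝ) / D - N y) +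
        Q * (D / D' - 1) * ((deg H M y : ℝ) / D * fd ((deg H M y : ℝ) / D - N y)) -
        (D / D' - 1) * ((deg H M y : ℝ) *
          ((deg H M y : ℝ) / D * fd ((deg H M y : ℝ) / D - N y))) -
        fd ((deg H M y : ℝ) / D - N y) * (bb H M y / D') +
        2 * ((deg H M y : ℝ) / D') * fd ((deg H M y : ℝ) / D - N y) +
        1 / D' * ((deg H M y : ℝ) * cd H M y * |fd ((deg H M y : ℝ) / D - N y)|) +
        Q * (6 * (D / D' - 1) ^ 2 * ((deg H M y : ℝ) / D) ^ 2 + 6 * cd H M y ^ 2 / D' ^ 2) +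
        (if 1 / 8 ≤ |N y| then 18 / D' ^ 2 * bb H M y else 0)) := by
    unfold WW
    refine (sum_le_sum fun T hT => sum_le_sum fun y hy => S1a_point g hD hD' hT hy).trans ?_
    rw [S1a_sum g]
    refine sum_le_sum fun y hy => ?_
    have hcq : cd H M y * Q = bb H M y - 2 * deg H M y := by
      unfold cd
      rw [g.hQ, div_mul_cancel₀ _ hQ.ne']
    exact S1a_after hD' (by positivity) (cd_nonneg g.lin hy) hcq (haQ y)
  -- step 2: split the sum
  have h2 : ∑ y ∈ M, (Q * ff ((deg H M y : ℝ) / D - N y) -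
        (deg H M y : ℝ) * ff ((deg H M y : ℝ) / D - N y) +
        Q * (D / D' - 1) * ((deg H M y : ℝ) / D * fd ((deg H M y : ℝ) / D - N y)) -
        (D / D' - 1) * ((deg H M y : ℝ) *
          ((deg H M y : ℝ) / D * fd ((deg H M y : ℝ) / D - N y))) -
        fd ((deg H M y : ℝ) / D - N y) * (bb H M y / D') +
        2 * ((deg H M y : ℝ) / D') * fd ((deg H M y : ℝ) / D - N y) +
        1 / D' * ((deg H M y : ℝ) * cd H M y * |fd ((deg H M y : ℝ) / D - N y)|) +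
        Q * (6 * (D / D' - 1) ^ 2 * ((deg H M y : ℝ) / D) ^ 2 + 6 * cd H M y ^ 2 / D' ^ 2) +
        (if 1 / 8 ≤ |N y| then 18 / D' ^ 2 * bb H M y else 0)) =
      Q * WW H M N D - ∑ y ∈ M, (deg H M y : ℝ) * ff ((deg H M y : ℝ) / D - N y) +
      Q * (D / D' - 1) * ∑ y ∈ M, (deg H M y : ℝ) / D * fd ((deg H M y : ℝ) / D - N y) -
      (D / D' - 1) * ∑ y ∈ M, (deg H M y : ℝ) *
          ((deg H M y : ℝ) / D * fd ((deg H M y : ℝ) / D - N y)) -
      ∑ y ∈ M, fd ((deg H M y : ℝ) / D - N y) * (bb H M y / D') +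
      ∑ y ∈ M, 2 * ((deg H M y : ℝ) / D') * fd ((deg H M y : ℝ) / D - N y) +
      1 / D' * ∑ y ∈ M, (deg H M y : ℝ) * cd H M y * |fd ((deg H M y : ℝ) / D - N y)| +
      Q * ∑ y ∈ M, (6 * (D / D' - 1) ^ 2 * ((deg H M y : ℝ) / D) ^ 2 +
        6 * cd H M y ^ 2 / D' ^ 2) +
      18 / D' ^ 2 * ∑ x ∈ M with 1 / 8 ≤ |N x|, bb H M x := by
    unfold WW
    rw [sum_add_distrib, sum_add_distrib, sum_add_distrib, sum_add_distrib, sum_sub_distrib,
      sum_sub_distrib, sum_add_distrib, sum_sub_distrib]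
    simp only [← mul_sum, sum_filter]
    congr 1
    rw [mul_sum]
    refine sum_congr rfl fun x _ => ?_
    split_ifs <;> simp
  -- the pieces
  have hstruct := S1a_struct g
  have hlin := S1a_lin (H := H) (M := M) (N := N) hD hD'
  have hiv := mul_le_mul_of_nonneg_left (S1a_iv (H := H) (M := M) (N := N) (D := D)) hr
  have hvi : - ((D / D' - 1) * ∑ y ∈ M, (deg H M y : ℝ) *
          ((deg H M y : ℝ) / D * fd ((deg H M y : ℝ) / D - N y))) ≤
      (D / D' - 1) * ∑ x ∈ M, (deg H M x : ℝ) *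
      ((deg H M x : ℝ) / D * |fd ((deg H M x : ℝ) / D - N x)|) := by
    rw [← mul_neg, ← sum_neg_distrib]
    apply mul_le_mul_of_nonneg_left _ hr
    refine sum_le_sum fun x _ => ?_
    rw [← mul_neg, ← mul_neg]
    exact mul_le_mul_of_nonneg_left (mul_le_mul_of_nonneg_left (neg_le_abs _) (by positivity))
      (by positivity)
  have hv : ∑ y ∈ M, 2 * ((deg H M y : ℝ) / D') * fd ((deg H M y : ℝ) / D - N y) ≤
      2 * (D / D') * ∑ x ∈ M, (deg H M x : ℝ) / D * |fd ((deg H M x : ℝ) / D - N x)| := by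
    rw [mul_sum]
    refine sum_le_sum fun x _ => ?_
    have e : 2 * ((deg H M x : ℝ) / D') = 2 * (D / D') * ((deg H M x : ℝ) / D) := by
      field_simp
    rw [e, mul_assoc]
    exact mul_le_mul_of_nonneg_left (mul_le_mul_of_nonneg_left (le_abs_self _) (by positivity))
      (by positivity)
  have hgg : ∑ x ∈ M, (deg H M x : ℝ) *
        (ff ((deg H M x : ℝ) / D - N x) * gg ((deg H M x : ℝ) / D - N x)) ≤
      D * WW H M N D +
      D * ∑ x ∈ M, |N x| * (ff ((deg H M x : ℝ) / D - N x) * gg ((deg H M x : ℝ) / D - N x)) := by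
    unfold WW
    rw [← mul_add, ← sum_add_distrib, mul_sum]
    refine sum_le_sum fun x _ => ?_
    have hf := ff_nonneg ((deg H M x : ℝ) / D - N x)
    have hg := gg_nonneg ((deg H M x : ℝ) / D - N x)
    have hxg := mul_gg_le ((deg H M x : ℝ) / D - N x)
    have e : (deg H M x : ℝ) = D * (((deg H M x : ℝ) / D - N x) + N x) := by field_simp; ring
    have h3 : (((deg H M x : ℝ) / D - N x) + N x) *
        (ff ((deg H M x : ℝ) / D - N x) * gg ((deg H M x : ℝ) / D - N x)) ≤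
        ff ((deg H M x : ℝ) / D - N x) + |N x| *
        (ff ((deg H M x : ℝ) / D - N x) * gg ((deg H M x : ℝ) / D - N x)) := by
      rw [add_mul]
      apply add_le_add
      · calc ((deg H M x : ℝ) / D - N x) *
            (ff ((deg H M x : ℝ) / D - N x) * gg ((deg H M x : ℝ) / D - N x)) =
            ff ((deg H M x : ℝ) / D - N x) *
              (((deg H M x : ℝ) / D - N x) * gg ((deg H M x : ℝ) / D - N x)) := by ring
          _ ≤ ff ((deg H M x : ℝ) / D - N x) * 1 := mul_le_mul_of_nonneg_left hxg hf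
          _ = _ := mul_one _
      · exact mul_le_mul_of_nonneg_right (le_abs_self _) (mul_nonneg hf hg)
    calc (deg H M x : ℝ) *
        (ff ((deg H M x : ℝ) / D - N x) * gg ((deg H M x : ℝ) / D - N x)) =
        D * ((((deg H M x : ℝ) / D - N x) + N x) *
        (ff ((deg H M x : ℝ) / D - N x) * gg ((deg H M x : ℝ) / D - N x))) := by
          rw [← mul_assoc D, ← e]
      _ ≤ _ := mul_le_mul_of_nonneg_left h3 hD.le
  have hdd : ∑ x ∈ M, (deg H M x : ℝ) * fd ((deg H M x : ℝ) / D - N x) =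
      D * ∑ x ∈ M, (deg H M x : ℝ) / D * fd ((deg H M x : ℝ) / D - N x) := by
    rw [mul_sum]
    refine sum_congr rfl fun x _ => ?_
    rw [← mul_assoc, mul_div_cancel₀ _ hD.ne']
  rw [hlin] at h2
  rw [hdd] at hstruct
  unfold errW
  -- name the sums
  generalize ∑ T ∈ sub H M, WW H (M \ T) (Nup H M N D' T) D' = X0 at *
  generalize ∑ T ∈ sub H M, ∑ y ∈ T, fd ((deg H M y : ℝ) / D - N y) *
        (∑ z ∈ T, ((deg H M z : ℝ) / D - N z) - ((deg H M y : ℝ) / D - N y)) = X1 at *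
  generalize ∑ T ∈ sub H M, ∑ y ∈ T, ∑ z ∈ T,
        |fd ((deg H M y : ℝ) / D - N y)| * |(deg H M z : ℝ) / D - N z| = X2 at *
  generalize ∑ x ∈ M, (deg H M x : ℝ) * ff ((deg H M x : ℝ) / D - N x) = X3 at *
  generalize ∑ x ∈ M, (deg H M x : ℝ) *
        (ff ((deg H M x : ℝ) / D - N x) * gg ((deg H M x : ℝ) / D - N x)) = X4 at *
  generalize ∑ x ∈ M, (deg H M x : ℝ) / D * fd ((deg H M x : ℝ) / D - N x) = X5 at *
  generalize ∑ x ∈ M, fd ((deg H M x : ℝ) / D - N x) * SN H M N x = X6 at *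
  have e : (D / D') * X1 = X1 + (D / D' - 1) * X1 := by ring
  rw [h2, e] at h1
  linarith

end Vale.Agent.P046LF
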