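import Vale.Agent.P046LF.Basic

/-!
P046 log-free, module S2A: decomposition of the change of `S_y(N)` and the first cross term
(item (2) in the proof of (S2)), stated with the exact expectation.
-/

namespace Vale.Agent.P046LF

open Finset Vale.Agent.P046

variable {V : Type} [DecidableEq V] {H : Finset (Finset V)} {M : Finset V} {N : V → ℝ}
  {κ S S' m Q u D D' K : ℝ}

/-- `S'_y = S_y - L_y + G_y` -/
theorem SN_next (T : Finset V) (y : V) (D' : ℝ) :
    SN H (M \ T) (Nup H M N D' T) y = SN H M N y - LL H M N T y + GG H M N D' T y := by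
  have h1 : SN H M N y = LL H M N T y +
      ∑ T' ∈ sub H M with y ∈ T' ∧ Disjoint T' T, (∑ z ∈ T', N z - N y) := by
    unfold SN LL
    rw [← Finset.sum_filter_add_sum_filter_not ((sub H M).filter (fun T' => y ∈ T'))
      (fun T' => ¬ Disjoint T' T), filter_filter, filter_filter]
    simp only [not_not]
  have h2 : SN H (M \ T) (Nup H M N D' T) y =
      ∑ T' ∈ sub H M with y ∈ T' ∧ Disjoint T' T,
        (∑ z ∈ T', Nup H M N D' T z - Nup H M N D' T y) := by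
    unfold SN
    rw [sub_sdiff, filter_filter]
    refine Finset.sum_congr ?_ fun _ _ => rfl
    ext T'
    simp only [mem_filter]
    tauto
  rw [h2, h1]
  have h3 : GG H M N D' T y = ∑ T' ∈ sub H M with y ∈ T' ∧ Disjoint T' T,
      ((∑ z ∈ T', Nup H M N D' T z - Nup H M N D' T y) - (∑ z ∈ T', N z - N y)) := by
    unfold GG dN
    refine Finset.sum_congr rfl fun T' _ => ?_
    rw [Finset.sum_sub_distrib]; ring
  rw [h3]
  simp only [Finset.sum_sub_distrib]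
  ring

/-- Split of the square: `∑_T Z' ≤ Q Z - 2∑∑ S L + 2∑∑ S G + 2∑∑ L² + 2∑∑ G²`. -/
theorem ZZ_split (g : GS H M N κ S S' m Q u D D' K) :
    ∑ T ∈ sub H M, ZZ H (M \ T) (Nup H M N D' T) ≤ Q * ZZ H M N -
      2 * ∑ T ∈ sub H M, ∑ y ∈ M \ T, SN H M N y * LL H M N T y +
      2 * ∑ T ∈ sub H M, ∑ y ∈ M \ T, SN H M N y * GG H M N D' T y +
      2 * ∑ T ∈ sub H M, ∑ y ∈ M \ T, LL H M N T y ^ 2 +
      2 * ∑ T ∈ sub H M, ∑ y ∈ M \ T, GG H M N D' T y ^ 2 := by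
  have hQ := g.hQ
  have h0 : Q * ZZ H M N = ∑ T ∈ sub H M, ZZ H M N := by
    rw [Finset.sum_const, nsmul_eq_mul, hQ]
  rw [h0]
  simp only [Finset.mul_sum]
  rw [← Finset.sum_sub_distrib, ← Finset.sum_add_distrib, ← Finset.sum_add_distrib,
    ← Finset.sum_add_distrib]
  refine Finset.sum_le_sum fun T _ => ?_
  have h1 : ∑ y ∈ M \ T, SN H M N y ^ 2 ≤ ZZ H M N :=
    Finset.sum_le_sum_of_subset_of_nonneg sdiff_subset fun _ _ _ => sq_nonneg _
  have h2 : ZZ H (M \ T) (Nup H M N D' T) ≤ ∑ y ∈ M \ T, (SN H M N y ^ 2 -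
      2 * (SN H M N y * LL H M N T y) + 2 * (SN H M N y * GG H M N D' T y) +
      2 * LL H M N T y ^ 2 + 2 * GG H M N D' T y ^ 2) := by
    unfold ZZ
    refine Finset.sum_le_sum fun y _ => ?_
    rw [SN_next]
    nlinarith [sq_nonneg (LL H M N T y + GG H M N D' T y)]
  simp only [Finset.sum_add_distrib, Finset.sum_sub_distrib] at h2
  linarith

/-- exact first cross term, with `NL_y = ∑_{T ∋ y} N(T \ y) ξ(T \ y)` -/
theorem cross_L_eq (hH : IsLin3 H) (N : V → ℝ) {D : ℝ} (hD : D ≠ 0) :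
    ∑ T ∈ sub H M, ∑ y ∈ M \ T, SN H M N y * LL H M N T y =
      (2 * D - 2) * ZZ H M N + D * ∑ y ∈ M, SN H M N y *
        ∑ T ∈ sub H M with y ∈ T, (∑ z ∈ T, N z - N y) *
          ((∑ z ∈ T, ((deg H M z : ℝ) / D - 1)) - ((deg H M y : ℝ) / D - 1)) := by
  have h1 : ∑ T ∈ sub H M, ∑ y ∈ M \ T, SN H M N y * LL H M N T y =
      ∑ T ∈ sub H M, ∑ y ∈ M \ T, ∑ T' ∈ sub H M with y ∈ T' ∧ ¬ Disjoint T' T,
        SN H M N y * (∑ z ∈ T', N z - N y) := by
    refine Finset.sum_congr rfl fun T _ => Finset.sum_congr rfl fun y _ => ?_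
    unfold LL
    rw [Finset.mul_sum]
  rw [h1, sum_lost hH (fun T' y => SN H M N y * (∑ z ∈ T', N z - N y))]
  have h2 : ZZ H M N = ∑ T ∈ sub H M, ∑ y ∈ T, SN H M N y * (∑ z ∈ T, N z - N y) := by
    rw [← SN_sum_mul]
    exact Finset.sum_congr rfl fun y _ => by ring
  have h3 : ∑ y ∈ M, SN H M N y *
        ∑ T ∈ sub H M with y ∈ T, (∑ z ∈ T, N z - N y) *
          ((∑ z ∈ T, ((deg H M z : ℝ) / D - 1)) - ((deg H M y : ℝ) / D - 1)) =
      ∑ T ∈ sub H M, ∑ y ∈ T, SN H M N y * ((∑ z ∈ T, N z - N y) *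
          ((∑ z ∈ T, ((deg H M z : ℝ) / D - 1)) - ((deg H M y : ℝ) / D - 1))) := by
    rw [← sum_vert_edge (fun T y => SN H M N y * ((∑ z ∈ T, N z - N y) *
          ((∑ z ∈ T, ((deg H M z : ℝ) / D - 1)) - ((deg H M y : ℝ) / D - 1))))]
    exact Finset.sum_congr rfl fun y _ => by rw [Finset.mul_sum]
  rw [h3, h2, Finset.mul_sum, Finset.mul_sum, ← Finset.sum_add_distrib]
  refine Finset.sum_congr rfl fun T hT => ?_
  rw [Finset.mul_sum, Finset.mul_sum, ← Finset.sum_add_distrib]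
  refine Finset.sum_congr rfl fun y _ => ?_
  have h4 : (∑ z ∈ T, ((deg H M z : ℝ) / D - 1)) = (sT H M T : ℝ) / D - 3 := by
    rw [Finset.sum_sub_distrib, ← Finset.sum_div, ← sT_cast, Finset.sum_const,
      hH.card3 T (mem_sub.1 hT).1, nsmul_eq_mul]
    push_cast; ring
  rw [h4]
  field_simp
  ring

end Vale.Agent.P046LF
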