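import Vale.Agent.P046LF.S2a
import Vale.Agent.P046LF.Point

/-!
P046 log-free, module S2B: bound for the nonlinear part of the first cross term
(item (2), (PL2)) and for the lost squares (item (5), (PL3)).
-/

namespace Vale.Agent.P046LF

open Finset Vale.Agent.P046

section aux

variable {V : Type} [DecidableEq V] {H : Finset (Finset V)} {M : Finset V} {N : V → ℝ}
  {κ S S' m Q u D D' K : ℝ}

theorem s2b_sq_le {T : Finset V} (hT : T.card = 3) {y : V} (hy : y ∈ T) (φ : V → ℝ) :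
    (∑ z ∈ T, φ z - φ y) ^ 2 ≤ 2 * ∑ z ∈ T, φ z ^ 2 := by
  have h1 : ∑ z ∈ T, φ z - φ y = ∑ z ∈ T.erase y, φ z := by
    rw [← Finset.add_sum_erase T φ hy]; ring
  have h2 : ∑ z ∈ T.erase y, φ z ^ 2 ≤ ∑ z ∈ T, φ z ^ 2 :=
    Finset.sum_le_sum_of_subset_of_nonneg (Finset.erase_subset _ _) fun _ _ _ => sq_nonneg _
  have h3 := sq_sum_le_card_mul_sum_sq (s := T.erase y) (f := φ)
  rw [Finset.card_erase_of_mem hy, hT] at h3
  rw [h1]
  norm_num at h3
  linarith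

/-- `Q * (3 / m) ≥ 0.9 D` -/
theorem s2b_Q (g : GS H M N κ S S' m Q u D D' K) : 9 / 10 * D ≤ Q * (3 / m) := by
  have hm : 0 < m := lt_of_lt_of_le (by norm_num) g.m_big
  have h := g.Q_lo
  rw [mul_div_assoc', le_div_iff₀ hm]
  linarith

theorem s2b_D_pos (g : GS H M N κ S S' m Q u D D' K) : 0 < D := by
  have hu : 0 < u := lt_of_lt_of_le (by norm_num) g.hu
  have := g.D_lo
  have h2 : 0 < u ^ 4 := by positivity
  linarith

/-- the nonlinear part -/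
theorem s2b_NL_sq (hH : IsLin3 H) (hD : 0 < D) {C : ℝ}
    (hpl : ∀ y ∈ M, ∀ z ∈ M, ∀ v ∈ M, (deg H M y : ℝ) / D * N z ^ 2 * ((deg H M v : ℝ) / D - 1) ^ 2 ≤
      C * e2 u ((deg H M y : ℝ) / D) (N y) + C * e2 u ((deg H M z : ℝ) / D) (N z) +
        C * e2 u ((deg H M v : ℝ) / D) (N v)) :
    ∑ y ∈ M, (∑ T ∈ sub H M with y ∈ T, (∑ z ∈ T, N z - N y) *
          ((∑ z ∈ T, ((deg H M z : ℝ) / D - 1)) - ((deg H M y : ℝ) / D - 1))) ^ 2 ≤
      108 * (D * ∑ x ∈ M, (deg H M x : ℝ) * (C * e2 u ((deg H M x : ℝ) / D) (N x))) := by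
  have h1 : ∀ y ∈ M, (∑ T ∈ sub H M with y ∈ T, (∑ z ∈ T, N z - N y) *
          ((∑ z ∈ T, ((deg H M z : ℝ) / D - 1)) - ((deg H M y : ℝ) / D - 1))) ^ 2 ≤
      ∑ T ∈ sub H M with y ∈ T, 4 * (deg H M y : ℝ) * ((∑ z ∈ T, N z ^ 2) *
        ∑ v ∈ T, ((deg H M v : ℝ) / D - 1) ^ 2) := by
    intro y _
    have h2 := sq_sum_le_card_mul_sum_sq (s := (sub H M).filter fun T => y ∈ T)
      (f := fun T => (∑ z ∈ T, N z - N y) *
          ((∑ z ∈ T, ((deg H M z : ℝ) / D - 1)) - ((deg H M y : ℝ) / D - 1)))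
    refine h2.trans ?_
    rw [show (((sub H M).filter fun T => y ∈ T).card : ℝ) = deg H M y from rfl, Finset.mul_sum]
    refine Finset.sum_le_sum fun T hT => ?_
    rw [mem_filter] at hT
    have hc := hH.card3 T (mem_sub.1 hT.1).1
    have a1 := s2b_sq_le hc hT.2 N
    have a2 := s2b_sq_le hc hT.2 (fun z => (deg H M z : ℝ) / D - 1)
    rw [mul_pow]
    have a3 := mul_le_mul a1 a2 (sq_nonneg _) (by positivity)
    have a4 : 0 ≤ (deg H M y : ℝ) := by positivity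
    calc (deg H M y : ℝ) * ((∑ z ∈ T, N z - N y) ^ 2 *
          ((∑ z ∈ T, ((deg H M z : ℝ) / D - 1)) - ((deg H M y : ℝ) / D - 1)) ^ 2)
        ≤ (deg H M y : ℝ) * (2 * ∑ z ∈ T, N z ^ 2) * (2 * ∑ v ∈ T, ((deg H M v : ℝ) / D - 1) ^ 2) := by
          rw [mul_assoc]
          exact mul_le_mul_of_nonneg_left a3 a4
      _ = _ := by ring
  refine (Finset.sum_le_sum h1).trans ?_
  rw [sum_vert_edge (M := M) (H := H) (fun (T : Finset V) (y : V) => 4 * (deg H M y : ℝ) * ((∑ z ∈ T, N z ^ 2) *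
        ∑ v ∈ T, ((deg H M v : ℝ) / D - 1) ^ 2))]
  have h3 := triple_sum (H := H) (M := M) hH
    (F := fun y z v => (deg H M y : ℝ) / D * N z ^ 2 * ((deg H M v : ℝ) / D - 1) ^ 2)
    (Φ := fun x => C * e2 u ((deg H M x : ℝ) / D) (N x)) hpl
  have h4 : ∑ T ∈ sub H M, ∑ y ∈ T, 4 * (deg H M y : ℝ) * ((∑ z ∈ T, N z ^ 2) *
        ∑ v ∈ T, ((deg H M v : ℝ) / D - 1) ^ 2) =
      4 * D * ∑ T ∈ sub H M, ∑ y ∈ T, ∑ z ∈ T, ∑ v ∈ T,
        (deg H M y : ℝ) / D * N z ^ 2 * ((deg H M v : ℝ) / D - 1) ^ 2 := by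
    simp only [Finset.sum_mul_sum]
    simp only [Finset.mul_sum]
    refine Finset.sum_congr rfl fun T _ => ?_
    refine Finset.sum_congr rfl fun y _ => ?_
    refine Finset.sum_congr rfl fun z _ => ?_
    refine Finset.sum_congr rfl fun v _ => ?_
    field_simp
  rw [h4]
  calc 4 * D * ∑ T ∈ sub H M, ∑ y ∈ T, ∑ z ∈ T, ∑ v ∈ T,
        (deg H M y : ℝ) / D * N z ^ 2 * ((deg H M v : ℝ) / D - 1) ^ 2
      ≤ 4 * D * (27 * ∑ x ∈ M, (deg H M x : ℝ) * (C * e2 u ((deg H M x : ℝ) / D) (N x))) :=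
        mul_le_mul_of_nonneg_left h3 (by positivity)
    _ = _ := by ring

/-- summing a pointwise bound `θ φ ≤ C ee / w` -/
theorem s2b_sum (hD : 0 < D) {φ : V → ℝ} {C C' w : ℝ} (hC : 0 ≤ C)
    (h : ∀ x ∈ M, (deg H M x : ℝ) / D * φ x ≤ C' * (ee u ((deg H M x : ℝ) / D) (N x) / w)) :
    ∑ x ∈ M, (deg H M x : ℝ) * (C * φ x) ≤ D * (C * (C' * (EE H M N D u / w))) := by
  unfold EE
  rw [Finset.sum_div, Finset.mul_sum, Finset.mul_sum, Finset.mul_sum]
  refine Finset.sum_le_sum fun x hx => ?_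
  have e : (deg H M x : ℝ) * (C * φ x) = D * (C * ((deg H M x : ℝ) / D * φ x)) := by
    field_simp
  rw [e]
  exact mul_le_mul_of_nonneg_left (mul_le_mul_of_nonneg_left (h x hx) hC) hD.le

/-- final numerics for item (2) -/
theorem s2b_num1 {D u m Q Z X NLs : ℝ} (hu : 1000 ≤ u) (hm : 10 ^ 18 ≤ m)
    (hQ : 0 < Q) (hDlo : 9 / 10 * u ^ 4 ≤ D) (hDQ : 3 / m * (1 - 2 / u) ≤ D / Q) (hZ : 0 ≤ Z)
    (hNL : 12 * D * NLs ≤ Q * (3 / m * X)) :
    -((4 * D - 4) * Z) + D * (Z / 12) + 12 * D * NLs ≤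
      Q * (-(117 / (10 * m)) * Z + 3 / m * X) := by
  have hm0 : 0 < m := by linarith [show (0:ℝ) < 10 ^ 18 by norm_num]
  have hu0 : 0 < u := by linarith
  have h1 : 3 / m * (998 / 1000) ≤ D / Q := by
    refine le_trans ?_ hDQ
    refine mul_le_mul_of_nonneg_left ?_ (by positivity)
    have : 2 / u ≤ 2 / 1000 := by
      apply div_le_div_of_nonneg_left (by norm_num) (by norm_num) hu
    linarith
  have h2 : Q * (3 / m * (998 / 1000)) ≤ D := by
    rw [le_div_iff₀ hQ] at h1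
    linarith
  have hD1 : 10 ^ 6 ≤ D := by
    have : (1000:ℝ) ^ 4 ≤ u ^ 4 := by gcongr
    nlinarith
  -- `Q / m ≤ 0.34 D`
  have h3 : Q / m * (2994 / 1000) ≤ D := by
    have : Q * (3 / m * (998 / 1000)) = Q / m * (2994 / 1000) := by field_simp; norm_num
    linarith
  have h4 : Q * (117 / (10 * m)) ≤ 4 * D - 4 - D / 12 := by
    have e : Q * (117 / (10 * m)) = Q / m * (117 / 10) := by field_simp
    rw [e]
    have : Q / m ≤ D * (1000 / 2994) := by linarith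
    nlinarith
  have h5 := mul_le_mul_of_nonneg_right h4 hZ
  have e2 : Q * (-(117 / (10 * m)) * Z + 3 / m * X) =
      -(Q * (117 / (10 * m)) * Z) + Q * (3 / m * X) := by ring
  rw [e2]
  nlinarith

end aux

/-- item (2) -/
theorem cross_L_le : ∃ C : ℝ, 1 ≤ C ∧ ∀ (V : Type) [DecidableEq V] (H : Finset (Finset V))
    (M : Finset V) (N : V → ℝ) (κ S S' m Q u D D' K : ℝ), GS H M N κ S S' m Q u D D' K →
    -(2 * ∑ T ∈ sub H M, ∑ y ∈ M \ T, SN H M N y * LL H M N T y) ≤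
      Q * (-(117 / (10 * m)) * ZZ H M N + 3 / m * (C * (u ^ 3 * EE H M N D u))) := by
  obtain ⟨C1, hC1, h1⟩ := pl2
  obtain ⟨C2, hC2, h2⟩ := pl2'
  refine ⟨1440 * (C1 * C2), by nlinarith, fun V _ H M N κ S S' m Q u D D' K g => ?_⟩
  have hD := s2b_D_pos g
  have hm : 0 < m := lt_of_lt_of_le (by norm_num) g.m_big
  have hu : 0 < u := lt_of_lt_of_le (by norm_num) g.hu
  have hQ : 0 < Q := lt_of_lt_of_le (by positivity) g.Q_lo
  have hE : 0 ≤ EE H M N D u := le_trans (by positivity) g.EE_ge_m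
  have hth : ∀ x, 0 ≤ (deg H M x : ℝ) / D := fun x => g.theta_nonneg x
  have k1 := s2b_NL_sq (H := H) (M := M) (N := N) (u := u) g.lin hD (C := C1)
    (fun y hy z hz v hv => h1 u _ _ _ _ _ _ g.hu (hth y) (hth z) (hth v) (g.hN y hy)
      (g.hN z hz) (g.hN v hv))
  have k2 := s2b_sum (H := H) (M := M) (N := N) (u := u) (w := u ^ 5) hD
    (φ := fun x => e2 u ((deg H M x : ℝ) / D) (N x)) (C := C1) (C' := C2) (by linarith)
    (fun x hx => h2 u _ _ g.hu (hth x) (g.hN x hx))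
  rw [cross_L_eq g.lin N hD.ne']
  set NL : V → ℝ := fun y => ∑ T ∈ sub H M with y ∈ T, (∑ z ∈ T, N z - N y) *
          ((∑ z ∈ T, ((deg H M z : ℝ) / D - 1)) - ((deg H M y : ℝ) / D - 1)) with hNL
  have k3 : ∑ y ∈ M, NL y ^ 2 ≤ 108 * (D * (D * (C1 * (C2 * (EE H M N D u / u ^ 5))))) := by
    refine k1.trans ?_
    exact mul_le_mul_of_nonneg_left (mul_le_mul_of_nonneg_left k2 hD.le) (by norm_num)
  have k4 : -(2 * (D * ∑ y ∈ M, SN H M N y * NL y)) ≤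
      D * (ZZ H M N / 12) + 12 * D * ∑ y ∈ M, NL y ^ 2 := by
    have : -(2 * ∑ y ∈ M, SN H M N y * NL y) ≤ ZZ H M N / 12 + 12 * ∑ y ∈ M, NL y ^ 2 := by
      unfold ZZ
      rw [Finset.mul_sum, Finset.mul_sum, Finset.sum_div, ← Finset.sum_neg_distrib,
        ← Finset.sum_add_distrib]
      refine Finset.sum_le_sum fun y _ => ?_
      nlinarith [sq_nonneg (SN H M N y + 12 * NL y)]
    have := mul_le_mul_of_nonneg_left this hD.le
    linarith
  have k5 : 12 * D * ∑ y ∈ M, NL y ^ 2 ≤ Q * (3 / m * (1440 * (C1 * C2) * (u ^ 3 * EE H M N D u))) := by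
    have a1 : D ^ 2 ≤ (u ^ 4) ^ 2 := by
      have := g.D_hi
      gcongr
    have a2 := s2b_Q g
    have a3 : 0 ≤ C1 * C2 * EE H M N D u := by positivity
    calc 12 * D * ∑ y ∈ M, NL y ^ 2
        ≤ 12 * D * (108 * (D * (D * (C1 * (C2 * (EE H M N D u / u ^ 5)))))) :=
          mul_le_mul_of_nonneg_left k3 (by positivity)
      _ = 1296 * (D * (C1 * C2 * EE H M N D u)) * D ^ 2 / u ^ 5 := by ring
      _ ≤ 1296 * (D * (C1 * C2 * EE H M N D u)) * (u ^ 4) ^ 2 / u ^ 5 := by gcongr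
      _ = (9 / 10 * D) * (1440 * (C1 * C2) * (u ^ 3 * EE H M N D u)) := by
          field_simp; ring
      _ ≤ (Q * (3 / m)) * (1440 * (C1 * C2) * (u ^ 3 * EE H M N D u)) :=
          mul_le_mul_of_nonneg_right a2 (by positivity)
      _ = _ := by ring
  have hZ : 0 ≤ ZZ H M N := Finset.sum_nonneg fun _ _ => sq_nonneg _
  have k6 := s2b_num1 (D := D) (u := u) (m := m) (Q := Q) (Z := ZZ H M N)
    (X := 1440 * (C1 * C2) * (u ^ 3 * EE H M N D u)) (NLs := ∑ y ∈ M, NL y ^ 2)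
    g.hu g.m_big hQ g.D_lo g.DQ_lo hZ k5
  linarith

/-- the lost part as a sum of squares -/
theorem s2b_LL_sq {V : Type} [DecidableEq V] {H : Finset (Finset V)} {M : Finset V} (hH : IsLin3 H)
    (N : V → ℝ) {T : Finset V} (hT : T ∈ sub H M) {y : V} (hy : y ∈ M \ T) :
    LL H M N T y ^ 2 ≤
      ∑ T' ∈ sub H M with y ∈ T' ∧ ¬ Disjoint T' T, 6 * ∑ z ∈ T', N z ^ 2 := by
  have hyT : y ∉ T := (mem_sdiff.1 hy).2
  have h1 := sq_sum_le_card_mul_sum_sq (s := (sub H M).filter fun T' => y ∈ T' ∧ ¬ Disjoint T' T)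
    (f := fun T' => (∑ z ∈ T', N z - N y))
  have h2 : ((((sub H M).filter fun T' => y ∈ T' ∧ ¬ Disjoint T' T).card : ℕ) : ℝ) ≤ 3 := by
    have := dl_le hH hT hyT
    unfold dl at this
    exact_mod_cast this
  unfold LL
  refine h1.trans ?_
  refine (mul_le_mul_of_nonneg_right h2 (Finset.sum_nonneg fun _ _ => sq_nonneg _)).trans ?_
  rw [Finset.mul_sum]
  refine Finset.sum_le_sum fun T' hT' => ?_
  rw [mem_filter] at hT'
  have := s2b_sq_le (hH.card3 T' (mem_sub.1 hT'.1).1) hT'.2.1 N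
  linarith

/-- item (5) -/
theorem lost_sq_le : ∃ C : ℝ, 1 ≤ C ∧ ∀ (V : Type) [DecidableEq V] (H : Finset (Finset V))
    (M : Finset V) (N : V → ℝ) (κ S S' m Q u D D' K : ℝ), GS H M N κ S S' m Q u D D' K →
    2 * ∑ T ∈ sub H M, ∑ y ∈ M \ T, LL H M N T y ^ 2 ≤
      Q * (3 / m * (C * (u ^ 3 * EE H M N D u))) := by
  obtain ⟨C1, hC1, h1⟩ := pl3
  obtain ⟨C2, hC2, h2⟩ := pl3'
  refine ⟨240 * (C1 * C2), by nlinarith, fun V _ H M N κ S S' m Q u D D' K g => ?_⟩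
  have hD := s2b_D_pos g
  have hm : 0 < m := lt_of_lt_of_le (by norm_num) g.m_big
  have hu : 0 < u := lt_of_lt_of_le (by norm_num) g.hu
  have hE : 0 ≤ EE H M N D u := le_trans (by positivity) g.EE_ge_m
  have hth : ∀ x, 0 ≤ (deg H M x : ℝ) / D := fun x => g.theta_nonneg x
  have k0 : ∑ T ∈ sub H M, ∑ y ∈ M \ T, LL H M N T y ^ 2 ≤
      ∑ T ∈ sub H M, ∑ y ∈ M \ T, ∑ T' ∈ sub H M with y ∈ T' ∧ ¬ Disjoint T' T,
        6 * ∑ z ∈ T', N z ^ 2 :=
    Finset.sum_le_sum fun T hT => Finset.sum_le_sum fun y hy => s2b_LL_sq g.lin N hT hy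
  rw [sum_lost g.lin (fun T' _ => 6 * ∑ z ∈ T', N z ^ 2)] at k0
  have k1 : ∑ T' ∈ sub H M, ∑ y ∈ T', ((sT H M T' : ℝ) - deg H M y - 2) *
        (6 * ∑ z ∈ T', N z ^ 2) ≤
      18 * D * ∑ T ∈ sub H M, ∑ z ∈ T, ∑ v ∈ T, N z ^ 2 * ((deg H M v : ℝ) / D) := by
    rw [Finset.mul_sum]
    refine Finset.sum_le_sum fun T hT => ?_
    have hc := g.lin.card3 T (mem_sub.1 hT).1
    have hn : 0 ≤ ∑ z ∈ T, N z ^ 2 := Finset.sum_nonneg fun _ _ => sq_nonneg _
    calc ∑ y ∈ T, ((sT H M T : ℝ) - deg H M y - 2) * (6 * ∑ z ∈ T, N z ^ 2)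
        ≤ ∑ y ∈ T, (sT H M T : ℝ) * (6 * ∑ z ∈ T, N z ^ 2) := by
          refine Finset.sum_le_sum fun y _ => mul_le_mul_of_nonneg_right ?_ (by positivity)
          have : (0:ℝ) ≤ deg H M y := by positivity
          linarith
      _ = 18 * ((∑ z ∈ T, N z ^ 2) * sT H M T) := by
          rw [Finset.sum_const, hc, nsmul_eq_mul]; push_cast; ring
      _ = 18 * D * ∑ z ∈ T, ∑ v ∈ T, N z ^ 2 * ((deg H M v : ℝ) / D) := by
          unfold sT
          push_cast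
          rw [Finset.sum_mul_sum, Finset.mul_sum, Finset.mul_sum]
          refine Finset.sum_congr rfl fun z _ => ?_
          rw [Finset.mul_sum, Finset.mul_sum]
          refine Finset.sum_congr rfl fun v _ => ?_
          field_simp
  have k2 := pair_sum (H := H) (M := M) g.lin
    (F := fun z v => N z ^ 2 * ((deg H M v : ℝ) / D))
    (Φ := fun x => C1 * e3 u ((deg H M x : ℝ) / D) (N x))
    (Ψ := fun x => C1 * e3 u ((deg H M x : ℝ) / D) (N x))
    (fun z hz v hv => h1 u _ _ _ _ g.hu (hth z) (hth v) (g.hN z hz) (g.hN v hv))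
  have k3 := s2b_sum (H := H) (M := M) (N := N) (u := u) (w := u) hD
    (φ := fun x => e3 u ((deg H M x : ℝ) / D) (N x)) (C := C1) (C' := C2) (by linarith)
    (fun x hx => h2 u _ _ g.hu (hth x) (g.hN x hx))
  have k4 : ∑ x ∈ M, (deg H M x : ℝ) * (C1 * e3 u ((deg H M x : ℝ) / D) (N x) +
      C1 * e3 u ((deg H M x : ℝ) / D) (N x)) ≤ 2 * (D * (C1 * (C2 * (EE H M N D u / u)))) := by
    refine le_trans (le_of_eq ?_) (mul_le_mul_of_nonneg_left k3 (by norm_num))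
    rw [Finset.mul_sum]
    exact Finset.sum_congr rfl fun x _ => by ring
  have a2 := s2b_Q g
  have a1 := g.D_hi
  have a3 : 0 ≤ C1 * C2 * EE H M N D u := by positivity
  calc 2 * ∑ T ∈ sub H M, ∑ y ∈ M \ T, LL H M N T y ^ 2
      ≤ 2 * (18 * D * (3 * (2 * (D * (C1 * (C2 * (EE H M N D u / u))))))) := by
        refine mul_le_mul_of_nonneg_left (k0.trans (k1.trans ?_)) (by norm_num)
        refine mul_le_mul_of_nonneg_left (k2.trans ?_) (by positivity)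
        exact mul_le_mul_of_nonneg_left k4 (by norm_num)
    _ = 216 * (D * (C1 * C2 * EE H M N D u)) * D / u := by ring
    _ ≤ 216 * (D * (C1 * C2 * EE H M N D u)) * u ^ 4 / u := by gcongr
    _ = (9 / 10 * D) * (240 * (C1 * C2) * (u ^ 3 * EE H M N D u)) := by
        field_simp; ring
    _ ≤ (Q * (3 / m)) * (240 * (C1 * C2) * (u ^ 3 * EE H M N D u)) :=
        mul_le_mul_of_nonneg_right a2 (by positivity)
    _ = _ := by ring

end Vale.Agent.P046LF
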