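import Vale.Agent.P046LF.Pot3

/-!
P046 log-free, module S8a: the starting value of the potential.
-/

namespace Vale.Agent.P046LF

open Finset Vale.Agent.P046

theorem G0_le {c : Cs} {uL : ℝ} (huL : 1 ≤ uL) : G0 c uL ≤ 6 * c.W + 2 * c.C2 := by
  have hW := c.hW
  have hC := c.C2_pos
  have h0 : 0 < uL := by linarith
  have h1 : Real.sqrt uL ≤ uL := by
    rw [Real.sqrt_le_left h0.le]; nlinarith
  have h2 : C4c c uL / uL ≤ 2 * c.W + c.C2 := by
    rw [div_le_iff₀ h0]
    unfold C4c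
    have h3 := mul_le_mul_of_nonneg_left h1 (by linarith : 0 ≤ c.W)
    have h4 := mul_le_mul_of_nonneg_left huL (by linarith : 0 ≤ c.W)
    have h5 := mul_le_mul_of_nonneg_left huL (by linarith : 0 ≤ c.C2)
    linarith
  unfold G0
  have : 2 * C4c c uL / uL = 2 * (C4c c uL / uL) := by ring
  rw [this]
  linarith

/-- the bound for the random greedy matching started from a regular linear 3-uniform hypergraph -/
theorem cost_start : ∃ c : Cs, Steps c ∧ ∃ Cst : ℝ, 1 ≤ Cst ∧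
    ∀ (V : Type) [DecidableEq V] (H : Finset (Finset V)) (M : Finset V) (g : Finset V → ℝ)
      (D0 κ uL μ K : ℝ) (k : ℕ), IsLin3 H → 0 < D0 → (∀ x ∈ M, (deg H M x : ℝ) = D0) →
      κ = D0 / ((M.card - 3) * (M.card - 6)) → (M.card : ℝ) = μ + 3 * k → 1000 ≤ uL →
      uL ^ 4 = κ * μ ^ 2 → uL ^ 6 * (M.card : ℝ) ^ 2 ≤ μ ^ 3 → D0 * uL ^ 2 ≤ μ → 1 ≤ K →
      K ≤ uL ^ 3 → (∀ M', g M' ≤ 1) →
      (∀ (M' : Finset V) (N : V → ℝ) (S : ℝ), (M'.card : ℝ) = μ → (∀ x ∈ M', |N x| ≤ 1 / 4) →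
        0 ≤ S → g M' ≤ LamK c κ uL μ M.card K H M' N S) →
      cost H g k M ≤ Cst / K := by
  obtain ⟨c, hc⟩ := exists_Steps
  have hATh := c.ATh_pos
  have hC3 := c.C3_pos
  have hC2 := c.C2_pos
  have hW := c.hW
  refine ⟨c, hc, Real.exp (6 * c.W + 2 * c.C2) * (27 * c.ATh + 2 * c.C3), ?_, ?_⟩
  · have h1 : 1 ≤ Real.exp (6 * c.W + 2 * c.C2) := Real.one_le_exp (by linarith)
    nlinarith
  intro V _ H M g D0 κ uL μ K k hH hD0 hdeg hκ hM huL huL4 hR6 hD0u hK1 hKL hg1 hg
  have huL0 : 0 < uL := by linarith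
  have hK0 : 0 < K := by linarith
  have hμ : 0 < μ := lt_of_lt_of_le (by positivity) hD0u
  have hk0 : (0 : ℝ) ≤ k := by positivity
  have hmμ : μ ≤ (M.card : ℝ) := by rw [hM]; linarith
  have hR : (1000 : ℝ) ≤ M.card := by
    have h1 : uL ^ 6 * (M.card : ℝ) ^ 2 ≤ (M.card : ℝ) ^ 3 :=
      hR6.trans (pow_le_pow_left₀ hμ.le hmμ 3)
    have h0 : (0 : ℝ) < M.card := by linarith
    have h2 : uL ^ 6 ≤ M.card := by
      have h3 : uL ^ 6 * (M.card : ℝ) ^ 2 ≤ M.card * (M.card : ℝ) ^ 2 := by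
        refine h1.trans (le_of_eq ?_); ring
      exact le_of_mul_le_mul_right h3 (by positivity)
    have h4 : uL ≤ uL ^ 6 := le_self_pow₀ (by linarith) (by norm_num)
    linarith
  obtain ⟨R, hRdef⟩ : ∃ R : ℝ, R = M.card := ⟨_, rfl⟩
  have hcost := cost_le_LamK (R := (M.card : ℝ)) (D0 := D0) (g := g) hc hH ?_ huL hμ huL4 hR6 hD0u
    hK1 hKL hg1 hg k M (fun _ => 0) 0 hM le_rfl (fun x _ => by norm_num) le_rfl
    (fun x hx => (hdeg x hx).le)
  · refine hcost.trans ?_
    rw [← hRdef] at hκ hM hmμ hR hR6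
    have hR0 : 0 < R := by linarith
    have hprod : 0 < (R - 3) * (R - 6) := mul_pos (by linarith) (by linarith)
    have hκ0 : 0 < κ := by rw [hκ]; positivity
    have hκD : κ * (R - 3) * (R - 6) = D0 := by
      rw [hκ, mul_assoc, div_mul_cancel₀ _ hprod.ne']
    have hDr : Dr κ R 0 = D0 := by
      unfold Dr; rw [hκD]; ring
    have hWW : WW H M (fun _ => 0) D0 = 0 := by
      unfold WW
      apply Finset.sum_eq_zero
      intro x hx
      rw [hdeg x hx, div_self hD0.ne', sub_zero, fi_ff_R le_rfl]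
      norm_num
    have hSN : ∀ y, SN H M (fun _ => (0 : ℝ)) y = 0 := by
      intro y; unfold SN; simp
    have hZZ : ZZ H M (fun _ => 0) = 0 := by
      unfold ZZ
      simp [hSN]
    have hTT : TT H M D0 = 0 := by
      unfold TT
      apply Finset.sum_eq_zero
      intro x hx
      rw [hdeg x hx, div_self hD0.ne']
      unfold tt
      rw [max_eq_right]
      norm_num
    have hM8 : M8 M (fun _ => (0 : ℝ)) = 0 := by unfold M8; simp
    have hQ : ((sub H M).card : ℝ) = R * D0 / 3 := by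
      have h1 := sum_deg (M := M) hH
      rw [Finset.sum_congr rfl hdeg, Finset.sum_const, nsmul_eq_mul, ← hRdef] at h1
      linarith
    have hQh : Qh κ R = R * D0 / 3 := by
      unfold Qh
      rw [← hκD]; ring
    have hQQ : ((sub H M).card : ℝ) / Qh κ R + 0 - 1 = 0 := by
      rw [hQ, hQh, div_self (by positivity)]; ring
    have hTh : Th H M ≤ 27 * (R * D0 ^ 3) := by
      have h1 := Th_le hH (M := M) (Δ := D0) (fun x hx => (hdeg x hx).le)
      rw [hQ] at h1
      refine h1.trans (le_of_eq ?_); ring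
    have hu := uu_pos (uL := uL) huL0 hμ hR0
    have hu12 : D0 ^ 3 ≤ uu uL μ R ^ 12 := by
      have h1 : uu uL μ R ^ 12 = (uu uL μ R ^ 4) ^ 3 := by ring
      rw [h1, uu_pow4 hμ hR0, huL4]
      have h2 : κ * μ ^ 2 * (R / μ) ^ 2 = κ * R ^ 2 := by field_simp
      rw [h2]
      apply pow_le_pow_left₀ hD0.le
      rw [← hκD, mul_assoc]
      apply mul_le_mul_of_nonneg_left _ hκ0.le
      nlinarith
    have hep : 1 ≤ ep uL μ R R := by
      unfold ep
      rw [div_self hR0.ne', Real.sqrt_one]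
      have : 0 ≤ 1 / uu uL μ R := by positivity
      linarith
    have hTterm : 1 / (ep uL μ R R * R * uu uL μ R ^ 12) * Th H M ≤ 27 := by
      have hpos : 0 < ep uL μ R R * R * uu uL μ R ^ 12 := by positivity
      rw [one_div, inv_mul_le_iff₀ hpos]
      refine hTh.trans ?_
      have h1 : R * D0 ^ 3 ≤ R * uu uL μ R ^ 12 := mul_le_mul_of_nonneg_left hu12 hR0.le
      have h2 : 1 * (R * uu uL μ R ^ 12) ≤ ep uL μ R R * (R * uu uL μ R ^ 12) :=
        mul_le_mul_of_nonneg_right hep (by positivity)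
      linarith
    have hcw : cw uL μ c.C3 R ≤ 2 * c.C3 := by
      refine (cw_le (by linarith) huL0).trans ?_
      rw [div_le_iff₀ huL0]
      nlinarith
    have hPhi : Phi c κ uL μ R K H M (fun _ => 0) 0 ≤ 27 * c.ATh + 2 * c.C3 := by
      unfold Phi
      rw [← hRdef, hDr, hWW, hZZ, hTT, hM8, hQQ]
      have h1 := mul_le_mul_of_nonneg_left hTterm (by linarith : 0 ≤ c.ATh)
      linarith
    have hPhi0 : 0 ≤ Phi c κ uL μ R K H M (fun _ => 0) 0 :=
      Phi_nonneg huL0 hμ (by rw [← hRdef]; exact hmμ) le_rfl hK0.le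
    have hGf := Gf_nonneg (R := R) (C1 := c.W) (C2 := C4c c uL) (by linarith)
      (C4c_nonneg (c := c) (uL := uL)) huL0 hμ hmμ le_rfl
    have hG0 := G0_le (c := c) (uL := uL) (by linarith)
    unfold LamK
    rw [← hRdef]
    have h5 : Real.exp (G0 c uL - Gf uL μ R c.W (C4c c uL) R) ≤ Real.exp (6 * c.W + 2 * c.C2) :=
      Real.exp_le_exp.2 (by linarith)
    rw [mul_div_assoc]
    apply mul_le_mul h5 _ (by positivity) (by positivity)
    exact div_le_div_of_nonneg_right hPhi hK0.le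
  · rw [hκ]
    have : 0 < ((M.card : ℝ) - 3) * (M.card - 6) := mul_pos (by linarith) (by linarith)
    positivity

end Vale.Agent.P046LF
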