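import Vale.Agent.P046LF.Start
import Vale.Agent.P046.Expect

/-!
P046 log-free, module S8b: upper tail and upper bound for `E F_n`.
-/

namespace Vale.Agent.P046LF

open Finset Vale.Agent.P046 MeasureTheory

theorem fail_eq_cost {V : Type*} [DecidableEq V] {H : Finset (Finset V)} (k : ℕ) :
    ∀ M : Finset V, fail H k M = cost H (fun _ => 0) k M := by
  induction k with
  | zero => intro M; rfl
  | succ k ih =>
    intro M
    unfold fail cost
    split_ifs with h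
    · rfl
    · congr 1
      exact sum_congr rfl fun T _ => ih _

/-- tail of the stopping size of the random greedy matching (`cost_start` with `g = 0`,
`K = uL ^ 3`, `uL ^ 4 = κ μ²`; `fail H k M = cost H (fun _ => 0) k M`; use
`κ μ² < 10 ^ 12` trivially (then the right hand side is at least `1`)) -/
theorem fail_le : ∃ C : ℝ, 0 < C ∧
    ∀ (V : Type) [DecidableEq V] (H : Finset (Finset V)) (M : Finset V)
      (D0 κ μ : ℝ) (k : ℕ), IsLin3 H → 0 < D0 → (∀ x ∈ M, (deg H M x : ℝ) = D0) →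
      12 ≤ (M.card : ℝ) → κ = D0 / ((M.card - 3) * (M.card - 6)) → (M.card : ℝ) = μ + 3 * k →
      0 < μ → κ ^ 3 * (M.card : ℝ) ^ 4 ≤ 1 → D0 ^ 2 * κ ≤ 1 →
      fail H k M ≤ C / (κ * μ ^ 2) ^ (3 / 4 : ℝ) := by
  obtain ⟨c, hc, Cst, hCst, h⟩ := cost_start
  refine ⟨Cst + 10 ^ 9, by positivity, ?_⟩
  intro V _ H M D0 κ μ k hH hD0 hdeg hM12 hκ hM hμ hκ3 hD0κ
  have hκ0 : 0 < κ := by
    rw [hκ]
    have h1 : 0 < (M.card : ℝ) - 3 := by linarith
    have h2 : 0 < (M.card : ℝ) - 6 := by linarith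
    positivity
  obtain ⟨Y, hY⟩ : ∃ Y : ℝ, Y = κ * μ ^ 2 := ⟨_, rfl⟩
  have hY0 : 0 < Y := by rw [hY]; positivity
  rw [← hY]
  have hYp : 0 < Y ^ (3 / 4 : ℝ) := Real.rpow_pos_of_pos hY0 _
  by_cases hsmall : Y < 10 ^ 12
  · refine (fail_le_one k M).trans ?_
    rw [one_le_div hYp]
    have h1 : Y ^ (3 / 4 : ℝ) ≤ (10 ^ 12 : ℝ) ^ (3 / 4 : ℝ) :=
      Real.rpow_le_rpow hY0.le hsmall.le (by norm_num)
    have h2 : (10 ^ 12 : ℝ) ^ (3 / 4 : ℝ) = 10 ^ 9 := by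
      rw [← Real.rpow_natCast, ← Real.rpow_natCast, ← Real.rpow_mul (by norm_num)]
      norm_num
    rw [h2] at h1
    linarith
  push Not at hsmall
  obtain ⟨uL, huL⟩ : ∃ uL : ℝ, uL = Real.sqrt (Real.sqrt Y) := ⟨_, rfl⟩
  have huL2 : uL ^ 2 = Real.sqrt Y := by rw [huL, Real.sq_sqrt (Real.sqrt_nonneg _)]
  have huL4 : uL ^ 4 = Y := by
    have : uL ^ 4 = (uL ^ 2) ^ 2 := by ring
    rw [this, huL2, Real.sq_sqrt hY0.le]
  have huL0 : 0 ≤ uL := by rw [huL]; exact Real.sqrt_nonneg _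
  have huL1 : 1000 ≤ uL := by
    rw [huL]
    apply Real.le_sqrt_of_sq_le
    apply Real.le_sqrt_of_sq_le
    norm_num
    linarith
  have huL3 : uL ^ 3 = Y ^ (3 / 4 : ℝ) := by
    rw [← huL4, ← Real.rpow_natCast, ← Real.rpow_natCast, ← Real.rpow_mul huL0]
    norm_num
  have hs : uL ^ 2 = Real.sqrt κ * μ := by
    rw [huL2, hY, Real.sqrt_mul hκ0.le, Real.sqrt_sq hμ.le]
  have hsκ : Real.sqrt κ ^ 2 = κ := Real.sq_sqrt hκ0.le
  have hsκ0 : 0 < Real.sqrt κ := Real.sqrt_pos.2 hκ0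
  have hcost := h V H M (fun _ => 0) D0 κ uL μ (uL ^ 3) k hH hD0 hdeg hκ hM huL1
    (by rw [huL4, hY])
    (by
      have e1 : uL ^ 6 = Real.sqrt κ ^ 3 * μ ^ 3 := by
        have : uL ^ 6 = (uL ^ 2) ^ 3 := by ring
        rw [this, hs]; ring
      have h1 : Real.sqrt κ ^ 3 * (M.card : ℝ) ^ 2 ≤ 1 := by
        refine (pow_le_pow_iff_left₀ (by positivity) zero_le_one two_ne_zero).1 ?_
        calc (Real.sqrt κ ^ 3 * (M.card : ℝ) ^ 2) ^ 2 =
              (Real.sqrt κ ^ 2) ^ 3 * (M.card : ℝ) ^ 4 := by ring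
          _ ≤ 1 ^ 2 := by rw [hsκ]; linarith
      rw [e1]
      have h2 := mul_le_mul_of_nonneg_right h1 (by positivity : 0 ≤ μ ^ 3)
      calc _ = Real.sqrt κ ^ 3 * (M.card : ℝ) ^ 2 * μ ^ 3 := by ring
        _ ≤ _ := by linarith)
    (by
      have h1 : D0 * Real.sqrt κ ≤ 1 := by
        refine (pow_le_pow_iff_left₀ (by positivity) zero_le_one two_ne_zero).1 ?_
        calc (D0 * Real.sqrt κ) ^ 2 = D0 ^ 2 * Real.sqrt κ ^ 2 := by ring
          _ ≤ 1 ^ 2 := by rw [hsκ]; linarith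
      rw [hs]
      have h2 := mul_le_mul_of_nonneg_right h1 hμ.le
      linarith)
    (one_le_pow₀ (by linarith)) le_rfl (fun _ => zero_le_one)
    (fun M' N S hM' _ hS => LamK_nonneg (by linarith) hμ hM'.ge hS (by positivity))
  rw [← fail_eq_cost, huL3] at hcost
  refine hcost.trans ?_
  exact div_le_div_of_nonneg_right (by linarith [(by positivity : (0 : ℝ) ≤ 10 ^ 9)]) hYp.le

theorem tl_kappa {n N κ : ℝ} (hn12 : 12 ≤ n) (hNe : N = n * (n - 1) / 2)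
    (hκ : κ = (n - 2) / ((N - 3) * (N - 6))) :
    0 < κ ∧ κ ^ 3 * N ^ 4 ≤ 1 ∧ (n - 2) ^ 2 * κ ≤ 1 ∧ 2 / n ^ 3 ≤ κ := by
  have hn0 : 0 < n := by linarith
  have hN66 : 66 ≤ N := by rw [hNe]; nlinarith
  have hn2 : 0 < n - 2 := by linarith
  have hden : 6 / 7 * N ^ 2 ≤ (N - 3) * (N - 6) := by nlinarith
  have hN1 : 0 < N := by linarith
  have hden0 : 0 < (N - 3) * (N - 6) := lt_of_lt_of_le (by positivity) hden
  have hκ0 : 0 < κ := by rw [hκ]; positivity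
  have hκhi : κ ≤ 7 / 6 * (n - 2) / N ^ 2 := by
    rw [hκ, div_le_div_iff₀ hden0 (by positivity)]
    have := mul_le_mul_of_nonneg_left hden hn2.le
    linarith
  have hN2 : n ^ 2 * 2 / 5 ≤ N := by rw [hNe]; nlinarith
  have h4 : (n - 2) ^ 3 ≤ (n - 2) * n ^ 2 := by
    have : (n - 2) ^ 2 ≤ n ^ 2 := pow_le_pow_left₀ hn2.le (by linarith) 2
    calc (n - 2) ^ 3 = (n - 2) * (n - 2) ^ 2 := by ring
      _ ≤ _ := mul_le_mul_of_nonneg_left this hn2.le
  have h5 : (n ^ 2 * 2 / 5) ^ 2 ≤ N ^ 2 := pow_le_pow_left₀ (by positivity) hN2 2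
  have e2 : (n ^ 2 * 2 / 5) ^ 2 = (4 / 25 * n ^ 2) * n ^ 2 := by ring
  refine ⟨hκ0, ?_, ?_, ?_⟩
  · have h2 : κ ^ 3 ≤ (7 / 6 * (n - 2) / N ^ 2) ^ 3 := pow_le_pow_left₀ hκ0.le hκhi 3
    have h3 := mul_le_mul_of_nonneg_right h2 (by positivity : 0 ≤ N ^ 4)
    refine h3.trans ?_
    have e1 : (7 / 6 * (n - 2) / N ^ 2) ^ 3 * N ^ 4 = (7 / 6) ^ 3 * (n - 2) ^ 3 / N ^ 2 := by
      field_simp
    rw [e1, div_le_one (by positivity)]
    have h6 : (7 / 6 : ℝ) ^ 3 * ((n - 2) * n ^ 2) ≤ (n ^ 2 * 2 / 5) ^ 2 := by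
      rw [e2, ← mul_assoc]
      refine mul_le_mul_of_nonneg_right ?_ (by positivity)
      nlinarith
    have h7 := mul_le_mul_of_nonneg_left h4 (by norm_num : (0 : ℝ) ≤ (7 / 6) ^ 3)
    linarith
  · have h2 := mul_le_mul_of_nonneg_left hκhi (by positivity : 0 ≤ (n - 2) ^ 2)
    refine h2.trans ?_
    have e1 : (n - 2) ^ 2 * (7 / 6 * (n - 2) / N ^ 2) = 7 / 6 * (n - 2) ^ 3 / N ^ 2 := by
      ring
    rw [e1, div_le_one (by positivity)]
    have h6 : (7 / 6 : ℝ) * ((n - 2) * n ^ 2) ≤ (n ^ 2 * 2 / 5) ^ 2 := by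
      rw [e2, ← mul_assoc]
      refine mul_le_mul_of_nonneg_right ?_ (by positivity)
      nlinarith
    linarith
  · rw [hκ, div_le_div_iff₀ (by positivity) hden0]
    have h3 : (N - 3) * (N - 6) ≤ N ^ 2 := by nlinarith
    have h8 : N ^ 2 ≤ n ^ 3 / 2 * (n - 2) := by
      rw [hNe]
      have h9 : (n - 1) ^ 2 ≤ 2 * n * (n - 2) := by nlinarith
      have h10 := mul_le_mul_of_nonneg_left h9 (by positivity : 0 ≤ n ^ 2 / 4)
      have e1 : (n * (n - 1) / 2) ^ 2 = n ^ 2 / 4 * (n - 1) ^ 2 := by ring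
      have e3 : n ^ 3 / 2 * (n - 2) = n ^ 2 / 4 * (2 * n * (n - 2)) := by ring
      rw [e1, e3]; exact h10
    linarith

theorem tl_final {C n x κ μ : ℝ} (hC : 0 < C) (hn0 : 0 < n) (hx63 : 63 ≤ x) (hμ2 : x - 3 < μ)
    (hκlo : 2 / n ^ 3 ≤ κ) :
    C / (κ * μ ^ 2) ^ (3 / 4 : ℝ) ≤ (C + 1000) * (n ^ (3 / 2 : ℝ) / x) ^ (3 / 2 : ℝ) := by
  have hx : 0 < x := by linarith
  have hX0 : 0 < n ^ (3 / 2 : ℝ) := Real.rpow_pos_of_pos hn0 _
  have hY : x ^ 2 / n ^ 3 ≤ κ * μ ^ 2 := by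
    have h3 : x ≤ 21 / 20 * μ := by linarith
    have h4 : x ^ 2 ≤ (21 / 20 * μ) ^ 2 := pow_le_pow_left₀ hx.le h3 2
    have h5 : x ^ 2 ≤ 2 * μ ^ 2 := by nlinarith [sq_nonneg μ]
    calc x ^ 2 / n ^ 3 ≤ 2 * μ ^ 2 / n ^ 3 :=
          div_le_div_of_nonneg_right h5 (by positivity)
      _ = 2 / n ^ 3 * μ ^ 2 := by ring
      _ ≤ κ * μ ^ 2 := mul_le_mul_of_nonneg_right hκlo (by positivity)
  have hY2 : (x / n ^ (3 / 2 : ℝ)) ^ (3 / 2 : ℝ) ≤ (κ * μ ^ 2) ^ (3 / 4 : ℝ) := by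
    have e1 : (x / n ^ (3 / 2 : ℝ)) ^ (3 / 2 : ℝ) = (x ^ 2 / n ^ 3) ^ (3 / 4 : ℝ) := by
      have e2 : x ^ 2 / n ^ 3 = (x / n ^ (3 / 2 : ℝ)) ^ (2 : ℝ) := by
        rw [Real.div_rpow hx.le hX0.le, ← Real.rpow_mul hn0.le]
        norm_num
      rw [e2, ← Real.rpow_mul (by positivity)]
      norm_num
    rw [e1]
    exact Real.rpow_le_rpow (by positivity) hY (by norm_num)
  have hY3 : 0 < (x / n ^ (3 / 2 : ℝ)) ^ (3 / 2 : ℝ) := by positivity
  calc C / (κ * μ ^ 2) ^ (3 / 4 : ℝ) ≤ C / (x / n ^ (3 / 2 : ℝ)) ^ (3 / 2 : ℝ) :=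
        div_le_div_of_nonneg_left hC.le hY3 hY2
    _ = C * (n ^ (3 / 2 : ℝ) / x) ^ (3 / 2 : ℝ) := by
        rw [div_eq_mul_inv, ← Real.inv_rpow (by positivity), inv_div]
    _ ≤ (C + 1000) * (n ^ (3 / 2 : ℝ) / x) ^ (3 / 2 : ℝ) :=
        mul_le_mul_of_nonneg_right (by linarith) (by positivity)

theorem tl_small {C n x : ℝ} (hC : 0 < C) (hnR : 2 ≤ n) (hx : 0 < x)
    (hsmall : x < 63 ∨ x < n + 3) :
    1 ≤ (C + 1000) * (n ^ (3 / 2 : ℝ) / x) ^ (3 / 2 : ℝ) := by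
  have hn0 : 0 < n := by linarith
  have hs : n ^ (3 / 2 : ℝ) = n * Real.sqrt n := by
    rw [Real.sqrt_eq_rpow]
    nth_rewrite 2 [← Real.rpow_one n]
    rw [← Real.rpow_add hn0]; norm_num
  have hsn : 1 ≤ Real.sqrt n := by rw [Real.one_le_sqrt]; linarith
  have h1 : 1 / 40 ≤ n ^ (3 / 2 : ℝ) / x := by
    rw [le_div_iff₀ hx, hs]
    have h2 : n * 1 ≤ n * Real.sqrt n := mul_le_mul_of_nonneg_left hsn hn0.le
    rcases hsmall with h | h
    · linarith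
    · linarith
  have h2 : (1 / 40 : ℝ) ^ (3 / 2 : ℝ) ≤ (n ^ (3 / 2 : ℝ) / x) ^ (3 / 2 : ℝ) :=
    Real.rpow_le_rpow (by norm_num) h1 (by norm_num)
  have h3 : (1 / 1000 : ℝ) ≤ (1 / 40 : ℝ) ^ (3 / 2 : ℝ) := by
    have e1 : (1 / 40 : ℝ) ^ (3 / 2 : ℝ) = 1 / 40 * Real.sqrt (1 / 40) := by
      rw [Real.sqrt_eq_rpow]
      nth_rewrite 2 [← Real.rpow_one (1 / 40 : ℝ)]
      rw [← Real.rpow_add (by norm_num)]; norm_num
    have h4 : (1 / 10 : ℝ) ≤ Real.sqrt (1 / 40) := by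
      apply Real.le_sqrt_of_sq_le; norm_num
    rw [e1]; linarith
  have h5 : (C + 1000) * (1 / 1000) ≤ (C + 1000) * (n ^ (3 / 2 : ℝ) / x) ^ (3 / 2 : ℝ) :=
    mul_le_mul_of_nonneg_left (h3.trans h2) (by positivity)
  linarith

/-- the tail of `F_n` -/
theorem tail_LF : ∃ C : ℝ, 0 < C ∧ ∀ n : ℕ, 2 ≤ n → ∀ x : ℝ, 0 < x →
    ((finalEdges n).toMeasure {j : ℕ | x < j}).toReal ≤
      C * ((n : ℝ) ^ (3 / 2 : ℝ) / x) ^ (3 / 2 : ℝ) := by
  obtain ⟨C, hC, hf⟩ := fail_le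
  refine ⟨C + 1000, by positivity, fun n hn x hx => ?_⟩
  have hnR : (2 : ℝ) ≤ n := by exact_mod_cast hn
  have hn0 : (0 : ℝ) < n := by linarith
  by_cases hsmall : x < 63 ∨ x < n + 3
  · exact (real_le_one _).trans (tl_small hC hnR hx hsmall)
  push Not at hsmall
  obtain ⟨hx63, hxn⟩ := hsmall
  obtain ⟨N, hN⟩ : ∃ N : ℝ, N = ((n.choose 2 : ℕ) : ℝ) := ⟨_, rfl⟩
  have hNe : N = n * (n - 1) / 2 := by
    rw [hN, Nat.cast_choose_two]
  by_cases hxN : N ≤ x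
  · have h0 : (finalEdges n).toMeasure {j : ℕ | x < j} = 0 := by
      refine measure_mono_null ?_ (final_le n)
      intro j hj
      rw [Set.mem_ofPred_eq] at hj ⊢
      have : ((n.choose 2 : ℕ) : ℝ) < j := by linarith
      exact_mod_cast this
    rw [h0, ENNReal.toReal_zero]
    positivity
  push Not at hxN
  obtain ⟨k, hk⟩ : ∃ k : ℕ, k = ⌈(N - x) / 3⌉₊ := ⟨_, rfl⟩
  have hk1 : (N - x) / 3 ≤ k := by rw [hk]; exact Nat.le_ceil _
  have hk2 : (k : ℝ) < (N - x) / 3 + 1 := by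
    rw [hk]; exact Nat.ceil_lt_add_one (by linarith)
  obtain ⟨μ, hμ⟩ : ∃ μ : ℝ, μ = N - 3 * k := ⟨_, rfl⟩
  have hμ1 : μ ≤ x := by rw [hμ]; linarith
  have hμ2 : x - 3 < μ := by rw [hμ]; linarith
  have hkn : k ≤ n ^ 2 := by
    have h1 : (k : ℝ) < (n : ℝ) ^ 2 := by
      rw [hNe] at hk2
      nlinarith
    exact_mod_cast h1.le
  have hn12 : (12 : ℝ) ≤ n := by
    by_contra hcon
    push Not at hcon
    have h11 : (n : ℝ) ≤ 11 := by
      have : n < 12 := by exact_mod_cast hcon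
      exact_mod_cast (by omega : n ≤ 11)
    have : N ≤ 55 := by rw [hNe]; nlinarith
    linarith
  have hN66 : 66 ≤ N := by rw [hNe]; nlinarith
  have h1 := final_tail_le n hkn (x := x) (by rw [← hN]; linarith)
  refine h1.trans ?_
  obtain ⟨κ, hκ⟩ : ∃ κ : ℝ, κ = ((n : ℝ) - 2) / ((N - 3) * (N - 6)) := ⟨_, rfl⟩
  obtain ⟨hκ0, hκ3, hD2, hκlo⟩ := tl_kappa hn12 hNe hκ
  have h2 := hf (Sym2 (Fin n)) (Hn n) (EF (⊤ : SimpleGraph (Fin n))) ((n : ℝ) - 2) κ μ k Hn_lin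
    (by linarith)
    (by
      intro e he
      rw [deg_top he, Nat.cast_sub hn, Nat.cast_ofNat])
    (by rw [card_top, ← hN]; linarith) (by rw [card_top, ← hN]; exact hκ)
    (by rw [card_top, ← hN, hμ]; ring) (by linarith) (by rw [card_top, ← hN]; exact hκ3) hD2
  exact h2.trans (tl_final hC hn0 hx63 hμ2 hκlo)

theorem tele_step {y : ℝ} (hy : 1 ≤ y) :
    1 / ((y + 1) * Real.sqrt (y + 1)) ≤ 2 / Real.sqrt y - 2 / Real.sqrt (y + 1) := by
  have h0 : 0 < y := by linarith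
  obtain ⟨a, ha⟩ : ∃ a : ℝ, a = Real.sqrt y := ⟨_, rfl⟩
  obtain ⟨b, hb⟩ : ∃ b : ℝ, b = Real.sqrt (y + 1) := ⟨_, rfl⟩
  have ha2 : a * a = y := by rw [ha]; exact Real.mul_self_sqrt h0.le
  have hb2 : b * b = y + 1 := by rw [hb]; exact Real.mul_self_sqrt (by linarith)
  have ha0 : 0 < a := by rw [ha]; exact Real.sqrt_pos.2 h0
  have hb0 : 0 < b := by rw [hb]; exact Real.sqrt_pos.2 (by linarith)
  have hab : a ≤ b := by rw [ha, hb]; exact Real.sqrt_le_sqrt (by linarith)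
  rw [← ha, ← hb, ← hb2, div_sub_div _ _ ha0.ne' hb0.ne', div_le_div_iff₀ (by positivity)
    (by positivity)]
  have h1 : (b - a) * (b + a) = 1 := by
    have : (b - a) * (b + a) = b * b - a * a := by ring
    rw [this, hb2, ha2]; ring
  have h2 : 1 ≤ (b - a) * (2 * b) := by
    have h3 : (b - a) * (b + a) ≤ (b - a) * (2 * b) :=
      mul_le_mul_of_nonneg_left (by linarith) (by linarith)
    linarith
  have h4 : a * b * 1 ≤ a * b * ((b - a) * (2 * b)) :=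
    mul_le_mul_of_nonneg_left h2 (by positivity)
  have h5 : a * b * ((b - a) * (2 * b)) ≤ (2 * b - a * 2) * (b * b * b) := by
    have e1 : (2 * b - a * 2) * (b * b * b) - a * b * ((b - a) * (2 * b)) =
      2 * (b - a) * (b * b) * (b - a) := by ring
    have : 0 ≤ 2 * (b - a) * (b * b) * (b - a) := by
      have h6 : 0 ≤ b - a := by linarith
      positivity
    linarith
  linarith

theorem sum_tele {a : ℕ} (ha : 1 ≤ a) (N : ℕ) :
    ∑ i ∈ range N, 1 / (((a + 1 + i : ℕ) : ℝ) * Real.sqrt ((a + 1 + i : ℕ) : ℝ)) ≤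
      2 / Real.sqrt a - 2 / Real.sqrt ((a + N : ℕ) : ℝ) := by
  induction N with
  | zero => simp
  | succ N ih =>
    rw [sum_range_succ]
    have h1 := tele_step (y := ((a + N : ℕ) : ℝ)) (by
      have : 1 ≤ a + N := by omega
      exact_mod_cast this)
    have e1 : ((a + N : ℕ) : ℝ) + 1 = ((a + 1 + N : ℕ) : ℝ) := by push_cast; ring
    have e2 : ((a + (N + 1) : ℕ) : ℝ) = ((a + 1 + N : ℕ) : ℝ) := by push_cast; ring
    rw [e1] at h1
    rw [e2]
    linarith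

theorem integral_le_of_tail32 (p : PMF ℕ) (B : ℕ) (hB : p.toMeasure {k | B < k} = 0) {X : ℝ}
    (hX : 1 ≤ X) (C : ℝ) (hC : 0 ≤ C)
    (htail : ∀ x : ℝ, 0 < x → (p.toMeasure {k : ℕ | x < k}).toReal ≤
      C * (X / x) ^ (3 / 2 : ℝ)) :
    ∫ k, (k : ℝ) ∂p.toMeasure ≤ (3 + 2 * C) * X := by
  have hX0 : 0 < X := by linarith
  have h1 : ∫ k, (k : ℝ) ∂p.toMeasure ≤
      ∫ k, (∑ j ∈ range B, Set.indicator {k : ℕ | j < k} (fun _ => (1 : ℝ)) k) ∂p.toMeasure := by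
    refine integral_mono_of_nonneg (Filter.Eventually.of_forall fun k => Nat.cast_nonneg k) ?_ ?_
    · refine integrable_finsetSum _ fun j _ => ?_
      exact (integrable_const (1 : ℝ)).indicator (MeasurableSet.of_discrete)
    · have h2 : ∀ᵐ k ∂p.toMeasure, k ≤ B := by
        rw [ae_iff]
        simpa using hB
      filter_upwards [h2] with k hk
      have h3 : ∀ j ∈ range B, Set.indicator {k : ℕ | j < k} (fun _ => (1 : ℝ)) k =
          if j < k then (1 : ℝ) else 0 := by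
        intro j _
        rw [Set.indicator_apply]
        rfl
      rw [sum_congr rfl h3, ← Finset.sum_filter, sum_const, nsmul_eq_mul, mul_one]
      have h4 : (range B).filter (fun j => j < k) = range k := by
        ext j; simp only [mem_filter, mem_range]; omega
      rw [h4, card_range]
  have h2 : ∫ k, (∑ j ∈ range B, Set.indicator {k : ℕ | j < k} (fun _ => (1 : ℝ)) k) ∂p.toMeasure =
      ∑ j ∈ range B, (p.toMeasure {k : ℕ | j < k}).toReal := by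
    rw [integral_finsetSum]
    · refine sum_congr rfl fun j _ => ?_
      rw [integral_indicator_const _ MeasurableSet.of_discrete, smul_eq_mul, mul_one]
      rfl
    · intro j _
      exact (integrable_const (1 : ℝ)).indicator (MeasurableSet.of_discrete)
  obtain ⟨a, ha⟩ : ∃ a : ℕ, a = ⌈X⌉₊ := ⟨_, rfl⟩
  have ha1 : X ≤ a := by rw [ha]; exact Nat.le_ceil _
  have ha2 : (a : ℝ) < X + 1 := by rw [ha]; exact Nat.ceil_lt_add_one hX0.le
  have ha0 : 1 ≤ a := by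
    have : (0 : ℝ) < a := by linarith
    exact_mod_cast this
  have hsub : range B ⊆ range (a + 1) ∪ Ico (a + 1) B := by
    intro j hj
    simp only [mem_union, mem_range, mem_Ico] at hj ⊢
    omega
  have h3 : ∑ j ∈ range B, (p.toMeasure {k : ℕ | j < k}).toReal ≤
      ∑ j ∈ range (a + 1), (p.toMeasure {k : ℕ | j < k}).toReal +
      ∑ j ∈ Ico (a + 1) B, (p.toMeasure {k : ℕ | j < k}).toReal := by
    refine (sum_le_sum_of_subset_of_nonneg hsub fun _ _ _ => ENNReal.toReal_nonneg).trans ?_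
    rw [← sum_union_inter]
    have : 0 ≤ ∑ j ∈ range (a + 1) ∩ Ico (a + 1) B, (p.toMeasure {k : ℕ | j < k}).toReal :=
      sum_nonneg fun _ _ => ENNReal.toReal_nonneg
    linarith
  have h4 : ∑ j ∈ range (a + 1), (p.toMeasure {k : ℕ | j < k}).toReal ≤ (a + 1 : ℕ) := by
    calc _ ≤ ∑ _j ∈ range (a + 1), (1 : ℝ) := by
          refine sum_le_sum fun j _ => ?_
          have h : p.toMeasure {k : ℕ | j < k} ≤ 1 := prob_le_one
          exact ENNReal.toReal_le_of_le_ofReal zero_le_one (by simpa using h)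
      _ = _ := by simp
  have hpow : ∀ j : ℝ, 0 < j → (X / j) ^ (3 / 2 : ℝ) = X * Real.sqrt X * (1 / (j * Real.sqrt j)) := by
    intro j hj
    have e0 : ∀ y : ℝ, 0 < y → y ^ (3 / 2 : ℝ) = y * Real.sqrt y := by
      intro y hy
      rw [Real.sqrt_eq_rpow]
      nth_rewrite 2 [← Real.rpow_one y]
      rw [← Real.rpow_add hy]; norm_num
    rw [e0 _ (by positivity), Real.sqrt_div hX0.le]
    have : 0 < Real.sqrt j := Real.sqrt_pos.2 hj
    field_simp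
  have h5 : ∑ j ∈ Ico (a + 1) B, (p.toMeasure {k : ℕ | j < k}).toReal ≤
      C * (X * Real.sqrt X) * (2 / Real.sqrt a) := by
    calc _ ≤ ∑ j ∈ Ico (a + 1) B, C * (X * Real.sqrt X) * (1 / ((j : ℝ) * Real.sqrt j)) := by
          refine sum_le_sum fun j hj => ?_
          rw [mem_Ico] at hj
          have hj0 : (0 : ℝ) < j := by
            have : 0 < j := by omega
            exact_mod_cast this
          have h := htail j hj0
          simp only [Nat.cast_lt] at h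
          rw [hpow _ hj0] at h
          linarith
      _ = C * (X * Real.sqrt X) * ∑ j ∈ Ico (a + 1) B, 1 / ((j : ℝ) * Real.sqrt j) := by
          rw [mul_sum]
      _ ≤ C * (X * Real.sqrt X) * (2 / Real.sqrt a) := by
          refine mul_le_mul_of_nonneg_left ?_ (by positivity)
          rw [sum_Ico_eq_sum_range]
          refine (sum_tele ha0 _).trans ?_
          have : 0 ≤ 2 / Real.sqrt ((a + (B - (a + 1)) : ℕ) : ℝ) := by positivity
          linarith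
  have h6 : C * (X * Real.sqrt X) * (2 / Real.sqrt a) ≤ 2 * C * X := by
    have h7 : Real.sqrt X ≤ Real.sqrt a := Real.sqrt_le_sqrt ha1
    have h8 : 0 < Real.sqrt X := Real.sqrt_pos.2 hX0
    have h9 : 0 < Real.sqrt a := by linarith
    rw [mul_div_assoc', div_le_iff₀ h9]
    have h10 := mul_le_mul_of_nonneg_left h7 (by positivity : 0 ≤ 2 * C * X)
    calc C * (X * Real.sqrt X) * 2 = 2 * C * X * Real.sqrt X := by ring
      _ ≤ _ := h10
  push_cast at h4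
  rw [h2] at h1
  linarith

/-- (adapt `P046.integral_le_of_tail`; `j ^ (-3/2) ≤ 2 (1/√(j-1) - 1/√j)` telescopes) -/
theorem expect_LF : ∃ C : ℝ, 0 < C ∧ ∀ n : ℕ, 2 ≤ n →
    ∫ k, (k : ℝ) ∂(finalEdges n).toMeasure ≤ C * (n : ℝ) ^ (3 / 2 : ℝ) := by
  obtain ⟨C, hC, h⟩ := tail_LF
  refine ⟨3 + 2 * C, by positivity, fun n hn => ?_⟩
  have hnR : (1 : ℝ) ≤ n := by exact_mod_cast (by omega : 1 ≤ n)
  exact integral_le_of_tail32 (finalEdges n) (n.choose 2) (final_le n)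
    (Real.one_le_rpow hnR (by norm_num)) C hC.le (fun x hx => h n hn x hx)

end Vale.Agent.P046LF
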